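import Vale.Agent.P202.Basic

/-! Job AT, part 4: linear changes of variables. -/

namespace Vale.Agent.P202.AT

open MvPowerSeries

lemma eval₂_hom_scale {σ K S : Type*} [CommRing K] [CommRing S] {g : MvPolynomial σ K} {a : ℕ}
    (hg : g.IsHomogeneous a) (φ : K →+* S) (x : σ → S) (c : S) :
    MvPolynomial.eval₂ φ (fun j => x j * c) g = MvPolynomial.eval₂ φ x g * c ^ a := by
  rw [MvPolynomial.eval₂_eq, MvPolynomial.eval₂_eq, Finset.sum_mul]
  refine Finset.sum_congr rfl fun m hm => ?_
  have h1 : m.degree = a := by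
    have := hg (MvPolynomial.mem_support_iff.mp hm)
    rw [Finsupp.degree_eq_weight_one]; exact this
  rw [← h1, Finsupp.degree_apply, ← Finset.prod_pow_eq_pow_sum, mul_assoc, ← Finset.prod_mul_distrib]
  simp only [mul_pow]

lemma exists_int_point {K : Type*} [Field K] [CharZero K] {d : ℕ}
    {g : MvPolynomial (Fin (d + 1)) K} {a : ℕ} (hg : g.IsHomogeneous a) (h0 : g ≠ 0) :
    ∃ m : Fin (d + 1) → ℤ, m 0 = 1 ∧ MvPolynomial.eval (fun j => (m j : K)) g ≠ 0 := by
  by_contra hcon
  push Not at hcon
  let y : Fin (d + 1) → MvPolynomial (Fin d) K := Fin.cons 1 MvPolynomial.X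
  let g₁ : MvPolynomial (Fin d) K := MvPolynomial.aeval y g
  have hev : ∀ x : Fin d → K, MvPolynomial.eval x g₁ =
      MvPolynomial.eval (Fin.cons 1 x : Fin (d + 1) → K) g := by
    intro x
    have : (MvPolynomial.aeval x : MvPolynomial (Fin d) K →ₐ[K] K).comp (MvPolynomial.aeval y) =
        MvPolynomial.aeval (Fin.cons 1 x : Fin (d + 1) → K) := by
      apply MvPolynomial.algHom_ext
      intro j
      refine Fin.cases ?_ (fun i => ?_) j <;> simp [y]
    have := DFunLike.congr_fun this g
    simpa [g₁, MvPolynomial.coe_aeval_eq_eval] using this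
  have h1 : g₁ = 0 := by
    refine MvPolynomial.funext_set (fun _ => Set.range (Int.cast : ℤ → K))
      (fun _ => Set.infinite_range_of_injective Int.cast_injective) fun x hx => ?_
    have hx' : ∀ i, ∃ n : ℤ, (n : K) = x i := fun i => hx i trivial
    choose n hn using hx'
    rw [hev, map_zero, ← hcon (Fin.cons 1 n) rfl]
    have : (Fin.cons 1 x : Fin (d + 1) → K) = fun j => ((Fin.cons 1 n : Fin (d + 1) → ℤ) j : K) := by
      funext j
      refine Fin.cases ?_ (fun i => ?_) j <;> simp [hn]
    rw [this]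
  have h2 : MvPolynomial.X 0 * g = 0 := by
    refine MvPolynomial.funext fun x => ?_
    rw [map_mul, MvPolynomial.eval_X, map_zero]
    by_cases hx : x 0 = 0
    · rw [hx, zero_mul]
    · have h3 := hev fun i => x i.succ / x 0
      rw [h1, map_zero] at h3
      have h4 := eval₂_hom_scale hg (RingHom.id K)
        (Fin.cons 1 (fun i => x i.succ / x 0) : Fin (d + 1) → K) (x 0)
      have h5 : (fun j => (Fin.cons 1 (fun i => x i.succ / x 0) : Fin (d + 1) → K) j * x 0) = x := by
        funext j
        refine Fin.cases ?_ (fun i => ?_) j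
        · simp
        · simp [div_mul_cancel₀ _ hx]
      rw [h5, MvPolynomial.eval₂_id, MvPolynomial.eval₂_id, ← h3, zero_mul] at h4
      rw [h4, mul_zero]
  exact h0 ((mul_eq_zero.mp h2).resolve_left (MvPolynomial.X_ne_zero 0))

/-- A nonzero power series stays nonzero on a suitable integral line. -/
lemma exists_regular {K : Type*} [Field K] [CharZero K] {d : ℕ} (w : PS (d + 1) K) (hw : w ≠ 0) :
    ∃ m : Fin (d + 1) → ℤ, m 0 = 1 ∧ ∀ ρ : PS (d + 1) K →+* PowerSeries K,
      (∀ c, ρ (C c) = PowerSeries.C c) → (∀ j, ρ (X j) = (m j : PowerSeries K) * PowerSeries.X) →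
      ρ w ≠ 0 := by
  have hfin := ne_zero_iff_order_finite.mp hw
  set a := w.order.toNat with ha
  obtain ⟨e, he, hea⟩ := exists_coeff_ne_zero_and_order hfin
  rw [← hfin] at hea
  have hea' : e.degree = a := by exact_mod_cast hea
  let g : MvPolynomial (Fin (d + 1)) K := truncTotal (a + 1) w
  have hg : g.IsHomogeneous a := by
    intro m hm
    suffices m.degree = a by rw [Finsupp.degree_eq_weight_one] at this; exact this
    simp only [g, coeff_truncTotal_eq_ite] at hm
    split_ifs at hm with h
    · have := order_le hm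
      rw [← hfin] at this
      have : a ≤ m.degree := by exact_mod_cast this
      omega
    · exact absurd rfl hm
  have hg0 : g ≠ 0 := by
    intro h
    apply he
    rw [← coeff_truncTotal w (n := a + 1) (by omega)]
    show MvPolynomial.coeff e g = 0
    rw [h]; rfl
  obtain ⟨m, hm0, hm⟩ := exists_int_point hg hg0
  refine ⟨m, hm0, fun ρ hC hX h0 => hm ?_⟩
  have h1 : w - (g : PS (d + 1) K) ∈ xI (d + 1) K ^ (a + 1) := by
    rw [mem_xI_pow_iff]
    intro n hn
    rw [map_sub, MvPolynomial.coeff_coe, coeff_truncTotal w hn, sub_self]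
  have h2 : (xI (d + 1) K).map ρ ≤ Ideal.span {PowerSeries.X} := by
    rw [Ideal.map_span, Ideal.span_le]
    rintro _ ⟨_, ⟨j, rfl⟩, rfl⟩
    rw [hX]
    exact Ideal.mul_mem_left _ _ (Ideal.mem_span_singleton_self _)
  have h3 : ρ (w - (g : PS (d + 1) K)) ∈ Ideal.span {(PowerSeries.X : PowerSeries K) ^ (a + 1)} := by
    rw [← Ideal.span_singleton_pow]
    refine Ideal.pow_right_mono h2 _ ?_
    rw [← Ideal.map_pow]
    exact Ideal.mem_map_of_mem _ h1
  have h4 : ρ (g : PS (d + 1) K) = PowerSeries.C (MvPolynomial.eval (fun j => (m j : K)) g) *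
      PowerSeries.X ^ a := by
    have h5 : ρ.comp MvPolynomial.coeToMvPowerSeries.ringHom = MvPolynomial.eval₂Hom PowerSeries.C
        (fun j => (m j : PowerSeries K) * PowerSeries.X) := by
      apply MvPolynomial.ringHom_ext
      · intro c; simp [hC]
      · intro j; simp [hX]
    have h6 := DFunLike.congr_fun h5 g
    simp only [RingHom.comp_apply, MvPolynomial.coeToMvPowerSeries.ringHom_apply,
      MvPolynomial.coe_eval₂Hom] at h6
    rw [h6, eval₂_hom_scale hg]
    congr 1
    rw [← MvPolynomial.eval₂_id, MvPolynomial.eval₂_comp_left]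
    simp [Function.comp_def]
  rw [map_sub, h0, h4, zero_sub, Ideal.neg_mem_iff, Ideal.mem_span_singleton,
    PowerSeries.X_pow_dvd_iff] at h3
  have := h3 a (Nat.lt_succ_self a)
  simpa [PowerSeries.coeff_X_pow] using this

/-- The substitution `X j ↦ X j + n j * X 0`. -/
noncomputable def lin (R : Type*) [CommRing R] {d : ℕ} (n : Fin (d + 1) → ℤ) :
    PS (d + 1) R →ₐ[R] PS (d + 1) R :=
  substAlgHom (a := fun j => X j + (n j : PS (d + 1) R) * X 0)
    (hasSubst_of_constantCoeff_zero (by simp))

lemma lin_X (R : Type*) [CommRing R] {d : ℕ} (n : Fin (d + 1) → ℤ) (j : Fin (d + 1)) :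
    lin R n (X j) = X j + (n j : PS (d + 1) R) * X 0 := substAlgHom_X _ _

lemma lin_lin (R : Type*) [CommRing R] {d : ℕ} (n : Fin (d + 1) → ℤ) (hn : n 0 = 0)
    (f : PS (d + 1) R) : lin R n (lin R (-n) f) = f := by
  have h1 : ∀ j, lin R n (X j + ((-n) j : PS (d + 1) R) * X 0) = X j := by
    intro j
    rw [map_add, map_mul, lin_X, lin_X, hn, map_intCast]
    simp
  simp only [lin, substAlgHom_apply] at h1 ⊢
  rw [subst_comp_subst_apply (hasSubst_of_constantCoeff_zero (by simp))
    (hasSubst_of_constantCoeff_zero (by simp))]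
  simp only [h1]
  exact congr_fun subst_self f

end Vale.Agent.P202.AT
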