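import Vale.Agent.P202.ATStruct
import Vale.Agent.P202.ATLin

/-! Job AT, part 5: approximate solutions via Weierstrass preparation. -/

open Polynomial IsLocalRing

namespace Vale.Agent.P202.AT

/-- Transfer of finitely many power series, without a nonvanishing condition. -/
def Tr0 (K : Type*) [Field K] (d : ℕ) : Prop :=
  ∀ s : Set (PS d K), s.Finite → ∃ (κ : Type) (_ : Field κ) (_ : Finite κ) (A : Subring (PS d K))
    (hX : ∀ i, MvPowerSeries.X i ∈ A) (χ : A →+* PS d κ),
    s ⊆ A ∧ ∀ i, χ ⟨MvPowerSeries.X i, hX i⟩ = MvPowerSeries.X i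

/-- The variables of `(PS d K)⟦X⟧`. -/
noncomputable def xv (K : Type*) [CommRing K] (d : ℕ) : Fin (d + 1) → PowerSeries (PS d K) :=
  Fin.cons PowerSeries.X fun i => PowerSeries.C (MvPowerSeries.X i)

lemma dvd_of_coe_dvd {R : Type*} [CommRing R] {I : Ideal R} [IsAdicComplete I R] {ω g : R[X]}
    (H : ω.IsDistinguishedAt I) (h : (ω : PowerSeries R) ∣ (g : PowerSeries R)) : ω ∣ g := by
  rw [← Ideal.mem_span_singleton, ← Ideal.Quotient.eq_zero_iff_mem]
  apply H.algEquivQuotient.injective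
  rw [map_zero, Polynomial.IsDistinguishedAt.algEquivQuotient_apply]
  simp only [Ideal.quotient_map_mkₐ, Ideal.Quotient.mkₐ_eq_mk, Ideal.Quotient.eq_zero_iff_mem,
    Ideal.mem_span_singleton]
  simpa using h

lemma approx_reg {K : Type*} [Field K] {d : ℕ} (hT : Tr0 K d) {σ : Type*} [Finite σ]
    (z : σ → PowerSeries (PS d K)) (S : Set σ) (p : σ → MvPolynomial (Fin (d + 1)) ℤ)
    (hz : ∀ k ∈ S, z k = ev (xv K d) (p k)) {L : Type*} [Finite L] (F : L → MvPolynomial σ ℤ)
    (hF : ∀ l, ev z (F l) = 0) (W : MvPolynomial σ ℤ)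
    (hW : (ev z W).map MvPowerSeries.constantCoeff ≠ 0) :
    ∃ (κ : Type) (_ : Field κ) (_ : Finite κ) (z' : σ → PowerSeries (PS d κ)),
      (∀ k ∈ S, z' k = ev (xv κ d) (p k)) ∧ ev z' W ≠ 0 ∧ ∀ l, ev z' W ∣ ev z' (F l) := by
  classical
  set w := ev z W with hw
  have hW' : w.map (residue (PS d K)) ≠ 0 := by
    intro h
    apply hW
    ext n
    have := congrArg (PowerSeries.coeff n) h
    rw [PowerSeries.coeff_map, map_zero, residue_eq_zero_iff, maximalIdeal_PS, mem_xI_iff] at this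
    rw [PowerSeries.coeff_map, this, map_zero]
  obtain ⟨ω, U, hωU⟩ := PowerSeries.exists_isWeierstrassFactorization hW'
  have hXw : (PowerSeries.X * w).map (residue (PS d K)) ≠ 0 := by
    rw [map_mul, PowerSeries.map_X]
    exact mul_ne_zero PowerSeries.X_ne_zero hW'
  let cp : (PS d K)[X] →+* PowerSeries (PS d K) := Polynomial.coeToPowerSeries.ringHom
  have hcp : ∀ g, cp g = (g : PowerSeries (PS d K)) := fun _ => rfl
  let xp : Fin (d + 1) → (PS d K)[X] := Fin.cons X fun i => C (MvPowerSeries.X i)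
  have hxp : (fun j => cp (xp j)) = xv K d := by
    funext j
    refine Fin.cases ?_ (fun i => ?_) j <;> simp [xp, xv, hcp]
  have hex : ∀ k, ∃ r : (PS d K)[X], cp r - z k ∈ Ideal.span {PowerSeries.X * w} ∧
      (k ∈ S → r = ev xp (p k)) := by
    intro k
    by_cases hk : k ∈ S
    · refine ⟨ev xp (p k), ?_, fun _ => rfl⟩
      rw [map_ev, hxp, ← hz k hk, sub_self]
      exact Ideal.zero_mem _
    · obtain ⟨q, r, hqr⟩ := (z k).exists_isWeierstrassDivision hXw
      refine ⟨r, ?_, fun h => absurd h hk⟩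
      rw [Ideal.mem_span_singleton, hqr.eq_mul_add, hcp]
      exact ⟨-q, by ring⟩
  choose zt hzt hztS using hex
  have hdiff : ∀ G, PowerSeries.X * w ∣ cp (ev zt G) - ev z G := by
    intro G
    rw [← Ideal.mem_span_singleton, map_ev]
    exact ev_sub_mem _ _ _ hzt G
  have hωw : (ω : PowerSeries (PS d K)) ∣ w := ⟨U, hωU.eq_mul⟩
  have hFl : ∀ l, ω ∣ ev zt (F l) := by
    intro l
    apply dvd_of_coe_dvd hωU.isDistinguishedAt
    have := hdiff (F l)
    rw [hF, sub_zero] at this
    exact (hωw.mul_left _).trans this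
  choose Q hQ using hFl
  obtain ⟨q, hq⟩ := hdiff W
  obtain ⟨QW, hQW⟩ : ω ∣ ev zt W := by
    apply dvd_of_coe_dvd hωU.isDistinguishedAt
    have h1 : (ω : PowerSeries (PS d K)) ∣ cp (ev zt W) - w := (hωw.mul_left _).trans (hdiff W)
    have := dvd_add h1 hωw
    rwa [sub_add_cancel] at this
  have hmon := hωU.isDistinguishedAt.monic
  have hω0 : cp ω ≠ 0 := by
    rw [hcp, Ne, Polynomial.coe_eq_zero_iff]; exact hmon.ne_zero
  have hQWu : IsUnit (QW.coeff 0) := by
    have h1 : cp ω * cp QW = cp ω * (U * (1 + PowerSeries.X * q)) := by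
      have h2 : w = cp ω * U := hωU.eq_mul
      rw [← map_mul, ← hQW]
      rw [← hw] at hq
      linear_combination hq + (1 + PowerSeries.X * q) * h2
    have h3 := mul_left_cancel₀ hω0 h1
    have h4 := congrArg PowerSeries.constantCoeff h3
    rw [hcp, Polynomial.constantCoeff_coe] at h4
    rw [h4]
    simpa using hωU.isUnit.map PowerSeries.constantCoeff
  obtain ⟨v, hv⟩ := hQWu.exists_right_inv
  obtain ⟨κ, _, _, A, hX, χ, hsA, hχ⟩ := hT
    ({v} ∪ (ω.coeffs : Set _) ∪ (QW.coeffs : Set _) ∪ (⋃ k, ((zt k).coeffs : Set _)) ∪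
      ⋃ l, ((Q l).coeffs : Set _))
    (((((Set.finite_singleton v).union (Finset.finite_toSet _)).union
      (Finset.finite_toSet _)).union (Set.finite_iUnion fun _ => Finset.finite_toSet _)).union
      (Set.finite_iUnion fun _ => Finset.finite_toSet _))
  simp only [Set.union_subset_iff, Set.iUnion_subset_iff, Set.singleton_subset_iff] at hsA
  obtain ⟨⟨⟨⟨hvA, hωA⟩, hQWA⟩, hztA⟩, hQA⟩ := hsA
  let μ : A[X] →+* (PS d K)[X] := mapRingHom A.subtype
  have hμ : Function.Injective μ := Polynomial.map_injective _ A.subtype_injective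
  have hμs : ∀ (g : (PS d K)[X]) (h : (g.coeffs : Set (PS d K)) ⊆ (A : Set (PS d K))), μ (g.toSubring A h) = g :=
    fun g h => map_toSubring g A h
  let zh : σ → A[X] := fun k => (zt k).toSubring A (hztA k)
  have hzh : (fun k => μ (zh k)) = zt := funext fun k => hμs _ _
  let xh : Fin (d + 1) → A[X] := Fin.cons X fun i => C ⟨MvPowerSeries.X i, hX i⟩
  have hxh : (fun j => μ (xh j)) = xp := by
    funext j
    refine Fin.cases ?_ (fun i => ?_) j <;> simp [xp, xh, μ]
  let Φ : A[X] →+* PowerSeries (PS d κ) :=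
    Polynomial.coeToPowerSeries.ringHom.comp (mapRingHom χ)
  have hΦ : ∀ g, Φ g = (g.map χ : PowerSeries (PS d κ)) := fun _ => rfl
  have hΦx : (fun j => Φ (xh j)) = xv κ d := by
    funext j
    refine Fin.cases ?_ (fun i => ?_) j <;> simp [xv, xh, hΦ, hχ]
  have e1 : ev zh W = ω.toSubring A hωA * QW.toSubring A hQWA := by
    apply hμ
    rw [map_ev, hzh, map_mul, hμs, hμs, hQW]
  have e2 : ∀ l, ev zh (F l) = ω.toSubring A hωA * (Q l).toSubring A (hQA l) := by
    intro l
    apply hμ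
    rw [map_ev, hzh, map_mul, hμs, hμs, hQ]
  have e3 : IsUnit (Φ (QW.toSubring A hQWA)) := by
    rw [PowerSeries.isUnit_iff_constantCoeff, hΦ, Polynomial.constantCoeff_coe, coeff_map]
    refine IsUnit.map χ (IsUnit.of_mul_eq_one ⟨v, hvA⟩ ?_)
    apply Subtype.ext
    simpa using hv
  have e4 : Φ (ω.toSubring A hωA) ≠ 0 := by
    rw [hΦ, Ne, Polynomial.coe_eq_zero_iff]
    exact (((monic_toSubring ω A hωA).mpr hmon).map χ).ne_zero
  refine ⟨κ, inferInstance, inferInstance, fun k => Φ (zh k), fun k hk => ?_, ?_, fun l => ?_⟩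
  · rw [← hΦx, ← map_ev]
    refine congrArg Φ (hμ ?_)
    rw [map_ev, hxh, ← hztS k hk]
    exact hμs _ _
  · rw [← map_ev, e1, map_mul]
    exact mul_ne_zero e4 e3.ne_zero
  · rw [← map_ev, ← map_ev, e1, e2, map_mul, map_mul]
    exact mul_dvd_mul_left _ e3.dvd

lemma hfs (R : Type*) [CommRing R] (d : ℕ) (j : Fin (d + 1)) :
    MvPowerSeries.finSuccEquiv R d (MvPowerSeries.X j) = xv R d j := by
  refine Fin.cases ?_ (fun i => ?_) j <;> simp [xv]

open MvPowerSeries in
lemma approx {K : Type*} [Field K] [CharZero K] {d : ℕ} (hT : Tr0 K d) {σ : Type*} [Finite σ]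
    (z : σ → PS (d + 1) K) {L : Type*} [Finite L] (F : L → MvPolynomial σ ℤ)
    (hF : ∀ l, ev z (F l) = 0) (W : MvPolynomial σ ℤ) (hW : ev z W ≠ 0) :
    ∃ (κ : Type) (_ : Field κ) (_ : Finite κ) (z' : σ → PS (d + 1) κ),
      (∀ k j, z k = MvPowerSeries.X j → z' k = MvPowerSeries.X j) ∧ ev z' W ≠ 0 ∧
      ∀ l, ev z' W ∣ ev z' (F l) := by
  classical
  obtain ⟨m, hm0, hm⟩ := exists_regular _ hW
  let n : Fin (d + 1) → ℤ := Fin.cons 0 fun i => m i.succ
  have hn : n 0 = 0 := rfl
  let α : PS (d + 1) K →+* PowerSeries (PS d K) :=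
    (finSuccEquiv K d : PS (d + 1) K →+* _).comp (lin K n : PS (d + 1) K →+* _)
  have hα : ∀ j, α (MvPowerSeries.X j) = xv K d j + (n j : PowerSeries (PS d K)) * xv K d 0 := by
    intro j
    simp only [α, RingHom.comp_apply, RingHom.coe_coe, lin_X, map_add, map_mul, map_intCast, hfs]
  let S : Set σ := {k | ∃ j, z k = MvPowerSeries.X j}
  let p : σ → MvPolynomial (Fin (d + 1)) ℤ := fun k =>
    if h : ∃ j, z k = MvPowerSeries.X j then
      MvPolynomial.X h.choose + (n h.choose : MvPolynomial (Fin (d + 1)) ℤ) * MvPolynomial.X 0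
    else 0
  have hp : ∀ k j, z k = MvPowerSeries.X j →
      p k = MvPolynomial.X j + (n j : MvPolynomial (Fin (d + 1)) ℤ) * MvPolynomial.X 0 := by
    intro k j h
    have h' : ∃ j, z k = MvPowerSeries.X j := ⟨j, h⟩
    have h2 : h'.choose = j := X_inj.mp (h'.choose_spec.symm.trans h)
    simp only [p, dif_pos h', h2]
  obtain ⟨κ, _, _, z', hz', hW', hF'⟩ := approx_reg hT (fun k => α (z k)) S p
    (by
      rintro k ⟨j, hj⟩
      simp only [hp k j hj, hj, hα, map_add, map_mul, ev_X, map_intCast]) F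
    (fun l => by rw [← map_ev, hF, map_zero]) W
    (by
      rw [← map_ev]
      refine hm ((PowerSeries.map MvPowerSeries.constantCoeff).comp α) (fun c => ?_) fun j => ?_
      · have : lin K n (MvPowerSeries.C c) = MvPowerSeries.C c := (lin K n).commutes c
        simp [α, this]
      · rw [RingHom.comp_apply, hα]
        refine Fin.cases ?_ (fun i => ?_) j <;> simp [xv, n, hm0])
  let β : PowerSeries (PS d κ) →+* PS (d + 1) κ :=
    (lin κ (-n) : PS (d + 1) κ →+* _).comp ((finSuccEquiv κ d).symm : _ →+* PS (d + 1) κ)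
  have hβ : ∀ j, β (xv κ d j) = MvPowerSeries.X j - (n j : PS (d + 1) κ) * MvPowerSeries.X 0 := by
    intro j
    rw [← hfs]
    simp [β, lin_X, sub_eq_add_neg]
  have hβi : Function.Injective β := by
    have h1 : Function.Injective (lin κ (-n)) :=
      Function.LeftInverse.injective (g := lin κ n) (lin_lin κ n hn)
    exact h1.comp (finSuccEquiv κ d).symm.injective
  refine ⟨κ, inferInstance, inferInstance, fun k => β (z' k), fun k j h => ?_, ?_, fun l => ?_⟩
  · show β (z' k) = _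
    rw [hz' k ⟨j, h⟩, hp k j h]
    simp [hβ, hn]
  · rw [← map_ev, Ne, map_eq_zero_iff _ hβi]; exact hW'
  · rw [← map_ev, ← map_ev]; exact map_dvd β (hF' l)

end Vale.Agent.P202.AT
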