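import Vale.Agent.P202.Basic
import Vale.Agent.P202.ATApprox

/-! Job AT (see notes/P202.md): transfer of finitely many power series over a field of
characteristic zero to power series over a finite field. -/

namespace Vale.Agent.P202

namespace AT

/-- Transfer of finitely many power series, keeping one of them nonzero. -/
def Tr1 (K : Type*) [Field K] (d : ℕ) : Prop :=
  ∀ s : Set (PS d K), s.Finite → ∀ w : PS d K, w ≠ 0 →
    ∃ (κ : Type) (_ : Field κ) (_ : Finite κ) (A : Subring (PS d K))
    (hX : ∀ i, MvPowerSeries.X i ∈ A) (hw : w ∈ A) (χ : A →+* PS d κ),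
    s ⊆ A ∧ (∀ i, χ ⟨MvPowerSeries.X i, hX i⟩ = MvPowerSeries.X i) ∧ χ ⟨w, hw⟩ ≠ 0

lemma Tr1.tr0 {K : Type*} [Field K] {d : ℕ} (h : Tr1 K d) : Tr0 K d := by
  intro s hs
  obtain ⟨κ, _, _, A, hX, -, χ, h1, h2, -⟩ := h s hs 1 one_ne_zero
  exact ⟨κ, inferInstance, inferInstance, A, hX, χ, h1, h2⟩

lemma closure_top {R : Type*} [CommRing R] (t : Set R) :
    Subring.closure ((↑) ⁻¹' t : Set (Subring.closure t)) = ⊤ := by
  rw [eq_top_iff]
  rintro ⟨x, hx⟩ -
  induction hx using Subring.closure_induction with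
  | mem x hx => exact Subring.subset_closure hx
  | zero => exact Subring.zero_mem _
  | one => exact Subring.one_mem _
  | add x y _ _ hx hy => exact Subring.add_mem _ hx hy
  | neg x _ hx => exact Subring.neg_mem _ hx
  | mul x y _ _ hx hy => exact Subring.mul_mem _ hx hy

lemma jacobson_int : IsJacobsonRing ℤ := by
  rw [isJacobsonRing_iff_prime_eq]
  intro P hP
  by_cases h : P = ⊥
  · subst h
    rw [eq_bot_iff]
    intro x hx
    have := Ideal.mem_jacobson_bot.mp hx x
    rw [Ideal.mem_bot]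
    rcases Int.isUnit_iff.mp this with h | h <;> nlinarith
  · have := IsPrime.to_maximal_ideal h
    exact Ideal.jacobson_eq_self_of_isMaximal

lemma finite_field {A : Type*} [Field A] {σ : Type*} [Finite σ] (z : σ → A)
    (hz : Function.Surjective (ev z)) : Finite A := by
  have := jacobson_int
  have : Algebra.FiniteType ℤ A := by
    refine Algebra.FiniteType.of_surjective (MvPolynomial.aeval z : MvPolynomial σ ℤ →ₐ[ℤ] A) ?_
    have : (MvPolynomial.aeval z : MvPolynomial σ ℤ →ₐ[ℤ] A).toRingHom = ev z := hom_ext (by simp)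
    rw [← this] at hz
    exact hz
  have h1 : Module.Finite ℤ A := finite_of_finite_type_of_isJacobsonRing ℤ A
  obtain ⟨p, hp⟩ := CharP.exists A
  rcases CharP.char_is_prime_or_zero A p with h | rfl
  · have : Fact p.Prime := ⟨h⟩
    let _ : Algebra (ZMod p) A := ZMod.algebra A p
    have : Module.Finite (ZMod p) A := Module.Finite.of_restrictScalars_finite ℤ (ZMod p) A
    exact Module.finite_of_finite (ZMod p)
  · have : CharZero A := CharP.charP_to_charZero A
    have h2 : IsField ℤ := isField_of_isIntegral_of_isField (R := ℤ) (S := A)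
      (algebraMap ℤ A).injective_int (Field.toIsField A)
    exact absurd h2 Int.not_isField

lemma exists_hom_finite_field (A : Type*) [CommRing A] [Nontrivial A] (t : Set A) (htf : t.Finite)
    (ht : Subring.closure t = ⊤) :
    ∃ (κ : Type) (_ : Field κ) (_ : Finite κ), Nonempty (A →+* κ) := by
  obtain ⟨m, hm⟩ := Ideal.exists_maximal A
  let _ := Ideal.Quotient.field m
  have : Finite t := htf
  have : Finite (A ⧸ m) := by
    refine finite_field (fun k : t => Ideal.Quotient.mk m k) ?_
    rw [← comp_ev]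
    exact Ideal.Quotient.mk_surjective.comp (ev_surjective t ht)
  have : Small.{0} (A ⧸ m) := inferInstance
  exact ⟨Shrink.{0} (A ⧸ m), inferInstance, inferInstance,
    ⟨((Shrink.ringEquiv (A ⧸ m)).symm : (A ⧸ m) →+* _).comp (Ideal.Quotient.mk m)⟩⟩

lemma tr1_zero (K : Type*) [Field K] : Tr1 K 0 := by
  intro s hs w hw
  have hu : IsUnit w := by
    rw [MvPowerSeries.isUnit_iff_constantCoeff, isUnit_iff_ne_zero]
    intro h
    apply hw
    ext m
    rw [Subsingleton.elim m 0]
    simpa using h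
  obtain ⟨v, hv⟩ := hu.exists_right_inv
  let t : Set (PS 0 K) := s ∪ {w, v}
  have htf : t.Finite := hs.union (Set.toFinite _)
  obtain ⟨κ, _, _, ⟨χ⟩⟩ := exists_hom_finite_field (Subring.closure t) _
    (htf.preimage Subtype.val_injective.injOn) (closure_top t)
  have hwA : w ∈ Subring.closure t := Subring.subset_closure (by simp [t])
  have hvA : v ∈ Subring.closure t := Subring.subset_closure (by simp [t])
  refine ⟨κ, inferInstance, inferInstance, Subring.closure t, fun i => i.elim0, hwA,
    (MvPowerSeries.C).comp χ, Set.subset_union_left.trans Subring.subset_closure,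
    fun i => i.elim0, ?_⟩
  refine (IsUnit.map _ (IsUnit.of_mul_eq_one (⟨v, hvA⟩ : Subring.closure t) ?_)).ne_zero
  exact Subtype.ext hv

lemma inj_X (K : Type*) [Field K] [CharZero K] (d : ℕ) :
    Function.Injective (ev (MvPowerSeries.X : Fin d → PS d K)) := by
  have : ev (MvPowerSeries.X : Fin d → PS d K) =
      MvPolynomial.coeToMvPowerSeries.ringHom.comp (MvPolynomial.map (Int.castRingHom K)) :=
    hom_ext (by simp)
  rw [this]
  exact (MvPolynomial.coe_injective (Fin d) K).comp
    (MvPolynomial.map_injective _ (Int.castRingHom K).injective_int)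

lemma algInd {A ι : Type*} [CommRing A] (x : ι → A) (h : Function.Injective (ev x)) :
    AlgebraicIndepOn ℤ id (Set.range x) := by
  have : (MvPolynomial.aeval x : MvPolynomial ι ℤ →ₐ[ℤ] A).toRingHom = ev x := hom_ext (by simp)
  rw [← this] at h
  exact AlgebraicIndependent.to_subtype_range (algebraicIndependent_iff_injective_aeval.mpr h)

lemma tr1_succ {K : Type*} [Field K] [CharZero K] {d : ℕ} (hT : Tr0 K d) : Tr1 K (d + 1) := by
  intro s hs w hw
  let t : Set (PS (d + 1) K) := s ∪ {w} ∪ Set.range MvPowerSeries.X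
  have htf : t.Finite := (hs.union (Set.toFinite _)).union (Set.finite_range _)
  let A := Subring.closure t
  have hwA : w ∈ A := Subring.subset_closure (by simp [t])
  have hX : ∀ i, MvPowerSeries.X i ∈ A := fun i => Subring.subset_closure (by simp [t])
  let x : Fin (d + 1) → A := fun i => ⟨MvPowerSeries.X i, hX i⟩
  have hx : Function.Injective (ev x) := by
    have h1 := inj_X K (d + 1)
    have h2 : ev (MvPowerSeries.X : Fin (d + 1) → PS (d + 1) K) = A.subtype.comp (ev x) :=
      (comp_ev A.subtype x).symm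
    rw [h2] at h1
    exact Function.Injective.of_comp (f := A.subtype) h1
  have : CharZero (PS (d + 1) K) := algebraRat.charZero _
  have : IsDomain (PS (d + 1) K) := NoZeroDivisors.to_isDomain _
  obtain ⟨σ, _, z, L, _, F, W, e, hz, hF, hW, H⟩ := structure_lemma.{_, 0} A _
    (htf.preimage Subtype.val_injective.injOn) (closure_top t) (Set.range x)
    (by rintro _ ⟨i, rfl⟩; simp [t, x]) (algInd x hx) ⟨w, hwA⟩
    (fun h => hw (congrArg Subtype.val h))
  let k₀ : σ := e ⟨x 0, 0, rfl⟩
  have hze : ∀ j, A.subtype (z (e ⟨x j, j, rfl⟩)) = MvPowerSeries.X j := by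
    intro j; rw [hz]; rfl
  obtain ⟨κ, _, _, z', hz', hW', hF'⟩ := approx hT (fun k => A.subtype (z k)) F
    (fun l => by rw [← map_ev, hF, map_zero]) (MvPolynomial.X k₀ * W)
    (by
      rw [map_mul, ev_X, ← map_ev, hze]
      refine mul_ne_zero ?_ fun h => hW (Subtype.ext h)
      exact fun h => by simpa using congrArg (MvPowerSeries.coeff (Finsupp.single 0 1)) h)
  rw [map_mul, ev_X] at hW'
  simp only [map_mul, ev_X] at hF'
  have : IsDomain (PS (d + 1) κ) := NoZeroDivisors.to_isDomain _
  obtain ⟨χ, hχ, hχw⟩ := H (PS (d + 1) κ) (xI (d + 1) κ) z' (z' k₀)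
    (by rw [hz' k₀ 0 (hze 0)]; exact Ideal.subset_span ⟨0, rfl⟩) (right_ne_zero_of_mul hW') hF'
  refine ⟨κ, inferInstance, inferInstance, A, hX, hwA, χ,
    (Set.subset_union_left.trans Set.subset_union_left).trans Subring.subset_closure,
    fun j => ?_, hχw⟩
  rw [← hz' _ j (hze j)]
  exact hχ ⟨x j, j, rfl⟩

lemma tr1 (K : Type*) [Field K] [CharZero K] (d : ℕ) : Tr1 K d := by
  induction d with
  | zero => exact tr1_zero K
  | succ d ih => exact tr1_succ ih.tr0

end AT

theorem artin_transfer (K : Type*) [Field K] [CharZero K] (d : ℕ) (s : Finset (PS d K)) :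
    ∃ (κ : Type) (_ : Field κ) (_ : Finite κ) (A : Subring (PS d K))
      (hX : ∀ i, MvPowerSeries.X i ∈ A) (χ : A →+* PS d κ),
      (∀ a ∈ s, a ∈ A) ∧ (∀ i, χ ⟨MvPowerSeries.X i, hX i⟩ = MvPowerSeries.X i) ∧
      ∀ a : A, (a : PS d K) ∈ s → a ≠ 0 → χ a ≠ 0 := by
  classical
  obtain ⟨κ, _, _, A, hX, hw, χ, hs, hχ, hχw⟩ := AT.tr1 K d s s.finite_toSet
    (∏ a ∈ s.filter (· ≠ 0), a)
    (Finset.prod_ne_zero_iff.mpr fun a ha => (Finset.mem_filter.mp ha).2)
  refine ⟨κ, inferInstance, inferInstance, A, hX, χ, fun a ha => hs ha, hχ,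
    fun a ha h0 h => hχw ?_⟩
  have ha' : (a : PS d K) ∈ s.filter (· ≠ 0) :=
    Finset.mem_filter.mpr ⟨ha, fun h => h0 (Subtype.ext h)⟩
  have hb : ∏ b ∈ (s.filter (· ≠ 0)).erase a, b ∈ A :=
    A.prod_mem fun b hb => hs (Finset.mem_filter.mp (Finset.mem_of_mem_erase hb)).1
  have : (⟨_, hw⟩ : A) = a * ⟨_, hb⟩ := Subtype.ext (Finset.mul_prod_erase _ _ ha').symm
  rw [this, map_mul, h, zero_mul]

end Vale.Agent.P202
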