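import Mathlib

/-! Job AT, part 1: a one variable implicit function theorem in complete rings. -/

open Polynomial

namespace Vale.Agent.P202.AT

lemma fixed_point {R : Type*} [CommRing R] (I : Ideal R) [IsAdicComplete I R] (Φ : R[X]) (e : R)
    (he : e ∈ I) : ∃ v : R, v + e + v ^ 2 * Φ.eval v = 0 := by
  let T : R → R := fun v => -e - v ^ 2 * Φ.eval v
  have hTI : ∀ v ∈ I, T v ∈ I := by
    intro v hv
    refine I.sub_mem (I.neg_mem he) (I.mul_mem_right _ ?_)
    rw [pow_two]; exact I.mul_mem_right _ hv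
  have hT : ∀ (n : ℕ) (v v' : R), v ∈ I → v' ∈ I → v - v' ∈ I ^ n → T v - T v' ∈ I ^ (n + 1) := by
    intro n v v' hv hv' h
    obtain ⟨q, hq⟩ := Polynomial.sub_dvd_eval_sub v v' Φ
    have : T v - T v' = (v - v') * (-((v + v') * Φ.eval v + v' * (v' * q))) := by
      simp only [T]
      linear_combination (-v' ^ 2) * hq
    rw [this, pow_succ]
    refine Ideal.mul_mem_mul h (I.neg_mem (I.add_mem ?_ ?_))
    · exact I.mul_mem_right _ (I.add_mem hv hv')
    · exact I.mul_mem_right _ hv'
  let c : ℕ → R := fun n => T^[n] 0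
  have hc : ∀ n, c (n + 1) = T (c n) := fun n => Function.iterate_succ_apply' T n 0
  have hcI : ∀ n, c n ∈ I := by
    intro n
    induction n with
    | zero => exact I.zero_mem
    | succ n ih => rw [hc]; exact hTI _ ih
  have hstep : ∀ n, c (n + 1) - c n ∈ I ^ n := by
    intro n
    induction n with
    | zero => simp
    | succ n ih =>
      rw [hc (n + 1)]
      have := hT n _ _ (hcI (n + 1)) (hcI n) ih
      rwa [← hc n] at this
  have aux : ∀ m n, m ≤ n → c m ≡ c n [SMOD (I ^ m • ⊤ : Ideal R)] := by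
    intro m n hmn
    rw [← Ideal.one_eq_top, Ideal.smul_eq_mul, mul_one, SModEq.sub_mem]
    obtain ⟨k, rfl⟩ := Nat.exists_eq_add_of_le hmn
    clear hmn
    induction k with
    | zero => simp
    | succ k ih =>
      have h1 : c (m + k + 1) - c (m + k) ∈ I ^ m :=
        Ideal.pow_le_pow_right le_self_add (hstep (m + k))
      have := (I ^ m).sub_mem ih h1
      have e1 : c m - c (m + (k + 1)) = c m - c (m + k) - (c (m + k + 1) - c (m + k)) := by
        rw [← add_assoc]; ring
      rw [e1]; exact this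
  obtain ⟨a, ha⟩ := IsPrecomplete.prec' c (aux _ _)
  have ha' : ∀ n, c n - a ∈ I ^ n := by
    intro n
    have := ha n
    rwa [← Ideal.one_eq_top, Ideal.smul_eq_mul, mul_one, SModEq.sub_mem] at this
  have haI : a ∈ I := by
    have h1 := ha' 1
    rw [pow_one] at h1
    have := I.sub_mem (hcI 1) h1
    simpa using this
  refine ⟨a, ?_⟩
  suffices ∀ n, a + e + a ^ 2 * Φ.eval a ≡ 0 [SMOD (I ^ n • ⊤ : Ideal R)] by
    exact IsHausdorff.haus' _ this
  intro n
  rw [← Ideal.one_eq_top, Ideal.smul_eq_mul, mul_one, SModEq.zero]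
  have h1 := hT n _ _ (hcI n) haI (ha' n)
  rw [← hc] at h1
  have h2 := ha' (n + 1)
  have h3 := (I ^ (n + 1)).sub_mem h1 h2
  have e1 : a + e + a ^ 2 * Φ.eval a = c (n + 1) - T a - (c (n + 1) - a) := by
    simp only [T]; ring
  rw [e1]
  exact Ideal.pow_le_pow_right (Nat.le_succ n) h3

/-- Tougeron's lemma in one variable. -/
lemma tougeron {R : Type*} [CommRing R] (I : Ideal R) [IsAdicComplete I R] (f : R[X])
    (θ h t : R) (ht : t ∈ I) (hf : t * ((derivative f).eval θ ^ 2 * h) ∣ f.eval θ) :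
    ∃ θ' : R, f.eval θ' = 0 ∧ h ∣ θ' - θ := by
  obtain ⟨e, he⟩ := hf
  set c := (derivative f).eval θ with hc
  -- Taylor expansion
  obtain ⟨G, hG⟩ : ∃ G : R[X], taylor θ f = C (f.eval θ) + C c * X + X ^ 2 * G := by
    have : X ^ 2 ∣ taylor θ f - (C (f.eval θ) + C c * X) := by
      rw [X_pow_dvd_iff]
      intro d hd
      interval_cases d
      · simp [taylor_coeff_zero]
      · simp [taylor_coeff_one, hc]
    obtain ⟨G, hG⟩ := this
    exact ⟨G, by rw [← hG]; ring⟩
  obtain ⟨v, hv⟩ := fixed_point I (C h * G.comp (C (c * h) * X)) (t * e) (I.mul_mem_right _ ht)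
  refine ⟨θ + c * h * v, ?_, ⟨c * v, by ring⟩⟩
  have h1 : f.eval (θ + c * h * v) = (taylor θ f).eval (c * h * v) := by
    rw [taylor_eval, add_comm]
  rw [h1, hG]
  simp only [eval_add, eval_mul, eval_C, eval_X, eval_pow, eval_comp] at hv ⊢
  rw [he]
  linear_combination (c ^ 2 * h) * hv

end Vale.Agent.P202.AT
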