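import Mathlib

/-! Job AT, part 2: an integral primitive element. -/

open Polynomial

namespace Vale.Agent.P202.AT

lemma prim (D A : Type*) [CommRing D] [IsDomain D] [IsIntegrallyClosed D] [CharZero D]
    [CommRing A] [IsDomain A] [Algebra D A] [FaithfulSMul D A] [Algebra.IsAlgebraic D A]
    [Algebra.FiniteType D A] :
    ∃ θ : A, IsIntegral D θ ∧ aeval θ (derivative (minpoly D θ)) ≠ 0 ∧
      ∀ a : A, ∃ δ : D, δ ≠ 0 ∧ ∃ u : D[X], algebraMap D A δ * a = aeval θ u := by
  let K := FractionRing D
  let L := FractionRing A
  let _ : Algebra K L := FractionRing.liftAlgebra D L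
  have : IsScalarTower D K L := FractionRing.isScalarTower_liftAlgebra D L
  have hDL : Algebra.IsAlgebraic D L := (IsFractionRing.isAlgebraic_iff' D A L).mp inferInstance
  have hKL : Algebra.IsAlgebraic K L :=
    ⟨fun x => (IsFractionRing.isAlgebraic_iff D K L).mp (hDL.1 x)⟩
  have e1 : Algebra.EssFiniteType A L := Algebra.EssFiniteType.of_isLocalization L (nonZeroDivisors A)
  have e2 : Algebra.EssFiniteType D L := Algebra.EssFiniteType.comp D A L
  have e3 : Algebra.EssFiniteType K L := Algebra.EssFiniteType.of_comp D K L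
  have hfin : Module.Finite K L := Algebra.finite_of_essFiniteType_of_isAlgebraic
  have : CharZero K := IsFractionRing.charZero_of_isFractionRing D
  obtain ⟨α, hα⟩ := Field.exists_primitive_element K L
  have hinj : Function.Injective (algebraMap A L) := IsFractionRing.injective A L
  -- clear denominators
  obtain ⟨a, b, hb, hab⟩ := IsFractionRing.div_surjective A α
  obtain ⟨r, hr, b', hb'⟩ := (Algebra.IsAlgebraic.isAlgebraic (R := D) b).exists_nonzero_dvd hb
  obtain ⟨r', hr', hint⟩ := (Algebra.IsAlgebraic.isAlgebraic (R := D) (a * b')).exists_integral_multiple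
  set θ := r' • (a * b') with hθ
  have hb0 : algebraMap A L b ≠ 0 := by
    rw [Ne, map_eq_zero_iff _ hinj]; exact nonZeroDivisors.ne_zero hb
  have hθα : algebraMap A L θ = algebraMap D K (r' * r) • α := by
    rw [Algebra.smul_def, ← IsScalarTower.algebraMap_apply, IsScalarTower.algebraMap_apply D A L,
      map_mul, hb', hθ, Algebra.smul_def, ← hab]
    simp only [map_mul]
    have := div_mul_cancel₀ (algebraMap A L a) hb0
    linear_combination (-(algebraMap A L (algebraMap D A r') * algebraMap A L b')) * this
  have hrr : algebraMap D K (r' * r) ≠ 0 := by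
    rw [Ne, map_eq_zero_iff _ (IsFractionRing.injective D K)]
    exact mul_ne_zero hr' hr
  have htop : Algebra.adjoin K {algebraMap A L θ} = ⊤ := by
    have h1 : Algebra.adjoin K {α} = ⊤ := by
      rw [← IntermediateField.adjoin_simple_toSubalgebra_of_isAlgebraic (hKL.1 α), hα]
      rfl
    rw [eq_top_iff, ← h1, Algebra.adjoin_le_iff, Set.singleton_subset_iff]
    have : α = (algebraMap D K (r' * r))⁻¹ • algebraMap A L θ := by
      rw [hθα, smul_smul, inv_mul_cancel₀ hrr, one_smul]
    rw [this]
    exact Subalgebra.smul_mem _ (Algebra.self_mem_adjoin_singleton K _) _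
  refine ⟨θ, hint, ?_, fun x => ?_⟩
  · have hsep : (minpoly K (algebraMap A L θ)).Separable := Algebra.IsSeparable.isSeparable K _
    have h1 := hsep.aeval_derivative_ne_zero (minpoly.aeval K (algebraMap A L θ))
    rw [minpoly.isIntegrallyClosed_eq_field_fractions K L hint, derivative_map,
      aeval_map_algebraMap, aeval_algebraMap_apply] at h1
    intro h
    exact h1 (by rw [h, map_zero])
  · have hx : algebraMap A L x ∈ Algebra.adjoin K {algebraMap A L θ} := by rw [htop]; trivial
    rw [Algebra.adjoin_singleton_eq_range_aeval] at hx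
    obtain ⟨p, hp⟩ := hx
    obtain ⟨δ, hδ, hq⟩ := IsLocalization.integerNormalization_spec (nonZeroDivisors D) p
    refine ⟨δ, nonZeroDivisors.ne_zero hδ, IsLocalization.integerNormalization (nonZeroDivisors D) p,
      hinj ?_⟩
    rw [← aeval_algebraMap_apply, ← aeval_map_algebraMap K, hq, map_mul,
      ← IsScalarTower.algebraMap_apply, ← algebraMap_smul K, map_smul, Algebra.smul_def,
      ← IsScalarTower.algebraMap_apply]
    congr 1
    exact hp.symm

end Vale.Agent.P202.AT
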