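import Vale.Agent.P202.ATHensel
import Vale.Agent.P202.ATPrim

/-! Job AT, part 3: presentation of a finitely generated domain and lifting of approximate
solutions. -/

open Polynomial

universe u v

namespace Vale.Agent.P202.AT

/-- Evaluation of integer polynomials. -/
noncomputable def ev {σ R : Type*} [CommRing R] (z : σ → R) : MvPolynomial σ ℤ →+* R :=
  MvPolynomial.eval₂Hom (Int.castRingHom R) z

@[simp] lemma ev_X {σ R : Type*} [CommRing R] (z : σ → R) (k : σ) :
    ev z (MvPolynomial.X k) = z k := by simp [ev]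

lemma hom_ext {σ R : Type*} [CommRing R] {f g : MvPolynomial σ ℤ →+* R}
    (h : ∀ k, f (MvPolynomial.X k) = g (MvPolynomial.X k)) : f = g :=
  MvPolynomial.ringHom_ext' (RingHom.ext_int _ _) h

lemma comp_ev {σ R S : Type*} [CommRing R] [CommRing S] (φ : R →+* S) (z : σ → R) :
    φ.comp (ev z) = ev (fun k => φ (z k)) := hom_ext (by simp)

lemma map_ev {σ R S : Type*} [CommRing R] [CommRing S] (φ : R →+* S) (z : σ → R)
    (G : MvPolynomial σ ℤ) : φ (ev z G) = ev (fun k => φ (z k)) G := by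
  rw [← comp_ev]; rfl

lemma ev_sub_mem {σ R : Type*} [CommRing R] (I : Ideal R) (z z' : σ → R)
    (h : ∀ k, z k - z' k ∈ I) (G : MvPolynomial σ ℤ) : ev z G - ev z' G ∈ I := by
  rw [← Ideal.Quotient.eq, map_ev, map_ev]
  have : (fun k => Ideal.Quotient.mk I (z k)) = fun k => Ideal.Quotient.mk I (z' k) :=
    funext fun k => Ideal.Quotient.eq.mpr (h k)
  rw [this]

lemma lift_hom {D A : Type*} [CommRing D] [IsDomain D] [IsIntegrallyClosed D] [CommRing A]
    [IsDomain A] [Algebra D A] [FaithfulSMul D A] (θ : A) (hint : IsIntegral D θ) {I : Type*}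
    (a : I → A) (ha : Function.Surjective (ev a)) (h : D) (u : I → D[X])
    (hu : ∀ i, algebraMap D A h * a i = aeval θ (u i)) {P : Type*} [CommRing P] [IsDomain P]
    (ψ : D →+* P) (hψ : ψ h ≠ 0) (θ' : P) (hθ' : eval₂ ψ θ' (minpoly D θ) = 0) (a' : I → P)
    (ha' : ∀ i, ψ h * a' i = eval₂ ψ θ' (u i)) :
    ∃ χ : A →+* P, ∀ δ, χ (algebraMap D A δ) = ψ δ := by
  have key : ∀ G : MvPolynomial I ℤ, ∃ (N : ℕ) (g : D[X]),
      algebraMap D A h ^ N * ev a G = aeval θ g ∧ ψ h ^ N * ev a' G = eval₂ ψ θ' g := by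
    intro G
    induction G using MvPolynomial.induction_on with
    | C n =>
      refine ⟨0, C (n : D), ?_, ?_⟩
      · rw [aeval_C]; simp
      · rw [eval₂_C]; simp
    | add G₁ G₂ h₁ h₂ =>
      obtain ⟨N₁, g₁, h₁, h₁'⟩ := h₁
      obtain ⟨N₂, g₂, h₂, h₂'⟩ := h₂
      refine ⟨N₁ + N₂, C (h ^ N₂) * g₁ + C (h ^ N₁) * g₂, ?_, ?_⟩
      · simp only [map_add, map_mul, aeval_C, map_pow, ← h₁, ← h₂]; ring
      · simp only [map_add, eval₂_add, eval₂_mul, eval₂_C, map_pow, eval₂_pow, ← h₁', ← h₂']; ring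
    | mul_X G i hG =>
      obtain ⟨N, g, h₁, h₂⟩ := hG
      refine ⟨N + 1, g * u i, ?_, ?_⟩
      · simp only [map_mul, ev_X, ← h₁, ← hu]; ring
      · simp only [map_mul, eval₂_mul, ev_X, ← h₂, ← ha']; ring
  have key2 : ∀ (G : MvPolynomial I ℤ) (δ : D), ev a G = algebraMap D A δ → ev a' G = ψ δ := by
    intro G δ hG
    obtain ⟨N, g, h₁, h₂⟩ := key G
    have h3 : aeval θ (g - C (h ^ N * δ)) = 0 := by
      simp only [map_sub, aeval_C, map_mul, map_pow, ← h₁, hG, sub_self]
    obtain ⟨q, hq⟩ := minpoly.isIntegrallyClosed_dvd hint h3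
    have h4 : eval₂ ψ θ' (g - C (h ^ N * δ)) = 0 := by rw [hq, eval₂_mul, hθ', zero_mul]
    rw [eval₂_sub, eval₂_C, ← h₂, map_mul, map_pow, ← mul_sub] at h4
    exact sub_eq_zero.mp ((mul_eq_zero.mp h4).resolve_left (pow_ne_zero _ hψ))
  have hker : RingHom.ker (ev a) ≤ RingHom.ker (ev a') := by
    intro G hG
    rw [RingHom.mem_ker] at hG ⊢
    simpa using key2 G 0 (by simpa using hG)
  refine ⟨(ev a).liftOfSurjective ha ⟨ev a', hker⟩, fun δ => ?_⟩
  obtain ⟨G, hG⟩ := ha (algebraMap D A δ)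
  rw [← hG, RingHom.liftOfRightInverse_comp_apply]
  exact key2 G δ hG

lemma ev_surjective {A : Type*} [CommRing A] (t : Set A) (ht : Subring.closure t = ⊤) :
    Function.Surjective (ev ((↑) : t → A)) := by
  rw [← RingHom.range_eq_top, eq_top_iff, ← ht, Subring.closure_le]
  intro x hx
  exact ⟨MvPolynomial.X ⟨x, hx⟩, by simp⟩

/-- A finitely generated domain of characteristic zero has a presentation whose approximate
solutions in complete domains give rise to ring homomorphisms. -/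
lemma structure_lemma (A : Type u) [CommRing A] [IsDomain A] [CharZero A] (t : Set A)
    (htf : t.Finite) (ht : Subring.closure t = ⊤) (s : Set A) (hst : s ⊆ t)
    (hind : AlgebraicIndepOn ℤ id s) (w : A) (hw : w ≠ 0) :
    ∃ (σ : Type u) (_ : Finite σ) (z : σ → A) (L : Type u) (_ : Finite L)
      (F : L → MvPolynomial σ ℤ) (W : MvPolynomial σ ℤ) (e : s → σ),
      (∀ x, z (e x) = x) ∧ (∀ l, ev z (F l) = 0) ∧ ev z W ≠ 0 ∧
      ∀ (P : Type v) [CommRing P] [IsDomain P] (m : Ideal P) [IsAdicComplete m P] (z' : σ → P)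
        (τ : P), τ ∈ m → ev z' W ≠ 0 → (∀ l, τ * ev z' W ∣ ev z' (F l)) →
        ∃ χ : A →+* P, (∀ x : s, χ x = z' (e x)) ∧ χ w ≠ 0 := by
  classical
  have hadj : Algebra.adjoin ℤ t = ⊤ := by
    rw [eq_top_iff]
    intro x _
    have hx : x ∈ Subring.closure t := by rw [ht]; trivial
    exact (Subring.closure_le (t := (Algebra.adjoin ℤ t).toSubring)).mpr Algebra.subset_adjoin hx
  have halg : Algebra.IsAlgebraic (Algebra.adjoin ℤ t) A := by
    refine ⟨fun x => ?_⟩
    have hx : x ∈ Algebra.adjoin ℤ t := by rw [hadj]; trivial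
    exact isAlgebraic_algebraMap (⟨x, hx⟩ : Algebra.adjoin ℤ t)
  obtain ⟨B, hsB, hBt, hB⟩ := exists_isTranscendenceBasis_between s t hst hind
  have : Finite t := htf
  have : Finite B := htf.subset hBt
  let D := MvPolynomial B ℤ
  let ρ : D →+* A := ev ((↑) : B → A)
  have hρ : ρ = (MvPolynomial.aeval ((↑) : B → A) : D →ₐ[ℤ] A).toRingHom :=
    hom_ext (by simp [ρ])
  have hinj : Function.Injective ρ := by
    rw [hρ]; exact hB.1
  let _ : Algebra D A := ρ.toAlgebra
  have hρ' : algebraMap D A = ρ := rfl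
  have : FaithfulSMul D A := (faithfulSMul_iff_algebraMap_injective D A).mpr hinj
  have hDA : Algebra.IsAlgebraic D A := by
    have h1 := hB.isAlgebraic
    refine ⟨fun x => ?_⟩
    have h2 := h1.1 x
    refine IsAlgebraic.of_ringHom_of_comp_eq (hB.1.aevalEquiv : D →+* _) (RingHom.id A) h2
      hB.1.aevalEquiv.surjective Function.injective_id ?_
    apply hom_ext
    intro k
    simp [hρ', ρ, D]
  have hft : Algebra.FiniteType D A := by
    refine ⟨⟨htf.toFinset, ?_⟩⟩
    rw [eq_top_iff]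
    intro x _
    have hx : x ∈ Subring.closure t := by rw [ht]; trivial
    refine (Subring.closure_le (t := (Algebra.adjoin D (htf.toFinset : Set A)).toSubring)).mpr ?_ hx
    intro y hy
    exact Algebra.subset_adjoin (by simpa using hy)
  obtain ⟨θ, hint, hder, hθ⟩ := prim D A
  choose δ hδ u hu using hθ
  obtain ⟨r, hr, w', hw'⟩ := (Algebra.IsAlgebraic.isAlgebraic (R := D) w).exists_nonzero_dvd
    (mem_nonZeroDivisors_of_ne_zero hw)
  have := Fintype.ofFinite t
  let h : D := r * ∏ i : t, δ i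
  have hh : h ≠ 0 := mul_ne_zero hr (Finset.prod_ne_zero_iff.mpr fun i _ => hδ i)
  let u' : t → D[X] := fun i => C (r * ∏ j ∈ Finset.univ.erase i, δ (j : t)) * u i
  have hu' : ∀ i : t, algebraMap D A h * (i : A) = aeval θ (u' i) := by
    intro i
    simp only [h, u', map_mul, aeval_C, ← hu]
    rw [← Finset.prod_erase_mul _ _ (Finset.mem_univ i), map_mul]
    ring
  let σ := B ⊕ Option t
  let ι : D →+* MvPolynomial σ ℤ := ev fun k => MvPolynomial.X (Sum.inl k)
  let T : MvPolynomial σ ℤ := MvPolynomial.X (Sum.inr none)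
  let z : σ → A := Sum.elim (↑) (fun o => o.elim θ (↑))
  let f := minpoly D θ
  let F : Option t → MvPolynomial σ ℤ := fun o => o.elim (eval₂ ι T f)
    fun i => ι h * MvPolynomial.X (Sum.inr (some i)) - eval₂ ι T (u' i)
  have hzι : (ev z).comp ι = algebraMap D A := hom_ext (by simp [ι, z, hρ', ρ, D])
  have hzT : ev z T = θ := by simp [T, z]
  have hz : ∀ g : D[X], ev z (eval₂ ι T g) = aeval θ g := by
    intro g; rw [hom_eval₂, hzι, hzT, aeval_def]
  refine ⟨σ, inferInstance, z, Option t, inferInstance, F, eval₂ ι T (derivative f) ^ 2 * ι h,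
    fun x => Sum.inl ⟨x, hsB x.2⟩, fun x => rfl, ?_, ?_, ?_⟩
  · rintro (_ | i)
    · simp only [F, Option.elim, hz, f, minpoly.aeval]
    · simp only [F, Option.elim, map_sub, map_mul, hz, ev_X, ← hu']
      rw [← hzι]; simp [z]
  · rw [map_mul, map_pow, hz]
    refine mul_ne_zero (pow_ne_zero _ hder) ?_
    have : ev z (ι h) = ρ h := by rw [← hρ', ← hzι]; rfl
    rw [this, Ne, map_eq_zero_iff _ hinj]; exact hh
  · intro P _ _ m _ z' τ hτ hW hF
    let ψ : D →+* P := (ev z').comp ι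
    let θ₀ : P := z' (Sum.inr none)
    have hz' : ∀ g : D[X], ev z' (eval₂ ι T g) = (g.map ψ).eval θ₀ := by
      intro g; rw [hom_eval₂, eval_map]; simp [T, θ₀, ψ]
    have hψh : ev z' (ι h) = ψ h := rfl
    rw [map_mul, map_pow, hz', hψh] at hW
    simp only [map_mul, map_pow, hz', hψh] at hF
    have hψ : ψ h ≠ 0 := right_ne_zero_of_mul hW
    have h0 := hF none
    simp only [F, Option.elim, hz', ← derivative_map] at h0
    obtain ⟨θ', hθ', hdvd⟩ := tougeron m (f.map ψ) θ₀ (ψ h) τ hτ h0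
    have hdiv : ∀ i : t, ψ h ∣ eval₂ ψ θ' (u' i) := by
      intro i
      have h1 := hF (some i)
      simp only [F, Option.elim, map_sub, map_mul, hz', hψh, ev_X] at h1
      have h2 : ψ h ∣ ψ h * z' (Sum.inr (some i)) - ((u' i).map ψ).eval θ₀ :=
        Dvd.dvd.trans ((dvd_mul_left _ _).mul_left _) h1
      have h3 : ψ h ∣ ((u' i).map ψ).eval θ₀ := by
        have := dvd_sub (dvd_mul_right (ψ h) (z' (Sum.inr (some i)))) h2
        simpa using this
      have h4 := hdvd.trans (sub_dvd_eval_sub θ' θ₀ ((u' i).map ψ))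
      have := dvd_add h4 h3
      rwa [sub_add_cancel, eval_map] at this
    choose a' ha' using hdiv
    rw [eval_map] at hθ'
    obtain ⟨χ, hχ⟩ := lift_hom θ hint ((↑) : t → A) (ev_surjective t ht) h u' hu' ψ hψ θ' hθ' a'
      fun i => (ha' i).symm
    refine ⟨χ, fun x => ?_, fun h0 => hψ ?_⟩
    · have := hχ (MvPolynomial.X ⟨x, hsB x.2⟩)
      simpa [hρ', ρ, ψ, ι, D] using this
    · have h1 := hχ r
      rw [hw', map_mul, h0, zero_mul] at h1
      simp only [h, map_mul, ← h1, zero_mul]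

end Vale.Agent.P202.AT
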