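import Mathlib

open IsLocalRing Filter Topology

namespace Vale.Agent.P202

/-- Power series in `d` variables. -/
abbrev PS (d : ℕ) (K : Type*) := MvPowerSeries (Fin d) K

/-- The ideal generated by the variables. -/
noncomputable abbrev xI (d : ℕ) (K : Type*) [CommRing K] : Ideal (PS d K) :=
  Ideal.span (Set.range MvPowerSeries.X)

/-- The Hilbert-Samuel function `N ↦ length (A / m^N)` of a local ring. -/
noncomputable def hs (A : Type*) [CommRing A] [IsLocalRing A] (N : ℕ) : ℕ :=
  (Module.length A (A ⧸ (maximalIdeal A) ^ N)).toNat

/-- `d! * length (A / m^N) / N^d` tends to `e`. -/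
def IsMult (A : Type*) [CommRing A] [IsLocalRing A] (d : ℕ) (e : ℝ) : Prop :=
  Tendsto (fun N : ℕ => ((d.factorial : ℝ) * (hs A N : ℝ)) / (N : ℝ) ^ d) atTop (𝓝 e)

/-- `I` is a reduction of `J`. -/
def IsRed {A : Type*} [CommRing A] (I J : Ideal A) : Prop :=
  I ≤ J ∧ ∃ c : ℕ, J ^ (c + 1) ≤ I * J ^ c

lemma IsRed.pow_le {A : Type*} [CommRing A] {I J : Ideal A} (h : IsRed I J) :
    ∃ c : ℕ, ∀ j, J ^ (j + c) ≤ I ^ j := by
  obtain ⟨-, c, hc⟩ := h
  refine ⟨c, fun j => ?_⟩
  have key : ∀ j, J ^ (j + c) ≤ I ^ j * J ^ c := by
    intro j
    induction j with
    | zero => simp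
    | succ j ih =>
      calc J ^ (j + 1 + c) = J ^ (j + c) * J := by ring
        _ ≤ I ^ j * J ^ c * J := Ideal.mul_mono_left ih
        _ = I ^ j * J ^ (c + 1) := by ring
        _ ≤ I ^ j * (I * J ^ c) := Ideal.mul_mono_right hc
        _ = I ^ (j + 1) * J ^ c := by ring
  exact (key j).trans Ideal.mul_le_left

section ps
variable {d : ℕ} {K : Type*} [CommRing K]

open MvPowerSeries in
lemma mem_xI_pow_iff (n : ℕ) (f : PS d K) :
    f ∈ xI d K ^ n ↔ ∀ m : Fin d →₀ ℕ, m.degree < n → coeff m f = 0 := by
  constructor
  · intro hf
    have : (n : ℕ∞) ≤ f.order := by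
      induction n generalizing f with
      | zero => simp
      | succ n ih =>
        rw [pow_succ] at hf
        refine Submodule.mul_induction_on hf ?_ ?_
        · intro a ha b hb
          have h1 := ih a ha
          have h2 : (1 : ℕ∞) ≤ b.order := by
            rw [one_le_order_iff_constCoeff_eq_zero]
            refine Submodule.span_induction ?_ ?_ ?_ ?_ hb
            · rintro _ ⟨i, rfl⟩; simp
            · simp
            · intro x y _ _ hx hy; simp [hx, hy]
            · intro a x _ hx; simp [hx]
          calc ((n + 1 : ℕ) : ℕ∞) = n + 1 := by push_cast; rfl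
            _ ≤ a.order + b.order := add_le_add h1 h2
            _ ≤ (a * b).order := le_order_mul
        · intro a b ha hb
          exact (le_min ha hb).trans min_order_le_add
    intro m hm
    apply coeff_of_lt_order
    exact lt_of_lt_of_le (by exact_mod_cast hm) this
  · intro hf
    induction n generalizing f with
    | zero => simp
    | succ n ih =>
      classical
      -- split according to the least variable dividing the monomial
      let g : Fin d → PS d K := fun i m =>
        if ∀ j < i, m j = 0 then coeff (m + Finsupp.single i 1) f else 0
      have hg : ∀ i m, coeff m (g i) =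
          if ∀ j < i, m j = 0 then coeff (m + Finsupp.single i 1) f else 0 := fun _ _ => rfl
      have hfg : f = ∑ i, g i * X i := by
        ext m
        rw [map_sum]
        by_cases hm : m = 0
        · subst hm
          rw [hf 0 (by simp)]
          symm
          refine Finset.sum_eq_zero fun i _ => ?_
          simp
        · have hne : (Finset.univ.filter fun i => m i ≠ 0).Nonempty := by
            by_contra hcon
            apply hm
            ext i
            by_contra hi
            exact hcon ⟨i, by simpa using hi⟩
          set i₀ := (Finset.univ.filter fun i => m i ≠ 0).min' hne with hi₀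
          have hi₀m : m i₀ ≠ 0 := by
            have := Finset.min'_mem _ hne
            simpa using this
          have hmin : ∀ j < i₀, m j = 0 := by
            intro j hj
            by_contra hj'
            exact absurd (Finset.min'_le _ j (by simpa using hj')) (not_le.mpr hj)
          rw [Finset.sum_eq_single i₀]
          · rw [X_def, coeff_mul_monomial, if_pos (by simpa [Finsupp.single_le_iff] using Nat.one_le_iff_ne_zero.mpr hi₀m), hg, if_pos, mul_one]
            · congr 1
              rw [tsub_add_cancel_of_le]
              simpa [Finsupp.single_le_iff] using Nat.one_le_iff_ne_zero.mpr hi₀m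
            · intro j hj
              simp [hmin j hj]
          · intro i _ hi
            rw [X_def, coeff_mul_monomial]
            split_ifs with h
            · rw [hg, if_neg, zero_mul]
              intro hall
              have hi1 : m i ≠ 0 := by
                have := h i
                simp at this
                omega
              have hle : i₀ ≤ i := Finset.min'_le _ i (by simpa using hi1)
              have hlt : i₀ < i := lt_of_le_of_ne hle (Ne.symm hi)
              have := hall i₀ hlt
              simp [Finsupp.single_eq_of_ne hlt.ne] at this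
              exact hi₀m this
            · rfl
          · simp
      rw [hfg, pow_succ]
      refine Ideal.sum_mem _ fun i _ => Ideal.mul_mem_mul (ih _ ?_) (Ideal.subset_span ⟨i, rfl⟩)
      intro m hm
      rw [hg]
      split_ifs
      · apply hf
        rw [map_add, Finsupp.degree_single]; omega
      · rfl

lemma mem_xI_iff (f : PS d K) : f ∈ xI d K ↔ MvPowerSeries.constantCoeff f = 0 := by
  rw [← pow_one (xI d K), mem_xI_pow_iff]
  constructor
  · intro h; simpa using h 0 (by simp)
  · intro h m hm
    have : m = 0 := by
      rw [← Finsupp.degree_eq_zero_iff]; omega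
    subst this; simpa using h

end ps

lemma maximalIdeal_PS (d : ℕ) (K : Type*) [Field K] : maximalIdeal (PS d K) = xI d K := by
  ext f
  rw [mem_xI_iff, mem_maximalIdeal, mem_nonunits_iff, MvPowerSeries.isUnit_iff_constantCoeff,
    isUnit_iff_ne_zero, not_not]

instance isAdicComplete_PS (d : ℕ) (K : Type*) [Field K] :
    IsAdicComplete (maximalIdeal (PS d K)) (PS d K) := by
  rw [maximalIdeal_PS]; infer_instance

end Vale.Agent.P202
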