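import Vale.Agent.P202.Ext

open Matrix

namespace Vale.Agent.P202

/-- A finite free complex of length at most `d`, written as one matrix, together with
null-homotopies for the elements `s j`. -/
structure Cx (R : Type*) [CommRing R] (d : ℕ) (s : Fin d → R) (ι : Type*) [Fintype ι]
    [DecidableEq ι] where
  deg : ι → ℕ
  deg_le : ∀ μ, deg μ ≤ d
  D : Matrix ι ι R
  H : Fin d → Matrix ι ι R
  DD : D * D = 0
  hD : ∀ μ ν, D μ ν ≠ 0 → deg ν = deg μ + 1
  hH : ∀ j μ ν, H j μ ν ≠ 0 → deg μ = deg ν + 1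
  hom : ∀ j, D * H j + H j * D = s j • (1 : Matrix ι ι R)

/-- A vector concentrated in degree `n`. -/
def InDeg {ι M : Type*} [Zero M] (deg : ι → ℕ) (n : ℕ) (y : ι → M) : Prop :=
  ∀ μ, deg μ ≠ n → y μ = 0

section
variable {ι M : Type*} [AddCommGroup M] {deg : ι → ℕ} {n : ℕ}

lemma InDeg.zero : InDeg deg n (0 : ι → M) := fun _ _ => rfl

lemma InDeg.add {y z : ι → M} (hy : InDeg deg n y) (hz : InDeg deg n z) : InDeg deg n (y + z) :=
  fun μ h => by simp [hy μ h, hz μ h]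

lemma InDeg.sub {y z : ι → M} (hy : InDeg deg n y) (hz : InDeg deg n z) : InDeg deg n (y - z) :=
  fun μ h => by simp [hy μ h, hz μ h]

lemma InDeg.smul {S : Type*} [SMulZeroClass S M] {y : ι → M} (hy : InDeg deg n y) (c : S) :
    InDeg deg n (c • y) := fun μ h => by simp [hy μ h]

lemma InDeg.sum {α : Type*} (s : Finset α) {y : α → ι → M} (hy : ∀ a ∈ s, InDeg deg n (y a)) :
    InDeg deg n (∑ a ∈ s, y a) := fun μ h => by
  rw [Finset.sum_apply]
  exact Finset.sum_eq_zero fun a ha => hy a ha μ h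
end

namespace Cx
variable {R : Type*} [CommRing R] {d : ℕ} {s : Fin d → R} {ι : Type*} [Fintype ι] [DecidableEq ι]
  (X : Cx R d s ι)

lemma inDeg_D {n : ℕ} {y : ι → R} (hy : InDeg X.deg (n + 1) y) : InDeg X.deg n (X.D *ᵥ y) := by
  intro μ h
  refine Finset.sum_eq_zero fun ν _ => ?_
  by_cases h1 : X.D μ ν = 0
  · simp [h1]
  · have := X.hD μ ν h1
    rw [hy ν (by omega), mul_zero]

lemma inDeg_H {n : ℕ} {y : ι → R} (hy : InDeg X.deg n y) (j) :
    InDeg X.deg (n + 1) (X.H j *ᵥ y) := by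
  intro μ h
  refine Finset.sum_eq_zero fun ν _ => ?_
  by_cases h1 : X.H j μ ν = 0
  · simp [h1]
  · have := X.hH j μ ν h1
    rw [hy ν (by omega), mul_zero]

lemma eq_zero_of_inDeg {M : Type*} [Zero M] {n : ℕ} (hn : d < n) {y : ι → M}
    (hy : InDeg X.deg n y) : y = 0 := by
  ext μ
  exact hy μ (by have := X.deg_le μ; omega)

lemma D_D (y : ι → R) : X.D *ᵥ (X.D *ᵥ y) = 0 := by
  rw [mulVec_mulVec, X.DD, zero_mulVec]

lemma D_H (j) (y : ι → R) : X.D *ᵥ (X.H j *ᵥ y) = s j • y - X.H j *ᵥ (X.D *ᵥ y) := by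
  rw [mulVec_mulVec, mulVec_mulVec, eq_sub_iff_add_eq, ← add_mulVec, X.hom, smul_mulVec,
    one_mulVec]

/-- Base change of a complex. -/
noncomputable def map {R' : Type*} [CommRing R'] (φ : R →+* R') : Cx R' d (fun j => φ (s j)) ι where
  deg := X.deg
  deg_le := X.deg_le
  D := X.D.map φ
  H j := (X.H j).map φ
  DD := by rw [← Matrix.map_mul, X.DD]; simp
  hD μ ν h := X.hD μ ν fun h' => h (by simp [h'])
  hH j μ ν h := X.hH j μ ν fun h' => h (by simp [h'])
  hom j := by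
    rw [← Matrix.map_mul, ← Matrix.map_mul, ← Matrix.map_add _ (map_add φ), X.hom]
    ext μ ν
    by_cases h : μ = ν <;> simp [h]

/-- Almost acyclicity. -/
theorem almost_acyclic (g : R)
    (hg : ∀ (j : Fin d) (r : R), s j * r ∈ Ideal.span (s '' {i | i < j}) →
      g * r ∈ Ideal.span (s '' {i | i < j})) :
    ∀ (m n j : ℕ), n + m = d + 1 → j < n → ∀ y : ι → R, InDeg X.deg n y →
      (∀ μ, (X.D *ᵥ y) μ ∈ Ideal.span (s '' {i | i.val < j})) →
      ∃ η, InDeg X.deg (n + 1) η ∧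
        ∀ μ, (g ^ m • y - X.D *ᵥ η) μ ∈ Ideal.span (s '' {i | i.val < j}) := by
  intro m
  induction m with
  | zero =>
    intro n j hn _ y hy _
    refine ⟨0, InDeg.zero, fun μ => ?_⟩
    rw [X.eq_zero_of_inDeg (by omega) hy]
    simp
  | succ m ih =>
    intro n j hn hj y hy hDy
    set j' : Fin d := ⟨j, by omega⟩
    have hspan : Ideal.span (s '' {i | i.val < j + 1}) =
        Ideal.span {s j'} ⊔ Ideal.span (s '' {i | i.val < j}) := by
      rw [← Ideal.span_union, ← Set.image_singleton, ← Set.image_union]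
      congr 2
      ext i
      simp only [Set.mem_ofPred_eq, Set.mem_union, Set.mem_singleton_iff, Fin.ext_iff, j']
      omega
    have hmv : ∀ (A : Matrix ι ι R) (I : Ideal R) (v : ι → R), (∀ μ, v μ ∈ I) →
        ∀ μ, (A *ᵥ v) μ ∈ I := fun A I v hv μ =>
      I.sum_mem fun ν _ => I.mul_mem_left _ (hv ν)
    obtain ⟨z', hz', hz⟩ := ih (n + 1) (j + 1) (by omega) (by omega) (X.H j' *ᵥ y)
      (X.inDeg_H hy j') (by
        intro μ
        rw [X.D_H, hspan]
        refine sub_mem (Ideal.mem_sup_left ?_) (Ideal.mem_sup_right (hmv _ _ _ hDy μ))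
        exact Ideal.mem_span_singleton.mpr (Dvd.intro _ rfl))
    rw [hspan] at hz
    have hz2 : ∀ μ, ∃ c : R, (g ^ m • X.H j' *ᵥ y - X.D *ᵥ z') μ - s j' * c ∈
        Ideal.span (s '' {i | i.val < j}) ∧ (X.deg μ ≠ n + 1 → c = 0) := by
      intro μ
      by_cases hμ : X.deg μ = n + 1
      · obtain ⟨a, ha, b, hb, hab⟩ := Submodule.mem_sup.mp (hz μ)
        obtain ⟨c, rfl⟩ := Ideal.mem_span_singleton.mp ha
        exact ⟨c, by rw [← hab]; simpa using hb, fun h => absurd hμ h⟩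
      · refine ⟨0, ?_, fun _ => rfl⟩
        have := (((X.inDeg_H hy j').smul (g ^ m)).sub (X.inDeg_D hz')) μ hμ
        rw [this]; simp
    choose z'' hz'' hdeg using hz2
    refine ⟨g • z'', InDeg.smul (fun μ h => hdeg μ h) g, fun μ => ?_⟩
    have h1 := hmv X.D _ (g ^ m • X.H j' *ᵥ y - X.D *ᵥ z' - s j' • z'') (fun μ => hz'' μ) μ
    rw [mulVec_sub, mulVec_sub, X.D_D, mulVec_smul, mulVec_smul, X.D_H] at h1
    have h2 := (Ideal.span (s '' {i | i.val < j})).mul_mem_left (g ^ m) (hmv (X.H j') _ _ hDy μ)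
    have e1 : s j' * ((g ^ m • y - X.D *ᵥ z'') μ) =
        (g ^ m • (s j' • y - X.H j' *ᵥ X.D *ᵥ y) - 0 - s j' • X.D *ᵥ z'') μ +
          g ^ m * (X.H j' *ᵥ X.D *ᵥ y) μ := by
      simp only [Pi.sub_apply, Pi.smul_apply, smul_eq_mul, Pi.zero_apply]
      ring
    have h3 : g * ((g ^ m • y - X.D *ᵥ z'') μ) ∈ Ideal.span (s '' {i | i.val < j}) :=
      hg j' ((g ^ m • y - X.D *ᵥ z'') μ) (by rw [e1]; exact add_mem h1 h2)
    have e2 : (g ^ (m + 1) • y - X.D *ᵥ g • z'') μ = g * ((g ^ m • y - X.D *ᵥ z'') μ) := by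
      simp only [Pi.sub_apply, Pi.smul_apply, smul_eq_mul, mulVec_smul]
      ring
    rw [e2]
    exact h3

end Cx

end Vale.Agent.P202
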