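import Vale.Agent.P202.Theta
import Vale.Agent.P202.Cx

open Matrix

namespace Vale.Agent.P202

variable {d : ℕ} {k : Type*} [Field k]

/-- The twist in the `i`-th factor. -/
def bb (q : ℕ) (i : Fin d) : ℤ := ((i : ℕ) + 1) * q - 1

def pNum (A : Finset (Fin d)) (_ : ℤ) (a : Fin d → ℤ) : Prop := ∀ i ∉ A, 0 ≤ a i

def pDen (q : ℕ) (A : Finset (Fin d)) (t : ℤ) (a : Fin d → ℤ) : Prop :=
  pNum A t a ∧ ∃ i ∈ A, a i ≤ t + bb q i

def pDO (q : ℕ) (A : Finset (Fin d)) (s : ℤ) (t : ℤ) (a : Fin d → ℤ) : Prop :=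
  pNum A t a ∧ ((∃ i ∈ A, a i ≤ t + bb q i) ∨ s < t)

def pCh (A : Finset (Fin d)) (t : ℤ) (a : Fin d → ℤ) : Prop :=
  (∀ i ∉ A, 0 ≤ a i) ∧ ∀ i ∈ A, a i ≤ t

def pGl (q : ℕ) (t : ℤ) (a : Fin d → ℤ) : Prop := ∀ i, 0 ≤ a i ∧ a i ≤ t + bb q i

lemma pCh_add (A : Finset (Fin d)) (t a t' a') (h : pCh A t a) (h' : pCh A t' a') :
    pCh A (t + t') (a + a') :=
  ⟨fun i hi => add_nonneg (h.1 i hi) (h'.1 i hi), fun i hi => add_le_add (h.2 i hi) (h'.2 i hi)⟩

lemma pP_pCh (A : Finset (Fin d)) {n : ℕ} (t a) (h : pP n t a) : pCh A t a :=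
  ⟨fun i _ => (h.2 i).1, fun i _ => (h.2 i).2⟩

lemma pCh_pNum (A : Finset (Fin d)) (t a t' a') (h : pCh A t a) (h' : pNum A t' a') :
    pNum A (t + t') (a + a') := fun i hi => add_nonneg (h.1 i hi) (h' i hi)

lemma pCh_pDen (q : ℕ) (A : Finset (Fin d)) (t a t' a') (h : pCh A t a) (h' : pDen q A t' a') :
    pDen q A (t + t') (a + a') := by
  refine ⟨pCh_pNum A _ _ _ _ h h'.1, ?_⟩
  obtain ⟨i, hi, hle⟩ := h'.2
  refine ⟨i, hi, ?_⟩
  have := h.2 i hi
  simp only [Pi.add_apply]; omega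

lemma pP_pDO (q n : ℕ) (A : Finset (Fin d)) (s : ℤ) (t a t' a') (h : pP n t a)
    (h' : pDO q A s t' a') : pDO q A (s + n) (t + t') (a + a') := by
  refine ⟨pCh_pNum A _ _ _ _ (pP_pCh A _ _ h) h'.1, ?_⟩
  rcases h'.2 with ⟨i, hi, hle⟩ | hlt
  · refine Or.inl ⟨i, hi, ?_⟩
    have := (h.2 i).2
    simp only [Pi.add_apply]; omega
  · have := h.1
    exact Or.inr (by omega)

lemma top_of_coeff_mem {Λ : Type*} [CommRing Λ] (I : Ideal Λ) {A : Finset (Fin d)}
    (hA : A.Nonempty) (f : Fin d → Polynomial Λ)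
    (hf1 : ∀ i ∈ A, ∃ v, f i = Polynomial.C v * Polynomial.X + 1)
    (hf2 : ∀ i ∉ A, ∃ u, f i = Polynomial.X + Polynomial.C u)
    (hcoeff : ∀ m < d, (∏ i, f i).coeff m ∈ I) : I = ⊤ := by
  by_contra hne
  have : Nontrivial (Λ ⧸ I) := Ideal.Quotient.nontrivial_iff.mpr hne
  let π := Ideal.Quotient.mk I
  have hdvd : Polynomial.X ^ d ∣ (∏ i, f i).map π := by
    rw [Polynomial.X_pow_dvd_iff]
    intro m hm
    rw [Polynomial.coeff_map, Ideal.Quotient.eq_zero_iff_mem]
    exact hcoeff m hm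
  rw [Polynomial.map_prod, ← Finset.prod_mul_prod_compl A] at hdvd
  have hcop : IsCoprime (Polynomial.X ^ d) (∏ i ∈ A, (f i).map π) := by
    refine IsCoprime.pow_left (IsCoprime.prod_right fun i hi => ?_)
    obtain ⟨v, hv⟩ := hf1 i hi
    refine ⟨-Polynomial.C (π v), 1, ?_⟩
    simp [hv]
  have hdvd2 := hcop.dvd_of_dvd_mul_left hdvd
  have hmon : ∀ i ∈ Aᶜ, ((f i).map π).Monic ∧ ((f i).map π).natDegree = 1 := by
    intro i hi
    obtain ⟨u, hu⟩ := hf2 i (Finset.mem_compl.mp hi)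
    simp only [hu, Polynomial.map_add, Polynomial.map_X, Polynomial.map_C]
    exact ⟨Polynomial.monic_X_add_C _, Polynomial.natDegree_X_add_C _⟩
  have hm := Polynomial.monic_prod_of_monic _ _ fun i hi => (hmon i hi).1
  have hdeg : (∏ i ∈ Aᶜ, (f i).map π).natDegree < d := by
    rw [Polynomial.natDegree_prod_of_monic _ _ fun i hi => (hmon i hi).1,
      Finset.sum_congr rfl fun i hi => (hmon i hi).2]
    simp only [Finset.sum_const, smul_eq_mul, mul_one, Finset.card_compl, Fintype.card_fin]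
    have := hA.card_pos
    have := A.card_le_univ
    simp only [Fintype.card_fin] at this
    omega
  have := Polynomial.X_pow_dvd_iff.mp hdvd2 _ hdeg
  rw [hm.coeff_natDegree] at this
  exact one_ne_zero this

/-- The variables generate the unit ideal on every chart other than the origin chart. -/
lemma chart_unit {A : Finset (Fin d)} (hA : A.Nonempty) (n : ℕ) :
    ∃ l : Fin d → Lam d k, (∀ j, l j ∈ Sup (pCh A)) ∧
      ∑ j, l j * th d k (MvPowerSeries.X j) ^ n = 1 := by
  classical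
  let Λ : Subring (Lam d k) := SupRing (pCh A) ⟨by simp, by simp⟩ (pCh_add A)
  let x : Fin d → Λ := fun j => ⟨th d k (MvPowerSeries.X j), Sup_mono (pP_pCh A) (th_mem _)⟩
  suffices h : Ideal.span (Set.range x) = ⊤ by
    have h2 := Ideal.span_pow_eq_top _ h n
    have h3 : (1 : Λ) ∈ Ideal.span (Set.range fun j => x j ^ n) := by
      have : Set.range (fun j => x j ^ n) = (fun y => y ^ n) '' Set.range x := by
        rw [← Set.range_comp]; rfl
      rw [this, h2]; trivial
    obtain ⟨l, hl⟩ := Ideal.mem_span_range_iff_exists_fun.mp h3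
    refine ⟨fun j => l j, fun j => (l j).2, ?_⟩
    have := congrArg Λ.subtype hl
    simpa [x] using this
  let I := Ideal.span (Set.range x)
  -- linear factors
  let u : Fin d → Lam d k := fun i => mon 0 (Pi.single i 1)
  let v : Fin d → Lam d k := fun i => mon 0 (-Pi.single i 1)
  have huv : ∀ i, v i * u i = 1 := fun i => by simp [u, v, mon_mul, mon_zero]
  have hu : ∀ i ∉ A, u i ∈ Λ := fun i hi => mon_mem ⟨fun j _ => by
      by_cases h : j = i <;> simp [h], fun j hj => by
      have : j ≠ i := fun h => hi (h ▸ hj)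
      simp [this]⟩
  have hv : ∀ i ∈ A, v i ∈ Λ := fun i hi => mon_mem ⟨fun j hj => by
      have : j ≠ i := fun h => hj (h ▸ hi)
      simp [this], fun j _ => by
      by_cases h : j = i <;> simp [h]⟩
  let f : Fin d → Polynomial Λ := fun i =>
    if h : i ∈ A then Polynomial.C ⟨v i, hv i h⟩ * Polynomial.X + 1
    else Polynomial.X + Polynomial.C ⟨u i, hu i h⟩
  let vA : Lam d k := ∏ i ∈ A, v i
  have hmap : (∏ i, f i).map Λ.subtype =
      Polynomial.C vA * ∏ i, (Polynomial.X + Polynomial.C (u i)) := by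
    have : Polynomial.C vA = ∏ i, Polynomial.C (if i ∈ A then v i else 1) := by
      rw [← map_prod, Finset.prod_ite_mem, Finset.univ_inter]
    rw [this, ← Finset.prod_mul_distrib, Polynomial.map_prod]
    refine Finset.prod_congr rfl fun i _ => ?_
    by_cases h : i ∈ A
    · simp only [f, h, dif_pos, if_pos, mul_add, ← Polynomial.C_mul, huv]
      simp
    · simp [f, h]
  have hprodmon : ∀ (B : Finset (Fin d)) (b : Fin d → Fin d → ℤ),
      ∏ i ∈ B, (mon 0 (b i) : Lam d k) = mon 0 (∑ i ∈ B, b i) := by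
    intro B b
    induction B using Finset.induction_on with
    | empty => simp [mon_zero]
    | insert i s hi ih => rw [Finset.prod_insert hi, Finset.sum_insert hi, ih, mon_mul, add_zero]
  have hτ : mon (-1) 0 * vA ∈ Λ := by
    simp only [vA, v]
    rw [hprodmon, mon_mul]
    refine mon_mem ⟨fun j hj => ?_, fun j hj => ?_⟩
    · simp [Finset.sum_apply, Pi.single_apply, hj]
    · simp [Finset.sum_apply, Pi.single_apply, hj]
  have hcoeff : ∀ m < d, (∏ i, f i).coeff m ∈ I := by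
    intro m hm
    have h1 : (∏ i, f i).coeff m = ⟨_, hτ⟩ * x ⟨d - m - 1, by omega⟩ := by
      apply Subtype.ext
      have h2 := congrArg (fun p => Polynomial.coeff p m) hmap
      simp only [Polynomial.coeff_map, Polynomial.coeff_C_mul, Subring.coe_subtype] at h2
      rw [h2, Finset.prod_X_add_C_coeff _ _ (by simp; omega)]
      simp only [x, Subring.coe_mul, th_X, es, MvPolynomial.esymm, map_sum, map_prod, varpi_X,
        Finset.card_univ, Fintype.card_fin]
      rw [show d - m - 1 + 1 = d - m by omega, mul_comm (mon (-1) 0), mul_assoc]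
      congr 1
      rw [← map_sum, mon, sgl_mul_sgl, neg_add_cancel]
      have h4 : (AddMonoidAlgebra.single 0 1 : LP d k) = 1 := rfl
      simp only [sgl_zero, h4, one_mul, map_sum, map_prod, u, mon]
    rw [h1]
    exact I.mul_mem_left _ (Ideal.subset_span ⟨_, rfl⟩)
  exact top_of_coeff_mem I hA f (fun i hi => ⟨_, dif_pos hi⟩) (fun i hi => ⟨_, dif_neg hi⟩) hcoeff

/-- Vectors with entries supported in a set of monomials. -/
def VS {ι : Type*} (p : ℤ → (Fin d → ℤ) → Prop) (y : ι → Lam d k) : Prop := ∀ μ, y μ ∈ Sup p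

section VS
variable {ι : Type*} {p q r : ℤ → (Fin d → ℤ) → Prop}

lemma VS.zero : VS p (0 : ι → Lam d k) := fun _ => zero_mem _
lemma VS.add {y z : ι → Lam d k} (hy : VS p y) (hz : VS p z) : VS p (y + z) :=
  fun μ => add_mem (hy μ) (hz μ)
lemma VS.sub {y z : ι → Lam d k} (hy : VS p y) (hz : VS p z) : VS p (y - z) :=
  fun μ => sub_mem (hy μ) (hz μ)
lemma VS.zsmul {y : ι → Lam d k} (hy : VS p y) (n : ℤ) : VS p (n • y) :=
  fun μ => zsmul_mem (hy μ) n
lemma VS.sum {α : Type*} (s : Finset α) {y : α → ι → Lam d k} (hy : ∀ a ∈ s, VS p (y a)) :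
    VS p (∑ a ∈ s, y a) := fun μ => by
  rw [Finset.sum_apply]; exact sum_mem fun a ha => hy a ha μ
lemma VS.mono (h : ∀ t a, p t a → q t a) {y : ι → Lam d k} (hy : VS p y) : VS q y :=
  fun μ => Sup_mono h (hy μ)
lemma VS.smul (h : ∀ t a t' a', p t a → q t' a' → r (t + t') (a + a')) {c : Lam d k}
    (hc : c ∈ Sup p) {y : ι → Lam d k} (hy : VS q y) : VS r (c • y) :=
  fun μ => mul_mem_Sup h hc (hy μ)
lemma VS.mulVec [Fintype ι] (h : ∀ t a t' a', p t a → q t' a' → r (t + t') (a + a'))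
    {B : Matrix ι ι (Lam d k)} (hB : ∀ μ ν, B μ ν ∈ Sup p) {y : ι → Lam d k} (hy : VS q y) :
    VS r (B *ᵥ y) := fun μ => sum_mem fun ν _ => mul_mem_Sup h (hB μ ν) (hy ν)
end VS

lemma pNum_erase (A : Finset (Fin d)) (i : Fin d) (t a) (h : pNum (A.erase i) t a) : pNum A t a :=
  fun j hj => h j fun h' => hj (Finset.mem_of_mem_erase h')

lemma pDen_erase (q : ℕ) (A : Finset (Fin d)) (i : Fin d) (t a) (h : pDen q (A.erase i) t a) :
    pDen q A t a := by
  obtain ⟨h1, j, hj, h2⟩ := h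
  exact ⟨pNum_erase A i t a h1, j, Finset.mem_of_mem_erase hj, h2⟩

/-- The pivot coordinate of a monomial. -/
def pJ (q n : ℕ) (j : Fin d) (t : ℤ) (a : Fin d → ℤ) : Prop :=
  t ≤ -(n * q : ℕ) ∧ j.val < n ∧ 0 ≤ a j ∧ ∀ j' < j, a j' < 0

/-- The contracting homotopy of the rows. -/
noncomputable def zeta (q n : ℕ) (η : Finset (Fin d) → Lam d k) (B : Finset (Fin d)) : Lam d k :=
  ∑ j, proj (pJ q n j) (Ct j η B)

lemma proj_zero (p) : proj p (0 : Lam d k) = 0 := ext_cf fun t a => by simp [cf_proj]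

lemma zeta_eq_zero {q n : ℕ} {η : Finset (Fin d) → Lam d k} {B : Finset (Fin d)}
    (h : ∀ j ∉ B, η (insert j B) = 0) : zeta q n η B = 0 := by
  refine Finset.sum_eq_zero fun j _ => ?_
  by_cases hj : j ∈ B
  · simp [Ct, hj, proj_zero]
  · simp [Ct, hj, h j hj, proj_zero]

lemma zeta_mem {q n : ℕ} {η : Finset (Fin d) → Lam d k} {B : Finset (Fin d)}
    (h : ∀ j ∉ B, η (insert j B) ∈ Sup (pNum (insert j B))) : zeta q n η B ∈ Sup (pNum B) := by
  refine sum_mem fun j _ t a hne => ?_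
  rw [cf_proj] at hne
  split_ifs at hne with hJ
  swap; · exact absurd rfl hne
  by_cases hj : j ∈ B
  · simp [Ct, hj] at hne
  · have : cf (η (insert j B)) t a ≠ 0 := by
      intro h0; simp [Ct, hj, h0, -zsmul_eq_mul] at hne
    intro i hi
    by_cases hij : i = j
    · rw [hij]; exact hJ.2.2.1
    · exact h j hj t a this i (by simp [hij, hi])

lemma cf_wd (η : Finset (Fin d) → Lam d k) (A t a) :
    cf (wd η A) t a = wd (fun B => cf (η B) t a) A := by
  simp [wd_apply, cf_sum, -zsmul_eq_mul]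

lemma cf_Ct (j) (η : Finset (Fin d) → Lam d k) (A t a) :
    cf (Ct j η A) t a = Ct j (fun B => cf (η B) t a) A := by
  by_cases hj : j ∈ A <;> simp [Ct, hj, -zsmul_eq_mul]

/-- Exactness of the rows in low order. -/
lemma row_exact {q n : ℕ} (hn : n ≤ d) {η : Finset (Fin d) → Lam d k} {A : Finset (Fin d)}
    (hA : A.card + 1 = n) (h1 : ∀ B : Finset (Fin d), B.card + 1 = n → η B ∈ Sup (pNum B))
    (h2 : ∀ B : Finset (Fin d), B.card = n → wd η B ∈ Sup (pDO q B (-(n * q : ℕ)))) :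
    η A - wd (zeta q n η) A ∈ Sup (pDO q A (-(n * q : ℕ))) := by
  classical
  have hnum : η A - wd (zeta q n η) A ∈ Sup (pNum A) := by
    refine sub_mem (h1 A hA) ?_
    rw [wd_apply]
    refine sum_mem fun i hi => zsmul_mem (Sup_mono (pNum_erase A i) (zeta_mem fun j hj => h1 _ ?_)) _
    rw [Finset.card_insert_of_notMem hj, Finset.card_erase_add_one hi, hA]
  intro t a hne
  refine ⟨hnum t a hne, ?_⟩
  by_contra hcon
  push Not at hcon
  obtain ⟨hc1, hc2⟩ := hcon
  have hex : (Finset.univ.filter fun j : Fin d => j.val < n ∧ 0 ≤ a j).Nonempty := by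
    have : ∃ j : Fin d, j.val < n ∧ j ∉ A := by
      by_contra h
      push Not at h
      have hsub : (Finset.univ.image fun i : Fin n => (Fin.castLE hn i)) ⊆ A := by
        intro j hj
        obtain ⟨i, -, rfl⟩ := Finset.mem_image.mp hj
        exact h _ i.2
      have := Finset.card_le_card hsub
      rw [Finset.card_image_of_injective _ (Fin.castLE_injective hn)] at this
      simp at this; omega
    obtain ⟨j, hj1, hj2⟩ := this
    exact ⟨j, by simpa using ⟨hj1, hnum t a hne j hj2⟩⟩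
  set j := Finset.min' _ hex with hj
  have hjm := Finset.min'_mem _ hex
  rw [← hj] at hjm
  simp only [Finset.mem_filter, Finset.mem_univ, true_and] at hjm
  have hJ : pJ q n j t a := by
    refine ⟨hc2, hjm.1, hjm.2, fun j' hj' => ?_⟩
    by_contra h
    have := Finset.min'_le (Finset.univ.filter fun j : Fin d => j.val < n ∧ 0 ≤ a j) j'
      (by simpa using ⟨lt_trans hj' hjm.1, not_lt.mp h⟩)
    exact absurd hj' (not_lt.mpr this)
  have hz : ∀ B, cf (zeta q n η B) t a = Ct j (fun B => cf (η B) t a) B := by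
    intro B
    rw [zeta, cf_sum, Finset.sum_eq_single j, cf_proj, if_pos hJ, cf_Ct]
    · intro i _ hi
      rw [cf_proj, if_neg]
      intro hI
      rcases lt_or_gt_of_ne hi with h | h
      · exact absurd (hJ.2.2.2 i h) (not_lt.mpr hI.2.2.1)
      · exact absurd (hI.2.2.2 j h) (not_lt.mpr hJ.2.2.1)
    · simp
  apply hne
  rw [cf_sub, cf_wd, funext hz]
  have h3 := congrFun (wd_Ct j (fun B => cf (η B) t a)) A
  rw [Pi.add_apply] at h3
  rw [← h3, add_sub_cancel_left]
  by_cases hjA : j ∈ A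
  · simp [Ct, hjA]
  · simp only [Ct, hjA, if_false]
    rw [← cf_wd]
    have : cf (wd η (insert j A)) t a = 0 := by
      by_contra h
      rcases (h2 _ (by rw [Finset.card_insert_of_notMem hjA, hA]) t a h).2 with ⟨i, hi, hle⟩ | hlt
      · rcases Finset.mem_insert.mp hi with rfl | hi
        · have h5 := hjm.2
          have h6 : ((j : ℕ) + 1) * q ≤ n * q := Nat.mul_le_mul_right _ hjm.1
          have h7 : (((j : ℕ) + 1) * q : ℤ) ≤ (n * q : ℕ) := by exact_mod_cast h6
          simp only [bb] at hle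
          omega
        · exact absurd hle (not_le.mpr (hc1 i hi))
      · exact absurd hlt (not_lt.mpr hc2)
    rw [this, smul_zero]

end Vale.Agent.P202
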