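import Vale.Agent.P202.Chase

open Matrix

namespace Vale.Agent.P202

variable {d : ℕ} {k : Type*} [Field k] {ι : Type*} [Fintype ι] [DecidableEq ι]
  {c : Lam d k} {a q : ℕ} (X : Cx (Lam d k) d (fun j => c * th d k (MvPowerSeries.X j) ^ a) ι)

omit [DecidableEq ι] in
lemma mulVec_wd {R : Type*} [CommRing R] (B : Matrix ι ι R) (η : Finset (Fin d) → ι → R) (A) :
    B *ᵥ wd η A = wd (fun A => B *ᵥ η A) A := by
  simp only [wd_apply, mulVec_sum, mulVec_smul]

lemma wd_congr {M : Type*} [AddCommGroup M] {η η' : Finset (Fin d) → M} {A : Finset (Fin d)}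
    (h : ∀ B : Finset (Fin d), B.card + 1 = A.card → η B = η' B) : wd η A = wd η' A := by
  rw [wd_apply, wd_apply]
  exact Finset.sum_congr rfl fun i hi => by rw [h _ (Finset.card_erase_add_one hi)]

lemma wd_sub {M : Type*} [AddCommGroup M] (η η' : Finset (Fin d) → M) (A : Finset (Fin d)) :
    wd (fun B => η B - η' B) A = wd η A - wd η' A := by
  simp only [wd_apply, smul_sub, Finset.sum_sub_distrib]

lemma wd_smul {R M : Type*} [CommRing R] [AddCommGroup M] [Module R M] (r : R)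
    (η : Finset (Fin d) → M) (A : Finset (Fin d)) : wd (fun B => r • η B) A = r • wd η A := by
  simp only [wd_apply, Finset.smul_sum, smul_comm r]

omit [Fintype ι] [DecidableEq ι] in
lemma wd_apply_apply {M : Type*} [AddCommGroup M] (η : Finset (Fin d) → ι → M) (A μ) :
    wd η A μ = wd (fun B => η B μ) A := by
  simp only [wd_apply, Finset.sum_apply, Pi.smul_apply]

lemma exact_chart (hH : ∀ j μ ν, X.H j μ ν ∈ Sup (pP 0))
    {A : Finset (Fin d)} (hA : A.Nonempty) {n : ℕ} {y : ι → Lam d k} (hy : VS (pNum A) y)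
    (hn : InDeg X.deg n y) (hDy : VS (pDen q A) (X.D *ᵥ y)) :
    ∃ η, VS (pNum A) η ∧ InDeg X.deg (n + 1) η ∧ VS (pDen q A) (X.D *ᵥ η - c • y) := by
  obtain ⟨l, hl, hsum⟩ := chart_unit (k := k) hA a
  have hH' : ∀ j μ ν, X.H j μ ν ∈ Sup (pCh A) := fun j μ ν => Sup_mono (pP_pCh A) (hH j μ ν)
  refine ⟨∑ j, l j • X.H j *ᵥ y, VS.sum _ fun j _ => VS.smul (pCh_pNum A) (hl j)
    (VS.mulVec (pCh_pNum A) (hH' j) hy), InDeg.sum _ fun j _ => (X.inDeg_H hn j).smul _, ?_⟩
  have : X.D *ᵥ (∑ j, l j • X.H j *ᵥ y) - c • y =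
      0 - ∑ j, l j • X.H j *ᵥ (X.D *ᵥ y) := by
    rw [mulVec_sum]
    simp only [mulVec_smul, X.D_H, smul_sub, Finset.sum_sub_distrib, smul_smul, ← Finset.sum_smul]
    have : ∑ j, l j * (c * th d k (MvPowerSeries.X j) ^ a) = c := by
      conv_rhs => rw [← mul_one c, ← hsum, Finset.mul_sum]
      exact Finset.sum_congr rfl fun j _ => by ring
    rw [this]; abel
  rw [this]
  exact VS.zero.sub (VS.sum _ fun j _ => VS.smul (pCh_pDen q A) (hl j)
    (VS.mulVec (pCh_pDen q A) (hH' j) hDy))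

lemma build_chain (hH : ∀ j μ ν, X.H j μ ν ∈ Sup (pP 0))
    {η₀ : ι → Lam d k} (h1 : VS (pNum ∅) η₀) (h2 : InDeg X.deg 1 η₀)
    (h3 : VS (pGl q) (X.D *ᵥ η₀)) (m : ℕ) :
    ∃ η : Finset (Fin d) → ι → Lam d k, η ∅ = η₀ ∧ ∀ A : Finset (Fin d), A.card ≤ m →
      VS (pNum A) (η A) ∧ InDeg X.deg (A.card + 1) (η A) ∧
      (A.Nonempty → VS (pDen q A) (X.D *ᵥ η A - c • wd η A)) := by
  induction m with
  | zero =>
    refine ⟨fun _ => η₀, rfl, fun A hA => ?_⟩
    obtain rfl : A = ∅ := Finset.card_eq_zero.mp (by omega)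
    exact ⟨h1, h2, fun h => absurd h (by simp)⟩
  | succ m ih =>
    obtain ⟨η, hη0, hη⟩ := ih
    have key : ∀ A : Finset (Fin d), A.card = m + 1 → ∃ ξ, VS (pNum A) ξ ∧
        InDeg X.deg (A.card + 1) ξ ∧ VS (pDen q A) (X.D *ᵥ ξ - c • wd η A) := by
      intro A hA
      have hcard : ∀ i ∈ A, (A.erase i).card = m := fun i hi => by
        have := Finset.card_erase_add_one hi; omega
      refine exact_chart X hH (Finset.card_pos.mp (by omega)) ?_ ?_ ?_
      · rw [wd_apply]
        exact VS.sum _ fun i hi => ((hη _ (hcard i hi).le).1.mono (pNum_erase A i)).zsmul _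
      · rw [wd_apply]
        refine InDeg.sum _ fun i hi => InDeg.smul ?_ _
        have := (hη _ (hcard i hi).le).2.1
        rwa [hcard i hi, ← hA] at this
      · have e : X.D *ᵥ wd η A = wd (fun B => X.D *ᵥ η B - c • wd η B) A := by
          rw [wd_sub, wd_smul, mulVec_wd]
          have : wd (fun B => wd η B) A = 0 := congrFun (wd_wd η) A
          rw [this, smul_zero, sub_zero]
        rw [e, wd_apply]
        refine VS.sum _ fun i hi => VS.zsmul ?_ _
        rcases (A.erase i).eq_empty_or_nonempty with h | h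
        · rw [h, hη0, wd_apply, Finset.sum_empty, smul_zero, sub_zero]
          exact h3.mono fun t a h => ⟨fun j _ => (h j).1, i, hi, (h i).2⟩
        · exact ((hη _ (hcard i hi).le).2.2 h).mono (pDen_erase q A i)
    choose! ξ hξ using key
    refine ⟨fun A => if A.card = m + 1 then ξ A else η A, by simp [hη0], fun A hA => ?_⟩
    have e : wd (fun A => if A.card = m + 1 then ξ A else η A) A = wd η A :=
      wd_congr fun B hB => if_neg (by omega)
    rw [e]
    by_cases h : A.card = m + 1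
    · simp only [h, if_true]
      have := hξ A h
      rw [h] at this
      exact ⟨this.1, this.2.1, fun _ => this.2.2⟩
    · simp only [h, if_false]
      exact hη A (by omega)

theorem chase (hc : c ∈ Sup (pP 0))
    (hD : ∀ μ ν, X.D μ ν ∈ Sup (pP q)) (hH : ∀ j μ ν, X.H j μ ν ∈ Sup (pP 0))
    {η₀ : ι → Lam d k} (h1 : VS (pNum ∅) η₀) (h2 : InDeg X.deg 1 η₀)
    (h3 : VS (pGl q) (X.D *ᵥ η₀)) : VS (fun t _ => 0 < t) (c ^ d • X.D *ᵥ η₀) := by
  rcases Nat.eq_zero_or_pos d with hd | hd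
  · rw [X.eq_zero_of_inDeg (by omega) h2, mulVec_zero, smul_zero]
    exact VS.zero
  obtain ⟨η, hη0, hη⟩ := build_chain X hH h1 h2 h3 d
  have hcard : ∀ A : Finset (Fin d), A.card ≤ d := fun A => by simpa using A.card_le_univ
  have hcpow : ∀ (n : ℕ) (A : Finset (Fin d)), c ^ n ∈ Sup (pCh A) := fun n A =>
    (SupRing (pCh A) ⟨by simp, by simp⟩ (pCh_add A)).pow_mem (Sup_mono (pP_pCh A) hc) n
  have hDch : ∀ (A : Finset (Fin d)) μ ν, X.D μ ν ∈ Sup (pCh A) := fun A μ ν =>
    Sup_mono (pP_pCh A) (hD μ ν)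
  -- the statement proved by descending induction
  let P : ℕ → Prop := fun n => ∃ ξ : Finset (Fin d) → ι → Lam d k,
    X.D *ᵥ ξ ∅ = c ^ d • X.D *ᵥ η₀ ∧
    (∀ A : Finset (Fin d), A.card + 1 ≤ n → VS (pNum A) (ξ A) ∧ InDeg X.deg (A.card + 1) (ξ A) ∧
      (A.Nonempty → VS (pDen q A) (X.D *ᵥ ξ A - wd ξ A))) ∧
    ∀ A : Finset (Fin d), A.card = n → VS (pDO q A (-(n * q : ℕ))) (wd ξ A)
  have hrow : ∀ n, n ≤ d → ∀ ξ : Finset (Fin d) → ι → Lam d k,
      (∀ A : Finset (Fin d), A.card + 1 = n → VS (pNum A) (ξ A)) →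
      (∀ A : Finset (Fin d), A.card = n → VS (pDO q A (-(n * q : ℕ))) (wd ξ A)) →
      ∀ A : Finset (Fin d), A.card + 1 = n →
        VS (pDO q A (-(n * q : ℕ))) (ξ A - wd (fun B μ => zeta q n (fun B => ξ B μ) B) A) := by
    intro n hn ξ g1 g2 A hA μ
    rw [Pi.sub_apply, wd_apply_apply]
    exact row_exact hn hA (fun B hB => g1 B hB μ)
      (fun B hB => by rw [← wd_apply_apply]; exact g2 B hB μ)
  have hstart : P d := by
    have hsc : ∀ A : Finset (Fin d), A.Nonempty →
        VS (pDen q A) (X.D *ᵥ (c ^ (d - A.card) • η A) -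
          wd (fun A => c ^ (d - A.card) • η A) A) := by
      intro A hA
      have e : wd (fun A => c ^ (d - A.card) • η A) A = c ^ (d - A.card) • c • wd η A := by
        rw [smul_smul, ← pow_succ, ← wd_smul]
        refine wd_congr fun B hB => ?_
        have := hcard A
        rw [show d - B.card = d - A.card + 1 by omega]
      rw [e, mulVec_smul, ← smul_sub]
      exact VS.smul (pCh_pDen q A) (hcpow _ A) ((hη A (hcard A)).2.2 hA)
    refine ⟨fun A => c ^ (d - A.card) • η A, by simp [hη0, mulVec_smul], fun A _ =>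
      ⟨VS.smul (pCh_pNum A) (hcpow _ A) (hη A (hcard A)).1, (hη A (hcard A)).2.1.smul _,
        hsc A⟩, fun A hA => ?_⟩
    have h4 := hsc A (Finset.card_pos.mp (by omega))
    rw [X.eq_zero_of_inDeg (by omega) (hη A (hcard A)).2.1, smul_zero, mulVec_zero] at h4
    have h5 := VS.zero.sub h4
    rw [sub_sub_cancel] at h5
    exact h5.mono fun t a h => ⟨h.1, Or.inl h.2⟩
  have hstep : ∀ n, 1 ≤ n → n + 1 ≤ d → P (n + 1) → P n := by
    rintro n hn1 hn ⟨ξ, g0, g1, g2⟩
    set ζ : Finset (Fin d) → ι → Lam d k := fun B μ => zeta q (n + 1) (fun B => ξ B μ) B with hζ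
    have hζnum : ∀ B : Finset (Fin d), B.card + 1 = n → VS (pNum B) (ζ B) := fun B hB μ =>
      zeta_mem fun j hj => (g1 _ (by rw [Finset.card_insert_of_notMem hj]; omega)).1 μ
    have hζdeg : ∀ B : Finset (Fin d), B.card + 1 = n → InDeg X.deg (B.card + 1 + 1) (ζ B) :=
      fun B hB μ hμ => zeta_eq_zero fun j hj =>
        (g1 _ (by rw [Finset.card_insert_of_notMem hj]; omega)).2.1 μ
          (by rw [Finset.card_insert_of_notMem hj]; exact hμ)
    let ξ' : Finset (Fin d) → ι → Lam d k := fun B =>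
      if B.card + 1 = n then ξ B - X.D *ᵥ ζ B else ξ B
    have hD' : ∀ B, X.D *ᵥ ξ' B = X.D *ᵥ ξ B := by
      intro B
      simp only [ξ']
      split_ifs
      · rw [mulVec_sub, X.D_D, sub_zero]
      · rfl
    refine ⟨ξ', by rw [hD', g0], fun A hA => ⟨?_, ?_, fun hne => ?_⟩, fun A hA => ?_⟩
    · simp only [ξ']
      split_ifs with h
      · exact (g1 A (by omega)).1.sub (VS.mulVec (pCh_pNum A) (hDch A) (hζnum A h))
      · exact (g1 A (by omega)).1
    · simp only [ξ']
      split_ifs with h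
      · exact (g1 A (by omega)).2.1.sub (X.inDeg_D (hζdeg A h))
      · exact (g1 A (by omega)).2.1
    · have e : wd ξ' A = wd ξ A := wd_congr fun B hB => if_neg (by omega)
      rw [hD', e]
      exact (g1 A (by omega)).2.2 hne
    · have e : wd ξ' A = wd (fun B => ξ B - X.D *ᵥ ζ B) A :=
        wd_congr fun B hB => if_pos (by omega)
      have e2 : wd ξ' A = X.D *ᵥ (ξ A - wd ζ A) - (X.D *ᵥ ξ A - wd ξ A) := by
        rw [e, wd_sub, ← mulVec_wd, mulVec_sub]; abel
      rw [e2]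
      refine VS.sub ?_ (((g1 A (by omega)).2.2 (Finset.card_pos.mp (by omega))).mono
        fun t a h => ⟨h.1, Or.inl h.2⟩)
      have h5 := VS.mulVec (pP_pDO q q A _) hD
        (hrow (n + 1) hn ξ (fun B hB => (g1 B hB.le).1) g2 A (by omega))
      have e3 : -(((n + 1) * q : ℕ) : ℤ) + q = -((n * q : ℕ) : ℤ) := by push_cast; ring
      rwa [e3] at h5
  have hall : ∀ m n, n + m = d → 1 ≤ n → P n := by
    intro m
    induction m with
    | zero => intro n hn _; rw [show n = d by omega]; exact hstart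
    | succ m ih => intro n hn h; exact hstep n h (by omega) (ih (n + 1) (by omega) (by omega))
  obtain ⟨ξ, g0, g1, g2⟩ := hall (d - 1) 1 (by omega) le_rfl
  have h5 := VS.mulVec (pP_pDO q q ∅ _) hD
    (hrow 1 hd ξ (fun B hB => (g1 B hB.le).1) g2 ∅ (by simp))
  rw [wd_apply, Finset.sum_empty, sub_zero, g0] at h5
  refine h5.mono fun t a h => ?_
  rcases h.2 with ⟨i, hi, -⟩ | h
  · simp at hi
  · simpa using h

end Vale.Agent.P202
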