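import Vale.Agent.P202.CohenA

/-! Job Cohen (see notes/P202.md): structure of complete equicharacteristic local rings.
C1 - C6a are in `CohenA.lean`. -/

open IsLocalRing

namespace Vale.Agent.P202

lemma aeval_homog_sub {K A σ : Type*} [CommRing K] [CommRing A] [Algebra K A] (u : σ → A)
    (c : σ → K) (w : A) (I I' : Ideal A) (hu : ∀ j, u j ∈ I) (hw : w ∈ I)
    (hc : ∀ j, u j - c j • w ∈ I') {n : ℕ} {G : MvPolynomial σ K} (hG : G.IsHomogeneous (n + 1)) :
    MvPolynomial.aeval u G - MvPolynomial.eval c G • w ^ (n + 1) ∈ I' * I ^ n := by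
  let D : ℕ → Ideal A := fun n => Nat.casesOn n ⊥ fun m => I' * I ^ m
  have hD : ∀ n, I * D n ≤ I' * I ^ n := fun n => by
    cases n with
    | zero => simp [D]
    | succ m => exact le_of_eq (by simp only [D]; ring)
  have h1 : ∀ m ∈ MvPolynomial.homogeneousSubmodule σ K 1, MvPolynomial.aeval u m ∈ I ∧
      MvPolynomial.aeval u m - MvPolynomial.eval c m • w ∈ I' := by
    intro m hm
    rw [MvPolynomial.homogeneousSubmodule_one_eq_span_X] at hm
    induction hm using Submodule.span_induction with
    | mem x hx => obtain ⟨j, rfl⟩ := hx; simpa using ⟨hu j, hc j⟩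
    | zero => simp
    | add x y _ _ hx hy =>
      refine ⟨by simpa using add_mem hx.1 hy.1, ?_⟩
      have := add_mem hx.2 hy.2
      rwa [← add_sub_add_comm, ← map_add, ← add_smul, ← map_add] at this
    | smul a x _ hx =>
      refine ⟨by simpa using I.smul_of_tower_mem a hx.1, ?_⟩
      have := I'.smul_of_tower_mem a hx.2
      rwa [smul_sub, ← map_smul, smul_smul, ← MvPolynomial.smul_eval] at this
  have hG' : G ∈ MvPolynomial.homogeneousSubmodule σ K 1 ^ (n + 1) := by
    rw [MvPolynomial.homogeneousSubmodule_one_pow]; exact hG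
  refine Submodule.pow_induction_on_left' _ (C := fun n G _ =>
    MvPolynomial.aeval u G - MvPolynomial.eval c G • w ^ n ∈ D n) ?_ ?_ ?_ hG'
  · intro r; simp [D, Algebra.smul_def]
  · intro x y i _ _ hx hy
    have := add_mem hx hy
    rwa [← add_sub_add_comm, ← map_add, ← add_smul, ← map_add] at this
  · intro m hm i x _ hx
    have := add_mem (hD i (Ideal.mul_mem_mul (h1 m hm).1 hx))
      ((I' * I ^ i).smul_of_tower_mem (MvPolynomial.eval c x)
        (Ideal.mul_mem_mul (h1 m hm).2 (Ideal.pow_mem_pow hw i)))
    refine (congrArg (· ∈ I' * I ^ i) ?_).mp this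
    simp only [map_mul, Algebra.smul_def, Nat.succ_eq_add_one]
    ring

section
variable {K A : Type*} [Field K] [CommRing A] [IsLocalRing A] [IsNoetherianRing A] [Algebra K A]

/-- C6b: minimal reductions. Any finite dimensional subspace generating a reduction of the
maximal ideal contains a subspace `W` with the same property all of whose bases are
analytically independent. -/
theorem exists_minimal_reduction [Infinite K] (V : Submodule K A) [Module.Finite K V]
    (hV : IsRed (Ideal.span (V : Set A)) (maximalIdeal A)) :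
    ∃ W : Submodule K A, W ≤ V ∧ IsRed (Ideal.span (W : Set A)) (maximalIdeal A) ∧
      ∀ (s : ℕ) (φ : PS s K →ₐ[K] A), LinearIndependent K (fun i => φ (MvPowerSeries.X i)) →
        Submodule.span K (Set.range fun i => φ (MvPowerSeries.X i)) = W →
        Function.Injective φ := by
  classical
  obtain ⟨W, hW⟩ := exists_minimalFor_of_wellFoundedLT
    (fun W : Submodule K A => W ≤ V ∧ IsRed (Ideal.span (W : Set A)) (maximalIdeal A))
    (fun W => Module.finrank K W) ⟨V, le_rfl, hV⟩
  refine ⟨W, hW.prop.1, hW.prop.2, fun s φ hli hsp => (injective_iff_map_eq_zero φ).2 fun F hF => ?_⟩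
  by_contra hF0
  set w : Fin s → A := fun i => φ (MvPowerSeries.X i) with hw
  set I := Ideal.span (Set.range w) with hI
  have hIW : Ideal.span (W : Set A) = I := by
    rw [← hsp]; exact Submodule.span_span_of_tower K A _
  have hIm : I ≤ maximalIdeal A := hIW ▸ hW.prop.2.1
  have hex : ∃ a, ∃ m : Fin s →₀ ℕ, m.degree = a ∧ MvPowerSeries.coeff m F ≠ 0 := by
    by_contra hn
    push Not at hn
    exact hF0 (MvPowerSeries.ext fun m => by simpa using hn _ m rfl)
  obtain ⟨m0, hm0, hm0'⟩ := Nat.find_spec hex
  have hmin : ∀ m : Fin s →₀ ℕ, m.degree < Nat.find hex → MvPowerSeries.coeff m F = 0 :=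
    fun m hm => by_contra fun h => Nat.find_min hex hm ⟨m, rfl, h⟩
  generalize Nat.find hex = a at hm0 hmin
  set G := MvPowerSeries.truncTotal (a + 1) F with hG
  have hGh : G.IsHomogeneous a := fun m hm => by
    rw [hG, MvPowerSeries.coeff_truncTotal_eq_ite] at hm
    change Finsupp.weight (fun _ => 1) m = a
    rw [← Finsupp.degree_eq_weight_one]
    split_ifs at hm with h
    · exact le_antisymm (by omega) (not_lt.1 fun h' => hm (hmin m h'))
    · exact absurd rfl hm
  have hG0 : G ≠ 0 := fun e => hm0' (by
    rw [← MvPowerSeries.coeff_truncTotal _ (show m0.degree < a + 1 by omega), ← hG, e]; simp)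
  have hφG : φ G = MvPolynomial.aeval w G := by
    have : φ.comp (MvPolynomial.coeToMvPowerSeries.algHom K) = MvPolynomial.aeval w :=
      MvPolynomial.algHom_ext fun i => by simp [hw]
    simpa using DFunLike.congr_fun this G
  have hGI : MvPolynomial.aeval w G ∈ I ^ (a + 1) := by
    have h1 : (G : PS s K) - F ∈ xI s K ^ (a + 1) := (mem_xI_pow_iff _ _).2 fun m hm => by
      rw [map_sub, MvPolynomial.coeff_coe, hG, MvPowerSeries.coeff_truncTotal _ hm, sub_self]
    have h2 := Ideal.mem_map_of_mem φ h1
    rwa [map_sub, hF, sub_zero, hφG, Ideal.map_pow, Ideal.map_span, ← Set.range_comp] at h2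
  obtain ⟨c, hc⟩ : ∃ c : Fin s → K, MvPolynomial.eval c G ≠ 0 := by
    by_contra hn
    push Not at hn
    exact hG0 (MvPolynomial.funext fun c => by simpa using hn c)
  cases a with
  | zero =>
    have e : G = MvPolynomial.C (G.coeff 0) :=
      MvPolynomial.totalDegree_eq_zero_iff_eq_C.1 (hGh.totalDegree hG0)
    rw [e, MvPolynomial.eval_C] at hc
    rw [e, MvPolynomial.aeval_C, zero_add, pow_one] at hGI
    exact hIm hGI ((Ne.isUnit hc).map _)
  | succ a =>
    obtain ⟨i, hi⟩ : ∃ i, c i ≠ 0 := by
      by_contra hn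
      push Not at hn
      rw [show c = 0 from funext hn, MvPolynomial.eval_zero, MvPolynomial.constantCoeff_eq] at hc
      exact hc (hGh.coeff_eq_zero (by simp))
    let b : {j // j ≠ i} → A := fun j => w j - c j • ((c i)⁻¹ • w i)
    set I' := Ideal.span (Set.range b) with hI'
    have hwI : ∀ j, w j ∈ I := fun j => Ideal.subset_span ⟨j, rfl⟩
    have hb : ∀ j, w j - c j • ((c i)⁻¹ • w i) ∈ I' := fun j => by
      by_cases h : j = i
      · rw [h, smul_smul, mul_inv_cancel₀ hi, one_smul, sub_self]; exact zero_mem _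
      · exact Ideal.subset_span ⟨⟨j, h⟩, rfl⟩
    have hv : (c i)⁻¹ • w i ∈ I := I.smul_of_tower_mem _ (hwI i)
    have hII : I' ≤ I := Ideal.span_le.2 (by
      rintro _ ⟨j, rfl⟩
      exact sub_mem (hwI j) (I.smul_of_tower_mem _ hv))
    have h1 := aeval_homog_sub w c _ I I' hwI hv hb hGh
    have h2 : ((c i)⁻¹ • w i) ^ (a + 1) ∈ I' * I ^ a ⊔ I ^ (a + 1 + 1) := by
      have := (I' * I ^ a ⊔ I ^ (a + 1 + 1)).smul_of_tower_mem (MvPolynomial.eval c G)⁻¹
        (sub_mem (Ideal.mem_sup_right hGI) (Ideal.mem_sup_left h1))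
      rwa [sub_sub_cancel, smul_smul, inv_mul_cancel₀ hc, one_smul] at this
    have h3 : I ^ (a + 1) ≤ I' * I ^ a := by
      refine Submodule.le_of_le_smul_of_le_jacobson_bot (I := maximalIdeal A)
        (IsNoetherian.noetherian _) (maximalIdeal_le_jacobson _) fun x hx => ?_
      obtain ⟨H, hH, rfl⟩ := (Ideal.mem_span_pow_iff_exists_isHomogeneous w x).1 hx
      have h4 := aeval_homog_sub (K := A) w (fun j => algebraMap K A (c j)) _ I I' hwI hv
        (fun j => by rw [algebraMap_smul]; exact hb j) hH
      rw [MvPolynomial.aeval_eq_eval] at h4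
      have h5 : I' * I ^ a ⊔ I ^ (a + 1 + 1) ≤ I' * I ^ a ⊔ maximalIdeal A • I ^ (a + 1) :=
        sup_le_sup_left (by rw [pow_succ', smul_eq_mul]; exact Ideal.mul_mono_left hIm) _
      have := add_mem (Ideal.mem_sup_left h4) (Submodule.smul_mem _
        (MvPolynomial.eval (fun j => algebraMap K A (c j)) H) (h5 h2))
      simpa using this
    have hW' : Submodule.span K (Set.range b) ≤ W := Submodule.span_le.2 (by
      rintro _ ⟨j, rfl⟩
      have : ∀ j, w j ∈ W := fun j => hsp ▸ Submodule.subset_span ⟨j, rfl⟩
      exact sub_mem (this j) (W.smul_mem _ (W.smul_mem _ (this i))))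
    have hred : IsRed (Ideal.span (Submodule.span K (Set.range b) : Set A)) (maximalIdeal A) := by
      rw [show Ideal.span (Submodule.span K (Set.range b) : Set A) = I' from
        Submodule.span_span_of_tower K A _]
      obtain ⟨e, he⟩ := hW.prop.2.pow_le
      obtain ⟨-, e', he'⟩ := hW.prop.2
      rw [hIW] at he'
      have key : ∀ j, maximalIdeal A ^ (j + e') ≤ I ^ j * maximalIdeal A ^ e' := fun j => by
        induction j with
        | zero => simp
        | succ j ih =>
          calc _ = maximalIdeal A ^ (j + e') * maximalIdeal A := by ring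
            _ ≤ I ^ j * maximalIdeal A ^ e' * maximalIdeal A := Ideal.mul_mono_left ih
            _ = I ^ j * maximalIdeal A ^ (e' + 1) := by ring
            _ ≤ I ^ j * (I * maximalIdeal A ^ e') := Ideal.mul_mono_right he'
            _ = _ := by ring
      refine ⟨hII.trans hIm, a + e', ?_⟩
      calc _ = maximalIdeal A ^ (a + 1 + e') := by ring
        _ ≤ I ^ (a + 1) * maximalIdeal A ^ e' := key _
        _ ≤ I' * maximalIdeal A ^ a * maximalIdeal A ^ e' := Ideal.mul_mono_left
          (h3.trans (Ideal.mul_mono_right (Ideal.pow_right_mono hIm a)))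
        _ = _ := by ring
    have h6 := hW.le_of_le (j := Submodule.span K (Set.range b)) ⟨hW'.trans hW.prop.1, hred⟩
    have h7 : Module.finrank K W = s := by rw [← hsp, finrank_span_eq_card hli]; simp
    have h8 : Module.finrank K (Submodule.span K (Set.range b)) ≤ s - 1 := by
      simpa [Set.finrank] using finrank_range_le_card (R := K) b
    have := i.pos
    simp only [h7] at h6
    omega

end

lemma ringKrullDim_PS (d : ℕ) (K : Type*) [Field K] : ringKrullDim (PS d K) = d := by
  apply le_antisymm
  · refine (ringKrullDim_le_spanFinrank_maximalIdeal _).trans ?_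
    rw [maximalIdeal_PS]
    have := Submodule.spanFinrank_span_le_ncard_of_finite (R := PS d K)
      (Set.finite_range (MvPowerSeries.X : Fin d → PS d K))
    have h2 : (Set.range (MvPowerSeries.X : Fin d → PS d K)).ncard ≤ d := by
      simpa using Set.ncard_image_le (f := (MvPowerSeries.X : Fin d → PS d K)) (s := Set.univ)
    exact_mod_cast this.trans h2
  · induction d with
    | zero => exact ringKrullDim_nonneg_of_nontrivial
    | succ d ih =>
      rw [ringKrullDim_eq_of_ringEquiv (MvPowerSeries.finSuccEquiv K d).toRingEquiv]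
      refine le_trans ?_ ringKrullDim_succ_le_ringKrullDim_powerseries
      push_cast
      gcongr

lemma ringKrullDim_eq_of_integral {R S : Type*} [CommRing R] [CommRing S] [Algebra R S]
    [Algebra.IsIntegral R S] (h : Function.Injective (algebraMap R S)) :
    ringKrullDim S = ringKrullDim R := by
  apply le_antisymm
  · exact Order.krullDim_le_of_strictMono (PrimeSpectrum.comap (algebraMap R S))
      fun P Q hPQ => Ideal.IsIntegral.comap_lt_comap hPQ
  · refine iSup_le fun l => ?_
    obtain ⟨Q, -, hQ, hQ'⟩ := Ideal.exists_ideal_over_prime_of_isIntegral (S := S)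
      l.head.asIdeal ⊥ (by
        rw [← RingHom.ker_eq_comap_bot, (RingHom.injective_iff_ker_eq_bot _).1 h]; exact bot_le)
    have : Q.LiesOver l.head.asIdeal := ⟨hQ'.symm⟩
    obtain ⟨L, hL, -⟩ := Ideal.exists_ltSeries_of_hasGoingUp l Q
    rw [← hL]
    exact Order.LTSeries.length_le_krullDim L

/-- C7: dimension of a finite extension of a power series ring. -/
theorem ringKrullDim_of_finite {d : ℕ} {K A : Type*} [Field K] [CommRing A]
    (φ : PS d K →+* A) (hφ : Function.Injective φ) (hf : φ.Finite) : ringKrullDim A = d := by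
  let := φ.toAlgebra
  have : Module.Finite (PS d K) A := hf
  rw [ringKrullDim_eq_of_integral (R := PS d K) hφ, ringKrullDim_PS]

/-- saturation of `J` with respect to the complement of a prime -/
def sat {P : Type*} [CommRing P] (q : Ideal P) [hq : q.IsPrime] (J : Ideal P) : Ideal P where
  carrier := {g | ∃ s ∉ q, s * g ∈ J}
  zero_mem' := ⟨1, hq.one_notMem, by simp⟩
  add_mem' := fun {a b} ⟨s, hs, h⟩ ⟨t, ht, h'⟩ => ⟨s * t, fun e => (hq.mem_or_mem e).elim hs ht, by
    have := add_mem (J.mul_mem_left t h) (J.mul_mem_left s h')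
    rwa [show t * (s * a) + s * (t * b) = s * t * (a + b) by ring] at this⟩
  smul_mem' := fun c a ⟨s, hs, h⟩ => ⟨s, hs, by
    rw [smul_eq_mul, mul_left_comm]; exact J.mul_mem_left c h⟩

lemma sat_of_mul {P : Type*} [CommRing P] {q : Ideal P} [hq : q.IsPrime] {J : Ideal P} {s g : P}
    (hs : s ∉ q) (h : s * g ∈ sat q J) : g ∈ sat q J := by
  obtain ⟨t, ht, h⟩ := h
  exact ⟨t * s, fun e => (hq.mem_or_mem e).elim ht hs, by rwa [mul_assoc]⟩

lemma le_sat {P : Type*} [CommRing P] {q : Ideal P} [hq : q.IsPrime] {J : Ideal P} :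
    J ≤ sat q J := fun g hg => ⟨1, hq.one_notMem, by rwa [one_mul]⟩

open Polynomial in
lemma gen_step {P : Type*} [CommRing P] [IsLocalRing P] [IsAdicComplete (maximalIdeal P) P]
    (q : Ideal (PowerSeries P)) [hq : q.IsPrime]
    (hfin : ((Ideal.Quotient.mk q).comp PowerSeries.C).Finite) {h : ℕ} (y : Fin h → P)
    (hy : q.comap PowerSeries.C ≤ sat (q.comap PowerSeries.C) (Ideal.span (Set.range y))) :
    ∃ F ∈ q, q ≤ sat q (Ideal.span (insert F (Set.range fun i => PowerSeries.C (y i)))) := by
  set q0 := q.comap (PowerSeries.C (R := P))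
  obtain ⟨g, hg, hg0⟩ := hfin.to_isIntegral (Ideal.Quotient.mk q PowerSeries.X)
  have hgq : (g : PowerSeries P) ∈ q := by
    rwa [← Polynomial.hom_eval₂, Polynomial.eval₂_C_X_eq_coe, Ideal.Quotient.eq_zero_iff_mem] at hg0
  obtain ⟨F, hF⟩ := exists_minimalFor_of_wellFoundedLT
    (fun F : P[X] => (F : PowerSeries P) ∈ q ∧ F.leadingCoeff ∉ q0) natDegree
    ⟨g, hgq, by rw [hg.leadingCoeff]; exact (Ideal.comap_isPrime _ q).one_notMem⟩
  refine ⟨F, hF.prop.1, ?_⟩
  set J := sat q (Ideal.span (insert (F : PowerSeries P)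
    (Set.range fun i => PowerSeries.C (y i))))
  have hFJ : (F : PowerSeries P) ∈ J := le_sat (Ideal.subset_span (Or.inl rfl))
  have hC : ∀ a ∈ q0, PowerSeries.C a ∈ J := fun a ha => by
    obtain ⟨s, hs, h1⟩ := hy ha
    refine ⟨PowerSeries.C s, hs, ?_⟩
    have := Ideal.mem_map_of_mem (PowerSeries.C (R := P)) h1
    rw [map_mul, Ideal.map_span, ← Set.range_comp] at this
    exact Ideal.span_mono (Set.subset_insert _ _) this
  have key : ∀ r : P[X], (r : PowerSeries P) ∈ q → (r : PowerSeries P) ∈ J := by
    intro r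
    induction hn : r.natDegree using Nat.strong_induction_on generalizing r with
    | _ n ih =>
      intro hr
      rcases Nat.eq_zero_or_pos n with rfl | hpos
      · rw [Polynomial.eq_C_of_natDegree_eq_zero hn, Polynomial.coe_C] at hr ⊢
        exact hC _ hr
      by_cases hl : r.leadingCoeff ∈ q0
      · have e : (r : PowerSeries P) = (r.eraseLead : PowerSeries P) +
            PowerSeries.C r.leadingCoeff * PowerSeries.X ^ r.natDegree := by
          conv_lhs => rw [← r.eraseLead_add_C_mul_X_pow]
          rw [Polynomial.coe_add, Polynomial.coe_mul, Polynomial.coe_pow, Polynomial.coe_C,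
            Polynomial.coe_X]
        have h1 : (r.eraseLead : PowerSeries P) ∈ q := by
          rw [eq_sub_of_add_eq e.symm]
          exact sub_mem hr (q.mul_mem_right _ hl)
        rw [e]
        exact add_mem (ih _ (by have := r.eraseLead_natDegree_le; omega) _ rfl h1)
          (J.mul_mem_right _ (hC _ hl))
      · have hle : F.natDegree ≤ r.natDegree := by
          by_contra hlt
          exact hlt (hF.le_of_le ⟨hr, hl⟩ (not_le.1 hlt).le)
        have e : (F.cancelLeads r : PowerSeries P) =
            PowerSeries.C F.leadingCoeff * (r : PowerSeries P) - PowerSeries.C r.leadingCoeff *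
            PowerSeries.X ^ (r.natDegree - F.natDegree) * (F : PowerSeries P) := by
          simp [cancelLeads, Nat.sub_eq_zero_of_le hle]
        have h1 := ih _ (hn ▸ natDegree_cancelLeads_lt_of_natDegree_le_natDegree hle (hn ▸ hpos))
          _ rfl (e ▸ sub_mem (q.mul_mem_left _ hr) (q.mul_mem_left _ hF.prop.1))
        rw [e] at h1
        have h2 := add_mem h1 (J.mul_mem_left
          (PowerSeries.C r.leadingCoeff * PowerSeries.X ^ (r.natDegree - F.natDegree)) hFJ)
        rw [sub_add_cancel] at h2
        exact sat_of_mul hF.prop.2 h2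
  intro f hf
  obtain ⟨u, r, -, e⟩ := PowerSeries.exists_isWeierstrassDivision f (g := (g : PowerSeries P)) (by
    rw [← Polynomial.polynomial_map_coe, Ne, Polynomial.coe_eq_zero_iff]
    exact (hg.map _).ne_zero)
  have hr : (r : PowerSeries P) ∈ q := by
    rw [eq_sub_of_add_eq' e.symm]
    exact sub_mem hf (q.mul_mem_right _ hgq)
  rw [e]
  exact add_mem (J.mul_mem_right _ (key g hgq)) (key r hr)

lemma finSuccEquiv_rename {K : Type*} [CommRing K] {n : ℕ} (p : PS n K) :
    MvPowerSeries.finSuccEquiv K n (MvPowerSeries.rename Fin.succ p) = PowerSeries.C p := by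
  ext k x
  rw [MvPowerSeries.coeff_coeff_finSuccEquiv, PowerSeries.coeff_C]
  split_ifs with h
  · subst h
    rw [← MvPowerSeries.coeff_embDomain_rename (Fin.succEmb n) p x]
    refine congrArg (fun m => MvPowerSeries.coeff m _) ?_
    ext i
    cases i using Fin.cases with
    | zero => simp [Finsupp.embDomain_of_notMem_range]
    | succ i => simpa using (Finsupp.embDomain_apply_self (Fin.succEmb n) x i).symm
  · rw [MvPowerSeries.coeff_rename_eq_zero, map_zero]
    rintro ⟨m, hm⟩
    have := DFunLike.congr_fun hm 0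
    rw [Finsupp.mapDomain_of_notMem_range _ _ (by simp), Finsupp.cons_zero] at this
    exact h this.symm

lemma gen_aux {K : Type*} [Field K] (f h : ℕ) : ∀ (n : ℕ) (e : Fin f → Fin n)
    (_ : ∀ i, (e i).val = h + i) (_ : n = h + f) (q : Ideal (PS n K)) [q.IsPrime]
    (_ : Function.Injective ((Ideal.Quotient.mk q).comp
      (MvPowerSeries.rename (R := K) e).toRingHom))
    (_ : ((Ideal.Quotient.mk q).comp (MvPowerSeries.rename (R := K) e).toRingHom).Finite),
    ∃ y : Fin h → PS n K, (∀ i, y i ∈ q) ∧ q ≤ sat q (Ideal.span (Set.range y)) := by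
  induction h with
  | zero =>
    intro n e he hn q _ hinj _
    obtain rfl : n = f := by omega
    obtain rfl : e = id := funext fun i => Fin.ext (by simpa using he i)
    refine ⟨Fin.elim0, fun i => i.elim0, fun g hg => ?_⟩
    have : g = 0 := hinj (by simpa [Ideal.Quotient.eq_zero_iff_mem] using hg)
    rw [this]; exact zero_mem _
  | succ h ih =>
    intro n e he hn q hq hinj hfin
    obtain ⟨n, rfl⟩ : ∃ m, n = m + 1 := ⟨h + f, by omega⟩
    let e' : Fin f → Fin n := fun i => ⟨h + i, by omega⟩
    obtain rfl : e = Fin.succ ∘ e' := funext fun i => Fin.ext (by simp [he, e']; omega)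
    let E := (MvPowerSeries.finSuccEquiv K n).toRingEquiv
    let q' : Ideal (PowerSeries (PS n K)) := q.comap E.symm.toRingHom
    let ι : PS n K →+* PS (n + 1) K := (MvPowerSeries.rename (R := K) Fin.succ).toRingHom
    have hι : ∀ p, E.symm (PowerSeries.C p) = ι p := fun p =>
      E.symm_apply_eq.2 (finSuccEquiv_rename p).symm
    have hq0 : q'.comap PowerSeries.C = q.comap ι := Ideal.ext fun p => by
      simp only [q', Ideal.mem_comap]
      rw [← hι]; rfl
    have hc : (Ideal.Quotient.mk q).comp (MvPowerSeries.rename (R := K) (Fin.succ ∘ e')).toRingHom =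
        (Ideal.quotientMap q ι le_rfl).comp ((Ideal.Quotient.mk (q.comap ι)).comp
          (MvPowerSeries.rename (R := K) e').toRingHom) := RingHom.ext fun p => by
      exact congrArg (Ideal.Quotient.mk q) (MvPowerSeries.rename_rename e' Fin.succ p).symm
    rw [hc] at hinj hfin
    obtain ⟨y, hy, hy'⟩ := ih n e' (fun _ => rfl) (by omega) (q.comap ι)
      (Function.Injective.of_comp (f := Ideal.quotientMap q ι le_rfl) hinj) (by
        algebraize [(Ideal.Quotient.mk (q.comap ι)).comp
          (MvPowerSeries.rename (R := K) e').toRingHom, Ideal.quotientMap q ι le_rfl,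
          (Ideal.quotientMap q ι le_rfl).comp ((Ideal.Quotient.mk (q.comap ι)).comp
          (MvPowerSeries.rename (R := K) e').toRingHom)]
        exact Module.Finite.of_injective
          (IsScalarTower.toAlgHom (PS f K) (PS n K ⧸ q.comap ι) (PS (n + 1) K ⧸ q)).toLinearMap
          Ideal.quotientMap_injective)
    have hfin' : ((Ideal.Quotient.mk q').comp PowerSeries.C).Finite := by
      have h1 : ((Ideal.Quotient.mk q).comp ι).Finite := by
        rw [← RingHom.comp_assoc, Ideal.quotientMap_comp_mk] at hfin
        exact RingHom.Finite.of_comp_finite hfin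
      have h2 : q' = q.map E.toRingHom := (Ideal.map_comap_of_equiv E).symm
      have h3 := (RingHom.Finite.of_surjective (Ideal.quotientEquiv q q' E h2).toRingHom
        (Ideal.quotientEquiv q q' E h2).surjective).comp h1
      have h4 : (Ideal.quotientEquiv q q' E h2).toRingHom.comp ((Ideal.Quotient.mk q).comp ι) =
          (Ideal.Quotient.mk q').comp PowerSeries.C := RingHom.ext fun p =>
        congrArg (Ideal.Quotient.mk q') (finSuccEquiv_rename p)
      exact h4 ▸ h3
    obtain ⟨F, hF, hF'⟩ := gen_step q' hfin' y (by simpa only [hq0] using hy')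
    refine ⟨Fin.cons (E.symm F) fun i => ι (y i), fun i => Fin.cases hF hy i, fun g hg => ?_⟩
    obtain ⟨s, hs, h1⟩ := hF' (show E g ∈ q' by simpa [q'] using hg)
    refine ⟨E.symm s, hs, ?_⟩
    have := Ideal.mem_map_of_mem E.symm h1
    rw [map_mul, E.symm_apply_apply, Ideal.map_span, Set.image_insert_eq, ← Set.range_comp] at this
    rw [Fin.range_cons]
    simpa only [Function.comp_def, hι] using this

/-- C8: a prime `q` of the power series ring in `f + h` variables such that the quotient is finite
over the power series ring in the last `f` variables, which it meets trivially, is generated by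
`h` elements after localization. -/
theorem exists_generators_localization {K : Type*} [Field K] (f h : ℕ) (q : Ideal (PS (h + f) K))
    [q.IsPrime]
    (hinj : Function.Injective ((Ideal.Quotient.mk q).comp
      (MvPowerSeries.rename (R := K) (Fin.natAdd h : Fin f → Fin (h + f))).toRingHom))
    (hfin : ((Ideal.Quotient.mk q).comp
      (MvPowerSeries.rename (R := K) (Fin.natAdd h : Fin f → Fin (h + f))).toRingHom).Finite) :
    ∃ y : Fin h → Localization.AtPrime q,
      maximalIdeal (Localization.AtPrime q) = Ideal.span (Set.range y) := by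
  obtain ⟨y, hy, hy'⟩ := gen_aux f h _ _ (fun _ => rfl) rfl q hinj hfin
  refine ⟨fun i => algebraMap _ _ (y i), ?_⟩
  rw [← Localization.AtPrime.map_eq_maximalIdeal]
  refine le_antisymm (Ideal.map_le_iff_le_comap.2 fun g hg => ?_) (Ideal.span_le.2 ?_)
  · obtain ⟨s, hs, h1⟩ := hy' hg
    have := Ideal.mem_map_of_mem (algebraMap _ (Localization.AtPrime q)) h1
    rw [map_mul, Ideal.map_span, ← Set.range_comp, Ideal.unit_mul_mem_iff_mem _
      (IsLocalization.map_units _ (⟨s, hs⟩ : q.primeCompl))] at this
    exact this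
  · rintro _ ⟨i, rfl⟩
    exact Ideal.mem_map_of_mem _ (hy i)

end Vale.Agent.P202
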