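import Vale.Agent.P202.Basic

/-! Job Cohen, part A: formal smoothness over perfect fields, evaluation of power series. -/

open IsLocalRing

namespace Vale.Agent.P202

/-- Geddes: sections of square-zero extensions of a field of characteristic `p`. -/
lemma geddes {A l : Type*} [CommRing A] [Field l] (p : ℕ) [hp : Fact p.Prime] [CharP A p]
    (π : A →+* l) (hπ : Function.Surjective π) (h0 : ∀ a, π a = 0 → a * a = 0) :
    ∃ s : l →+* A, (∀ x, π (s x) = x) ∧ ∀ a, s (π a ^ p) = a ^ p := by
  have : CharP l p := by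
    refine (CharP.charP_iff_prime_eq_zero hp.out).2 ?_
    rw [← map_natCast π, CharP.cast_eq_zero, map_zero]
  have hk : ∀ a ∈ RingHom.ker π, frobenius A p a = 0 := fun a ha => by
    obtain ⟨m, hm⟩ := Nat.exists_eq_add_of_le hp.out.two_le
    rw [frobenius_def, hm, pow_add, sq, h0 a ha, zero_mul]
  let σ : l →+* A := π.liftOfSurjective hπ ⟨frobenius A p, hk⟩
  have hσ : ∀ a, σ (π a) = a ^ p := fun a => π.liftOfSurjective_comp_apply hπ _ a
  have hrange : ∀ {F : Type _} [Field F] (g : F →+* A), ∀ a ∈ g.range, a ≠ 0 →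
      ∃ b ∈ g.range, a * b = 1 := by
    rintro F _ g _ ⟨x, rfl⟩ hx
    have : x ≠ 0 := fun e => hx (by rw [e, map_zero])
    exact ⟨g x⁻¹, ⟨_, rfl⟩, by rw [← map_mul, mul_inv_cancel₀ this, map_one]⟩
  have hrange' : ∀ {F : Type _} [Field F] (g : F →+* A), ∀ a ∈ g.range, a ≠ 0 →
      ∃ b ∈ g.range, a * b = 1 := by
    rintro F _ g _ ⟨x, rfl⟩ hx
    have : x ≠ 0 := fun e => hx (by rw [e, map_zero])
    exact ⟨g x⁻¹, ⟨_, rfl⟩, by rw [← map_mul, mul_inv_cancel₀ this, map_one]⟩
  obtain ⟨S, hS1, hS⟩ := zorn_le_nonempty₀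
    {S : Subring A | ∀ a ∈ S, a ≠ 0 → ∃ b ∈ S, a * b = 1} (fun c hc hch y hy => by
      refine ⟨sSup c, fun a ha ha0 => ?_, fun z hz => le_sSup hz⟩
      obtain ⟨T, hT, haT⟩ := (Subring.mem_sSup_of_directedOn ⟨y, hy⟩ hch.directedOn).1 ha
      obtain ⟨b, hb, e⟩ := hc hT a haT ha0
      exact ⟨b, le_sSup (α := Subring A) hT hb, e⟩) σ.range (hrange σ)
  have hnt : Nontrivial A := π.domain_nontrivial
  have hF : IsField S := ⟨exists_pair_ne S, mul_comm, fun {a} ha => by
    obtain ⟨b, hb, e⟩ := hS.prop a a.2 fun e => ha (Subtype.ext e)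
    exact ⟨⟨b, hb⟩, Subtype.ext e⟩⟩
  let := hF.toField
  have hpS : ∀ a, a ^ p ∈ S := fun a => hS1 ⟨π a, hσ a⟩
  have hsurj : Function.Surjective (π.comp S.subtype) := by
    intro x
    by_contra hx
    obtain ⟨a, rfl⟩ := hπ x
    have hirr : Irreducible (Polynomial.X ^ p - Polynomial.C (⟨a ^ p, hpS a⟩ : S)) :=
      X_pow_sub_C_irreducible_of_prime hp.out fun b hb => hx ⟨b, frobenius_inj l p (by
        have := congrArg (π.comp S.subtype) hb
        simpa [frobenius_def] using this)⟩
    have := Fact.mk hirr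
    let g := AdjoinRoot.lift (f := Polynomial.X ^ p - Polynomial.C (⟨a ^ p, hpS a⟩ : S))
      S.subtype a (by simp)
    have hle : S ≤ g.range := fun b hb => ⟨AdjoinRoot.of _ ⟨b, hb⟩, AdjoinRoot.lift_of _⟩
    exact hx ⟨⟨a, hS.le_of_ge (hrange' g) hle ⟨AdjoinRoot.root _, AdjoinRoot.lift_root _⟩⟩, rfl⟩
  let e := RingEquiv.ofBijective (π.comp S.subtype) ⟨RingHom.injective _, hsurj⟩
  refine ⟨S.subtype.comp e.symm.toRingHom, fun x => e.apply_symm_apply x, fun a => ?_⟩
  have : e.symm (π a ^ p) = ⟨a ^ p, hpS a⟩ := e.symm_apply_eq.2 (map_pow π a p).symm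
  simp [this]

/-- C1: any field extension of a perfect field is formally smooth. -/
theorem formallySmooth_of_perfectField (k l : Type*) [Field k] [PerfectField k] [Field l]
    [Algebra k l] : Algebra.FormallySmooth k l := by
  obtain ⟨p, hp⟩ := CharP.exists k
  rcases CharP.char_is_prime_or_zero k p with hpp | rfl
  · have := Fact.mk hpp
    let f : MvPolynomial l k →ₐ[k] l := MvPolynomial.aeval id
    have hf : Function.Surjective f := fun x => ⟨MvPolynomial.X x, by simp [f]⟩
    have surj : Function.Surjective f.kerSquareLift :=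
      Ideal.Quotient.lift_surjective_of_surjective _ _ hf
    have hnt : Nontrivial (MvPolynomial l k ⧸ RingHom.ker f.toRingHom ^ 2) :=
      f.kerSquareLift.toRingHom.domain_nontrivial
    have : CharP (MvPolynomial l k ⧸ RingHom.ker f.toRingHom ^ 2) p :=
      charP_of_injective_algebraMap (algebraMap k _).injective p
    obtain ⟨s, hs, hs'⟩ := geddes p f.kerSquareLift.toRingHom surj fun a ha => by
      obtain ⟨a, rfl⟩ := Ideal.Quotient.mk_surjective a
      rw [← map_mul, Ideal.Quotient.eq_zero_iff_mem, sq]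
      exact Ideal.mul_mem_mul ha ha
    refine Algebra.FormallySmooth.of_split f ⟨s, fun c => ?_⟩ (AlgHom.ext hs)
    have : ExpChar k p := ExpChar.prime hpp
    obtain ⟨d, rfl⟩ := surjective_frobenius k p c
    have := hs' (algebraMap k _ d)
    rw [frobenius_def, map_pow, map_pow, ← this]
    exact congrArg (fun x => s (x ^ p)) (f.kerSquareLift.commutes d).symm
  · have := CharP.charP_to_charZero k
    obtain ⟨s, hs⟩ := exists_isTranscendenceBasis k l
    have := hs.isAlgebraic_field
    exact .of_algebraicIndependent_of_isSeparable hs.1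

/-- C2: evaluation of power series at topologically nilpotent elements. -/
theorem exists_evalPS {K A : Type*} [CommRing K] [CommRing A] [Algebra K A] (I : Ideal A)
    [IsAdicComplete I A] {d : ℕ} (y : Fin d → A) (hy : ∀ i, y i ∈ I.radical) :
    ∃ φ : PS d K →ₐ[K] A, ∀ i, φ (MvPowerSeries.X i) = y i := by
  obtain ⟨e, he⟩ := Ideal.exists_pow_le_of_le_radical_of_fg
    (Ideal.span_le.2 (Set.range_subset_iff.2 hy)) (Submodule.fg_span (Set.finite_range y))
  have hker : ∀ n, ∀ a ∈ MvPolynomial.idealOfVars (Fin d) K ^ (e * n),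
      MvPolynomial.aeval y a ∈ I ^ n := fun n a ha => by
    have := Ideal.mem_map_of_mem (MvPolynomial.aeval (R := K) y) ha
    rw [Ideal.map_pow, MvPolynomial.idealOfVars, Ideal.map_span, ← Set.range_comp, pow_mul] at this
    refine Ideal.pow_right_mono ?_ n this
    simpa [Function.comp_def] using he
  let f : ∀ n, PS d K →ₐ[K] A ⧸ I ^ n := fun n =>
    (Ideal.Quotient.liftₐ _ ((Ideal.Quotient.mkₐ K (I ^ n)).comp (MvPolynomial.aeval y))
      fun a ha => Ideal.Quotient.eq_zero_iff_mem.2 (hker n a ha)).comp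
      ((MvPowerSeries.truncTotalAlgHom (Fin d) K (e * n)).restrictScalars K)
  have hf : ∀ n p, f n p = Ideal.Quotient.mk _
      (MvPolynomial.aeval y (MvPowerSeries.truncTotal (e * n) p)) := fun n p => rfl
  refine ⟨IsAdicComplete.liftAlgHom I f fun {m n} hle => AlgHom.ext fun p => ?_, fun i => ?_⟩
  · rw [AlgHom.comp_apply, hf, hf]
    refine Ideal.Quotient.eq.2 ?_
    rw [← map_sub]
    exact hker m _ (MvPowerSeries.truncTotal_sub_truncTotal_mem_pow_idealOfVars
      (Nat.mul_le_mul_left e hle) le_rfl p)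
  · refine IsHausdorff.eq_iff_smodEq (I := I) |>.2 fun n => ?_
    rw [SModEq.sub_mem, smul_eq_mul, Ideal.mul_top, ← Ideal.Quotient.eq,
      IsAdicComplete.mk_liftAlgHom]
    have := (MvPowerSeries.truncTotalAlgHom (Fin d) K (e * n)).commutes (MvPolynomial.X i)
    simp only [f, AlgHom.comp_apply, AlgHom.restrictScalars_apply]
    rw [← MvPolynomial.coe_X]
    refine (congrArg _ this).trans ?_
    exact congrArg (Ideal.Quotient.mk _) (MvPolynomial.aeval_X y i)

/-- C3: coefficient fields. -/
theorem exists_coeffField (k A : Type*) [Field k] [PerfectField k] [CommRing A] [IsLocalRing A]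
    [Algebra k A] [IsAdicComplete (maximalIdeal A) A] :
    ∃ ι : ResidueField A →ₐ[k] A, ∀ a, residue A (ι a) = a := by
  have := formallySmooth_of_perfectField k (ResidueField A)
  obtain ⟨g, hg⟩ := Algebra.FormallySmooth.exists_mkₐ_comp_eq_of_isAdicComplete
    (I := maximalIdeal A) (AlgHom.id k (ResidueField A))
  exact ⟨g, fun a => DFunLike.congr_fun hg a⟩

lemma isPrecomplete_pi {R : Type*} [CommRing R] (I : Ideal R) [IsPrecomplete I R] (n : ℕ) :
    IsPrecomplete I (Fin n → R) := by
  classical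
  have key : ∀ (J : Ideal R) (x : Fin n → R), x ∈ (J • ⊤ : Submodule R (Fin n → R)) ↔
      ∀ i, x i ∈ J := fun J x => by
    constructor
    · intro hx i
      refine Submodule.smul_induction_on hx (fun r hr m _ => J.mul_mem_right _ hr)
        fun a b ha hb => add_mem ha hb
    · intro hx
      rw [← Finset.univ_sum_single x]
      refine Submodule.sum_mem _ fun i _ => ?_
      rw [← mul_one (x i), ← smul_eq_mul, Pi.single_smul]
      exact Submodule.smul_mem_smul (hx i) trivial
  refine ⟨fun f hf => ?_⟩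
  choose L hL using fun i => IsPrecomplete.prec (I := I) ‹_› (f := fun m => f m i) fun {a b} h => by
    simpa [SModEq.sub_mem] using (key _ _).1 (SModEq.sub_mem.1 (hf h)) i
  exact ⟨L, fun m => SModEq.sub_mem.2 ((key _ _).2 fun i => by
    simpa [SModEq.sub_mem] using hL i m)⟩

/-- C4: complete Nakayama. -/
theorem finite_of_isHausdorff {d : ℕ} {K : Type*} [Field K] (M : Type*) [AddCommGroup M]
    [Module (PS d K) M] [IsHausdorff (xI d K) M]
    [Module.Finite (PS d K) (M ⧸ (xI d K • ⊤ : Submodule (PS d K) M))] :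
    Module.Finite (PS d K) M := by
  obtain ⟨n, f, hf⟩ := Module.Finite.exists_fin' (PS d K)
    (M ⧸ (xI d K • ⊤ : Submodule (PS d K) M))
  obtain ⟨g, hg⟩ := Module.projective_lifting_property (Submodule.mkQ _) f
    (Submodule.mkQ_surjective _)
  have := isPrecomplete_pi (xI d K) n
  exact Module.Finite.of_surjective g
    (surjective_of_mkQ_comp_surjective (I := xI d K) (hg ▸ hf))

/-- C5: a complete local ring with a coefficient field and finitely generated maximal ideal
is Noetherian. -/
theorem isNoetherianRing_of_complete (K A : Type*) [Field K] [CommRing A] [IsLocalRing A]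
    [Algebra K A] [IsAdicComplete (maximalIdeal A) A] (hfg : (maximalIdeal A).FG)
    (hK : Function.Surjective (algebraMap K (ResidueField A))) : IsNoetherianRing A := by
  obtain ⟨n, y, hy⟩ := Submodule.fg_iff_exists_fin_generating_family.1 hfg
  obtain ⟨φ, hφ⟩ := exists_evalPS (K := K) (maximalIdeal A) y fun i =>
    Ideal.le_radical (hy ▸ Submodule.subset_span ⟨i, rfl⟩)
  have e : (xI n K).map φ.toRingHom = maximalIdeal A := by
    rw [Ideal.map_span, ← Set.range_comp, ← hy]
    exact congrArg (fun f => Ideal.span (Set.range f)) (funext hφ)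
  refine isNoetherianRing_of_surjective (PS n K) A φ.toRingHom
    (surjective_of_mk_map_comp_surjective (I := xI n K) _ (haus := by rw [e]; infer_instance) ?_)
  rw [e]
  intro x
  obtain ⟨c, rfl⟩ := hK x
  exact ⟨algebraMap K _ c, congrArg (Ideal.Quotient.mk _) (φ.commutes c)⟩

/-- A finite module over a power series ring is complete. -/
theorem isAdicComplete_of_finite {d : ℕ} {K : Type*} [Field K] (M : Type*) [AddCommGroup M]
    [Module (PS d K) M] [Module.Finite (PS d K) M] : IsAdicComplete (xI d K) M := by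
  have h1 : IsHausdorff (xI d K) M := by rw [← maximalIdeal_PS]; infer_instance
  have h2 : IsPrecomplete (xI d K) M := by
    obtain ⟨n, f, hf⟩ := Module.Finite.exists_fin' (PS d K) M
    rw [← AdicCompletion.of_surjective_iff]
    intro y
    obtain ⟨x, rfl⟩ := AdicCompletion.map_surjective (xI d K) hf y
    obtain ⟨x, rfl⟩ := AdicCompletion.of_surjective_iff.2 (isPrecomplete_pi (xI d K) n) x
    exact ⟨f x, (AdicCompletion.map_of _ _ _).symm⟩
  exact {}

section
variable {K A : Type*} [Field K] [CommRing A] [IsLocalRing A] [IsNoetherianRing A] [Algebra K A]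

lemma exists_fg_approx (hK : Function.Surjective (algebraMap K (ResidueField A))) (c : ℕ) :
    ∃ V : Submodule K A, V.FG ∧ ∀ a, ∃ v ∈ V, a - v ∈ maximalIdeal A ^ c := by
  induction c with
  | zero => exact ⟨⊥, Submodule.fg_bot, fun a => ⟨0, zero_mem _, by simp⟩⟩
  | succ c ih =>
    obtain ⟨V, hV, h⟩ := ih
    obtain ⟨s, hs⟩ := IsNoetherian.noetherian (maximalIdeal A ^ c)
    refine ⟨V ⊔ Submodule.span K s, hV.sup ⟨s, rfl⟩, fun a => ?_⟩
    obtain ⟨v, hv, ha⟩ := h a
    have key : ∀ x ∈ Submodule.span A (s : Set A), ∃ w ∈ Submodule.span K (s : Set A),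
        x - w ∈ maximalIdeal A ^ (c + 1) := by
      intro x hx
      obtain ⟨f, -, rfl⟩ := Submodule.mem_span_finset.1 hx
      choose g hg using fun z => hK (residue A (f z))
      refine ⟨∑ z ∈ s, g z • z, Submodule.sum_mem _ fun z hz =>
        Submodule.smul_mem _ _ (Submodule.subset_span hz), ?_⟩
      rw [← Finset.sum_sub_distrib, pow_succ']
      refine Submodule.sum_mem _ fun z hz => ?_
      rw [Algebra.smul_def (g z), smul_eq_mul, ← sub_mul]
      refine Ideal.mul_mem_mul ?_ (hs ▸ Submodule.subset_span hz)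
      rw [← residue_eq_zero_iff, map_sub, ← hg z, sub_eq_zero]
      rfl
    obtain ⟨w, hw, hx⟩ := key _ (hs ▸ ha)
    exact ⟨v + w, Submodule.add_mem_sup hv hw, by rwa [← sub_sub]⟩

/-- C6a: if `φ (X i)` generate an ideal primary to the maximal ideal, `A` is finite over the power
series ring. -/
theorem finite_of_primary (hK : Function.Surjective (algebraMap K (ResidueField A)))
    {d : ℕ} (φ : PS d K →ₐ[K] A) (hm : ∀ i, φ (MvPowerSeries.X i) ∈ maximalIdeal A) (c : ℕ)
    (hc : maximalIdeal A ^ c ≤ Ideal.span (Set.range fun i => φ (MvPowerSeries.X i))) :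
    φ.toRingHom.Finite := by
  let := φ.toRingHom.toAlgebra
  have : IsScalarTower K (PS d K) A := .of_algebraMap_eq fun c => (φ.commutes c).symm
  have e : (xI d K).map (algebraMap (PS d K) A) =
      Ideal.span (Set.range fun i => φ (MvPowerSeries.X i)) := by
    rw [Ideal.map_span, ← Set.range_comp]; rfl
  have : IsHausdorff (xI d K) A := IsHausdorff.of_map (J := maximalIdeal A)
    (e ▸ Ideal.span_le.2 (Set.range_subset_iff.2 hm))
  obtain ⟨V, ⟨s, rfl⟩, h⟩ := exists_fg_approx hK c
  have : Module.Finite (PS d K) (A ⧸ (xI d K • ⊤ : Submodule (PS d K) A)) := by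
    refine ⟨?_⟩
    have := (Submodule.fg_span (R := PS d K) s.finite_toSet).map
      (Submodule.mkQ (xI d K • ⊤ : Submodule (PS d K) A))
    suffices e : Submodule.map (Submodule.mkQ (xI d K • ⊤ : Submodule (PS d K) A))
      (Submodule.span (PS d K) s) = ⊤ from e ▸ this
    refine Submodule.eq_top_iff'.2 fun x => ?_
    obtain ⟨a, rfl⟩ := Submodule.mkQ_surjective _ x
    obtain ⟨v, hv, ha⟩ := h a
    refine ⟨v, Submodule.span_le_restrictScalars K _ _ hv, (Submodule.Quotient.eq _).2 ?_⟩
    rw [Ideal.smul_top_eq_map, Submodule.restrictScalars_mem, e, ← neg_sub]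
    exact neg_mem (hc ha)
  exact finite_of_isHausdorff A

end

end Vale.Agent.P202
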