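import Vale.Agent.P202.Basic

open Polynomial

namespace Vale.Agent.P202

lemma coeff_mem_of_mul {k B : Type*} [CommRing k] [CommRing B] [Algebra k B] (S : Subalgebra k B)
    {u : B} (hu : u ∈ S) {g f : B[X]} (h : (X - C u) * g = f) (hf : ∀ n, f.coeff n ∈ S) (n : ℕ) :
    g.coeff n ∈ S := by
  have key : ∀ m n, g.natDegree < n + m → g.coeff n ∈ S := by
    intro m
    induction m with
    | zero => intro n hn; rw [coeff_eq_zero_of_natDegree_lt (by simpa using hn)]; exact S.zero_mem
    | succ m ih =>
      intro n hn
      have h1 : f.coeff (n + 1) = g.coeff n - u * g.coeff (n + 1) := by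
        rw [← h, sub_mul, coeff_sub, coeff_X_mul, coeff_C_mul]
      have h2 : g.coeff n = f.coeff (n + 1) + u * g.coeff (n + 1) := by rw [h1]; ring
      rw [h2]
      exact S.add_mem (hf _) (S.mul_mem hu (ih _ (by omega)))
  exact key (g.natDegree + 1) n (by omega)

lemma exists_span_of_prod {k B : Type*} [Field k] [CommRing B] [Algebra k B] {d : ℕ}
    (u : Fin d → B) (hu : ∏ i, (X - C (u i)) = X ^ d) :
    ∃ c : Finset B, c.card ≤ d.factorial ∧
      (Algebra.adjoin k (Set.range u)).toSubmodule ≤ Submodule.span k (c : Set B) := by
  classical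
  rcases subsingleton_or_nontrivial B with hB | hB
  · exact ⟨∅, by simp, fun x _ => by rw [Subsingleton.elim x 0]; exact Submodule.zero_mem _⟩
  have key : ∀ j : ℕ, j ≤ d →
      (∀ n, (∏ i ∈ Finset.univ.filter (fun i : Fin d => j ≤ i.val), (X - C (u i))).coeff n ∈
        Algebra.adjoin k (u '' {i | i.val < j})) ∧
      ∃ c : Finset B, c.card ≤ d.descFactorial j ∧
        (Algebra.adjoin k (u '' {i | i.val < j})).toSubmodule ≤ Submodule.span k (c : Set B) := by
    intro j
    induction j with
    | zero =>
      intro _
      refine ⟨fun n => ?_, {1}, by simp, ?_⟩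
      · simp only [Nat.zero_le, Finset.filter_true, hu, coeff_X_pow]
        split_ifs
        · exact Subalgebra.one_mem _
        · exact Subalgebra.zero_mem _
      · simp [Algebra.toSubmodule_bot, Submodule.one_eq_span]
    | succ j ih =>
      intro hj
      obtain ⟨h1, c, hc, hspan⟩ := ih (by omega)
      set j' : Fin d := ⟨j, by omega⟩
      set S := Algebra.adjoin k (u '' {i | i.val < j})
      have hset : u '' {i | i.val < j + 1} = u '' {i | i.val < j} ∪ {u j'} := by
        rw [← Set.image_singleton, ← Set.image_union]
        congr 1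
        ext i
        simp only [Set.mem_ofPred_eq, Set.mem_union, Set.mem_singleton_iff, Fin.ext_iff, j']
        omega
      have hfil : Finset.univ.filter (fun i : Fin d => j ≤ i.val) =
          insert j' (Finset.univ.filter (fun i : Fin d => j + 1 ≤ i.val)) := by
        ext i
        simp only [Finset.mem_filter, Finset.mem_univ, true_and, Finset.mem_insert, Fin.ext_iff, j']
        omega
      have hnot : j' ∉ Finset.univ.filter (fun i : Fin d => j + 1 ≤ i.val) := by simp [j']
      have hle : S ≤ Algebra.adjoin k (u '' {i | i.val < j + 1}) :=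
        Algebra.adjoin_mono (by rw [hset]; exact Set.subset_union_left)
      have huj : u j' ∈ Algebra.adjoin k (u '' {i | i.val < j + 1}) :=
        Algebra.subset_adjoin (by rw [hset]; simp)
      refine ⟨fun n => coeff_mem_of_mul _ huj (f := ∏ i ∈ Finset.univ.filter
        (fun i : Fin d => j ≤ i.val), (X - C (u i))) ?_ (fun n => hle (h1 n)) n, ?_⟩
      · rw [hfil, Finset.prod_insert hnot]
      · set f := ∏ i ∈ Finset.univ.filter (fun i : Fin d => j ≤ i.val), (X - C (u i)) with hf
        have hmon : f.Monic := monic_prod_of_monic _ _ fun i _ => monic_X_sub_C _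
        have hdeg : f.natDegree = d - j := by
          rw [hf, natDegree_prod_of_monic _ _ fun i _ => monic_X_sub_C _]
          simp only [natDegree_X_sub_C, Finset.sum_const, smul_eq_mul, mul_one]
          have : Finset.univ.filter (fun i : Fin d => j ≤ i.val) = Finset.Ici j' := by
            ext i; simp [j', Fin.le_def]
          rw [this, Fin.card_Ici]
        have hlift : f ∈ lifts (algebraMap S B) := by
          rw [lifts_iff_coeff_lifts]
          intro n
          exact ⟨⟨_, h1 n⟩, rfl⟩
        obtain ⟨g, hg1, hg2, hg3⟩ := lifts_and_natDegree_eq_and_monic hlift hmon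
        have hroot : aeval (u j') g = 0 := by
          rw [aeval_def, ← eval_map, hg1, hf, hfil, Finset.prod_insert hnot]
          simp
        have hsp := Submodule.span_range_natDegree_eq_adjoin hg3 hroot
        refine ⟨Finset.image₂ (fun b s => b * u j' ^ s) c (Finset.range (d - j)), ?_, ?_⟩
        · refine Finset.card_image₂_le _ _ _ |>.trans ?_
          rw [Finset.card_range, Nat.descFactorial_succ, mul_comm]
          exact Nat.mul_le_mul_left _ hc
        · intro x hx
          rw [hset, Algebra.adjoin_union_eq_adjoin_adjoin] at hx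
          have hx' : x ∈ Subalgebra.toSubmodule (Algebra.adjoin S {u j'}) := hx
          rw [← hsp, hg2, hdeg] at hx'
          refine Submodule.span_induction ?_ ?_ ?_ ?_ (p := fun x _ => ∀ b ∈ S, b * x ∈
            Submodule.span k (Finset.image₂ (fun b s => b * u j' ^ s) c (Finset.range (d - j)) :
              Set B)) hx' 1 S.one_mem |> fun h => by simpa using h
          · intro y hy b hb
            obtain ⟨s, hs, rfl⟩ := Finset.mem_image.mp hy
            have := hspan hb
            refine Submodule.span_induction ?_ ?_ ?_ ?_ (p := fun b _ => b * u j' ^ s ∈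
              Submodule.span k (Finset.image₂ (fun b s => b * u j' ^ s) c (Finset.range (d - j)) :
              Set B)) this
            · intro b hb
              exact Submodule.subset_span (Finset.mem_image₂_of_mem hb hs)
            · simp
            · intro a b _ _ ha hb; rw [add_mul]; exact Submodule.add_mem _ ha hb
            · intro r a _ ha; rw [smul_mul_assoc]; exact Submodule.smul_mem _ r ha
          · simp
          · intro a b _ _ ha hb s hs; rw [mul_add]; exact Submodule.add_mem _ (ha s hs) (hb s hs)
          · intro r a _ ha s hs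
            have : s * r • a = (s * r) * a := by
              rw [Subalgebra.smul_def, smul_eq_mul, mul_assoc]
            rw [this]
            exact ha _ (S.mul_mem hs r.2)
  obtain ⟨-, c, hc, hspan⟩ := key d le_rfl
  refine ⟨c, by simpa [Nat.descFactorial_self] using hc, ?_⟩
  have : u '' {i | i.val < d} = Set.range u := by
    ext x; simp
  rwa [this] at hspan

/-- The elementary symmetric polynomials `e_1, ..., e_d`. -/
noncomputable def es (d : ℕ) (k : Type*) [CommRing k] (j : Fin d) : MvPolynomial (Fin d) k :=
  MvPolynomial.esymm (Fin d) k (j + 1)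

lemma exists_coinv (d : ℕ) (k : Type*) [Field k] :
    ∃ b : Finset (MvPolynomial (Fin d) k), b.card ≤ d.factorial ∧
      ∀ p : MvPolynomial (Fin d) k, ∃ (c : b → k) (r : Fin d → MvPolynomial (Fin d) k),
        p = ∑ x : b, c x • (x : MvPolynomial (Fin d) k) + ∑ j, r j * es d k j := by
  classical
  let I : Ideal (MvPolynomial (Fin d) k) := Ideal.span (Set.range (es d k))
  let π := Ideal.Quotient.mkₐ k I
  have hprod : ∏ i : Fin d, (X - C (π (MvPolynomial.X i))) = X ^ d := by
    ext n
    by_cases hn : n ≤ d
    · have := Multiset.prod_X_sub_C_coeff (Finset.univ.val.map fun i : Fin d => π (MvPolynomial.X i))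
        (k := n) (by simpa using hn)
      rw [Multiset.map_map] at this
      rw [Finset.prod, coeff_X_pow]
      refine this.trans ?_
      rw [← MvPolynomial.aeval_esymm_eq_multiset_esymm (Fin d) k]
      have h2 : ∀ p, MvPolynomial.aeval (fun i : Fin d => π (MvPolynomial.X i)) p = π p := by
        intro p
        have : MvPolynomial.aeval (fun i : Fin d => π (MvPolynomial.X i)) = π := by
          ext i; simp
        rw [this]
      rw [h2]
      simp only [Multiset.card_map, Finset.card_val, Finset.card_univ, Fintype.card_fin]
      split_ifs with h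
      · subst h; simp
      · have h3 : π (MvPolynomial.esymm (Fin d) k (d - n)) = 0 := by
          rw [Ideal.Quotient.mkₐ_eq_mk, Ideal.Quotient.eq_zero_iff_mem]
          refine Ideal.subset_span ⟨⟨d - n - 1, by omega⟩, ?_⟩
          simp only [es]
          congr 1; omega
        rw [h3, mul_zero]
    · rw [coeff_X_pow, if_neg (by omega), coeff_eq_zero_of_natDegree_lt]
      refine lt_of_le_of_lt (natDegree_prod_le _ _) ?_
      refine lt_of_le_of_lt (Finset.sum_le_sum fun i _ => natDegree_X_sub_C_le _) ?_
      simp; omega
  obtain ⟨c, hc, hspan⟩ := exists_span_of_prod (k := k) _ hprod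
  have hsurj : Function.Surjective π := Ideal.Quotient.mkₐ_surjective k I
  refine ⟨c.image (Function.surjInv hsurj), Finset.card_image_le.trans hc, fun p => ?_⟩
  have h1 : π p ∈ Submodule.span k (c : Set _) := by
    apply hspan
    have : Algebra.adjoin k (Set.range fun i : Fin d => π (MvPolynomial.X i)) =
        (Algebra.adjoin k (Set.range MvPolynomial.X)).map π := by
      rw [AlgHom.map_adjoin, ← Set.range_comp]; rfl
    rw [this, MvPolynomial.adjoin_range_X]
    exact ⟨p, trivial, rfl⟩
  have h2 : π p ∈ (Submodule.span k (c.image (Function.surjInv hsurj) : Set _)).map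
      π.toLinearMap := by
    rw [Submodule.map_span]
    refine Submodule.span_mono ?_ h1
    intro x hx
    exact ⟨Function.surjInv hsurj x, by simpa using ⟨x, hx, rfl⟩, Function.surjInv_eq hsurj x⟩
  obtain ⟨q, hq, hpq⟩ := h2
  obtain ⟨cc, hcc⟩ := Submodule.mem_span_finset'.mp hq
  have h3 : p - q ∈ I := by
    rw [← Ideal.Quotient.eq_zero_iff_mem, map_sub, sub_eq_zero]
    exact hpq.symm
  obtain ⟨r, hr⟩ := Ideal.mem_span_range_iff_exists_fun.mp h3
  refine ⟨cc, r, ?_⟩
  rw [hcc, hr]; ring

end Vale.Agent.P202
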