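import Vale.Agent.P202.Frob

/-! The characteristic `p` inequality. -/

open IsLocalRing
open scoped nonZeroDivisors

namespace Vale.Agent.P202

theorem coreDom (p : ℕ) [Fact p.Prime] {K K' : Type*} [Field K] [CharP K p] [PerfectField K]
    [Field K'] {d : ℕ} {R S ι : Type*} [CommRing R] [IsDomain R] [IsLocalRing R]
    [Algebra (PS d K) R] [Module.Finite (PS d K) R]
    (hinj : Function.Injective (algebraMap (PS d K) R)) (c : ℕ)
    (hred : ∀ j, maximalIdeal R ^ (j + c) ≤ (xI d K).map (algebraMap (PS d K) R) ^ j)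
    [CommRing S] [Nontrivial S] [Algebra R S] [Fintype ι] (b : Module.Basis ι R S)
    [Algebra (PS d K') S] [Module.Finite (PS d K') S] (a : ℕ)
    (hx : ∀ j, algebraMap R S (algebraMap (PS d K) R (MvPowerSeries.X j)) ^ a ∈
      (xI d K').map (algebraMap (PS d K') S))
    (hK : (Set.range fun k : K => algebraMap R S (algebraMap (PS d K) R (MvPowerSeries.C k))) =
      Set.range fun k : K' => algebraMap (PS d K') S (MvPowerSeries.C k)) :
    Module.finrank (PS d K) R ≤ Module.finrank (PS d K') S := by
  classical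
  have := isDomain_PSL d K
  have : CharP (PS d K) p := charP_of_injective_ringHom (MvPowerSeries.C (σ := Fin d)).injective p
  have : CharP R p := charP_of_injective_ringHom hinj p
  obtain ⟨g, hg, ⟨G⟩⟩ := exists_gen (PS d K) R
  obtain ⟨m, x, hxx⟩ := Module.Finite.exists_fin (R := PS d K) (M := R)
  obtain ⟨C, hC⟩ := length_quot_span_sup_pow_le _ (maximalIdeal_PS d K) (pow_ne_zero d hg)
  have hz : (xI d K').map (algebraMap (PS d K') S) ≠ ⊤ := by
    intro h
    refine Submodule.top_ne_ideal_smul_of_le_jacobson_annihilator (R := PS d K') (M := S)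
      (I := xI d K') ?_ ?_
    · rw [← maximalIdeal_PS]; exact maximalIdeal_le_jacobson _
    · rw [Ideal.smul_top_eq_map, h]; rfl
  by_cases he : Module.finrank (PS d K) R = 0
  · omega
  refine le_of_asymp (c := c) (sh := shift (g ^ 2)) (D := m * Fintype.card ι * (d * C))
    (k := d * a) (d := d) fun N => ?_
  obtain ⟨n, hn⟩ := pow_unbounded_of_one_lt (N + c) (Fact.out : p.Prime).one_lt
  refine ⟨p ^ n, by omega, ?_⟩
  let φ := iterateFrobenius R p n
  have hφ : ∀ r, φ r = r ^ p ^ n := fun r => rfl
  obtain ⟨v, hv⟩ := PS_frob_span p (d := d) (K := K) n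
  have hu₀ : ∀ r, ∃ c : Fin m × (Fin d → Fin (p ^ n)) → R, r = ∑ k, φ (c k) * (v k.2 • x k.1) := by
    intro r
    obtain ⟨f, rfl⟩ := (Submodule.mem_span_range_iff_exists_fun _).mp
      (hxx.ge (Submodule.mem_top : r ∈ _))
    choose c hc using fun l => hv (f l)
    refine ⟨fun k => algebraMap _ R (c k.1 k.2), ?_⟩
    rw [Fintype.sum_prod_type]
    refine Finset.sum_congr rfl fun l _ => ?_
    rw [hc l, Finset.sum_smul]
    refine Finset.sum_congr rfl fun i _ => ?_
    rw [hφ, ← map_pow, mul_smul, Algebra.smul_def]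
  obtain ⟨M, hM, u, γ, hγ, hu⟩ := exists_gen_basis φ _ hu₀ ((p ^ n) ^ d) fun M u hu => by
    have := card_le_of_indep (iterateFrobenius (PS d K) p n) _ v hv
      (fun k : Fin (Module.finrank (PS d K) R) × Fin M => G.α (φ (G.β (Pi.single k.1 1)) * u k.2))
      fun c hc => by
        have h1 := congrArg G.β hc
        simp only [map_sum, map_smul, G.βα, map_zero] at h1
        have h2 := hu (fun k => G.β fun l => c (l, k)) (by
          have hg' : algebraMap (PS d K) R g ≠ 0 := by rwa [ne_eq, map_eq_zero_iff _ hinj]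
          refine (mul_eq_zero_iff_left hg').mp ?_
          rw [← h1, Fintype.sum_prod_type_right, Finset.mul_sum]
          refine Finset.sum_congr rfl fun k _ => ?_
          rw [LinearMap.pi_apply_eq_sum_univ, map_sum, Finset.sum_mul, Finset.mul_sum]
          refine Finset.sum_congr rfl fun l _ => ?_
          rw [show (fun j => if l = j then (1 : PS d K) else 0) = Pi.single l 1 by
            ext j; simp [Pi.single_apply, eq_comm]]
          simp only [Algebra.smul_def, map_mul, hφ, iterateFrobenius_def, map_pow]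
          ring)
        rintro ⟨l, k⟩
        have h3 := congrFun (G.αβ fun l => c (l, k)) l
        rw [h2 k, map_zero] at h3
        exact (mul_eq_zero.mp h3.symm).resolve_left hg
    simp only [Fintype.card_prod, Fintype.card_fin, Fintype.card_pi, Finset.prod_const,
      Finset.card_univ] at this
    exact Nat.le_of_mul_le_mul_left this (by omega)
  let ε := Fintype.equivFin (Fin m × (Fin d → Fin (p ^ n)))
  have hfr : ∀ (k : K) (k' : K'), algebraMap (PS d K') S (MvPowerSeries.C k') =
      algebraMap R S (algebraMap (PS d K) R (MvPowerSeries.C k)) → ∃ r : R,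
      algebraMap (PS d K') S (MvPowerSeries.C k') = algebraMap R S r ∧
        φ r = algebraMap (PS d K) R (MvPowerSeries.C (k ^ p ^ n)) := fun k k' h =>
    ⟨_, h, by rw [hφ, map_pow, map_pow]⟩
  have h := step b hg G x hxx φ (fun j => algebraMap (PS d K) R (MvPowerSeries.X j) ^ a)
    (fun j => by rw [map_pow]; exact hx j) hz (a := a * p ^ n) (q := p ^ n - c)
    (fun j => by rw [hφ, ← pow_mul, map_pow])
    (fun r hr => by
      rw [Ideal.map_pow, hφ]
      apply hred
      rw [Nat.sub_add_cancel (by omega)]
      exact Ideal.pow_mem_pow hr _)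
    (fun k => v (ε.symm k).2 • x (ε.symm k).1) (fun r => by
      obtain ⟨c, hc⟩ := hu₀ r
      exact ⟨fun k => c (ε.symm k), by
        rw [hc, ← Equiv.sum_comp ε.symm]⟩)
    u γ (mem_nonZeroDivisors_iff_right.mpr fun s hs => b.ext_elem fun i => by
      have := congrArg (fun y => b.repr y i) hs
      simp only [mul_comm s, ← Algebra.smul_def, map_smul, Finsupp.smul_apply, smul_eq_mul,
        map_zero, Finsupp.zero_apply] at this
      simpa using (mul_eq_zero.mp this).resolve_left hγ) hu
    (fun k => by
      obtain ⟨k', hk⟩ := hK.le ⟨(iterateFrobeniusEquiv K p n).symm k, rfl⟩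
      have := hfr _ k' hk
      rw [← iterateFrobeniusEquiv_def, RingEquiv.apply_symm_apply] at this
      exact ⟨k', this⟩)
    (fun k' => by
      obtain ⟨k, hk⟩ := hK.ge ⟨k', rfl⟩
      exact ⟨_, hfr k k' hk.symm⟩) (hC _)
  refine h.trans (Nat.mul_le_mul_left _ (add_le_add (Nat.mul_le_mul_right _ hM) (le_of_eq ?_)))
  ring

lemma mem_map_iff_repr {R S ι : Type*} [CommRing R] [CommRing S] [Algebra R S] [Fintype ι]
    (b : Module.Basis ι R S) (I : Ideal R) (s : S) :
    s ∈ I.map (algebraMap R S) ↔ ∀ i, b.repr s i ∈ I := by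
  constructor
  · intro hs i
    have hr' : s ∈ (I • ⊤ : Submodule R S) := by rwa [Ideal.smul_top_eq_map]
    refine Submodule.smul_induction_on hr' (fun c hc x _ => ?_) (fun x y hx hy => ?_)
    · rw [map_smul]; exact I.mul_mem_right _ hc
    · rw [map_add]; exact add_mem hx hy
  · intro h
    rw [← b.sum_repr s]
    refine Ideal.sum_mem _ fun i _ => ?_
    rw [Algebra.smul_def]
    exact Ideal.mul_mem_right _ _ (Ideal.mem_map_of_mem _ (h i))

theorem coreFin (p : ℕ) [Fact p.Prime] {K K' : Type*} [Field K] [CharP K p] [PerfectField K]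
    [Field K'] {d : ℕ} {R S : Type*} [CommRing R] [IsLocalRing R] [Algebra (PS d K) R]
    [Module.Finite (PS d K) R] (c : ℕ)
    (hred : ∀ j, maximalIdeal R ^ (j + c) ≤ (xI d K).map (algebraMap (PS d K) R) ^ j)
    [CommRing S] [Nontrivial S] [Algebra R S] [Module.Free R S] [Module.Finite R S]
    [Algebra (PS d K') S] [Module.Finite (PS d K') S] (a : ℕ)
    (hx : ∀ j, algebraMap R S (algebraMap (PS d K) R (MvPowerSeries.X j)) ^ a ∈
      (xI d K').map (algebraMap (PS d K') S))
    (hK : (Set.range fun k : K => algebraMap R S (algebraMap (PS d K) R (MvPowerSeries.C k))) =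
      Set.range fun k : K' => algebraMap (PS d K') S (MvPowerSeries.C k)) :
    Module.finrank (PS d K) R ≤ Module.finrank (PS d K') S := by
  have := isDomain_PSL d K
  have := isDomain_PSL d K'
  have : IsNoetherianRing R := IsNoetherianRing.of_finite (PS d K) R
  let b := Module.Free.chooseBasis R S
  have hprime : ∀ I : Ideal R, I.IsPrime → Module.finrank (PS d K) (R ⧸ I) ≤
      Module.finrank (PS d K') (S ⧸ I.map (algebraMap R S)) := by
    intro I hI
    by_cases hinj : Function.Injective (algebraMap (PS d K) (R ⧸ I))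
    swap
    · rw [injective_iff_map_eq_zero] at hinj
      push Not at hinj
      obtain ⟨f, h1, h2⟩ := hinj
      rw [Module.finrank_eq_zero_iff.mpr fun y => ⟨f, h2, by rw [Algebra.smul_def, h1, zero_mul]⟩]
      exact Nat.zero_le _
    have : IsLocalRing (R ⧸ I) := .of_surjective' _ Ideal.Quotient.mk_surjective
    let b' := (Algebra.TensorProduct.basis (R ⧸ I) b).map
      (Algebra.TensorProduct.quotIdealMapEquivQuotTensor S I).symm.toLinearEquiv
    obtain ⟨i₀⟩ := b.index_nonempty
    have : Nontrivial (S ⧸ I.map (algebraMap R S)) := ⟨_, _, b'.ne_zero i₀⟩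
    refine coreDom p hinj c (fun j => ?_) b' a (fun j => ?_) ?_
    · rw [← map_maximalIdeal_of_surjective _ Ideal.Quotient.mk_surjective, ← Ideal.map_pow,
        ← Ideal.Quotient.mk_comp_algebraMap, ← Ideal.map_map, ← Ideal.map_pow]
      exact Ideal.map_mono (hred j)
    · rw [← Ideal.Quotient.mk_comp_algebraMap (PS d K'), ← Ideal.map_map]
      exact Ideal.mem_map_of_mem (Ideal.Quotient.mk _) (hx j)
    · have := congrArg (Set.image (Ideal.Quotient.mk (I.map (algebraMap R S)))) hK
      rw [← Set.range_comp, ← Set.range_comp] at this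
      exact this
  have hall : ∀ I : Ideal R, Module.finrank (PS d K) (R ⧸ I) ≤
      Module.finrank (PS d K') (S ⧸ I.map (algebraMap R S)) := by
    intro I
    induction I using IsNoetherian.induction with
    | hgt I ih =>
      by_cases hI : I = ⊤
      · subst hI
        rw [Module.finrank_zero_of_subsingleton]
        exact Nat.zero_le _
      have : Nontrivial (R ⧸ I) := Ideal.Quotient.nontrivial_iff.mpr hI
      obtain ⟨Q, hQ⟩ := associatedPrimes.nonempty R (R ⧸ I)
      obtain ⟨hQ, w, rfl⟩ := isAssociatedPrime_iff.mp hQ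
      obtain ⟨w, rfl⟩ := Ideal.Quotient.mk_surjective w
      have e1 : (⊥ : Submodule R (R ⧸ I)).colon {Ideal.Quotient.mk I w} = I.colon {w} := by
        ext r
        rw [Submodule.mem_colon_singleton, Submodule.mem_colon_singleton, Submodule.mem_bot,
          ← Ideal.Quotient.eq_zero_iff_mem]
        rfl
      rw [e1] at hQ
      have e2 : (Ideal.map (algebraMap R S) I).colon {algebraMap R S w} =
          Ideal.map (algebraMap R S) (I.colon {w}) := by
        ext s
        simp only [Submodule.mem_colon_singleton, mem_map_iff_repr b, smul_eq_mul, mul_comm s,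
          ← Algebra.smul_def, map_smul, Finsupp.smul_apply, mul_comm w]
      rw [finrank_colon _ I w, finrank_colon _ (Ideal.map _ I) (algebraMap R S w), e2,
        ← Set.image_singleton (a := w), ← Ideal.map_span, ← Ideal.map_sup]
      refine add_le_add (hprime _ hQ) (ih _ (left_lt_sup.mpr fun h => hQ.ne_top ?_))
      rw [Ideal.eq_top_iff_one, Submodule.mem_colon_singleton, one_smul]
      exact h (Ideal.mem_span_singleton_self w)
  have := hall ⊥
  rwa [Ideal.map_bot, (AlgEquiv.quotientBot (PS d K) R).toLinearEquiv.finrank_eq,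
    (AlgEquiv.quotientBot (PS d K') S).toLinearEquiv.finrank_eq] at this

end Vale.Agent.P202
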