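import Vale.Agent.P202.Chase2

open Matrix

namespace Vale.Agent.P202

/-- Laurent series over the ground field. -/
def LF (k : Type*) [Field k] := HahnSeries ℤ k

variable {d : ℕ} {k : Type*} [Field k]

noncomputable instance : Field (LF k) := inferInstanceAs (Field (HahnSeries ℤ k))

/-- The identification with Hahn series. -/
noncomputable def toL : LF k ≃+* HahnSeries ℤ k := RingEquiv.refl _

/-- Coefficientwise inclusion. -/
noncomputable def mapL : HahnSeries ℤ k →+* HahnSeries ℤ (LP d k) where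
  toFun f := f.map (algebraMap k (LP d k))
  map_one' := by
    ext1; ext1 t
    by_cases h : t = 0
    · simp [h]; rfl
    · simp [h]
  map_mul' f g := HahnSeries.map_mul (algebraMap k (LP d k)).toNonUnitalRingHom
  map_zero' := by ext1; ext1 t; simp
  map_add' f g := by ext1; ext1 t; simp

noncomputable instance : Algebra (LF k) (Lam d k) :=
  (toH.symm.toRingHom.comp (mapL.comp toL.toRingHom)).toAlgebra

lemma co_algebraMap (l : LF k) (t : ℤ) :
    co (algebraMap (LF k) (Lam d k) l) t = AddMonoidAlgebra.single 0 ((toL l).coeff t) := rfl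

lemma co_mul_cst (f : Lam d k) (y : LP d k) (t : ℤ) : co (f * cst y) t = co f t * y := by
  unfold co
  rw [map_mul]
  exact HahnSeries.coeff_mul_single_zero

lemma co_sum {ι : Type*} (s : Finset ι) (f : ι → Lam d k) (t) :
    co (∑ i ∈ s, f i) t = ∑ i ∈ s, co (f i) t := by
  simp [co, HahnSeries.coeff_sum]

lemma algebraMap_mem (l : LF k) : algebraMap (LF k) (Lam d k) l ∈ Sup (fun _ a => a = 0) := by
  intro t a h
  by_contra ha
  simp [cf, co_algebraMap, ha] at h

lemma pNum_add (t a t' a') (h : pNum (d := d) ∅ t a) (h' : pNum (d := d) ∅ t' a') :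
    pNum ∅ (t + t') (a + a') := fun i hi => add_nonneg (h i hi) (h' i hi)

lemma algebraMap_mem_num (l : LF k) : algebraMap (LF k) (Lam d k) l ∈ Sup (pNum ∅) :=
  Sup_mono (fun _ _ h i _ => by simp [h]) (algebraMap_mem l)

lemma th_mem_num (f : PS d k) : th d k f ∈ Sup (pNum ∅) :=
  Sup_mono (fun _ _ h i _ => (h.2 i).1) (th_mem f)

lemma exists_decomp (d : ℕ) (k : Type*) [Field k] :
    ∃ b : Finset (Lam d k), b.card ≤ d.factorial ∧ ∀ f ∈ Sup (pNum ∅),
      ∃ w ∈ Submodule.span (LF k) (b : Set (Lam d k)), ∃ r : Fin d → Lam d k,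
        (∀ j, r j ∈ Sup (pNum ∅)) ∧ f = w + ∑ j, r j * th d k (MvPowerSeries.X j) := by
  classical
  obtain ⟨b, hb, hdec⟩ := exists_coinv d k
  refine ⟨b.image fun x => cst (varpi d k x), Finset.card_image_le.trans hb, fun f hf => ?_⟩
  have key : ∀ t, ∃ (c : b → k) (r : Fin d → MvPolynomial (Fin d) k),
      co f t = ∑ x : b, AddMonoidAlgebra.single 0 (c x) * varpi d k x +
        ∑ j, varpi d k (r j) * varpi d k (es d k j) ∧ (co f t = 0 → c = 0 ∧ r = 0) := by
    intro t
    by_cases h : co f t = 0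
    · exact ⟨0, 0, by simp [h], fun _ => ⟨rfl, rfl⟩⟩
    · obtain ⟨p, hp⟩ := exists_varpi (co f t) fun a ha i => hf t a ha i (by simp)
      obtain ⟨c, r, hcr⟩ := hdec p
      refine ⟨c, r, ?_, fun h' => absurd h' h⟩
      rw [← hp, hcr]
      simp only [map_add, map_sum, map_mul, Algebra.smul_def, AlgHom.commutes]
      rfl
  choose c r hcr h0 using key
  let l : b → LF k := fun x => toL.symm
    { coeff t := c t x
      isPWO_support' := (toH f).isPWO_support.mono fun t ht h => ht (by simp [(h0 t h).1]) }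
  let r' : Fin d → Lam d k := fun j => toH.symm
    { coeff t := varpi d k (r t j)
      isPWO_support' := (toH f).isPWO_support.mono fun t ht h => ht (by simp [(h0 t h).2]) }
  have hr' : ∀ j, r' j ∈ Sup (pNum ∅) := fun j t a h i _ => varpi_nonneg (r t j) a h i
  refine ⟨∑ x : b, l x • cst (varpi d k x), Submodule.sum_mem _ fun x _ => Submodule.smul_mem _ _
    (Submodule.subset_span (by simpa using ⟨x, x.2, rfl⟩)), fun j => r' j * mon (-1) 0,
    fun j => mul_mem_Sup pNum_add (hr' j) (mon_mem fun i _ => le_rfl), ext_co fun t => ?_⟩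
  have e : ∀ j, r' j * mon (-1) 0 * th d k (MvPowerSeries.X j) =
      r' j * cst (varpi d k (es d k j)) := by
    intro j
    rw [mul_assoc, th_X, mon, sgl_mul_sgl, neg_add_cancel, sgl_zero]
    exact congrArg (fun y => r' j * cst y) (one_mul _)
  simp only [e, co_add, co_sum, Algebra.smul_def, co_mul_cst, co_algebraMap]
  exact hcr t

/-- The extension of a submodule to the origin chart. -/
noncomputable def CY {e : ℕ} (Y : Submodule (PS d k) (Fin e → PS d k)) :
    Submodule (LF k) (Fin e → Lam d k) :=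
  Submodule.span (LF k) {v | ∃ f : Lam d k, f ∈ Sup (pNum ∅) ∧ ∃ y ∈ Y, v = f • fun l => th d k (y l)}

lemma exists_socle {P M : Type*} [CommRing P] [IsLocalRing P] [AddCommGroup M] [Module P M]
    (Y : Submodule P M) (hY : Y ≠ ⊤) (hfin : Order.coheight Y < ⊤) :
    ∃ y ∉ Y, ∀ x ∈ IsLocalRing.maximalIdeal P, x • y ∈ Y := by
  classical
  have hfin' : ∀ y, Order.coheight (Y ⊔ Submodule.span P {y}) < ⊤ := fun y =>
    lt_of_le_of_lt (Order.coheight_anti le_sup_left) hfin
  have hex : ∃ y, y ∉ Y := by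
    by_contra h; push Not at h; exact hY (eq_top_iff.mpr fun y _ => h y)
  have hbdd : ∃ n : ℕ, ∃ y ∉ Y, Order.coheight Y ≤ Order.coheight (Y ⊔ Submodule.span P {y}) + n := by
    obtain ⟨y, hy⟩ := hex
    lift Order.coheight Y to ℕ using hfin.ne with n hn
    exact ⟨n, y, hy, le_add_self⟩
  obtain ⟨y, hy, hle⟩ := Nat.find_spec hbdd
  refine ⟨y, hy, fun x hx => ?_⟩
  by_contra hxy
  have hlt : Y ⊔ Submodule.span P {x • y} < Y ⊔ Submodule.span P {y} := by
    refine lt_of_le_of_ne (sup_le_sup_left (Submodule.span_le.mpr ?_) _) fun heq => hy ?_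
    · rintro _ rfl
      exact Submodule.smul_mem _ _ (Submodule.mem_span_singleton_self y)
    · have : y ∈ Y ⊔ Submodule.span P {x • y} := by
        rw [heq]; exact Submodule.mem_sup_right (Submodule.mem_span_singleton_self y)
      obtain ⟨u, hu, v, hv, huv⟩ := Submodule.mem_sup.mp this
      obtain ⟨r, rfl⟩ := Submodule.mem_span_singleton.mp hv
      have hunit : IsUnit (1 - r * x) :=
        IsLocalRing.isUnit_one_sub_self_of_mem_nonunits _
          ((IsLocalRing.maximalIdeal P).mul_mem_left r hx)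
      have : (1 - r * x) • y = u := by rw [sub_smul, one_smul, mul_smul, sub_eq_iff_eq_add, huv]
      exact (Submodule.smul_mem_iff_of_isUnit Y hunit).mp (this ▸ hu)
  have h1 := Order.coheight_add_one_le hlt
  rcases Nat.eq_zero_or_pos (Nat.find hbdd) with h0 | h0
  · rw [h0] at hle
    have h2 : Order.coheight (Y ⊔ Submodule.span P {x • y}) ≤ Order.coheight Y :=
      Order.coheight_anti le_sup_left
    have h3 := (h1.trans h2).trans hle
    lift Order.coheight (Y ⊔ Submodule.span P {y}) to ℕ using (hfin' y).ne with n hn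
    norm_cast at h3; omega
  · refine Nat.find_min hbdd (m := Nat.find hbdd - 1) (by omega) ⟨x • y, hxy, hle.trans ?_⟩
    calc Order.coheight (Y ⊔ Submodule.span P {y}) + (Nat.find hbdd : ℕ)
        = Order.coheight (Y ⊔ Submodule.span P {y}) + 1 + (Nat.find hbdd - 1 : ℕ) := by
          rw [add_assoc]; congr 1; norm_cast; omega
      _ ≤ _ := by gcongr

lemma exists_compl {e : ℕ} (n : ℕ) : ∀ Y : Submodule (PS d k) (Fin e → PS d k),
    Order.coheight Y ≤ n → ∃ s : Finset (Fin e → Lam d k), s.card ≤ d.factorial * n ∧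
      ∀ v, VS (pNum ∅) v → v ∈ CY Y ⊔ Submodule.span (LF k) (s : Set (Fin e → Lam d k)) := by
  classical
  have htop : ∀ v : Fin e → Lam d k, VS (pNum ∅) v → v ∈ CY (d := d) (k := k) ⊤ := by
    intro v hv
    rw [← Finset.univ_sum_single v]
    refine Submodule.sum_mem _ fun l _ => Submodule.subset_span ⟨v l, hv l, Pi.single l 1, trivial, ?_⟩
    ext l'
    by_cases h : l' = l
    · subst h; simp
    · simp [h]
  induction n with
  | zero =>
    intro Y hY
    have : Y = ⊤ := by simpa using hY
    subst this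
    exact ⟨∅, by simp, fun v hv => Submodule.mem_sup_left (htop v hv)⟩
  | succ n ih =>
    intro Y hY
    by_cases hYt : Y = ⊤
    · subst hYt
      exact ⟨∅, by simp, fun v hv => Submodule.mem_sup_left (htop v hv)⟩
    have hfin : Order.coheight Y < ⊤ := lt_of_le_of_lt hY (ENat.natCast_lt_top _)
    obtain ⟨y, hy, hxy⟩ := exists_socle Y hYt hfin
    have hlt : Y < Y ⊔ Submodule.span (PS d k) {y} :=
      lt_of_le_of_ne le_sup_left fun h => hy (h ▸ Submodule.mem_sup_right
        (Submodule.mem_span_singleton_self y))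
    obtain ⟨s, hs, hsv⟩ := ih (Y ⊔ Submodule.span (PS d k) {y}) (by
      have := (Order.coheight_add_one_le hlt).trans hY
      push_cast at this
      exact (ENat.add_le_add_iff_right ENat.one_ne_top).mp this)
    obtain ⟨b, hb, hdec⟩ := exists_decomp d k
    refine ⟨s ∪ b.image fun x => x • fun l => th d k (y l), ?_, fun v hv => ?_⟩
    · refine (Finset.card_union_le _ _).trans ?_
      have := Finset.card_image_le (s := b) (f := fun x => x • fun l => th d k (y l))
      rw [Nat.mul_succ]; omega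
    · refine SetLike.le_def.mp (sup_le ?_ (le_sup_of_le_right (Submodule.span_mono ?_))) (hsv v hv)
      swap; · simp
      rw [CY, Submodule.span_le]
      rintro _ ⟨f, hf, z, hz, rfl⟩
      obtain ⟨u, hu, v, hv, rfl⟩ := Submodule.mem_sup.mp hz
      obtain ⟨r, rfl⟩ := Submodule.mem_span_singleton.mp hv
      obtain ⟨w, hw, ρ, hρ, hdec'⟩ := hdec (f * th d k r) (mul_mem_Sup pNum_add hf (th_mem_num r))
      have e1 : (f • fun l => th d k ((u + r • y) l)) = (f • fun l => th d k (u l)) +
          (∑ j, ρ j • fun l => th d k (((MvPowerSeries.X j : PS d k) • y) l)) +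
          w • fun l => th d k (y l) := by
        ext l
        simp only [Pi.smul_apply, Pi.add_apply, smul_eq_mul, map_add, map_mul, Finset.sum_apply,
          mul_add, ← mul_assoc, hdec', add_mul, Finset.sum_mul]
        ring
      rw [SetLike.mem_coe, e1]
      refine add_mem (Submodule.mem_sup_left (add_mem (Submodule.subset_span ⟨f, hf, u, hu, rfl⟩)
        (Submodule.sum_mem _ fun j _ => Submodule.subset_span ⟨ρ j, hρ j, _, hxy _ ?_, rfl⟩)))
        (Submodule.mem_sup_right ?_)
      · rw [maximalIdeal_PS]; exact Ideal.subset_span ⟨j, rfl⟩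
      · refine Submodule.span_induction ?_ ?_ ?_ ?_ (p := fun w _ => (w • fun l => th d k (y l)) ∈
          Submodule.span (LF k) ((s ∪ b.image fun x => x • fun l => th d k (y l) :
            Finset (Fin e → Lam d k)) : Set (Fin e → Lam d k))) hw
        · intro x hx
          exact Submodule.subset_span (by simpa using Or.inr ⟨x, hx, rfl⟩)
        · simp
        · intro a b _ _ ha hb; rw [add_smul]; exact add_mem ha hb
        · intro a x _ hx; rw [smul_assoc]; exact Submodule.smul_mem _ _ hx

/-- The order shift caused by the element `c`. -/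
noncomputable def shift (c : PS d k) : ℕ := (d + 1) * (toH (th d k c)).order.toNat

lemma cf_smul_mon (l : LF k) (b : Fin d → ℤ) (t a) :
    cf (l • mon 0 b : Lam d k) t a = if a = b then (toL l).coeff t else 0 := by
  classical
  rw [Algebra.smul_def, mon, sgl_zero, cf, co_mul_cst, co_algebraMap,
    AddMonoidAlgebra.single_mul_single, zero_add, mul_one]
  by_cases h : a = b <;> simp [h]

lemma pP_pGl (q : ℕ) (t a t' a') (h : pP (d := d) 0 t a) (h' : pGl q t' a') :
    pGl q (t + t') (a + a') := fun i => by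
  have := h.2 i; have := h' i
  simp only [Pi.add_apply]; omega

theorem coreP {c : PS d k} (hc : c ≠ 0) {ι : Type*} [Fintype ι] [DecidableEq ι] {a q e : ℕ}
    (X : Cx (PS d k) d (fun j => c * MvPowerSeries.X j ^ a) ι)
    (hD : ∀ μ ν, X.D μ ν ∈ xI d k ^ q)
    (E : Matrix ι (Fin e) (PS d k)) (F : Matrix (Fin e) ι (PS d k)) (hFE : F * E = 1)
    (Y : Submodule (PS d k) (Fin e → PS d k))
    (hY : ∀ y ∈ Y, ∃ η, InDeg X.deg 1 η ∧ X.D *ᵥ η = c • E *ᵥ y) :
    ((e * ∏ i : Fin d, ((i + 1) * q - shift c) : ℕ) : ℕ∞) ≤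
      d.factorial * Module.length (PS d k) ((Fin e → PS d k) ⧸ Y) := by
  classical
  rw [Module.length_quotient]
  by_cases hfin : Order.coheight Y = ⊤
  · rw [hfin, ENat.mul_top (by exact_mod_cast d.factorial_ne_zero)]; exact le_top
  lift Order.coheight Y to ℕ using hfin with n hn
  obtain ⟨s, hs, hsv⟩ := exists_compl n Y hn.ge
  norm_cast
  refine le_trans ?_ hs
  by_contra hlt
  push Not at hlt
  -- the complex over the big ring
  let θ := th d k
  let X' : Cx (Lam d k) d (fun j => θ c * θ (MvPowerSeries.X j) ^ a) ι :=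
    { X.map θ with hom := fun j => by simpa using (X.map θ).hom j }
  have hCY : ∀ v ∈ CY Y, ∃ η, VS (pNum ∅) η ∧ InDeg X'.deg 1 η ∧
      X'.D *ᵥ η = θ c • E.map θ *ᵥ v := by
    intro v hv
    refine Submodule.span_induction ?_ ?_ ?_ ?_ hv
    · rintro _ ⟨f, hf, y, hy, rfl⟩
      obtain ⟨η, h1, h2⟩ := hY y hy
      refine ⟨f • fun μ => θ (η μ), VS.smul pNum_add hf fun μ => th_mem_num _,
        InDeg.smul (fun μ h => by rw [h1 μ h, map_zero]) _, ?_⟩
      rw [mulVec_smul, mulVec_smul, smul_comm]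
      congr 1
      ext μ
      have := congrArg θ (congrFun h2 μ)
      rw [RingHom.map_mulVec, Pi.smul_apply, smul_eq_mul, map_mul, RingHom.map_mulVec] at this
      exact this
    · exact ⟨0, VS.zero, InDeg.zero, by simp⟩
    · rintro u v _ _ ⟨η, h1, h2, h3⟩ ⟨η', h1', h2', h3'⟩
      exact ⟨η + η', h1.add h1', h2.add h2', by rw [mulVec_add, mulVec_add, smul_add, h3, h3']⟩
    · rintro l v _ ⟨η, h1, h2, h3⟩
      refine ⟨algebraMap _ (Lam d k) l • η, VS.smul pNum_add (algebraMap_mem_num l) h1,
        h2.smul _, ?_⟩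
      rw [mulVec_smul, h3, smul_comm, ← mulVec_smul, algebraMap_smul]
  -- a dependent family
  let J := Fin e × ((i : Fin d) → Fin ((i + 1) * q - shift c))
  let ex : J → Fin d → ℤ := fun j i => (j.2 i : ℕ)
  let v : J → Fin e → Lam d k := fun j => Pi.single j.1 (mon 0 (ex j))
  have hv : ∀ j, VS (pNum ∅) (v j) := by
    intro j l
    by_cases h : l = j.1
    · subst h; simpa [v] using mon_mem fun i _ => by simp [ex]
    · simp [v, h]
  let W := (Submodule.span (LF k) (s : Set (Fin e → Lam d k))).map (CY Y).mkQ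
  have hW : ∀ j, (CY Y).mkQ (v j) ∈ W := by
    intro j
    obtain ⟨u, hu, w, hw, huw⟩ := Submodule.mem_sup.mp (hsv _ (hv j))
    refine ⟨w, hw, ?_⟩
    rw [← huw, map_add, Submodule.mkQ_apply (x := u), (Submodule.Quotient.mk_eq_zero _).mpr hu,
      zero_add]
  have hdep : ¬ LinearIndependent (LF k) (fun j => (⟨_, hW j⟩ : W)) := by
    intro hli
    have h1 := hli.fintype_card_le_finrank
    have h2 : Module.finrank (LF k) W ≤ s.card :=
      (Submodule.finrank_map_le _ _).trans (finrank_span_finset_le_card s)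
    have h3 : Fintype.card J = e * ∏ i : Fin d, ((i + 1) * q - shift c) := by simp [J]
    omega
  rw [Fintype.not_linearIndependent_iff] at hdep
  obtain ⟨l, hl, j₁, hj₁⟩ := hdep
  have hmem : ∑ j, l j • v j ∈ CY Y := by
    rw [← Submodule.Quotient.mk_eq_zero, ← Submodule.mkQ_apply, map_sum]
    simpa using congrArg Subtype.val hl
  obtain ⟨j₀, hj₀, hmin⟩ := Finset.exists_min_image (Finset.univ.filter fun j => l j ≠ 0)
    (fun j => (toL (l j)).order) ⟨j₁, by simpa using hj₁⟩
  have hj₀' : toL (l j₀) ≠ 0 := by simpa using hj₀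
  set t₀ := (toL (l j₀)).order
  let l' : J → LF k := fun j => toL.symm (HahnSeries.single (-t₀ - shift c) 1) * l j
  have hl' : ∀ j t, (toL (l' j)).coeff t = (toL (l j)).coeff (t + t₀ + shift c) := by
    intro j t
    simp only [l', map_mul, RingEquiv.apply_symm_apply, HahnSeries.coeff_single_mul, one_mul]
    congr 1; ring
  let γ : Fin e → Lam d k := ∑ j, l' j • v j
  have hγ : γ ∈ CY Y := by
    have := (CY Y).smul_mem (toL.symm (HahnSeries.single (-t₀ - shift c) 1)) hmem
    simpa only [Finset.smul_sum, smul_smul] using this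
  have hcf : ∀ m t b, cf (γ m) t b =
      ∑ j : J, if m = j.1 ∧ b = ex j then (toL (l j)).coeff (t + t₀ + shift c) else 0 := by
    intro m t b
    simp only [γ, Finset.sum_apply, cf_sum, Pi.smul_apply]
    refine Finset.sum_congr rfl fun j _ => ?_
    by_cases h : m = j.1
    · subst h; simp [v, cf_smul_mon, hl']
    · simp [v, h]
  have hlow : ∀ m t b, cf (γ m) t b ≠ 0 → -(shift c : ℤ) ≤ t ∧ ∃ j, b = ex j := by
    intro m t b hne
    rw [hcf] at hne
    obtain ⟨j, -, hj⟩ := Finset.exists_ne_zero_of_sum_ne_zero hne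
    split_ifs at hj with h
    swap; · exact absurd rfl hj
    have h1 := HahnSeries.order_le_of_coeff_ne_zero hj
    have h2 := hmin j (by
      simp only [ne_eq, Finset.mem_filter, Finset.mem_univ, true_and]
      intro h0; simp [h0] at hj)
    exact ⟨by omega, j, h.2⟩
  have hγgl : VS (pGl q) γ := by
    intro m t b hne i
    obtain ⟨h1, j, rfl⟩ := hlow m t b hne
    have h2 := (j.2 i).2
    have h3 : ((j.2 i : ℕ) : ℤ) + shift c < ((i : ℕ) + 1) * q := by
      have : (j.2 i : ℕ) + shift c < (i + 1) * q := by omega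
      exact_mod_cast this
    simp only [ex, bb]
    omega
  obtain ⟨η, g1, g2, g3⟩ := hCY γ hγ
  have g4 := chase X' (q := q) (th_mem c) (fun μ ν => th_mem_of_mem (hD μ ν))
    (fun j μ ν => th_mem _) g1 g2 (by
      rw [g3]
      exact VS.smul (pP_pGl q) (th_mem c) (fun μ => sum_mem fun ν _ =>
        mul_mem_Sup (pP_pGl q) (th_mem _) (hγgl ν)))
  have g5 : VS (fun t _ => 0 < t) (F.map θ *ᵥ (θ c ^ d • X'.D *ᵥ η)) := fun μ =>
    sum_mem fun ν _ => mul_mem_Sup (fun t a t' a' h h' => by have := h.1; omega)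
      (th_mem _) (g4 ν)
  rw [g3, smul_smul, mulVec_smul, mulVec_mulVec, ← Matrix.map_mul, hFE,
    Matrix.map_one _ (map_zero _) (map_one _), one_mulVec, ← pow_succ] at g5
  have hθc : toH (θ c) ≠ 0 := by simpa using th_ne_zero hc
  have hne : cf (γ j₀.1) (-(shift c : ℤ)) (ex j₀) ≠ 0 := by
    rw [hcf, Finset.sum_eq_single j₀]
    · have := HahnSeries.coeff_order_eq_zero.not.mpr hj₀'
      simp only [and_self, if_true]
      rw [show -(shift c : ℤ) + t₀ + shift c = t₀ by ring]
      exact this
    · intro j _ hj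
      rw [if_neg]
      rintro ⟨h1, h2⟩
      apply hj
      refine Prod.ext h1.symm (funext fun i => Fin.ext ?_)
      have := congrFun h2 i
      simpa [ex] using this.symm
    · simp
  have hγ0 : toH (γ j₀.1) ≠ 0 := by
    intro h; apply hne; simp [cf, co, h]
  have hord : (toH (γ j₀.1)).order = -(shift c : ℤ) := by
    apply le_antisymm
    · apply HahnSeries.order_le_of_coeff_ne_zero
      intro h; apply hne; simp [cf, co, h]
    · have := HahnSeries.coeff_order_eq_zero.not.mpr hγ0
      obtain ⟨b, hb⟩ := Finsupp.ne_iff.mp (AddMonoidAlgebra.coeff_eq_zero.not.mpr this)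
      exact (hlow _ _ b hb).1
  have hoc : 0 ≤ (toH (θ c)).order := by
    have := HahnSeries.coeff_order_eq_zero.not.mpr hθc
    obtain ⟨b, hb⟩ := Finsupp.ne_iff.mp (AddMonoidAlgebra.coeff_eq_zero.not.mpr this)
    exact_mod_cast (th_mem c _ b hb).1
  have hprod : toH (θ c ^ (d + 1) * γ j₀.1) ≠ 0 := by
    rw [map_mul, map_pow]; exact mul_ne_zero (pow_ne_zero _ hθc) hγ0
  have hord2 : (toH (θ c ^ (d + 1) * γ j₀.1)).order = 0 := by
    rw [map_mul, map_pow, HahnSeries.order_mul (pow_ne_zero _ hθc) hγ0, HahnSeries.order_pow, hord,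
      shift]
    push_cast
    rw [Int.toNat_of_nonneg hoc]
    simp
  have := HahnSeries.coeff_order_eq_zero.not.mpr hprod
  obtain ⟨b, hb⟩ := Finsupp.ne_iff.mp (AddMonoidAlgebra.coeff_eq_zero.not.mpr this)
  have h6 := g5 j₀.1 _ b hb
  rw [hord2] at h6
  exact lt_irrefl _ h6

end Vale.Agent.P202
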