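import Vale.Agent.P202.JResA

/-! Job JRes (see notes/P202.md): finite free resolutions over a flat extension with regular
closed fibre. -/

open IsLocalRing

namespace Vale.Agent.P202

namespace JRes
open Matrix

universe u

lemma res {R : Type*} {T : Type u} [CommRing R] [CommRing T] [IsLocalRing T] [IsNoetherianRing T]
    [Algebra R T] [Module.Flat R T] (m : Ideal R) (s : ℕ) (I : ℕ → Ideal T) (Y : ℕ → T)
    (h0 : I 0 = m.map (algebraMap R T)) (hs : I s = maximalIdeal T)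
    (hI : ∀ j < s, I (j + 1) = I j ⊔ Ideal.span {Y j})
    (hreg : ∀ j < s, ∀ t, Y j * t ∈ I j → t ∈ I j) (k : ℕ) :
    k ≤ s → ∀ (β : Type) [Fintype β] (Z : Submodule T (β → T)),
      (∀ z ∈ Z, ∀ b, z b ∈ maximalIdeal T) → Module.Flat R ((β → T) ⧸ Z) →
      (∀ i, i + k ≤ s → Pure (I i) Z) →
      ∃ (ι : Type) (_ : Fintype ι) (deg : ι → ℕ) (D : Matrix ι ι T) (M : Matrix β ι T),
        (∀ μ, deg μ < k) ∧ D * D = 0 ∧ (∀ μ ν, D μ ν ≠ 0 → deg ν = deg μ + 1) ∧
        (∀ μ ν, D μ ν ∈ maximalIdeal T) ∧ M * D = 0 ∧ (∀ b μ, M b μ ≠ 0 → deg μ = 0) ∧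
        (∀ y, y ∈ Z ↔ ∃ η, M *ᵥ η = y) ∧
        ∀ y, M *ᵥ y = 0 → D *ᵥ y = 0 → ∃ η, D *ᵥ η = y := by
  induction k with
  | zero =>
    intro _ β _ Z hZ _ hP
    have hb : Z = ⊥ := by
      refine Submodule.eq_bot_of_le_smul_of_le_jacobson_bot (maximalIdeal T) Z
        (IsNoetherian.noetherian Z) (fun z hz => ?_) (maximalIdeal_le_jacobson _)
      have := hP s (by omega) z hz
      rw [hs] at this
      exact this ((mem_smul_top_pi _ _).mpr (hZ z hz))
    refine ⟨Empty, inferInstance, fun _ => 0, 0, 0, fun μ => μ.elim, by simp, by simp, by simp,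
      by simp, by simp, fun y => ?_, fun y _ _ => ⟨0, Subsingleton.elim _ _⟩⟩
    simp [hb, eq_comm]
  | succ k ih =>
    intro hk β _ Z hZ hF hP
    obtain ⟨r, π, hπ, hmin⟩ := exists_min_gen Z (IsNoetherian.noetherian Z)
    let P : Matrix β (Fin r) T := of fun b i => π i b
    have hPc : ∀ c, P *ᵥ c = ∑ i, c i • π i := by
      intro c; ext b
      simp [P, mulVec, dotProduct, mul_comm]
    let f : (Fin r → T) →ₗ[T] (β → T) := P.mulVecLin
    have hf : LinearMap.range f = Z := by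
      rw [← hπ]
      ext y
      simp only [LinearMap.mem_range, f, mulVecLin_apply, hPc,
        Submodule.mem_span_range_iff_exists_fun]
    have hfl : ∀ (γ : Type) [Fintype γ], Module.Flat R (γ → T) := fun γ _ =>
      Module.Flat.trans R T _
    have hZf : Module.Flat R Z := by
      have := hfl β
      exact flat_sub Z
    have hF' : Module.Flat R ((Fin r → T) ⧸ LinearMap.ker f) :=
      Module.Flat.of_linearEquiv
        ((f.quotKerEquivRange ≪≫ₗ LinearEquiv.ofEq _ _ hf).restrictScalars R)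
    have hP' : ∀ i, i + k ≤ s → Pure (I i) (LinearMap.ker f) := by
      intro i
      induction i with
      | zero => intro _; rw [h0]; exact pure_of_flat m _
      | succ i ih' =>
        intro hi
        rw [hI i (by omega)]
        refine pure_succ _ _ Z f hf (fun x hx => ?_) (hP i (by omega)) (ih' (by omega))
        rw [mem_smul_top_pi] at hx ⊢
        exact fun b => hreg i (by omega) _ (hx b)
    have hZ' : ∀ z ∈ LinearMap.ker f, ∀ b, z b ∈ maximalIdeal T := fun z hz =>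
      hmin z (by rw [← hPc]; exact hz)
    obtain ⟨ι, _, deg, D, M, a1, a2, a3, a4, a5, a6, a7, a8⟩ :=
      ih (by omega) (Fin r) (LinearMap.ker f) hZ' hF' hP'
    obtain ⟨b1, b2, b3⟩ := glue deg D M a2 a3 a5 a6 a8
    have hcol : ∀ μ, (fun b => M b μ) ∈ LinearMap.ker f := by
      classical
      exact fun μ => (a7 _).mpr ⟨Pi.single μ 1, by ext b; simp⟩
    refine ⟨Fin r ⊕ ι, inferInstance, _, _, fromCols P 0, ?_, b1, b2, ?_, ?_, ?_, fun y => ?_,
      fun y h1 h2 => b3 y ((a7 _).mp ?_) h2⟩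
    · rintro (μ | μ)
      · simp
      · simpa using a1 μ
    · rintro (μ | μ) (ν | ν)
      · simp
      · exact hZ' _ (hcol ν) μ
      · simp
      · exact a4 μ ν
    · rw [fromCols_mul_fromBlocks]
      have : P * M = 0 := by
        ext b μ
        exact congrFun (hcol μ) b
      simp [this]
    · rintro b (μ | μ) h
      · rfl
      · simp at h
    · rw [← hf]
      constructor
      · rintro ⟨c, rfl⟩
        exact ⟨Sum.elim c 0, by simp [f]⟩
      · rintro ⟨η, rfl⟩
        exact ⟨η ∘ Sum.inl, by simp [f, fromCols_mulVec]⟩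
    · simpa [f, fromCols_mulVec] using h1

end JRes

theorem exists_res {R T : Type*} [CommRing R] [CommRing T] [IsLocalRing T] [IsNoetherianRing T]
    [Algebra R T] [Module.Flat R T] (m : Ideal R) {s : ℕ} (Y : Fin s → T)
    (hn : maximalIdeal T = m.map (algebraMap R T) ⊔ Ideal.span (Set.range Y))
    (hreg : ∀ (j : Fin s) (t : T),
      Y j * t ∈ m.map (algebraMap R T) ⊔ Ideal.span (Y '' {i | i < j}) →
      t ∈ m.map (algebraMap R T) ⊔ Ideal.span (Y '' {i | i < j}))
    (J : Ideal T) (hJ : J ≠ ⊤) [Module.Flat R (T ⧸ J)] :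
    ∃ (ι : Type) (_ : Fintype ι) (_ : DecidableEq ι) (deg : ι → ℕ) (D : Matrix ι ι T) (μ₀ : ι),
      (∀ μ, deg μ ≤ s) ∧ D * D = 0 ∧ (∀ μ ν, D μ ν ≠ 0 → deg ν = deg μ + 1) ∧
      (∀ μ ν, D μ ν ∈ maximalIdeal T) ∧ (∀ μ, deg μ = 0 ↔ μ = μ₀) ∧
      Ideal.span (Set.range (D μ₀)) = J ∧
      ∀ r ∈ J, ∃ H : Matrix ι ι T, (∀ μ ν, H μ ν ≠ 0 → deg μ = deg ν + 1) ∧
        D * H + H * D = r • (1 : Matrix ι ι T) := by
  classical
  let g : (Unit → T) →ₗ[T] T ⧸ J := J.mkQ ∘ₗ LinearMap.proj ()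
  have hg : Function.Surjective g := fun x => by
    obtain ⟨t, rfl⟩ := J.mkQ_surjective x
    exact ⟨fun _ => t, rfl⟩
  have hker : ∀ y, y ∈ LinearMap.ker g ↔ y () ∈ J := fun y => Submodule.Quotient.mk_eq_zero J
  have hF : Module.Flat R ((Unit → T) ⧸ LinearMap.ker g) :=
    Module.Flat.of_linearEquiv ((g.quotKerEquivOfSurjective hg).restrictScalars R)
  have h0 : m.map (algebraMap R T) ⊔ Ideal.span (Y '' {i | i.val < 0}) =
      m.map (algebraMap R T) := by simp
  obtain ⟨ι, _, deg, D, M, a1, a2, a3, a4, a5, a6, a7, a8⟩ := JRes.res m s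
    (fun j => m.map (algebraMap R T) ⊔ Ideal.span (Y '' {i | i.val < j}))
    (fun j => if h : j < s then Y ⟨j, h⟩ else 0) h0 (by simp [hn]) (by
      intro j hj
      simp only [hj, dif_pos]
      rw [sup_assoc, ← Ideal.span_union, ← Set.image_singleton, ← Set.image_union]
      congr 3
      ext i
      simp only [Set.mem_ofPred_eq, Set.mem_union, Set.mem_singleton_iff, Fin.ext_iff]
      omega) (by
      intro j hj t ht
      simp only [hj, dif_pos] at ht
      exact hreg ⟨j, hj⟩ t ht) s le_rfl Unit (LinearMap.ker g)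
    (fun z hz b => le_maximalIdeal hJ ((hker z).mp hz)) hF (by
      intro i hi
      obtain rfl : i = 0 := by omega
      rw [h0]
      exact JRes.pure_of_flat m _)
  obtain ⟨b1, b2, b3⟩ := JRes.glue deg D M a2 a3 a5 a6 a8
  have hcol : ∀ μ, M () μ ∈ J := fun μ =>
    (hker fun b => M b μ).mp ((a7 _).mpr ⟨Pi.single μ 1, by ext b; simp⟩)
  have hdeg : ∀ μ : Unit ⊕ ι, Sum.elim (fun _ => 0) (fun μ => deg μ + 1) μ ≤ s := by
    rintro (μ | μ)
    · simp
    · simpa using a1 μ
  refine ⟨Unit ⊕ ι, inferInstance, inferInstance, _, _, Sum.inl (), hdeg, b1, b2, ?_, ?_, ?_,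
    fun r hr => ?_⟩
  · rintro (μ | μ) (ν | ν)
    · simp
    · exact le_maximalIdeal hJ (hcol ν)
    · simp
    · exact a4 μ ν
  · rintro (μ | μ) <;> simp
  · refine le_antisymm (Ideal.span_le.mpr ?_) fun t ht => ?_
    · rintro _ ⟨μ | μ, rfl⟩
      · simp
      · exact hcol μ
    · obtain ⟨η, hη⟩ := (a7 fun _ => t).mp ((hker _).mpr ht)
      rw [← show _ = t from congrFun hη ()]
      exact Ideal.sum_mem _ fun μ _ =>
        Ideal.mul_mem_right _ _ (Ideal.subset_span ⟨Sum.inr μ, rfl⟩)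
  · obtain ⟨H, c1, -, c3⟩ := JRes.homotopy _ _ b1 b2 J
      (fun y hy h => b3 y ((a7 _).mp ((hker _).mpr (hy (Sum.inl ()) rfl))) h) hr (s + 1)
    exact ⟨H, c1, Matrix.ext fun μ ν => c3 μ ν (Nat.lt_succ_of_le (hdeg ν))⟩

end Vale.Agent.P202
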