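import Vale.Agent.P202.RankT
import Vale.Agent.P202.JRes

/-! The characteristic `p` inequality over a Cohen factorization. -/

open Matrix IsLocalRing Function
open scoped nonZeroDivisors

namespace Vale.Agent.P202

lemma isLocal_of_ideal {T : Type*} [CommRing T] (I : Ideal T) (h1 : I ≠ ⊤)
    (h2 : ∀ t, t ∉ I → IsUnit t) : ∃ _ : IsLocalRing T, maximalIdeal T = I := by
  have : Nontrivial T := by
    by_contra h
    rw [not_nontrivial_iff_subsingleton] at h
    exact h1 (Subsingleton.elim _ _)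
  have h3 : ∀ t, t ∈ nonunits T ↔ t ∈ I := fun t =>
    ⟨fun h => by_contra fun h' => h (h2 t h'), fun h h' => h1 (I.eq_top_of_isUnit_mem h h')⟩
  have : IsLocalRing T := .of_nonunits_add fun a b ha hb => by
    rw [h3] at *; exact add_mem ha hb
  exact ⟨this, Ideal.ext h3⟩

lemma sup_pow_le {T : Type*} [CommRing T] {M Y X : Ideal T} {c : ℕ} (h : ∀ j, M ^ (j + c) ≤ X ^ j)
    (hY : Y ≤ X) (j : ℕ) : (M ⊔ Y) ^ (j + c) ≤ X ^ j := by
  rw [← Ideal.add_eq_sup, add_pow, Ideal.sum_eq_sup, Finset.sup_le_iff]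
  intro m hm
  have hm' := Finset.mem_range.mp hm
  refine Ideal.mul_le_left.trans ?_
  by_cases hc : c ≤ m
  · have := h (m - c)
    rw [Nat.sub_add_cancel hc] at this
    refine (Ideal.mul_mono this (Ideal.pow_right_mono hY _)).trans (le_of_eq ?_)
    rw [← pow_add]; congr 1; omega
  · exact Ideal.mul_le_right.trans ((Ideal.pow_right_mono hY _).trans
      (Ideal.pow_le_pow_right (by omega)))

lemma PS_regular_set {d : ℕ} {K : Type*} [Field K] (s : Set (Fin d)) (j : Fin d) (hj : j ∉ s)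
    (r : PS d K) (h : MvPowerSeries.X j * r ∈ Ideal.span (MvPowerSeries.X '' s)) :
    r ∈ Ideal.span (MvPowerSeries.X '' s) := by
  classical
  have e : (MvPowerSeries.X '' s : Set (PS d K)) =
      (fun i => MvPowerSeries.X i ^ 1) '' (s.toFinite.toFinset : Finset (Fin d)) := by simp
  rw [e, mem_brk_iff] at h ⊢
  intro m hm
  have := h (Finsupp.single j 1 + m) fun i hi => by
    have h1 : i ≠ j := by rintro rfl; exact hj (by simpa using hi)
    simpa [h1] using hm i hi
  rwa [MvPowerSeries.X_def, MvPowerSeries.coeff_add_monomial_mul, one_mul] at this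

section
variable {d s : ℕ} {k l R T : Type*} [Field k] [Field l] [CommRing R] [IsLocalRing R]
  [Algebra (PS d k) R] [Module.Finite (PS d k) R] [Algebra (PS d k) (PS (s + d) l)]
  [CommRing T] [Algebra (PS d k) T] [Algebra R T] [Algebra (PS (s + d) l) T]
  [IsScalarTower (PS d k) R T] [IsScalarTower (PS d k) (PS (s + d) l) T]
  (h : Algebra.IsPushout (PS d k) R (PS (s + d) l) T)
  (hres : ∀ r : R, ∃ f : PS d k, r - algebraMap (PS d k) R f ∈ maximalIdeal R)
  (hι : ∀ j, algebraMap (PS d k) (PS (s + d) l) (MvPowerSeries.X j) =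
    MvPowerSeries.X (Fin.natAdd s j))

lemma comap_max_PS : (maximalIdeal R).comap (algebraMap (PS d k) R) = xI d k := by
  rw [← maximalIdeal_PS]
  exact eq_maximalIdeal (Ideal.isMaximal_comap_of_isIntegral_of_isMaximal _)

include h hres in
omit [Module.Finite (PS d k) R] in
lemma T_decomp (t : T) : ∃ b, t - algebraMap (PS (s + d) l) T b ∈
    (maximalIdeal R).map (algebraMap R T) := by
  refine po_ind h (fun t => ∃ b, t - algebraMap (PS (s + d) l) T b ∈
    (maximalIdeal R).map (algebraMap R T)) ⟨0, by simp⟩ (fun r b => ?_) ?_ t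
  · obtain ⟨f, hf⟩ := hres r
    refine ⟨b * algebraMap _ _ f, ?_⟩
    rw [map_mul, ← mul_sub, ← po_comm (R := R), ← map_sub]
    exact Ideal.mul_mem_left _ _ (Ideal.mem_map_of_mem _ hf)
  · rintro x y ⟨b, hb⟩ ⟨b', hb'⟩
    exact ⟨b + b', by rw [map_add, add_sub_add_comm]; exact add_mem hb hb'⟩

include hι in
lemma X_mem_T (j : Fin d) : algebraMap (PS (s + d) l) T (MvPowerSeries.X (Fin.natAdd s j)) ∈
    (maximalIdeal R).map (algebraMap R T) := by
  rw [← hι, ← po_comm (R := R)]
  exact Ideal.mem_map_of_mem _ (comap_max_PS.ge (Ideal.subset_span ⟨j, rfl⟩))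

include hι in
omit [Module.Finite (PS d k) R] in
lemma T_pow {c : ℕ}
    (hred : ∀ j, maximalIdeal R ^ (j + c) ≤ (xI d k).map (algebraMap (PS d k) R) ^ j) (j : ℕ) :
    ((maximalIdeal R).map (algebraMap R T) ⊔ Ideal.span (Set.range fun i =>
      algebraMap (PS (s + d) l) T (MvPowerSeries.X (Fin.castAdd d i)))) ^ (j + c) ≤
      (xI (s + d) l).map (algebraMap _ T) ^ j := by
  refine sup_pow_le (fun j => ?_) ?_ j
  · rw [← Ideal.map_pow]
    refine (Ideal.map_mono (hred j)).trans ?_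
    rw [Ideal.map_pow, Ideal.map_map, Ideal.map_span]
    refine Ideal.pow_right_mono (Ideal.span_le.mpr ?_) _
    rintro _ ⟨_, ⟨i, rfl⟩, rfl⟩
    rw [RingHom.comp_apply, po_comm (B := PS (s + d) l), hι]
    exact Ideal.mem_map_of_mem _ (Ideal.subset_span ⟨_, rfl⟩)
  · rw [Ideal.span_le]
    rintro _ ⟨i, rfl⟩
    exact Ideal.mem_map_of_mem _ (Ideal.subset_span ⟨_, rfl⟩)

include h hres hι in
lemma T_local [Nontrivial T] {c : ℕ}
    (hred : ∀ j, maximalIdeal R ^ (j + c) ≤ (xI d k).map (algebraMap (PS d k) R) ^ j) :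
    ∃ _ : IsLocalRing T, maximalIdeal T = (maximalIdeal R).map (algebraMap R T) ⊔
      Ideal.span (Set.range fun i =>
        algebraMap (PS (s + d) l) T (MvPowerSeries.X (Fin.castAdd d i))) := by
  have := po_finite h
  have h1 := T_pow (T := T) hι hred 1
  set I := (maximalIdeal R).map (algebraMap R T) ⊔ Ideal.span (Set.range fun i =>
    algebraMap (PS (s + d) l) T (MvPowerSeries.X (Fin.castAdd d i))) with hI
  have h2 : I ≤ Ideal.jacobson ⊥ := fun t ht => map_le_jacobson (A := PS (s + d) l) (n := 1 + c) (by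
    rw [maximalIdeal_PS, ← pow_one (Ideal.map _ _)]
    exact h1 (Ideal.pow_mem_pow ht _))
  refine isLocal_of_ideal I (fun h => ?_) fun t ht => ?_
  · exact bot_ne_top (Ideal.jacobson_eq_top_iff.mp (eq_top_iff.mpr (h ▸ h2)))
  · obtain ⟨b, hb⟩ := T_decomp h hres t
    have hb' : b ∉ maximalIdeal _ := fun hm => ht (by
      rw [← sub_add_cancel t (algebraMap _ T b)]
      refine add_mem (Ideal.mem_sup_left hb) ?_
      rw [maximalIdeal_PS] at hm
      refine SetLike.le_def.mp ?_ (Ideal.mem_map_of_mem (algebraMap _ T) hm)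
      rw [Ideal.map_span, Ideal.span_le]
      rintro _ ⟨_, ⟨i, rfl⟩, rfl⟩
      refine Fin.addCases (fun i => ?_) (fun i => ?_) i
      · exact Ideal.mem_sup_right (Ideal.subset_span ⟨i, rfl⟩)
      · exact Ideal.mem_sup_left (X_mem_T hι i))
    obtain ⟨u, hu⟩ := (notMem_maximalIdeal.mp hb').map (algebraMap _ T)
    have := Ideal.mem_jacobson_bot.mp (h2 (Ideal.mem_sup_left hb)) (↑u⁻¹)
    rw [← hu, sub_mul, Units.mul_inv, sub_add_cancel] at this
    exact isUnit_of_mul_isUnit_left this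

include h hres hι in
lemma T_reg (j : Fin s) (t : T)
    (ht : algebraMap (PS (s + d) l) T (MvPowerSeries.X (Fin.castAdd d j)) * t ∈
      (maximalIdeal R).map (algebraMap R T) ⊔ Ideal.span ((fun i =>
        algebraMap (PS (s + d) l) T (MvPowerSeries.X (Fin.castAdd d i))) '' {i | i < j})) :
    t ∈ (maximalIdeal R).map (algebraMap R T) ⊔ Ideal.span ((fun i =>
        algebraMap (PS (s + d) l) T (MvPowerSeries.X (Fin.castAdd d i))) '' {i | i < j}) := by
  let σ : Set (Fin (s + d)) := Set.range (Fin.natAdd s) ∪ Fin.castAdd d '' {i | i < j}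
  let I : Ideal (PS (s + d) l) := Ideal.span (MvPowerSeries.X '' σ)
  obtain ⟨ψ₀, hψ₀⟩ := exists_desc ((residue R).comp (algebraMap (PS d k) R)) (fun r => by
      obtain ⟨r, rfl⟩ := residue_surjective r
      obtain ⟨f, hf⟩ := hres r
      exact ⟨f, (Ideal.Quotient.eq.mpr hf).symm⟩)
    ((Ideal.Quotient.mk I).comp (algebraMap (PS d k) _)) fun f hf => by
      have : f ∈ xI d k := comap_max_PS.le ((residue_eq_zero_iff (algebraMap _ R f)).mp hf)
      refine Ideal.Quotient.eq_zero_iff_mem.mpr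
        (SetLike.le_def.mp ?_ (Ideal.mem_map_of_mem (algebraMap _ (PS (s + d) l)) this))
      rw [Ideal.map_span, Ideal.span_le]
      rintro _ ⟨_, ⟨i, rfl⟩, rfl⟩
      rw [hι]
      exact Ideal.subset_span ⟨_, Or.inl ⟨i, rfl⟩, rfl⟩
  obtain ⟨ε, h1, h2⟩ := po_lift h (ψ₀.comp (residue R)) (Ideal.Quotient.mk I) hψ₀
  have h3 : (maximalIdeal R).map (algebraMap R T) ≤ RingHom.ker ε :=
    Ideal.map_le_iff_le_comap.mpr fun r hr => by
      rw [Ideal.mem_comap, RingHom.mem_ker, h1, RingHom.comp_apply,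
        (residue_eq_zero_iff _).mpr hr, map_zero]
  obtain ⟨b, hb⟩ := T_decomp h hres t
  have h4 : ε (algebraMap (PS (s + d) l) T (MvPowerSeries.X (Fin.castAdd d j)) * t) = 0 := by
    refine SetLike.le_def.mp (sup_le h3 (Ideal.span_le.mpr ?_)) ht
    rintro _ ⟨i, hi, rfl⟩
    rw [SetLike.mem_coe, RingHom.mem_ker, h2, Ideal.Quotient.eq_zero_iff_mem]
    exact Ideal.subset_span ⟨_, Or.inr ⟨i, hi, rfl⟩, rfl⟩
  have h5 := h3 hb
  rw [RingHom.mem_ker, map_sub, sub_eq_zero] at h5
  rw [map_mul, h5, h2, h2, ← map_mul, Ideal.Quotient.eq_zero_iff_mem] at h4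
  have h6 := PS_regular_set σ _ (by
    rintro (⟨i, hi⟩ | ⟨i, hi, hi'⟩)
    · have := congrArg Fin.val hi
      simp at this; omega
    · have := congrArg Fin.val hi'
      exact (show i < j from hi).ne (Fin.ext this)) b h4
  rw [← sub_add_cancel t (algebraMap _ T b)]
  refine add_mem (Ideal.mem_sup_left hb) 
    (SetLike.le_def.mp ?_ (Ideal.mem_map_of_mem (algebraMap _ T) h6))
  rw [Ideal.map_span, Ideal.span_le]
  rintro _ ⟨_, ⟨_, ⟨i, rfl⟩ | ⟨i, hi, rfl⟩, rfl⟩, rfl⟩
  · exact Ideal.mem_sup_left (X_mem_T hι i)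
  · exact Ideal.mem_sup_right (Ideal.subset_span ⟨i, hi, rfl⟩)

end

theorem stepT {d s : ℕ} {l l' U ι : Type*} [Field l] [Field l'] [CommRing U] [Fintype ι]
    [DecidableEq ι] [Algebra (PS (s + d) l) U] {e : ℕ} {g : PS (s + d) l}
    (G : Gen (PS (s + d) l) U e g) (hg : g ≠ 0) {J : Ideal U} (F : Rs U s J ι) (z : Fin d → U)
    {a : ℕ} (ht : ∀ i, algebraMap (PS (s + d) l) U (MvPowerSeries.X i ^ a) ∈
      J ⊔ Ideal.span (Set.range z)) {q : ℕ}
    (hD : ∀ μ ν, F.D μ ν ∈ (xI (s + d) l ^ q).map (algebraMap (PS (s + d) l) U))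
    (hz : ∀ i, z i ∈ (xI (s + d) l ^ q).map (algebraMap (PS (s + d) l) U))
    {m : ℕ} (x : Fin m → U) (hx : Submodule.span (PS (s + d) l) (Set.range x) = ⊤)
    [Algebra (PS d l') (U ⧸ J)] [Module.Finite (PS d l') (U ⧸ J)]
    (hzz : ∀ i, algebraMap (PS d l') (U ⧸ J) (MvPowerSeries.X i) = Ideal.Quotient.mk J (z i))
    (hK : (Set.range fun k : l => algebraMap (PS (s + d) l) (U ⧸ J) (MvPowerSeries.C k)) =
      Set.range fun k : l' => algebraMap (PS d l') (U ⧸ J) (MvPowerSeries.C k))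
    {L : ℕ} (hL : Module.length (PS (s + d) l) (PS (s + d) l ⧸ (Ideal.span {g ^ (s + d)} ⊔
      maximalIdeal (PS (s + d) l) ^ ((s + d) * a + 1))) ≤ L) :
    e * ∏ i : Fin (s + d), ((i + 1) * q - shift (g ^ 2)) ≤
      (s + d).factorial * (Module.finrank (PS d l') (U ⧸ J) + d * (m * L)) := by
  have h2 := lowerT G F z ht hg hD hz
  have h3 := upperT G F z ht
  have h4 : ln (PS (s + d) l) (J ⊔ (Ideal.span (Set.range z) ⊔
      Ideal.span {algebraMap (PS (s + d) l) U (g ^ (s + d))})) ≤ (m * L : ℕ) := by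
    refine (ln_le_of_span x hx (Ideal.span {g ^ (s + d)} ⊔
      maximalIdeal _ ^ ((s + d) * a + 1)) _ ?_).trans ?_
    · rw [Ideal.map_sup, Ideal.map_span, Set.image_singleton, sup_comm, ← sup_assoc]
      refine sup_le_sup_right ((Ideal.map_mono (pow_le_bracket a)).trans ?_) _
      rw [Ideal.map_span, Ideal.span_le]
      rintro _ ⟨_, ⟨j, rfl⟩, rfl⟩
      exact ht j
    · rw [Fintype.card_fin, Nat.cast_mul]
      gcongr
  have h5 : ln (PS (s + d) l) (J ⊔ Ideal.span (Set.range z)) ≤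
      (Module.finrank (PS d l') (U ⧸ J) + d * (m * L) : ℕ) := by
    refine ENat.forall_natCast_le_iff_le.mp fun y hy => ?_
    rw [Nat.cast_le, ← tsub_le_iff_right]
    refine le_finrank_of_bracket (U ⧸ J) _ fun n hn => ?_
    rw [← ln_eq_smul_top, ← ln_eq_of_range hK, Ideal.map_span, ← Set.range_comp, tsub_mul,
      ENat.natCast_sub, tsub_le_iff_right]
    have h6 := h3 n hn
    have e1 : (algebraMap (PS d l') (U ⧸ J) ∘ fun i => MvPowerSeries.X i ^ n) =
        fun i => Ideal.Quotient.mk J (z i) ^ n := by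
      ext i; simp [hzz]
    rw [e1]
    refine le_trans ?_ (h6.trans (add_le_add le_rfl ?_))
    · push_cast; rw [mul_comm]; gcongr
    · calc _ ≤ d * n ^ d * ((m * L : ℕ) : ℕ∞) := by gcongr
        _ = _ := by push_cast; ring
  have h7 := h2.trans (mul_le_mul_right h5 _)
  exact_mod_cast h7

theorem coreDomT (p : ℕ) [Fact p.Prime] {d s : ℕ} {k l l' R S : Type*} [Field k] [CharP k p]
    [Field l] [CharP l p] [PerfectField l] [Field l'] [CommRing R] [IsDomain R] [IsLocalRing R]
    [Algebra (PS d k) R] [Module.Finite (PS d k) R] (hinj : Injective (algebraMap (PS d k) R))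
    (hres : ∀ r : R, ∃ f : PS d k, r - algebraMap (PS d k) R f ∈ maximalIdeal R) (c : ℕ)
    (hred : ∀ j, maximalIdeal R ^ (j + c) ≤ (xI d k).map (algebraMap (PS d k) R) ^ j)
    [CommRing S] [Nontrivial S] [Algebra R S] [Module.Flat R S]
    (ι : PS d k →+* PS (s + d) l) (hιf : ι.Flat)
    (hι : ∀ j, ι (MvPowerSeries.X j) = MvPowerSeries.X (Fin.natAdd s j))
    (ev : PS (s + d) l →+* S) (hev : Surjective ev)
    (hevι : ∀ f, ev (ι f) = algebraMap R S (algebraMap (PS d k) R f))
    [Algebra (PS d l') S] [Module.Finite (PS d l') S] (a : ℕ)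
    (hx : ∀ i, ev (MvPowerSeries.X i) ^ a ∈ (xI d l').map (algebraMap (PS d l') S))
    (hK : (Set.range fun c : l => ev (MvPowerSeries.C c)) =
      Set.range fun c : l' => algebraMap (PS d l') S (MvPowerSeries.C c)) :
    Module.finrank (PS d k) R ≤ Module.finrank (PS d l') S := by
  classical
  have := isDomain_PSL d k
  have := isDomain_PSL d l'
  have := isDomain_PSL (s + d) l
  have : CharP (PS d k) p := charP_of_injective_ringHom (MvPowerSeries.C (σ := Fin d)).injective p
  let _ := ι.toAlgebra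
  have : Module.Flat (PS d k) (PS (s + d) l) := hιf
  obtain ⟨T, _, _, _, _, _, _, h⟩ := exists_po (PS d k) R (PS (s + d) l)
  obtain ⟨π, hπR, hπB⟩ := po_lift h (algebraMap R S) ev fun f => (hevι f).symm
  have hπ : Surjective π := fun y => by
    obtain ⟨b, rfl⟩ := hev y
    exact ⟨_, hπB b⟩
  have : Nontrivial T := π.domain_nontrivial
  have := po_finite h
  have := po_flat h
  have : IsNoetherianRing T := IsNoetherianRing.of_finite (PS (s + d) l) T
  have : CharP T p := charP_of_injective_ringHom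
    ((algebraMap (PS (s + d) l) T).comp MvPowerSeries.C).injective p
  obtain ⟨_, hn⟩ := T_local h hres hι hred
  have hpow := T_pow (T := T) (s := s) (l := l) hι hred
  rw [← hn] at hpow
  have : Module.Flat R (T ⧸ RingHom.ker π) := Module.Flat.of_linearEquiv
    (Ideal.quotientKerAlgEquivOfSurjective (f := ({ π with commutes' := hπR } : T →ₐ[R] S))
      hπ).toLinearEquiv
  obtain ⟨ι', _, _, deg, D, μ₀, a1, a2, a3, a4, a5, a6, a7⟩ :=
    exists_res (maximalIdeal R) _ hn (T_reg h hres hι) (RingHom.ker π) (RingHom.ker_ne_top π)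
  let F : Rs T s (RingHom.ker π) ι' := ⟨deg, D, μ₀, a1, a2, a3, a5, a6, a7⟩
  choose z hz using fun i => hπ (algebraMap (PS d l') S (MvPowerSeries.X i))
  have hzz : (xI d l').map (algebraMap (PS d l') S) = (Ideal.span (Set.range z)).map π := by
    rw [Ideal.map_span, Ideal.map_span, ← Set.range_comp, ← Set.range_comp]
    congr 2; ext1 i; exact (hz i).symm
  have ht : ∀ i, algebraMap (PS (s + d) l) T (MvPowerSeries.X i ^ a) ∈
      RingHom.ker π ⊔ Ideal.span (Set.range z) := fun i => by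
    have := hx i
    rwa [hzz, ← map_pow, ← hπB, ← Ideal.mem_comap, Ideal.comap_map_of_surjective _ hπ, sup_comm,
      ← RingHom.ker_eq_comap_bot] at this
  have hzm : ∀ i, z i ∈ maximalIdeal T := fun i hu =>
    Submodule.top_ne_ideal_smul_of_le_jacobson_annihilator (R := PS d l') (M := S)
      (I := xI d l') (by rw [← maximalIdeal_PS]; exact maximalIdeal_le_jacobson _) (by
        rw [Ideal.smul_top_eq_map, Ideal.eq_top_of_isUnit_mem _
          (Ideal.mem_map_of_mem _ (Ideal.subset_span (Set.mem_range_self i))) (hz i ▸ hu.map π)]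
        rfl)
  obtain ⟨g, hg, ⟨G⟩⟩ := exists_gen (PS d k) R
  obtain ⟨GT⟩ := po_gen h (AlgHom.id _ R) surjective_id (AlgHom.id _ T) surjective_id (by
    rw [(RingHom.injective_iff_ker_eq_bot _).mp injective_id,
      (RingHom.injective_iff_ker_eq_bot _).mp injective_id, Ideal.map_bot]) G
  have hg' : algebraMap (PS d k) (PS (s + d) l) g ≠ 0 := fun h0 => by
    have := colon_of_flat (C := PS (s + d) l) ⊥ g 1 (by rw [h0, zero_mul]; exact zero_mem _)
    have e : (⊥ : Ideal (PS d k)).colon {g} = ⊥ := by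
      ext x; simp [Submodule.mem_colon_singleton, hg]
    simp [e] at this
  generalize algebraMap (PS d k) (PS (s + d) l) g = g' at GT hg'
  obtain ⟨m, x, hxx⟩ := Module.Finite.exists_fin (R := PS (s + d) l) (M := T)
  obtain ⟨C, hC⟩ := length_quot_span_sup_pow_le _ (maximalIdeal_PS (s + d) l)
    (pow_ne_zero (s + d) hg')
  refine le_of_asymp (c := c) (sh := shift (g' ^ 2)) (D := d * m * C)
    (k := (s + d) * a) (d := s + d) fun N => ?_
  obtain ⟨n, hn⟩ := pow_unbounded_of_one_lt (N + c) (Fact.out : p.Prime).one_lt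
  refine ⟨p ^ n, by omega, ?_⟩
  let φ := iterateFrobenius T p n
  have hφ : ∀ r, φ r = r ^ p ^ n := fun r => rfl
  have hφm : ∀ t ∈ maximalIdeal T, φ t ∈ (xI (s + d) l ^ (p ^ n - c)).map (algebraMap _ T) := by
    intro t ht
    rw [Ideal.map_pow, hφ]
    apply hpow
    rw [Nat.sub_add_cancel (by omega)]
    exact Ideal.pow_mem_pow ht _
  set J := (RingHom.ker π).map φ
  obtain ⟨ψ, hψ⟩ := exists_desc π hπ ((Ideal.Quotient.mk J).comp φ) fun t ht =>
    Ideal.Quotient.eq_zero_iff_mem.mpr (Ideal.mem_map_of_mem _ ht)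
  simp only [RingHom.comp_apply, hφ] at hψ
  let _ : Algebra (PS d l') (T ⧸ J) := (ψ.comp (algebraMap _ S)).toAlgebra
  have hQ : ∀ a, algebraMap (PS d l') (T ⧸ J) a = ψ (algebraMap _ S a) := fun _ => rfl
  have : CharP (PS (s + d) l) p :=
    charP_of_injective_ringHom (MvPowerSeries.C (σ := Fin (s + d))).injective p
  obtain ⟨v, hv⟩ := PS_frob_span p (d := s + d) (K := l) n
  have := finite_of_gen ψ hQ (fun k : Fin m × (Fin (s + d) → Fin (p ^ n)) =>
    Ideal.Quotient.mk J (v k.2 • x k.1)) fun y => by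
      obtain ⟨y, rfl⟩ := Ideal.Quotient.mk_surjective y
      obtain ⟨f, rfl⟩ := (Submodule.mem_span_range_iff_exists_fun _).mp
        (hxx.ge (Submodule.mem_top : y ∈ _))
      choose c hc using fun i => hv (f i)
      refine ⟨fun k => π (algebraMap _ T (c k.1 k.2)), ?_⟩
      simp only [hψ, ← map_mul, ← map_sum]
      congr 1
      rw [Fintype.sum_prod_type]
      refine Finset.sum_congr rfl fun l _ => ?_
      rw [hc l, Finset.sum_smul]
      refine Finset.sum_congr rfl fun i _ => ?_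
      rw [← map_pow, mul_smul, Algebra.smul_def]
  have h1 := rankT p n (ULift.ringEquiv : ULift.{0} (PS d k) ≃+* PS d k) hinj h π hπ hπR F z ht
    (c := 1 + c) (fun i => by
      rw [maximalIdeal_PS, ← pow_one (Ideal.map _ _)]
      exact hpow 1 (Ideal.pow_mem_pow (hzm i) _))
    (Ideal.Quotient.mk J) Ideal.Quotient.mk_surjective ψ hψ hQ
  have h2 := stepT GT hg' (F.map φ) (fun i => φ (z i)) (a := a * p ^ n) (fun i => by
      have := Ideal.mem_map_of_mem φ (ht i)
      rwa [Ideal.map_sup, Ideal.map_span, ← Set.range_comp, hφ, ← map_pow, ← pow_mul] at this)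
    (fun μ ν => hφm _ (a4 μ ν)) (fun i => hφm _ (hzm i)) x hxx
    (fun i => by rw [hQ, ← hz, hψ, hφ]) (by
      have key : ∀ (c : l) (c' : l'), ev (MvPowerSeries.C c) =
          algebraMap (PS d l') S (MvPowerSeries.C c') →
          algebraMap (PS d l') (T ⧸ J) (MvPowerSeries.C c') =
            algebraMap (PS (s + d) l) (T ⧸ J) (MvPowerSeries.C (c ^ p ^ n)) := fun c c' h => by
        rw [hQ, ← h, ← hπB, hψ, ← map_pow, ← map_pow, Ideal.Quotient.mk_algebraMap]
      apply le_antisymm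
      · rintro _ ⟨c, rfl⟩
        obtain ⟨c', hc⟩ := hK.le ⟨(iterateFrobeniusEquiv l p n).symm c, rfl⟩
        have := key _ c' hc.symm
        rw [← iterateFrobeniusEquiv_def, RingEquiv.apply_symm_apply] at this
        exact ⟨c', this⟩
      · rintro _ ⟨c', rfl⟩
        obtain ⟨c, hc⟩ := hK.ge ⟨c', rfl⟩
        exact ⟨_, (key c c' hc).symm⟩) (hC _)
  refine h2.trans (Nat.mul_le_mul_left _ (add_le_add h1 (le_of_eq ?_)))
  ring

end Vale.Agent.P202
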