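import Vale.Agent.P202.Basic

namespace Vale.Agent.P202

variable {d : ℕ}

/-- Koszul sign. -/
def sg (i : Fin d) (A : Finset (Fin d)) : ℤ := (-1) ^ (A.filter (· < i)).card

lemma sg_mul_self (i : Fin d) (A : Finset (Fin d)) : sg i A * sg i A = 1 := by
  rw [sg, ← mul_pow]; simp

lemma sg_insert {i j : Fin d} {A : Finset (Fin d)} (hj : j ∉ A) :
    sg i (insert j A) = (if j < i then -1 else 1) * sg i A := by
  rw [sg, sg, Finset.filter_insert]
  split_ifs with h
  · rw [Finset.card_insert_of_notMem (by simp [hj]), pow_succ]; ring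
  · simp

lemma sg_erase {i j : Fin d} {A : Finset (Fin d)} (hj : j ∈ A) :
    sg i (A.erase j) = (if j < i then -1 else 1) * sg i A := by
  conv_rhs => rw [← Finset.insert_erase hj, sg_insert (Finset.notMem_erase j A)]
  split_ifs <;> simp

variable {M : Type*} [AddCommGroup M]

/-- Exterior multiplication by the `i`-th generator. -/
def Wd (i : Fin d) (y : Finset (Fin d) → M) : Finset (Fin d) → M :=
  fun B => if i ∈ B then sg i B • y (B.erase i) else 0

/-- Contraction with the `i`-th generator. -/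
def Ct (i : Fin d) (y : Finset (Fin d) → M) : Finset (Fin d) → M :=
  fun A => if i ∈ A then 0 else sg i A • y (insert i A)

lemma Wd_Wd_self (i : Fin d) (y : Finset (Fin d) → M) : Wd i (Wd i y) = 0 := by
  ext B; simp [Wd]

lemma Ct_Ct_self (i : Fin d) (y : Finset (Fin d) → M) : Ct i (Ct i y) = 0 := by
  ext B; simp [Ct]

lemma Wd_Wd (i j : Fin d) (y : Finset (Fin d) → M) : Wd i (Wd j y) + Wd j (Wd i y) = 0 := by
  by_cases hij : i = j
  · subst hij; simp [Wd_Wd_self]
  ext B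
  by_cases hi : i ∈ B <;> by_cases hj : j ∈ B <;>
    simp only [Wd, Pi.add_apply, Pi.zero_apply, hi, hj, Finset.mem_erase, ne_eq, hij, Ne.symm hij,
      not_false_eq_true, true_and, if_true, if_false, smul_zero, add_zero]
  rw [Finset.erase_right_comm, smul_smul, smul_smul, ← add_smul, sg_erase hi, sg_erase hj]
  rcases lt_or_gt_of_ne hij with h | h <;> simp [h, h.not_gt, mul_comm]

lemma Ct_Ct (i j : Fin d) (y : Finset (Fin d) → M) : Ct i (Ct j y) + Ct j (Ct i y) = 0 := by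
  by_cases hij : i = j
  · subst hij; simp [Ct_Ct_self]
  ext B
  by_cases hi : i ∈ B <;> by_cases hj : j ∈ B <;>
    simp only [Ct, Pi.add_apply, Pi.zero_apply, hi, hj, Finset.mem_insert, hij, Ne.symm hij,
      false_or, if_true, if_false, smul_zero, add_zero]
  rw [Finset.insert_comm, smul_smul, smul_smul, ← add_smul, sg_insert hi, sg_insert hj]
  rcases lt_or_gt_of_ne hij with h | h <;> simp [h, h.not_gt, mul_comm]

lemma Ct_Wd_self (i : Fin d) (y : Finset (Fin d) → M) : Ct i (Wd i y) + Wd i (Ct i y) = y := by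
  ext B
  by_cases hi : i ∈ B
  · simp [Ct, Wd, hi, smul_smul, sg_erase hi, sg_mul_self, Finset.insert_erase hi]
  · simp [Ct, Wd, hi, smul_smul, sg_insert hi, sg_mul_self]

lemma Ct_Wd_ne {i j : Fin d} (hij : i ≠ j) (y : Finset (Fin d) → M) :
    Ct i (Wd j y) + Wd j (Ct i y) = 0 := by
  ext B
  by_cases hi : i ∈ B <;> by_cases hj : j ∈ B <;>
    simp only [Ct, Wd, Pi.add_apply, Pi.zero_apply, hi, hj, Finset.mem_insert, Finset.mem_erase,
      ne_eq, hij, Ne.symm hij, not_false_eq_true, true_and,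
      false_or, if_true, if_false, smul_zero, add_zero]
  rw [Finset.erase_insert_of_ne hij, smul_smul, smul_smul, ← add_smul, sg_insert hi, sg_erase hj]
  rcases lt_or_gt_of_ne hij with h | h <;> simp [h, h.not_gt, mul_comm]

lemma Wd_sum {α : Type*} (s : Finset α) (i : Fin d) (y : α → Finset (Fin d) → M) :
    Wd i (∑ a ∈ s, y a) = ∑ a ∈ s, Wd i (y a) := by
  ext B
  by_cases hi : i ∈ B <;> simp [Wd, hi, Finset.smul_sum]

lemma Ct_sum {α : Type*} (s : Finset α) (i : Fin d) (y : α → Finset (Fin d) → M) :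
    Ct i (∑ a ∈ s, y a) = ∑ a ∈ s, Ct i (y a) := by
  ext B
  by_cases hi : i ∈ B <;> simp [Ct, hi, Finset.smul_sum]

lemma sum_anti {N : Type*} [AddCommGroup N] (f : Fin d → Fin d → N)
    (h : ∀ i j, f i j + f j i = 0) (h0 : ∀ i, f i i = 0) : ∑ i, ∑ j, f i j = 0 := by
  rw [← Finset.sum_product']
  refine Finset.sum_involution (fun a _ => a.swap) (fun a _ => h _ _) ?_ (fun _ _ => by simp)
    (fun _ _ => rfl)
  rintro ⟨i, j⟩ _ hne heq
  apply hne
  have : j = i := congrArg Prod.fst heq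
  subst this
  exact h0 _

/-- The total exterior multiplication. -/
def wd (y : Finset (Fin d) → M) : Finset (Fin d) → M := ∑ i, Wd i y

lemma wd_apply (y : Finset (Fin d) → M) (A : Finset (Fin d)) :
    wd y A = ∑ i ∈ A, sg i A • y (A.erase i) := by
  simp [wd, Wd, Finset.sum_ite_mem]

lemma wd_wd (y : Finset (Fin d) → M) : wd (wd y) = 0 := by
  simp only [wd, Wd_sum]
  exact sum_anti _ (fun i j => Wd_Wd i j y) (fun i => Wd_Wd_self i y)

lemma wd_Ct (j : Fin d) (y : Finset (Fin d) → M) : wd (Ct j y) + Ct j (wd y) = y := by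
  simp only [wd, Ct_sum, ← Finset.sum_add_distrib]
  rw [Finset.sum_eq_single j]
  · rw [add_comm, Ct_Wd_self]
  · intro i _ hi; rw [add_comm, Ct_Wd_ne (Ne.symm hi)]
  · simp

/-- Matrix of `Wd`. -/
def Wm (i : Fin d) : Matrix (Finset (Fin d)) (Finset (Fin d)) ℤ :=
  fun B A => if i ∈ B ∧ A = B.erase i then sg i B else 0

/-- Matrix of `Ct`. -/
def Cm (i : Fin d) : Matrix (Finset (Fin d)) (Finset (Fin d)) ℤ :=
  fun A B => if i ∉ A ∧ B = insert i A then sg i A else 0

lemma sum_Wm (i : Fin d) (y : Finset (Fin d) → M) (B) : ∑ A, Wm i B A • y A = Wd i y B := by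
  by_cases hi : i ∈ B <;> simp [Wm, Wd, hi]

lemma sum_Cm (i : Fin d) (y : Finset (Fin d) → M) (B) : ∑ A, Cm i B A • y A = Ct i y B := by
  by_cases hi : i ∈ B <;> simp [Cm, Ct, hi]

lemma Wm_mulVec (i : Fin d) (y : Finset (Fin d) → ℤ) : (Wm i).mulVec y = Wd i y := by
  ext B; rw [← sum_Wm]; rfl

lemma Cm_mulVec (i : Fin d) (y : Finset (Fin d) → ℤ) : (Cm i).mulVec y = Ct i y := by
  ext B; rw [← sum_Cm]; rfl

lemma Cm_Cm (i j : Fin d) : Cm i * Cm j + Cm j * Cm i = 0 := by
  rw [Matrix.ext_iff_mulVec]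
  intro v
  simp [Matrix.add_mulVec, ← Matrix.mulVec_mulVec, Cm_mulVec, Ct_Ct]

lemma Cm_Cm_self (i : Fin d) : Cm i * Cm i = 0 := by
  rw [Matrix.ext_iff_mulVec]
  intro v
  simp [← Matrix.mulVec_mulVec, Cm_mulVec, Ct_Ct_self]

lemma Cm_Wm (i j : Fin d) : Cm i * Wm j + Wm j * Cm i = if i = j then 1 else 0 := by
  rw [Matrix.ext_iff_mulVec]
  intro v
  split_ifs with h
  · subst h
    simp [Matrix.add_mulVec, ← Matrix.mulVec_mulVec, Cm_mulVec, Wm_mulVec, Ct_Wd_self]
  · simp [Matrix.add_mulVec, ← Matrix.mulVec_mulVec, Cm_mulVec, Wm_mulVec, Ct_Wd_ne h]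

end Vale.Agent.P202
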