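import Vale.Agent.P202.FibreA

/-! Job Fibre (see notes/P202.md): existence of multiplicities; reduction to a zero-dimensional
closed fibre. -/

open IsLocalRing

universe u v

namespace Vale.Agent.P202

/-- F1: Noether normalization by a minimal reduction. -/
theorem exists_normalization (K A : Type*) [Field K] [Infinite K] [CommRing A] [IsLocalRing A]
    [IsNoetherianRing A] [Algebra K A] [IsAdicComplete (maximalIdeal A) A]
    (hK : Function.Surjective (algebraMap K (ResidueField A))) :
    ∃ (d : ℕ) (φ : PS d K →ₐ[K] A), Function.Injective φ ∧ φ.toRingHom.Finite ∧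
      IsRed ((xI d K).map φ) (maximalIdeal A) ∧ ringKrullDim A = d := by
  obtain ⟨W, _, hW, hmin⟩ := exists_minimalF K A
  obtain ⟨s, y, hy, hyW⟩ := exists_fin_basisF W
  obtain ⟨φ, hφ, hred⟩ := exists_evalF (K := K) y (hyW ▸ hW)
  have hinj : Function.Injective φ := hmin _ φ (hφ ▸ hy) (hφ ▸ hyW)
  have hfin := finite_of_isRed hK φ hred
  exact ⟨s, φ, hinj, hfin, hred, ringKrullDim_of_finite φ.toRingHom hinj hfin⟩

/-- F2: the multiplicity exists and is positive. -/
theorem exists_isMult (k A : Type*) [Field k] [PerfectField k] [CommRing A]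
    [IsLocalRing A] [IsNoetherianRing A] [Algebra k A] (d : ℕ) (hd : ringKrullDim A = d) :
    ∃ e : ℝ, 0 < e ∧ IsMult A d e := by
  obtain ⟨K, _, _, B, _, _, _, _, _, hflat, hm, hc, hK⟩ := exists_complete_model k A
  obtain ⟨h1, h2⟩ := hs_eq_of_flat A B hm
  obtain ⟨s, φ, hinj, hfin, hred, hdim⟩ := exists_normalization K B hK
  obtain rfl : s = d := by
    rw [← h2, hd] at hdim
    exact_mod_cast hdim.symm
  letI := φ.toRingHom.toAlgebra
  haveI : Module.Finite (PS s K) B := hfin
  haveI : IsScalarTower K (PS s K) B :=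
    IsScalarTower.of_algebraMap_eq fun c => (φ.commutes c).symm
  haveI := isDomain_PSL s K
  refine ⟨Module.finrank (PS s K) B, ?_, ?_⟩
  · have := LinearMap.finrank_le_finrank_of_injective (f := Algebra.linearMap (PS s K) B) hinj
    rw [Module.finrank_self] at this
    exact_mod_cast this
  · unfold IsMult
    rw [h1]
    exact isMult_finrank hK hred

/-- F3: reduction to a zero-dimensional closed fibre. -/
theorem exists_fibre_reduction (k : Type*) (R : Type u) (S : Type v) [Field k] [PerfectField k]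
    [CommRing R] [IsLocalRing R] [IsNoetherianRing R] [Algebra k R]
    [CommRing S] [IsLocalRing S] [IsNoetherianRing S] [Algebra R S] [Module.Flat R S]
    [IsLocalHom (algebraMap R S)] (d D : ℕ) (hd : ringKrullDim R = d) (hD : ringKrullDim S = D) :
    ∃ (S₁ : Type v) (_ : CommRing S₁) (_ : IsLocalRing S₁) (_ : IsNoetherianRing S₁)
      (_ : Algebra R S₁), Module.Flat R S₁ ∧ IsLocalHom (algebraMap R S₁) ∧
      (∃ a : ℕ, maximalIdeal S₁ ^ a ≤ (maximalIdeal R).map (algebraMap R S₁)) ∧
      ringKrullDim S₁ = d ∧ ∀ e e₁ : ℝ, IsMult S D e → IsMult S₁ d e₁ → e₁ ≤ e := by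
  letI : Algebra k S := ((algebraMap R S).comp (algebraMap k R)).toAlgebra
  obtain ⟨K, _, _, B, _, _, _, _, _, hflat, hm, hc, hK⟩ := exists_complete_model k S
  obtain ⟨h1, h2⟩ := hs_eq_of_flat S B hm
  letI : Algebra R B := ((algebraMap S B).comp (algebraMap R S)).toAlgebra
  haveI : IsScalarTower R S B := IsScalarTower.of_algebraMap_eq fun _ => rfl
  haveI : Module.Flat R B := Module.Flat.trans R S B
  haveI := isLocalHom_of_map_le hm.le
  haveI : IsLocalHom (algebraMap R B) := RingHom.isLocalHom_comp _ _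
  have hJ : (maximalIdeal R).map (algebraMap R B) ≤ maximalIdeal B :=
    IsLocalRing.map_maximalIdeal_le _
  obtain ⟨Q, hQ, hQd⟩ := exists_minimalPrime_dim _ hJ
  haveI := hQ.1.1
  have hQm : maximalIdeal R ≤ Q.comap (algebraMap R B) := Ideal.map_le_iff_le_comap.mp hQ.1.2
  haveI : Q.LiesOver (maximalIdeal R) :=
    ⟨Ideal.IsMaximal.eq_of_le inferInstance (Ideal.comap_ne_top _ Ideal.IsPrime.ne_top') hQm⟩
  have hmd : (maximalIdeal R).height = d := by
    rw [← maximalIdeal_height_eq_ringKrullDim] at hd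
    exact_mod_cast hd
  have hQh : Q.height = d := by
    rw [Ideal.height_eq_height_add_of_liesOver_of_hasGoingDown (maximalIdeal R) Q, hmd]
    have hQ' := hQ
    rw [Ideal.minimalPrimes_eq_comap] at hQ'
    obtain ⟨Q', hQ', rfl⟩ := hQ'
    haveI := hQ'.1.1
    rw [Ideal.map_comap_of_surjective _ Ideal.Quotient.mk_surjective,
      Ideal.height_eq_zero_iff.mpr hQ', add_zero]
  have h3 := Ideal.height_eq_height_add_of_liesOver_of_hasGoingDown (maximalIdeal R)
    (maximalIdeal B)
  have hBD : (maximalIdeal B).height = D := by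
    rw [h2, ← maximalIdeal_height_eq_ringKrullDim] at hD
    exact_mod_cast hD
  rw [hmd, hBD] at h3
  obtain ⟨f, hf⟩ := ENat.ne_top_iff_exists.mp
    (ne_top_of_le_ne_top (ENat.coe_ne_top D) (le_add_self.trans h3.ge))
  rw [← hf] at h3 hQd
  obtain rfl : D = d + f := by exact_mod_cast h3
  have hmax : maximalIdeal (Localization.AtPrime Q) =
      ((maximalIdeal R).map (algebraMap R (Localization.AtPrime Q))).radical := by
    rw [IsScalarTower.algebraMap_eq R B (Localization.AtPrime Q), ← Ideal.map_map,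
      IsLocalization.AtPrime.radical_map_of_mem_minimalPrimes _ Q _ hQ,
      Localization.AtPrime.map_eq_maximalIdeal]
  refine ⟨Localization.AtPrime Q, inferInstance, inferInstance, inferInstance, inferInstance,
    inferInstance, isLocalHom_of_map_le (hmax ▸ Ideal.le_radical),
    Ideal.exists_pow_le_of_le_radical_of_fg hmax.le (Ideal.fg_of_isNoetherianRing _), ?_,
    fun e e₁ he he₁ => mult_localization_le hK Q (h2 ▸ hD) hQd.symm ?_ he₁⟩
  · rw [IsLocalization.AtPrime.ringKrullDim_eq_height Q, hQh]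
    rfl
  · unfold IsMult at he ⊢
    rwa [← h1]

end Vale.Agent.P202
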