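import Vale.Agent.P202.Model

/-! Job Fibre, tools. -/

open IsLocalRing

namespace Vale.Agent.P202

section lin
variable {K A : Type*} [Field K] [AddCommGroup A] [Module K A]

theorem exists_fin_basisF (W : Submodule K A) [Module.Finite K W] :
    ∃ (s : ℕ) (y : Fin s → A), LinearIndependent K y ∧ Submodule.span K (Set.range y) = W := by
  let b := Module.finBasis K W
  refine ⟨_, W.subtype ∘ b, b.linearIndependent.map' _ W.ker_subtype, ?_⟩
  rw [Set.range_comp, ← Submodule.map_span, b.span_eq, Submodule.map_subtype_top]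

theorem exists_extendF (V : Submodule K A) [Module.Finite K V] {f : ℕ} (w : Fin f → A)
    (hw : LinearIndependent K w) (hV : ∀ j, w j ∈ V) :
    ∃ (h : ℕ) (y : Fin (h + f) → A), LinearIndependent K y ∧
      Submodule.span K (Set.range y) = V ∧ ∀ j, y (Fin.natAdd h j) = w j := by
  obtain ⟨C, hC⟩ := (Submodule.span K (Set.range w)).exists_isCompl
  have hWV : Submodule.span K (Set.range w) ≤ V :=
    Submodule.span_le.mpr (Set.range_subset_iff.mpr hV)
  haveI : Module.Finite K (C ⊓ V : Submodule K A) :=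
    Module.Finite.of_injective _ (Submodule.inclusion_injective (inf_le_right (a := C) (b := V)))
  obtain ⟨h, u, hu, hu'⟩ := exists_fin_basisF (C ⊓ V)
  refine ⟨h, Sum.elim u w ∘ finSumFinEquiv.symm, ?_, ?_, fun j => by simp⟩
  · refine (hu.sum_type hw ?_).comp _ finSumFinEquiv.symm.injective
    rw [hu']
    exact hC.disjoint.symm.mono_left inf_le_left
  · rw [finSumFinEquiv.symm.surjective.range_comp, Set.Sum.elim_range, Submodule.span_union, hu',
      sup_comm, ← sup_inf_assoc_of_le C hWV, hC.sup_eq_top, top_inf_eq]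

end lin

theorem IsRed.map_of_surjective {A B : Type*} [CommRing A] [CommRing B] {I J : Ideal A}
    (h : IsRed I J) (f : A →+* B) : IsRed (I.map f) (J.map f) := by
  obtain ⟨h1, c, hc⟩ := h
  refine ⟨Ideal.map_mono h1, c, ?_⟩
  rw [← Ideal.map_pow, ← Ideal.map_pow, ← Ideal.map_mul]
  exact Ideal.map_mono hc

section norm
variable {K A : Type*} [Field K] [CommRing A] [IsLocalRing A] [IsNoetherianRing A] [Algebra K A]

omit [IsLocalRing A] [IsNoetherianRing A] in
theorem map_xI_eq {s : ℕ} (φ : PS s K →ₐ[K] A) :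
    (xI s K).map φ = Ideal.span
      (Submodule.span K (Set.range fun i => φ (MvPowerSeries.X i)) : Set A) := by
  rw [Ideal.map_span, ← Set.range_comp]
  exact (Submodule.span_span_of_tower K A _).symm

theorem finite_of_isRed (hK : Function.Surjective (algebraMap K (ResidueField A))) {s : ℕ}
    (φ : PS s K →ₐ[K] A) (h : IsRed ((xI s K).map φ) (maximalIdeal A)) :
    φ.toRingHom.Finite := by
  obtain ⟨c, hc⟩ := h.pow_le
  refine finite_of_primary hK φ (fun i => h.1 (Ideal.mem_map_of_mem _
    (Ideal.subset_span ⟨i, rfl⟩))) (1 + c) ((hc 1).trans (le_of_eq ?_))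
  rw [pow_one, Ideal.map_span, ← Set.range_comp]
  rfl

omit [IsNoetherianRing A] in
theorem exists_evalF [IsAdicComplete (maximalIdeal A) A] {s : ℕ} (y : Fin s → A)
    (h : IsRed (Ideal.span (Submodule.span K (Set.range y) : Set A)) (maximalIdeal A)) :
    ∃ φ : PS s K →ₐ[K] A, (fun i => φ (MvPowerSeries.X i)) = y ∧
      IsRed ((xI s K).map φ) (maximalIdeal A) := by
  obtain ⟨φ, hφ⟩ := exists_evalPS (K := K) (maximalIdeal A) y fun i => Ideal.le_radical
    (h.1 (Ideal.subset_span (Submodule.subset_span ⟨i, rfl⟩)))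
  refine ⟨φ, funext hφ, ?_⟩
  rw [map_xI_eq, funext hφ]
  exact h

variable (K A) in
theorem exists_minimalF [Infinite K] : ∃ W : Submodule K A, Module.Finite K W ∧
    IsRed (Ideal.span (W : Set A)) (maximalIdeal A) ∧
      ∀ (s : ℕ) (φ : PS s K →ₐ[K] A), LinearIndependent K (fun i => φ (MvPowerSeries.X i)) →
        Submodule.span K (Set.range fun i => φ (MvPowerSeries.X i)) = W →
        Function.Injective φ := by
  obtain ⟨t, ht⟩ := (maximalIdeal A).fg_of_isNoetherianRing
  haveI : Module.Finite K (Submodule.span K (t : Set A)) :=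
    Module.Finite.span_of_finite K t.finite_toSet
  obtain ⟨W, hWV, hW⟩ := exists_minimal_reduction (Submodule.span K (t : Set A)) (by
    have : Ideal.span (Submodule.span K (t : Set A) : Set A) = maximalIdeal A :=
      (Submodule.span_span_of_tower K A _).trans ht
    rw [this]
    exact ⟨le_rfl, 0, by simp⟩)
  exact ⟨W, Module.Finite.of_injective _ (Submodule.inclusion_injective hWV), hW⟩

end norm

theorem exists_minimalPrime_dim {S : Type*} [CommRing S] [IsLocalRing S] [IsNoetherianRing S]
    (J : Ideal S) (hJ : J ≤ maximalIdeal S) : ∃ Q ∈ J.minimalPrimes,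
      (((maximalIdeal S).map (Ideal.Quotient.mk J)).height : WithBot ℕ∞) =
        ringKrullDim (S ⧸ Q) := by
  haveI : Nontrivial (S ⧸ J) :=
    Ideal.Quotient.nontrivial_iff.mpr (ne_top_of_le_ne_top Ideal.IsPrime.ne_top' hJ)
  haveI := IsLocalRing.of_surjective' _ (Ideal.Quotient.mk_surjective (I := J))
  rw [map_maximalIdeal_of_surjective _ Ideal.Quotient.mk_surjective]
  obtain ⟨l, -, hl⟩ := (maximalIdeal (S ⧸ J)).exists_ltSeries_length_eq_height
  let l' : LTSeries (PrimeSpectrum S) := l.map (PrimeSpectrum.comap (Ideal.Quotient.mk J))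
    (RingHom.strictMono_comap_of_surjective Ideal.Quotient.mk_surjective)
  have hJ' : J ≤ l'.head.asIdeal := fun x hx => by
    show Ideal.Quotient.mk J x ∈ l.head.asIdeal
    rw [Ideal.Quotient.eq_zero_iff_mem.mpr hx]
    exact zero_mem _
  obtain ⟨Q, hQ, hQl⟩ := Ideal.exists_minimalPrimes_le hJ'
  refine ⟨Q, hQ, le_antisymm ?_ ?_⟩
  · rw [← hl, ringKrullDim_quotient]
    exact Order.LTSeries.length_le_krullDim (LTSeries.mk (α := PrimeSpectrum.zeroLocus (Q : Set S))
      l.length (fun i => ⟨l' i, hQl.trans (l'.head_le i)⟩) fun i j hij => l'.strictMono hij)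
  · rw [maximalIdeal_height_eq_ringKrullDim]
    exact ringKrullDim_le_of_surjective (Ideal.Quotient.factor hQ.1.2)
      (Ideal.Quotient.factor_surjective _)

theorem finite_of_comp_injective {P B C : Type*} [CommRing P] [IsNoetherianRing P] [CommRing B]
    [CommRing C] (f : P →+* B) (g : B →+* C) (hg : Function.Injective g)
    (h : (g.comp f).Finite) : f.Finite := by
  letI := f.toAlgebra
  letI := (g.comp f).toAlgebra
  haveI : Module.Finite P C := h
  exact Module.Finite.of_injective (AlgHom.mk g fun _ => rfl : B →ₐ[P] C).toLinearMap hg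

/-- Localizing a complete local ring at a prime of maximal dimension does not increase the
multiplicity. -/
theorem mult_localization_le {K S : Type*} [Field K] [Infinite K] [CommRing S] [IsLocalRing S]
    [IsNoetherianRing S] [Algebra K S] [IsAdicComplete (maximalIdeal S) S]
    (hK : Function.Surjective (algebraMap K (ResidueField S))) (Q : Ideal S) [Q.IsPrime]
    {d f : ℕ} (hS : ringKrullDim S = (d + f : ℕ)) (hQ : ringKrullDim (S ⧸ Q) = f) {e e₁ : ℝ}
    (he : IsMult S (d + f) e) (he₁ : IsMult (Localization.AtPrime Q) d e₁) : e₁ ≤ e := by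
  obtain ⟨V, _, hV, hVmin⟩ := exists_minimalF K S
  haveI := IsLocalRing.of_surjective' _ (Ideal.Quotient.mk_surjective (I := Q))
  let π : S →ₐ[K] S ⧸ Q := Ideal.Quotient.mkₐ K Q
  have hm : (maximalIdeal S).map (Ideal.Quotient.mk Q) = maximalIdeal (S ⧸ Q) :=
    map_maximalIdeal_of_surjective _ Ideal.Quotient.mk_surjective
  have hK' : Function.Surjective (algebraMap K (ResidueField (S ⧸ Q))) := fun z => by
    obtain ⟨z, rfl⟩ := residue_surjective z
    obtain ⟨z, rfl⟩ := Ideal.Quotient.mk_surjective z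
    obtain ⟨c, hc⟩ := hK (residue S z)
    refine ⟨c, Ideal.Quotient.eq.mpr ?_⟩
    have := Ideal.mem_map_of_mem (Ideal.Quotient.mk Q) (Ideal.Quotient.eq.mp hc)
    rwa [hm, map_sub] at this
  obtain ⟨W, hWV, hW, hWmin⟩ := exists_minimal_reduction (V.map π.toLinearMap) (by
    have := hV.map_of_surjective (Ideal.Quotient.mk Q)
    rwa [hm, Ideal.map_span] at this)
  haveI : Module.Finite K W := Module.Finite.of_injective _ (Submodule.inclusion_injective hWV)
  obtain ⟨f', w', hw', hw'W⟩ := exists_fin_basisF W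
  have hlift : ∀ j, ∃ w ∈ V, π w = w' j := fun j =>
    hWV (hw'W ▸ Submodule.subset_span ⟨j, rfl⟩)
  choose w hwV hww using hlift
  have hw : LinearIndependent K w :=
    LinearIndependent.of_comp π.toLinearMap ((funext hww : π.toLinearMap ∘ w = w') ▸ hw')
  obtain ⟨h, y, hy, hyV, hyw⟩ := exists_extendF V w hw hwV
  obtain ⟨φ, hφ, hred⟩ := exists_evalF (K := K) y (hyV ▸ hV)
  have hinj : Function.Injective φ := hVmin _ φ (hφ ▸ hy) (hφ ▸ hyV)
  have hfin := finite_of_isRed hK φ hred
  have hdim := ringKrullDim_of_finite φ.toRingHom hinj hfin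
  let ψ : PS f' K →ₐ[K] S ⧸ Q :=
    (π.comp φ).comp (MvPowerSeries.rename (Fin.natAdd h : Fin f' → Fin (h + f')))
  have hψ : (fun j => ψ (MvPowerSeries.X j)) = w' := funext fun j => by
    rw [← hww, ← hyw, ← hφ]
    simp [ψ]
  have hinj' : Function.Injective ψ := hWmin _ ψ (hψ ▸ hw') (hψ ▸ hw'W)
  have hfin' := finite_of_isRed hK' ψ (by rw [map_xI_eq, hψ, hw'W]; exact hW)
  have hdim' := ringKrullDim_of_finite ψ.toRingHom hinj' hfin'
  obtain rfl : f' = f := by
    rw [hQ] at hdim'
    exact_mod_cast hdim'.symm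
  obtain rfl : h = d := by
    rw [hS] at hdim
    have : d + f' = h + f' := by exact_mod_cast hdim
    omega
  letI := φ.toRingHom.toAlgebra
  haveI : Module.Finite (PS (h + f') K) S := hfin
  haveI : IsScalarTower K (PS (h + f') K) S :=
    IsScalarTower.of_algebraMap_eq fun c => (φ.commutes c).symm
  have hcomp : (Ideal.quotientMap Q (algebraMap (PS (h + f') K) S) le_rfl).comp
      ((Ideal.Quotient.mk (Q.comap (algebraMap (PS (h + f') K) S))).comp
      (MvPowerSeries.rename (R := K) (Fin.natAdd h : Fin f' → Fin (h + f'))).toRingHom) =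
      ψ.toRingHom := rfl
  obtain ⟨z, hz⟩ := exists_generators_localization f' h (Q.comap (algebraMap (PS (h + f') K) S))
    (Function.Injective.of_comp (f := Ideal.quotientMap Q (algebraMap (PS (h + f') K) S) le_rfl)
      hinj')
    (finite_of_comp_injective _ _ Ideal.quotientMap_injective (hcomp ▸ hfin'))
  rw [tendsto_nhds_unique he (isMult_finrank hK hred)]
  exact hs_localization_le Q z hz he₁

end Vale.Agent.P202
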