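import Vale.Agent.P202.Basic

/-! Filtrations of quotients by powers of a sequence. -/

namespace Vale.Agent.P202

section
variable (A : Type*) {T : Type*} [CommRing A] [CommRing T] [Algebra A T]

/-- Multiplication by `w` from `T / (I : w)` to `T / I`. -/
noncomputable def mulQ (I : Ideal T) (w : T) : (T ⧸ I.colon {w}) →ₗ[T] T ⧸ I :=
  (I.colon {w}).mapQ I (LinearMap.toSpanSingleton T T w) fun x hx => by
    simpa [Submodule.mem_colon_singleton] using hx

lemma mulQ_injective (I : Ideal T) (w : T) : Function.Injective (mulQ I w) := by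
  rw [injective_iff_map_eq_zero]
  intro x hx
  obtain ⟨x, rfl⟩ := Submodule.Quotient.mk_surjective _ x
  rw [mulQ, Submodule.mapQ_apply, Submodule.Quotient.mk_eq_zero] at hx
  rw [Submodule.Quotient.mk_eq_zero]
  simpa [Submodule.mem_colon_singleton] using hx

lemma mulQ_exact (I : Ideal T) (w : T) : Function.Exact (mulQ I w)
    (Submodule.factor (le_sup_left : I ≤ I ⊔ Ideal.span {w})) := by
  intro x
  obtain ⟨x, rfl⟩ := Submodule.Quotient.mk_surjective _ x
  rw [← Submodule.mkQ_apply, Submodule.factor_mk, Submodule.mkQ_apply,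
    Submodule.Quotient.mk_eq_zero]
  constructor
  · intro h
    obtain ⟨u, hu, v, hv, rfl⟩ := Submodule.mem_sup.mp h
    obtain ⟨c, rfl⟩ := Ideal.mem_span_singleton'.mp hv
    refine ⟨Submodule.Quotient.mk c, ?_⟩
    rw [mulQ, Submodule.mapQ_apply, Submodule.mkQ_apply, Submodule.Quotient.eq]
    simpa using hu
  · rintro ⟨c, hc⟩
    obtain ⟨c, rfl⟩ := Submodule.Quotient.mk_surjective _ c
    rw [mulQ, Submodule.mapQ_apply, Submodule.mkQ_apply, Submodule.Quotient.eq] at hc
    have : x = -(LinearMap.toSpanSingleton T T w c - x) + c * w := by simp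
    rw [this]
    exact Submodule.add_mem_sup (neg_mem hc) (Ideal.mem_span_singleton'.mpr ⟨c, rfl⟩)

/-- Length of `T / I` over `A`. -/
noncomputable def ln (I : Ideal T) : ℕ∞ := Module.length A (T ⧸ I)

lemma exact_colon (I : Ideal T) (w : T) :
    ∃ (f : (T ⧸ I.colon {w}) →ₗ[A] T ⧸ I) (g : (T ⧸ I) →ₗ[A] T ⧸ (I ⊔ Ideal.span {w})),
      Function.Injective f ∧ Function.Surjective g ∧ Function.Exact f g := by
  refine ⟨(mulQ I w).restrictScalars A,
    (Submodule.factor (le_sup_left : I ≤ I ⊔ Ideal.span {w})).restrictScalars A, ?_, ?_, ?_⟩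
  · exact mulQ_injective I w
  · exact Submodule.factor_surjective (le_sup_left : I ≤ I ⊔ Ideal.span {w})
  · exact mulQ_exact I w

lemma len_colon (I : Ideal T) (w : T) : ln A I = ln A (I.colon {w}) + ln A (I ⊔ Ideal.span {w}) := by
  obtain ⟨f, g, h1, h2, h3⟩ := exact_colon A I w
  exact Module.length_eq_add_of_exact f g h1 h2 h3

lemma finrank_colon [IsDomain A] [Module.Finite A T] (I : Ideal T) (w : T) :
    Module.finrank A (T ⧸ I) =
    Module.finrank A (T ⧸ I.colon {w}) + Module.finrank A (T ⧸ (I ⊔ Ideal.span {w})) := by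
  obtain ⟨f, g, h1, h2, h3⟩ := exact_colon A I w
  rw [← LinearMap.finrank_range_of_inj h1, ← LinearMap.exact_iff.mp h3,
    ← (g.quotKerEquivOfSurjective h2).finrank_eq, add_comm,
    Submodule.finrank_quotient_add_finrank]

lemma len_anti {I J : Ideal T} (h : I ≤ J) : ln A J ≤ ln A I :=
  Module.length_le_of_surjective (Ideal.Quotient.factorₐ A h).toLinearMap
    (Ideal.Quotient.factor_surjective h)

lemma len_pow_succ (I : Ideal T) (y : T) (m : ℕ) :
    ln A ((I ⊔ Ideal.span {y ^ (m + 1)})) =
    ln A ((I ⊔ Ideal.span {y ^ (m + 1)}).colon {y ^ m}) +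
      ln A ((I ⊔ Ideal.span {y ^ m})) := by
  rw [len_colon A _ (y ^ m), sup_assoc, sup_eq_right.mpr (Ideal.span_singleton_le_span_singleton.mpr
    (pow_dvd_pow y (Nat.le_succ m)))]

lemma len_pow_upper (I : Ideal T) (y : T) (m : ℕ) :
    ln A ((I ⊔ Ideal.span {y ^ m})) ≤
      m * ln A ((I ⊔ Ideal.span {y})) := by
  induction m with
  | zero => simp [ln]
  | succ m ih =>
    rw [len_pow_succ, Nat.cast_succ, add_mul, one_mul, add_comm]
    refine add_le_add ih (len_anti A (sup_le ?_ ?_))
    · intro x hx
      rw [Submodule.mem_colon_singleton]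
      exact Ideal.mem_sup_left (I.mul_mem_right _ hx)
    · rw [Ideal.span_singleton_le_iff_mem, Submodule.mem_colon_singleton]
      exact Ideal.mem_sup_right (Ideal.mem_span_singleton.mpr ⟨1, by simp [pow_succ']⟩)

lemma len_pow_lower (I : Ideal T) (y G : T) (h : ∀ m w, y ^ m * w ∈ I → G * w ∈ I) (m : ℕ) :
    m * ln A ((I ⊔ Ideal.span {y})) ≤
      ln A ((I ⊔ Ideal.span {y ^ m})) +
        m * ln A ((I ⊔ Ideal.span {y} ⊔ Ideal.span {G})) := by
  induction m with
  | zero => simp
  | succ m ih =>
    have h1 : ln A ((I ⊔ Ideal.span {y})) ≤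
        ln A ((I ⊔ Ideal.span {y ^ (m + 1)}).colon {y ^ m}) +
          ln A ((I ⊔ Ideal.span {y} ⊔ Ideal.span {G})) := by
      rw [len_colon A _ G]
      refine add_le_add (len_anti A fun x hx => ?_) le_rfl
      rw [Submodule.mem_colon_singleton, smul_eq_mul] at hx ⊢
      obtain ⟨u, hu, v, hv, huv⟩ := Submodule.mem_sup.mp hx
      obtain ⟨c, rfl⟩ := Ideal.mem_span_singleton'.mp hv
      have h2 := h m (x - c * y) (by
        rw [show y ^ m * (x - c * y) = u by rw [mul_sub, mul_comm _ x, ← huv]; ring]
        exact hu)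
      rw [show x * G = G * (x - c * y) + G * c * y by ring]
      exact Submodule.add_mem_sup h2 (Ideal.mem_span_singleton'.mpr ⟨_, rfl⟩)
    rw [len_pow_succ, Nat.cast_succ, add_mul, add_mul, one_mul, one_mul]
    refine (add_le_add ih h1).trans (le_of_eq ?_)
    ring

lemma span_range_update {d : ℕ} (f : Fin d → T) (j : Fin d) :
    Ideal.span (Set.range f) = Ideal.span (f '' {i | i ≠ j}) ⊔ Ideal.span {f j} := by
  rw [← Ideal.span_union, ← Set.image_singleton, ← Set.image_union, ← Set.image_univ]
  congr 2
  ext i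
  by_cases h : i = j <;> simp [h]

/-- The filtration estimate. -/
theorem len_filt {d : ℕ} (z : Fin d → T) (G : T)
    (h : ∀ (n : Fin d → ℕ) (j : Fin d) (w : T), (∀ i, i ≠ j → 1 ≤ n i) →
      z j ^ n j * w ∈ Ideal.span ((fun i => z i ^ n i) '' {i | i ≠ j}) →
      G * w ∈ Ideal.span ((fun i => z i ^ n i) '' {i | i ≠ j})) (n : ℕ) (hn : 1 ≤ n) :
    n ^ d * ln A (Ideal.span (Set.range z)) ≤
      ln A (Ideal.span (Set.range fun i => z i ^ n)) +
        d * n ^ d * ln A ((Ideal.span (Set.range z) ⊔ Ideal.span {G})) := by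
  let ex : ℕ → Fin d → ℕ := fun j i => if i.val < j then n else 1
  have key : ∀ j, j ≤ d →
      n ^ j * ln A (Ideal.span (Set.range z)) ≤
        ln A (Ideal.span (Set.range fun i => z i ^ ex j i)) +
          j * n ^ j * ln A ((Ideal.span (Set.range z) ⊔ Ideal.span {G})) ∧
      ln A ((Ideal.span (Set.range fun i => z i ^ ex j i) ⊔ Ideal.span {G})) ≤
        n ^ j * ln A ((Ideal.span (Set.range z) ⊔ Ideal.span {G})) := by
    intro j
    induction j with
    | zero => intro _; simp [ex]
    | succ j ih =>
      intro hj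
      obtain ⟨ih1, ih2⟩ := ih (by omega)
      set j' : Fin d := ⟨j, by omega⟩
      set I := Ideal.span ((fun i => z i ^ ex j i) '' {i | i ≠ j'}) with hI
      have e0 : ∀ m, (fun i => z i ^ Function.update (ex j) j' m i) '' {i | i ≠ j'} =
          (fun i => z i ^ ex j i) '' {i | i ≠ j'} := fun m =>
        Set.image_congr fun i hi => by rw [Function.update_of_ne hi]
      have e1 : Ideal.span (Set.range fun i => z i ^ ex j i) = I ⊔ Ideal.span {z j'} := by
        rw [span_range_update _ j']; simp [ex, j', hI]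
      have e2 : Ideal.span (Set.range fun i => z i ^ ex (j + 1) i) =
          I ⊔ Ideal.span {z j' ^ n} := by
        rw [span_range_update _ j']
        congr 2
        · refine Set.image_congr fun i hi => ?_
          have : i.val ≠ j := fun h => hi (Fin.ext h)
          simp only [ex]
          congr 1
          split_ifs <;> omega
        · simp [ex, j']
      rw [e1] at ih1 ih2
      rw [e2]
      constructor
      · have h3 := len_pow_lower A I (z j') G (fun m w hw => by
          have := h (Function.update (ex j) j' m) j' w (fun i hi => by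
            rw [Function.update_of_ne hi]; simp only [ex]; split_ifs <;> omega)
          rw [e0, Function.update_self] at this
          exact this hw) n
        generalize ln A (Ideal.span (Set.range z)) = u at *
        generalize ln A (Ideal.span (Set.range z) ⊔ Ideal.span {G}) = v at *
        generalize ln A (I ⊔ Ideal.span {z j'} ⊔ Ideal.span {G}) = v' at *
        generalize ln A (I ⊔ Ideal.span {z j'}) = u' at *
        generalize ln A (I ⊔ Ideal.span {z j' ^ n}) = u'' at *
        calc _ = n * (n ^ j * u) := by ring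
          _ ≤ n * (u' + j * n ^ j * v) := by gcongr
          _ = n * u' + n * (j * n ^ j * v) := mul_add _ _ _
          _ ≤ (u'' + n * v') + n * (j * n ^ j * v) := by gcongr
          _ ≤ (u'' + n * (n ^ j * v)) + n * (j * n ^ j * v) := by gcongr
          _ = _ := by push_cast; ring
      · rw [sup_right_comm] at ih2 ⊢
        refine (len_pow_upper A _ _ n).trans ?_
        rw [pow_succ', mul_assoc]
        gcongr
  have := (key d le_rfl).1
  simpa [ex] using this

end

end Vale.Agent.P202
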