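import Vale.Agent.P202.Transfer
import Vale.Agent.P202.Fibre

/-! Assembly: perfect residue field. -/

open IsLocalRing

universe u v

namespace Vale.Agent.P202

lemma finrank_pos_of_inj {A T : Type*} [CommRing A] [IsDomain A] [CommRing T] [Algebra A T]
    [Module.Finite A T] (h : Function.Injective (algebraMap A T)) : 0 < Module.finrank A T := by
  by_contra h0
  obtain ⟨a, ha, h1⟩ := (Module.finrank_eq_zero_iff (R := A) (M := T)).mp (by omega) 1
  rw [Algebra.smul_def, mul_one, map_eq_zero_iff _ h] at h1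
  exact ha h1

lemma exists_pow_le_of_finite {A T : Type*} [CommRing A] [IsLocalRing A] [CommRing T]
    [IsLocalRing T] [IsNoetherianRing T] [Algebra A T] [Module.Finite A T] :
    ∃ a, maximalIdeal T ^ a ≤ (maximalIdeal A).map (algebraMap A T) := by
  refine Ideal.exists_pow_le_of_le_radical_of_fg ?_ (IsNoetherian.noetherian _)
  rw [Ideal.radical_eq_sInf, le_sInf_iff]
  rintro J ⟨h1, h2⟩
  have h3 : J.comap (algebraMap A T) = maximalIdeal A :=
    ((maximalIdeal.isMaximal A).eq_of_le (Ideal.IsPrime.ne_top inferInstance)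
      (Ideal.map_le_iff_le_comap.mp h1)).symm
  have : J.IsMaximal := Ideal.isMaximal_of_isIntegral_of_isMaximal_comap (R := A) J
    (h3 ▸ maximalIdeal.isMaximal A)
  exact (eq_maximalIdeal this).ge

/-- The finite statement used for a class of fields. -/
def FinIneq (K : Type v) [Field K] : Prop :=
  ∀ (d : ℕ) (R : Type (max u v)) (S : Type v) [CommRing R] [IsLocalRing R] [IsNoetherianRing R]
    [CommRing S] [IsLocalRing S] [IsNoetherianRing S] [Algebra K R] [Algebra K S] [Algebra R S]
    [IsScalarTower K R S] [IsLocalHom (algebraMap R S)] [Module.Free R S] [Module.Finite R S]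
    [Algebra (PS d K) R] [IsScalarTower K (PS d K) R] [Module.Finite (PS d K) R]
    [Algebra (PS d K) S] [IsScalarTower K (PS d K) S] [Module.Finite (PS d K) S],
    Function.Surjective (algebraMap K (ResidueField R)) →
    IsRed ((xI d K).map (algebraMap (PS d K) R)) (maximalIdeal R) →
    IsRed ((xI d K).map (algebraMap (PS d K) S)) (maximalIdeal S) →
    Module.finrank (PS d K) R ≤ Module.finrank (PS d K) S

theorem finIneq_charP (p : ℕ) [Fact p.Prime] (K : Type v) [Field K] [CharP K p] [PerfectField K] :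
    FinIneq.{u} K := by
  intro d R S _ _ _ _ _ _ _ _ _ _ _ _ _ _ _ _ _ _ _ _ h1 h2
  obtain ⟨c, hc⟩ := h1.pow_le
  obtain ⟨a, ha⟩ := h2.pow_le
  refine coreFin p c hc (1 + a) (fun j => ?_) ?_
  · have := ha 1
    rw [pow_one] at this
    exact this (Ideal.pow_mem_pow (map_nonunit _ _ (h1.1 (Ideal.mem_map_of_mem _
      (Ideal.subset_span ⟨j, rfl⟩)))) _)
  · congr 1
    ext k
    rw [show (MvPowerSeries.C k : PS d K) = algebraMap K (PS d K) k from rfl,
      ← IsScalarTower.algebraMap_apply K _ R, ← IsScalarTower.algebraMap_apply,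
      ← IsScalarTower.algebraMap_apply]

theorem coreFin0' {K : Type*} [Field K] [CharZero K] {d : ℕ} {R S : Type*} [CommRing R]
    [IsLocalRing R] [Algebra K R] [Algebra (PS d K) R] [IsScalarTower K (PS d K) R]
    [Module.Finite (PS d K) R] (hres : Function.Surjective (algebraMap K (ResidueField R)))
    (hred : IsRed ((xI d K).map (algebraMap (PS d K) R)) (maximalIdeal R))
    [CommRing S] [Nontrivial S] [Algebra R S] [Module.Free R S] [Module.Finite R S]
    [Algebra K S] [IsScalarTower K R S] (z : Fin d → S) (a : ℕ)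
    (hx : ∀ r ∈ maximalIdeal R, algebraMap R S r ^ a ∈ Ideal.span (Set.range z))
    (hz : ∀ i, z i ^ a ∈ ((xI d K).map (algebraMap (PS d K) R)).map (algebraMap R S)) (n : ℕ) :
    ((Module.finrank (PS d K) R * n ^ d : ℕ) : ℕ∞) ≤
      Module.length K (S ⧸ Ideal.span (Set.range fun i => z i ^ n)) := by
  let _ : Algebra (PS d K) S := ((algebraMap R S).comp (algebraMap (PS d K) R)).toAlgebra
  have : IsScalarTower (PS d K) R S := .of_algebraMap_eq fun _ => rfl
  have : IsScalarTower K (PS d K) S := .of_algebraMap_eq fun x => by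
    rw [IsScalarTower.algebraMap_apply K R S, IsScalarTower.algebraMap_apply K (PS d K) R]; rfl
  rw [← length_eq_of_residue (A := PS d K) residue_PS_surj]
  refine coreFin0 (fun r => ?_) hred z a (fun j => hx _ (hred.1 (Ideal.mem_map_of_mem _
      (Ideal.subset_span ⟨j, rfl⟩)))) (fun i => by
        have := hz i
        rwa [Ideal.map_map] at this) n
  obtain ⟨c, hc⟩ := hres (residue R r)
  refine ⟨algebraMap K _ c, ?_⟩
  rw [← IsScalarTower.algebraMap_apply, ← residue_eq_zero_iff, map_sub, ← hc, sub_eq_zero]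
  rfl

theorem finIneq_charZero (K : Type v) [Field K] [CharZero K] : FinIneq.{u} K := by
  intro d R S _ _ _ _ _ _ _ _ _ _ _ _ _ _ _ _ _ _ _ hK h1 h2
  obtain ⟨c, hc⟩ := h1.pow_le
  obtain ⟨a, ha⟩ := h2.pow_le
  obtain ⟨b, hb⟩ := exists_pow_le_of_finite (A := R) (T := S)
  have hz : (xI d K).map (algebraMap (PS d K) S) =
      Ideal.span (Set.range fun i => algebraMap (PS d K) S (MvPowerSeries.X i)) := by
    rw [Ideal.map_span, ← Set.range_comp]; rfl
  refine le_finrank_of_bracket S _ fun n _ => ?_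
  rw [← ln_eq_smul_top, ln, length_eq_of_residue residue_PS_surj, Ideal.map_span, ← Set.range_comp]
  have := coreFin0' hK h1 (fun i => algebraMap (PS d K) S (MvPowerSeries.X i))
    (1 + a + b * (1 + c)) (fun r hr => ?_) (fun i => ?_) n
  · rw [show (algebraMap (PS d K) S ∘ fun i => MvPowerSeries.X i ^ n) =
      fun i => algebraMap (PS d K) S (MvPowerSeries.X i) ^ n from funext fun i => map_pow _ _ _]
    exact this
  · have := ha 1
    rw [pow_one, hz] at this
    exact Ideal.pow_mem_of_pow_mem _ (this (Ideal.pow_mem_pow (map_nonunit _ _ hr) _)) (by omega)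
  · have h3 := Ideal.map_mono (f := algebraMap R S) (hc 1)
    rw [pow_one, Ideal.map_pow] at h3
    refine Ideal.pow_mem_of_pow_mem _ (h3 (Ideal.pow_right_mono hb _ ?_))
      (show b * (1 + c) ≤ _ by omega)
    rw [← pow_mul]
    exact Ideal.pow_mem_pow (h2.1 (Ideal.mem_map_of_mem _ (Ideal.subset_span ⟨i, rfl⟩))) _

theorem finIneq (K : Type v) [Field K] [PerfectField K] : FinIneq.{u} K := by
  obtain ⟨p, hp⟩ := CharP.exists K
  rcases CharP.char_is_prime_or_zero K p with h | rfl
  · have := Fact.mk h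
    exact finIneq_charP p K
  · have := CharP.charP_to_charZero K
    exact finIneq_charZero K

theorem lech_perfect' (k : Type*) (R : Type u) (S : Type v) [Field k] [PerfectField k]
    [CommRing R] [IsLocalRing R] [IsNoetherianRing R] [Algebra k R]
    [PerfectField (ResidueField R)]
    [CommRing S] [IsLocalRing S] [IsNoetherianRing S] [Algebra R S] [Module.Flat R S]
    [IsLocalHom (algebraMap R S)] (d D : ℕ) (hd : ringKrullDim R = d) (hD : ringKrullDim S = D) :
    ∃ eR eS : ℝ, IsMult R d eR ∧ IsMult S D eS ∧ eR ≤ eS := by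
  let _ : Algebra k S := ((algebraMap R S).comp (algebraMap k R)).toAlgebra
  obtain ⟨eR, h0, hR⟩ := exists_isMult k R d hd
  obtain ⟨eS, -, hS⟩ := exists_isMult k S D hD
  refine ⟨eR, eS, hR, hS, ?_⟩
  obtain ⟨S₁, _, _, _, _, _, _, ⟨a, ha⟩, hd₁, hle⟩ := exists_fibre_reduction k R S d D hd hD
  let _ : Algebra k S₁ := ((algebraMap R S₁).comp (algebraMap k R)).toAlgebra
  obtain ⟨e₁, h₁, hS₁⟩ := exists_isMult k S₁ d hd₁
  refine le_trans ?_ (hle eS e₁ hS hS₁)
  obtain ⟨K, _, _, R', _, _, _, _, S', _, _, _, _, _, _, _, _, _, _, _, hKR, hKS, e1, e2⟩ :=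
    exists_finite_model k R S₁ a ha
  obtain ⟨d1, φ, i1, f1, r1, -⟩ := exists_normalization K R' hKR
  obtain ⟨d2, ψ, i2, f2, r2, -⟩ := exists_normalization K S' hKS
  let _ := φ.toRingHom.toAlgebra
  let _ := ψ.toRingHom.toAlgebra
  have : IsScalarTower K (PS d1 K) R' := .of_algebraMap_eq fun x => (φ.commutes x).symm
  have : IsScalarTower K (PS d2 K) S' := .of_algebraMap_eq fun x => (ψ.commutes x).symm
  have : Module.Finite (PS d1 K) R' := f1
  have : Module.Finite (PS d2 K) S' := f2
  have := isDomain_PSL d1 K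
  have := isDomain_PSL d2 K
  obtain ⟨rfl, a1⟩ := (isMult_finrank hKR r1).dim_unique e1 hR
    (by exact_mod_cast finrank_pos_of_inj i1) h0
  obtain ⟨rfl, a2⟩ := (isMult_finrank hKS r2).dim_unique e2 hS₁
    (by exact_mod_cast finrank_pos_of_inj i2) h₁
  rw [← a1, ← a2]
  exact_mod_cast finIneq.{u} K _ R' S' hKR r1 r2

lemma exists_perfect_subfield (k R : Type*) [Field k] [CommRing R] [Algebra k R] :
    ∃ (k₀ : Type) (_ : Field k₀) (_ : PerfectField k₀), Nonempty (Algebra k₀ R) := by
  obtain ⟨p, hp⟩ := CharP.exists k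
  rcases CharP.char_is_prime_or_zero k p with h | rfl
  · have := Fact.mk h
    exact ⟨ZMod p, inferInstance, inferInstance,
      ⟨((algebraMap k R).comp (ZMod.castHom (dvd_refl p) k)).toAlgebra⟩⟩
  · have := CharP.charP_to_charZero k
    exact ⟨ℚ, inferInstance, inferInstance, ⟨((algebraMap k R).comp (algebraMap ℚ k)).toAlgebra⟩⟩

theorem lech_perfect (k : Type*) (R : Type u) (S : Type v) [Field k]
    [CommRing R] [IsLocalRing R] [IsNoetherianRing R] [Algebra k R]
    [PerfectField (ResidueField R)]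
    [CommRing S] [IsLocalRing S] [IsNoetherianRing S] [Algebra R S] [Module.Flat R S]
    [IsLocalHom (algebraMap R S)] (d D : ℕ) (hd : ringKrullDim R = d) (hD : ringKrullDim S = D) :
    ∃ eR eS : ℝ, IsMult R d eR ∧ IsMult S D eS ∧ eR ≤ eS := by
  obtain ⟨k₀, _, _, ⟨_⟩⟩ := exists_perfect_subfield k R
  exact lech_perfect' k₀ R S d D hd hD

end Vale.Agent.P202
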