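import Vale.Agent.P202.JFlat

/-! Job JFac (see notes/P202.md): complete flat models and Cohen factorization data. -/

open IsLocalRing

universe u v

namespace Vale.Agent.P202

theorem exists_flat_model (k : Type*) (R : Type u) (S : Type v) [Field k] [PerfectField k]
    [CommRing R] [IsLocalRing R] [IsNoetherianRing R] [Algebra k R]
    [CommRing S] [IsLocalRing S] [IsNoetherianRing S] [Algebra R S] [Module.Flat R S]
    [IsLocalHom (algebraMap R S)] (a : ℕ)
    (ha : maximalIdeal S ^ a ≤ (maximalIdeal R).map (algebraMap R S)) :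
    ∃ (K : Type u) (_ : Field K) (R' : Type u) (_ : CommRing R') (_ : IsLocalRing R')
      (_ : IsNoetherianRing R') (_ : Algebra K R')
      (l : Type v) (_ : Field l) (_ : IsAlgClosed l)
      (S' : Type v) (_ : CommRing S') (_ : IsLocalRing S') (_ : IsNoetherianRing S')
      (_ : Algebra l S') (_ : Algebra R' S'),
      IsLocalHom (algebraMap R' S') ∧ Module.Flat R' S' ∧
      IsAdicComplete (maximalIdeal R') R' ∧ IsAdicComplete (maximalIdeal S') S' ∧
      Function.Surjective (algebraMap K (ResidueField R')) ∧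
      Function.Surjective (algebraMap l (ResidueField S')) ∧
      Nonempty (ResidueField R ≃+* K) ∧
      maximalIdeal S' ^ a ≤ (maximalIdeal R').map (algebraMap R' S') ∧
      hs R' = hs R ∧ hs S' = hs S := by
  have fgR := (maximalIdeal R).fg_of_isNoetherianRing
  have fgS := (maximalIdeal S).fg_of_isNoetherianRing
  let Rh := AdicCompletion (maximalIdeal R) R
  let Sh := AdicCompletion (maximalIdeal S) S
  have lR : LenPres (algebraMap R Rh) := LP_compl fgR
  have lS : LenPres (algebraMap S Sh) := LP_compl fgS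
  have hmm : (maximalIdeal R).map (algebraMap R S) ≤ maximalIdeal S :=
    IsLocalRing.map_maximalIdeal_le _
  obtain ⟨k1, _, _, _, -, hk1⟩ := exists_coeffM k Rh
  haveI nR : IsNoetherianRing Rh := isNoetherianRing_of_complete k1 Rh (lR.1 ▸ fgR.map _) hk1
  obtain ⟨ψ, hψ⟩ := exists_lift_compl (maximalIdeal R) (maximalIdeal Sh)
    ((algebraMap S Sh).comp (algebraMap R S)) (by
      rw [← Ideal.map_le_iff_le_comap, ← Ideal.map_map, ← lS.1]
      exact Ideal.map_mono hmm)
  letI : Algebra k Sh := (ψ.comp (algebraMap k Rh)).toAlgebra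
  obtain ⟨l, _, _, _, -, hl⟩ := exists_coeffM k Sh
  let K := AlgebraicClosure l
  obtain ⟨S', _, _, _, _, g, hg, cS, kS, -, -⟩ :=
    exists_baseChange.{v, v, v} l Sh K (lS.1 ▸ fgS.map _) hl
  letI : Algebra Rh S' := (g.comp ψ).toAlgebra
  have lS' := lS.comp hg
  have hcomm : (algebraMap Rh S').comp (algebraMap R Rh) =
      (g.comp (algebraMap S Sh)).comp (algebraMap R S) := RingHom.ext fun r => by
    show g (ψ _) = _
    rw [hψ]
    rfl
  have hpow : ∀ N, (maximalIdeal Rh ^ N).map (algebraMap Rh S') =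
      ((maximalIdeal R ^ N).map (algebraMap R S)).map (g.comp (algebraMap S Sh)) := fun N => by
    rw [← lR.1, ← Ideal.map_pow, Ideal.map_map, hcomm]
    exact (Ideal.map_map _ _).symm
  have hone := hpow 1
  rw [pow_one, pow_one] at hone
  haveI hloc : IsLocalHom (algebraMap Rh S') := isLocalHom_of_map_le (by
    rw [hone, ← lS'.1]
    exact Ideal.map_mono hmm)
  have hfin : Module.length S (S ⧸ (maximalIdeal R).map (algebraMap R S)) ≠ ⊤ := by
    obtain ⟨h, y, hy⟩ := Submodule.fg_iff_exists_fin_generating_family.mp fgS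
    exact ne_top_of_le_ne_top (ENat.natCast_ne_top _)
      ((len_quot_anti ((Ideal.pow_le_pow_right a.le_succ).trans ha)).trans
        (length_quot_pow_leL y hy.symm a))
  have hflat : Module.Flat Rh S' := flat_of_lengths
    (Module.length S (S ⧸ (maximalIdeal R).map (algebraMap R S))).toNat fun N => by
      rw [hpow, lS'.2 _ (a * N), len_flat, ENat.natCast_toNat hfin, ← lR.1, ← Ideal.map_pow,
        lR.2 _ N le_rfl]
      rw [pow_mul, Ideal.map_pow]
      exact Ideal.pow_right_mono ha N
  refine ⟨k1, inferInstance, Rh, inferInstance, inferInstance, nR, inferInstance, K,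
    inferInstance, inferInstance, S', inferInstance, inferInstance, inferInstance, inferInstance,
    inferInstance, hloc, hflat, inferInstance, cS, hk1, kS, ⟨?_⟩, ?_, lR.hs_eq, lS'.hs_eq⟩
  · exact (RingEquiv.ofBijective _ (AdicCompletion.residueField_map_bijective R)).trans
      (RingEquiv.ofBijective _ ⟨(algebraMap k1 (ResidueField Rh)).injective, hk1⟩).symm
  · rw [hone, ← lS'.1, ← Ideal.map_pow]
    exact Ideal.map_mono ha

theorem isAdicComplete_of_le {A : Type*} [CommRing A] [IsLocalRing A] [IsNoetherianRing A]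
    [h : IsAdicComplete (maximalIdeal A) A] (I : Ideal A) (hI : I ≤ maximalIdeal A) :
    IsAdicComplete I A := by
  have h1 : IsHausdorff I A := ⟨fun x hx => IsHausdorff.haus' (I := maximalIdeal A) x fun n => by
    have := hx n
    rw [SModEq.zero, smul_eq_mul, Ideal.mul_top] at this ⊢
    exact Ideal.pow_right_mono hI n this⟩
  have h2 : IsPrecomplete I A := ⟨fun f hf => by
    have hf' : ∀ {m n : ℕ}, m ≤ n → f m - f n ∈ I ^ m := fun {m n} hle => by
      have := hf hle
      rwa [SModEq.sub_mem, smul_eq_mul, Ideal.mul_top] at this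
    obtain ⟨L, hL⟩ := h.toIsPrecomplete.prec (f := f) fun {m n} hle => by
      rw [SModEq.sub_mem, smul_eq_mul, Ideal.mul_top]
      exact Ideal.pow_right_mono hI m (hf' hle)
    refine ⟨L, fun n => ?_⟩
    rw [SModEq.sub_mem, smul_eq_mul, Ideal.mul_top, ← Ideal.Quotient.eq_zero_iff_mem]
    refine IsHausdorff.haus' (I := maximalIdeal A) (M := A ⧸ I ^ n) _ fun k => ?_
    have h3 := hL (max n k)
    rw [SModEq.sub_mem, smul_eq_mul, Ideal.mul_top] at h3
    have h4 : Ideal.Quotient.mk (I ^ n) (f n - L) =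
        (f (max n k) - L) • (1 : A ⧸ I ^ n) := by
      rw [← Algebra.algebraMap_eq_smul_one, Ideal.Quotient.algebraMap_eq, Ideal.Quotient.eq,
        sub_sub_sub_cancel_right]
      exact hf' (le_max_left _ _)
    rw [SModEq.zero, h4]
    exact Submodule.smul_mem_smul (Ideal.pow_le_pow_right (le_max_right _ _) h3) trivial⟩
  exact {}

theorem ringHom_PS_ext {d : ℕ} {K S : Type*} [CommRing K] [CommRing S] (J : Ideal S)
    [IsHausdorff J S] (f g : PS d K →+* S)
    (hC : ∀ c, f (MvPowerSeries.C c) = g (MvPowerSeries.C c))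
    (hX : ∀ j, f (MvPowerSeries.X j) = g (MvPowerSeries.X j))
    (hJ : ∀ j, f (MvPowerSeries.X j) ∈ J) : f = g := by
  have hp : ∀ p : MvPolynomial (Fin d) K, f p = g p := fun p => by
    induction p using MvPolynomial.induction_on with
    | C c => simpa using hC c
    | add p q hp hq => rw [MvPolynomial.coe_add, map_add, map_add, hp, hq]
    | mul_X p j hp => rw [MvPolynomial.coe_mul, map_mul, map_mul, hp, MvPolynomial.coe_X, hX]
  have hm : ∀ (e : PS d K →+* S), (∀ j, e (MvPowerSeries.X j) ∈ J) → ∀ n, ∀ x ∈ xI d K ^ n,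
      e x ∈ J ^ n := fun e he n x hx => by
    have := Ideal.mem_map_of_mem e hx
    rw [Ideal.map_pow, Ideal.map_span, ← Set.range_comp] at this
    exact Ideal.pow_right_mono (Ideal.span_le.2 (Set.range_subset_iff.2 he)) n this
  refine RingHom.ext fun F => IsHausdorff.eq_iff_smodEq (I := J) |>.2 fun n => ?_
  have h1 : F - (MvPowerSeries.truncTotal n F : PS d K) ∈ xI d K ^ n :=
    (mem_xI_pow_iff _ _).2 fun m hm => by
      rw [map_sub, MvPolynomial.coeff_coe, MvPowerSeries.coeff_truncTotal _ hm, sub_self]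
  have h2 := sub_mem (hm f hJ n _ h1) (hm g (fun j => hX j ▸ hJ j) n _ h1)
  rw [map_sub, map_sub, hp, sub_sub_sub_cancel_right] at h2
  rwa [SModEq.sub_mem, smul_eq_mul, Ideal.mul_top]

theorem exists_factor (p : ℕ) [Fact p.Prime] {K l S : Type*} [Field K] [CharP K p] [Field l]
    [CharP l p] [CommRing S] [IsLocalRing S] [IsNoetherianRing S] [Algebra l S]
    [IsAdicComplete (maximalIdeal S) S] (hl : Function.Surjective (algebraMap l (ResidueField S)))
    {d : ℕ} (φ : PS d K →+* S) (hφ : ∀ j, φ (MvPowerSeries.X j) ∈ maximalIdeal S) :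
    ∃ (s : ℕ) (ι : PS d K →+* PS (s + d) l) (ev : PS (s + d) l →ₐ[l] S), ι.Flat ∧
      (∀ j, ι (MvPowerSeries.X j) = MvPowerSeries.X (Fin.natAdd s j)) ∧
      Function.Surjective ev ∧ (∀ i, ev (MvPowerSeries.X i) ∈ maximalIdeal S) ∧
      ∀ f, ev (ι f) = φ f := by
  obtain ⟨s, y, hy⟩ := Submodule.fg_iff_exists_fin_generating_family.1
    (maximalIdeal S).fg_of_isNoetherianRing
  have hym : ∀ i, y i ∈ maximalIdeal S := fun i => hy ▸ Submodule.subset_span ⟨i, rfl⟩
  obtain ⟨ev0, hev0⟩ := exists_evalPS (K := l) (maximalIdeal S) y fun i =>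
    Ideal.le_radical (hym i)
  have e : (xI s l).map ev0.toRingHom = maximalIdeal S := by
    rw [Ideal.map_span, ← Set.range_comp, ← hy]
    exact congrArg (fun f => Ideal.span (Set.range f)) (funext hev0)
  have hsurj : Function.Surjective ev0.toRingHom := by
    refine surjective_of_mk_map_comp_surjective (I := xI s l) _
      (haus := by rw [e]; infer_instance) ?_
    rw [e]
    intro x
    obtain ⟨c, rfl⟩ := hl x
    exact ⟨algebraMap l _ c, congrArg (Ideal.Quotient.mk _) (ev0.commutes c)⟩
  letI : Algebra (ZMod p) K := ZMod.algebra K p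
  haveI : CharP (PS s l) p := charP_of_injective_algebraMap (algebraMap l _).injective p
  letI : Algebra (ZMod p) (PS s l) := ZMod.algebra _ p
  haveI := formallySmooth_of_perfectField (ZMod p) K
  haveI := isAdicComplete_of_le (RingHom.ker ev0.toRingHom)
    (IsLocalRing.le_maximalIdeal (RingHom.ker_ne_top _))
  let q := RingHom.quotientKerEquivOfSurjective hsurj
  let f0 : K →+* PS s l ⧸ RingHom.ker ev0.toRingHom :=
    q.symm.toRingHom.comp (φ.comp MvPowerSeries.C)
  obtain ⟨σ, hσ⟩ := Algebra.FormallySmooth.exists_mkₐ_comp_eq_of_isAdicComplete (R := ZMod p)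
    (I := RingHom.ker ev0.toRingHom) ⟨f0, fun c => DFunLike.congr_fun (Subsingleton.elim
      (f0.comp (algebraMap (ZMod p) K)) (algebraMap (ZMod p) _)) c⟩
  have hσ' : ∀ c, ev0 (σ c) = φ (MvPowerSeries.C c) := fun c => by
    have h1 : Ideal.Quotient.mk _ (σ c) = q.symm (φ (MvPowerSeries.C c)) :=
      DFunLike.congr_fun hσ c
    exact (RingEquiv.eq_symm_apply q).1 h1
  obtain ⟨ι, hι, hιX, hιC⟩ := exists_flat_PS s d σ.toRingHom
  have hz : ∀ i, Fin.append y (fun j => φ (MvPowerSeries.X j)) i ∈ maximalIdeal S := fun i => by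
    refine Fin.addCases (fun i => ?_) (fun j => ?_) i
    · rw [Fin.append_left]; exact hym i
    · rw [Fin.append_right]; exact hφ j
  obtain ⟨ev, hev⟩ := exists_evalPS (K := l) (maximalIdeal S) _ fun i => Ideal.le_radical (hz i)
  have h0 : ev.toRingHom.comp (MvPowerSeries.rename (R := l) (Fin.castAdd d)).toRingHom =
      ev0.toRingHom := by
    refine (ringHom_PS_ext (maximalIdeal S) _ _ (fun c => ?_) (fun j => ?_) fun j => ?_).symm
    · exact (ev0.commutes c).trans
        ((ev.comp (MvPowerSeries.rename (R := l) (Fin.castAdd d))).commutes c).symm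
    · show ev0 _ = ev (MvPowerSeries.rename _ _)
      rw [MvPowerSeries.rename_X, hev, hev0, Fin.append_left]
    · show ev0 _ ∈ _
      rw [hev0]; exact hym j
  have h1 : ∀ x, ev (MvPowerSeries.rename (Fin.castAdd d) x) = ev0 x :=
    fun x => DFunLike.congr_fun h0 x
  refine ⟨s, ι, ev, hι, hιX, fun x => ?_, fun i => hev i ▸ hz i, fun f => ?_⟩
  · obtain ⟨w, hw⟩ := hsurj x
    exact ⟨_, (h1 w).trans hw⟩
  · refine (DFunLike.congr_fun (ringHom_PS_ext (maximalIdeal S) φ (ev.toRingHom.comp ι)
      (fun c => ?_) (fun j => ?_) hφ) f).symm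
    · show _ = ev (ι _)
      rw [hιC, h1]
      exact (hσ' c).symm
    · show _ = ev (ι _)
      rw [hιX, hev, Fin.append_right]

end Vale.Agent.P202
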