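import Vale.Agent.P202.CoreT
import Vale.Agent.P202.JFac
import Vale.Agent.P202.Final

/-! Assembly: arbitrary residue field. -/

open IsLocalRing Function

universe u v

namespace Vale.Agent.P202

theorem coreFinT (p : ℕ) [Fact p.Prime] {d s : ℕ} {k l l' R S : Type*} [Field k] [CharP k p]
    [Field l] [CharP l p] [PerfectField l] [Field l'] [CommRing R] [IsLocalRing R]
    [Algebra (PS d k) R] [Module.Finite (PS d k) R]
    (hres : ∀ r : R, ∃ f : PS d k, r - algebraMap (PS d k) R f ∈ maximalIdeal R) (c : ℕ)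
    (hred : ∀ j, maximalIdeal R ^ (j + c) ≤ (xI d k).map (algebraMap (PS d k) R) ^ j)
    [CommRing S] [Algebra R S] [Module.Flat R S]
    (hm : (maximalIdeal R).map (algebraMap R S) ≠ ⊤)
    (ι : PS d k →+* PS (s + d) l) (hιf : ι.Flat)
    (hι : ∀ j, ι (MvPowerSeries.X j) = MvPowerSeries.X (Fin.natAdd s j))
    (ev : PS (s + d) l →+* S) (hev : Surjective ev)
    (hevι : ∀ f, ev (ι f) = algebraMap R S (algebraMap (PS d k) R f))
    [Algebra (PS d l') S] [Module.Finite (PS d l') S] (a : ℕ)
    (hx : ∀ i, ev (MvPowerSeries.X i) ^ a ∈ (xI d l').map (algebraMap (PS d l') S))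
    (hK : (Set.range fun c : l => ev (MvPowerSeries.C c)) =
      Set.range fun c : l' => algebraMap (PS d l') S (MvPowerSeries.C c)) :
    Module.finrank (PS d k) R ≤ Module.finrank (PS d l') S := by
  have := isDomain_PSL d k
  have := isDomain_PSL d l'
  have : IsNoetherianRing R := IsNoetherianRing.of_finite (PS d k) R
  have := rank_induction (A := PS d k) (U := R) (W := S) (Q := PS d l') 1 1
    (fun I w => ⟨1, one_ne_zero, fun t ht => by rw [one_smul]; exact colon_of_flat I w t ht⟩)
    fun I hI hinj => ?_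
  · simpa using this
  rw [mul_one, one_mul]
  have : IsLocalRing (R ⧸ I) := .of_surjective' _ Ideal.Quotient.mk_surjective
  have : Nontrivial (S ⧸ I.map (algebraMap R S)) := Ideal.Quotient.nontrivial_iff.mpr fun h =>
    hm (eq_top_iff.mpr (h ▸ Ideal.map_mono (le_maximalIdeal hI.ne_top)))
  have : Module.Flat (R ⧸ I) (S ⧸ I.map (algebraMap R S)) := Module.Flat.of_linearEquiv
    (Algebra.TensorProduct.quotIdealMapEquivQuotTensor S I).toLinearEquiv
  refine coreDomT p hinj (fun r => ?_) c (fun j => ?_) ι hιf hι ((Ideal.Quotient.mk _).comp ev)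
    (Ideal.Quotient.mk_surjective.comp hev) (fun f => ?_) a (fun j => ?_) ?_
  · obtain ⟨r, rfl⟩ := Ideal.Quotient.mk_surjective r
    obtain ⟨f, hf⟩ := hres r
    refine ⟨f, ?_⟩
    rw [← map_maximalIdeal_of_surjective _ Ideal.Quotient.mk_surjective,
      ← Ideal.Quotient.mk_algebraMap, ← map_sub]
    exact Ideal.mem_map_of_mem _ hf
  · rw [← map_maximalIdeal_of_surjective _ Ideal.Quotient.mk_surjective, ← Ideal.map_pow,
      ← Ideal.Quotient.mk_comp_algebraMap, ← Ideal.map_map, ← Ideal.map_pow]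
    exact Ideal.map_mono (hred j)
  · rw [RingHom.comp_apply, hevι]; rfl
  · rw [← Ideal.Quotient.mk_comp_algebraMap (PS d l'), ← Ideal.map_map]
    exact Ideal.mem_map_of_mem (Ideal.Quotient.mk _) (hx j)
  · have := congrArg (Set.image (Ideal.Quotient.mk (I.map (algebraMap R S)))) hK
    rw [← Set.range_comp, ← Set.range_comp] at this
    exact this

theorem lech_charP (p : ℕ) [Fact p.Prime] (R : Type u) (S : Type v)
    [CommRing R] [IsLocalRing R] [IsNoetherianRing R] [Algebra (ZMod p) R]
    [Infinite (ResidueField R)]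
    [CommRing S] [IsLocalRing S] [IsNoetherianRing S] [Algebra R S] [Module.Flat R S]
    [IsLocalHom (algebraMap R S)] (d D : ℕ) (hd : ringKrullDim R = d) (hD : ringKrullDim S = D) :
    ∃ eR eS : ℝ, IsMult R d eR ∧ IsMult S D eS ∧ eR ≤ eS := by
  let _ : Algebra (ZMod p) S := ((algebraMap R S).comp (algebraMap (ZMod p) R)).toAlgebra
  obtain ⟨eR, h0, hR⟩ := exists_isMult (ZMod p) R d hd
  obtain ⟨eS, -, hS⟩ := exists_isMult (ZMod p) S D hD
  refine ⟨eR, eS, hR, hS, ?_⟩
  obtain ⟨S₁, _, _, _, _, _, _, ⟨a, ha⟩, hd₁, hle⟩ := exists_fibre_reduction (ZMod p) R S d D hd hD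
  let _ : Algebra (ZMod p) S₁ := ((algebraMap R S₁).comp (algebraMap (ZMod p) R)).toAlgebra
  obtain ⟨e₁, h₁, hS₁⟩ := exists_isMult (ZMod p) S₁ d hd₁
  refine le_trans ?_ (hle eS e₁ hS hS₁)
  obtain ⟨K, _, R', _, _, _, _, l, _, _, S', _, _, _, _, _, _, _, _, _, hKR, hKS, ⟨ε⟩, ha', e1, e2⟩ :=
    exists_flat_model (ZMod p) R S₁ a ha
  have : Infinite K := Infinite.of_injective _ ε.injective
  have : CharP K p := charP_of_injective_ringHom
    (ε.toRingHom.comp ((residue R).comp (algebraMap (ZMod p) R))).injective p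
  have : CharP S' p := charP_of_injective_ringHom
    ((algebraMap R' S').comp (algebraMap K R')).injective p
  have : CharP l p := RingHom.charP (algebraMap l S') (algebraMap l S').injective p
  obtain ⟨d1, φ, i1, f1, r1, -⟩ := exists_normalization K R' hKR
  obtain ⟨d2, ψ, i2, f2, r2, -⟩ := exists_normalization l S' hKS
  let _ := φ.toRingHom.toAlgebra
  let _ := ψ.toRingHom.toAlgebra
  have : IsScalarTower K (PS d1 K) R' := .of_algebraMap_eq fun x => (φ.commutes x).symm
  have : IsScalarTower l (PS d2 l) S' := .of_algebraMap_eq fun x => (ψ.commutes x).symm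
  have : Module.Finite (PS d1 K) R' := f1
  have : Module.Finite (PS d2 l) S' := f2
  have := isDomain_PSL d1 K
  have := isDomain_PSL d2 l
  obtain ⟨rfl, a1⟩ := (isMult_finrank hKR r1).dim_unique e1 hR
    (by exact_mod_cast finrank_pos_of_inj i1) h0
  obtain ⟨rfl, a2⟩ := (isMult_finrank hKS r2).dim_unique e2 hS₁
    (by exact_mod_cast finrank_pos_of_inj i2) h₁
  rw [← a1, ← a2, Nat.cast_le]
  obtain ⟨c, hc⟩ := r1.pow_le
  obtain ⟨b, hb⟩ := r2.pow_le
  obtain ⟨s, ι, ev, b1, b2, b3, b4, b5⟩ := exists_factor p hKS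
    ((algebraMap R' S').comp φ.toRingHom) fun j =>
      map_nonunit (algebraMap R' S') _ (r1.1 (Ideal.mem_map_of_mem _ (Ideal.subset_span ⟨j, rfl⟩)))
  refine coreFinT p (fun r => ?_) c hc (map_maximalIdeal_lt_top _).ne ι b1 b2 ev.toRingHom b3 b5
    (1 + b) (fun i => ?_) ?_
  · obtain ⟨c, hc⟩ := hKR (residue R' r)
    refine ⟨algebraMap K _ c, ?_⟩
    rw [← IsScalarTower.algebraMap_apply, ← residue_eq_zero_iff, map_sub, ← hc, sub_eq_zero]
    rfl
  · have := hb 1
    rw [pow_one] at this
    exact this (Ideal.pow_mem_pow (b4 i) _)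
  · congr 1
    ext c
    exact (ev.commutes c).trans (ψ.commutes c).symm

theorem lech_equichar (k : Type*) (R : Type u) (S : Type v) [Field k]
    [CommRing R] [IsLocalRing R] [IsNoetherianRing R] [Algebra k R]
    [CommRing S] [IsLocalRing S] [IsNoetherianRing S] [Algebra R S] [Module.Flat R S]
    [IsLocalHom (algebraMap R S)] (d D : ℕ) (hd : ringKrullDim R = d) (hD : ringKrullDim S = D) :
    ∃ eR eS : ℝ, IsMult R d eR ∧ IsMult S D eS ∧ eR ≤ eS := by
  obtain ⟨p, hp⟩ := CharP.exists k
  rcases CharP.char_is_prime_or_zero k p with h | rfl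
  · have := Fact.mk h
    cases finite_or_infinite (ResidueField R) with
    | inl _ => exact lech_perfect k R S d D hd hD
    | inr _ =>
      let _ := ((algebraMap k R).comp (ZMod.castHom (dvd_refl p) k)).toAlgebra
      exact lech_charP p R S d D hd hD
  · have := CharP.charP_to_charZero k
    have : CharZero (ResidueField R) :=
      (RingHom.charZero_iff ((residue R).comp (algebraMap k R)).injective).mp inferInstance
    exact lech_perfect k R S d D hd hD

end Vale.Agent.P202
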