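import Vale.Agent.P202.StepB

/-! Rank of the Frobenius push-forward. -/

open Matrix IsLocalRing
open scoped nonZeroDivisors

namespace Vale.Agent.P202

lemma PS_frob_span (p : ℕ) [Fact p.Prime] {d : ℕ} {K : Type*} [Field K] [CharP K p]
    [PerfectField K] (n : ℕ) : ∃ v : (Fin d → Fin (p ^ n)) → PS d K, ∀ f : PS d K,
      ∃ c : (Fin d → Fin (p ^ n)) → PS d K, f = ∑ i, c i ^ p ^ n * v i := by
  classical
  have hp : p ≠ 0 := (Fact.out : p.Prime).ne_zero
  have hq : 0 < p ^ n := Nat.pos_of_ne_zero (pow_ne_zero n hp)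
  let ex : (Fin d → Fin (p ^ n)) → Fin d →₀ ℕ := fun i => Finsupp.equivFunOnFinite.symm fun j => i j
  refine ⟨fun i => MvPowerSeries.monomial (ex i) 1, fun f => ?_⟩
  obtain ⟨c, hc⟩ : ∃ c : (Fin d → Fin (p ^ n)) → PS d K, ∀ i m, MvPowerSeries.coeff m (c i) =
      (iterateFrobeniusEquiv K p n).symm (MvPowerSeries.coeff (p ^ n • m + ex i) f) :=
    ⟨fun i m => (iterateFrobeniusEquiv K p n).symm (MvPowerSeries.coeff (p ^ n • m + ex i) f),
      fun _ _ => rfl⟩
  refine ⟨c, ?_⟩
  ext m
  rw [map_sum, Finset.sum_eq_single fun j => ⟨m j % p ^ n, Nat.mod_lt _ hq⟩]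
  · set i : Fin d → Fin (p ^ n) := fun j => ⟨m j % p ^ n, Nat.mod_lt _ hq⟩
    have : m = p ^ n • (Finsupp.equivFunOnFinite.symm fun j => m j / p ^ n) + ex i := by
      ext j; simp [ex, i, Nat.div_add_mod]
    conv_rhs => rw [this]
    rw [MvPowerSeries.coeff_add_mul_monomial, mul_one,
      ← MvPowerSeries.map_iterateFrobenius_expand p hp, MvPowerSeries.coeff_map,
      MvPowerSeries.coeff_expand_smul, ← coe_iterateFrobeniusEquiv, hc, ← this,
      RingEquiv.apply_symm_apply]
  · intro i _ hi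
    rw [MvPowerSeries.coeff_mul_monomial]
    split_ifs with h
    · obtain ⟨j, hj⟩ := Function.ne_iff.mp hi
      rw [← MvPowerSeries.map_iterateFrobenius_expand p hp, MvPowerSeries.coeff_map,
        MvPowerSeries.coeff_expand_of_not_dvd (i := j), map_zero, zero_mul]
      rintro ⟨c, hc⟩
      apply hj
      have h1 := h j
      simp only [ex, Finsupp.coe_tsub, Pi.sub_apply, Finsupp.equivFunOnFinite_symm_apply_apply]
        at hc h1
      ext
      change _ = m j % p ^ n
      rw [show m j = (i j : ℕ) + p ^ n * c by omega, Nat.add_mul_mod_self_left,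
        Nat.mod_eq_of_lt (i j).2]
    · rfl
  · simp

lemma card_le_of_indep {A B α β : Type*} [CommRing A] [Nontrivial A] [CommRing B] [Fintype α]
    [Fintype β] (φ : A →+* B) (e : ℕ) (v : β → B) (hv : ∀ f, ∃ c : β → A, f = ∑ i, φ (c i) * v i)
    (w : α → Fin e → B) (hw : ∀ c : α → A, ∑ a, φ (c a) • w a = 0 → ∀ a, c a = 0) :
    Fintype.card α ≤ e * Fintype.card β := by
  let _ := φ.toAlgebra
  have h1 : LinearIndependent A w := Fintype.linearIndependent_iff.mpr hw
  have h2 : Submodule.span A (Set.range fun p : Fin e × β => (Pi.single p.1 (v p.2) : Fin e → B)) =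
      ⊤ := by
    rw [eq_top_iff]
    intro y _
    rw [← Finset.univ_sum_single y]
    refine Submodule.sum_mem _ fun l _ => ?_
    obtain ⟨c, hc⟩ := hv (y l)
    rw [hc, ← LinearMap.single_apply A, map_sum]
    refine Submodule.sum_mem _ fun i _ => ?_
    rw [show φ (c i) * v i = c i • v i from rfl, map_smul]
    exact Submodule.smul_mem _ _ (Submodule.subset_span (Set.mem_range_self (l, i)))
  have : Module.Finite A (Fin e → B) := ⟨h2 ▸ Submodule.fg_span (Set.finite_range _)⟩
  simpa using h1.fintype_card_le_finrank.trans (finrank_le_of_span_eq_top h2)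

lemma exists_gen_basis {R R' β : Type*} [CommRing R] [IsDomain R] [CommRing R'] [Fintype β]
    (φ : R →+* R') (u₀ : β → R') (hu₀ : ∀ r, ∃ c : β → R, r = ∑ k, φ (c k) * u₀ k) (B : ℕ)
    (hB : ∀ (M : ℕ) (u : Fin M → R'), (∀ c : Fin M → R, ∑ k, φ (c k) * u k = 0 → ∀ k, c k = 0) →
      M ≤ B) :
    ∃ N ≤ B, ∃ (u : Fin N → R') (γ : R), γ ≠ 0 ∧
      ∀ r, ∃ c : Fin N → R, φ γ * r = ∑ k, φ (c k) * u k := by
  let _ := φ.toAlgebra
  have : Module.Finite R R' := Module.Finite.of_surjective (Fintype.linearCombination R u₀)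
    fun r => by obtain ⟨c, hc⟩ := hu₀ r; exact ⟨c, hc.symm⟩
  obtain ⟨v, hv⟩ := exists_linearIndependent_of_le_finrank (R := R) (M := R') le_rfl
  obtain ⟨γ, f, -, hγ, hf, -⟩ := exists_cmp (A := R) (M := R')
  refine ⟨_, hB _ v (Fintype.linearIndependent_iff.mp hv), fun k => f (Pi.single k 1), γ, hγ,
    fun r => ?_⟩
  obtain ⟨c, hc⟩ := hf r
  refine ⟨c, ?_⟩
  rw [show φ γ * r = γ • r from rfl, ← hc, LinearMap.pi_apply_eq_sum_univ]
  refine Finset.sum_congr rfl fun k _ => ?_
  rw [show (fun j => if k = j then (1 : R) else 0) = Pi.single k 1 by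
    ext j; simp [Pi.single_apply, eq_comm]]
  rfl

lemma exists_gen (A T : Type*) [CommRing A] [IsDomain A] [CommRing T] [Algebra A T]
    [Module.Finite A T] : ∃ g : A, g ≠ 0 ∧ Nonempty (Gen A T (Module.finrank A T) g) := by
  obtain ⟨v, hv⟩ := exists_linearIndependent_of_le_finrank (R := A) (M := T) le_rfl
  let f := Fintype.linearCombination A v
  have hf : Function.Injective f := hv.fintypeLinearCombination_injective
  have h1 : Module.finrank A (T ⧸ LinearMap.range f) = 0 := by
    have := Submodule.finrank_quotient_add_finrank (LinearMap.range f)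
    rw [LinearMap.finrank_range_of_inj hf, Module.finrank_fin_fun] at this
    omega
  have h2 : Module.IsTorsion A (T ⧸ LinearMap.range f) := fun x => by
    obtain ⟨a, ha, hx⟩ := Module.finrank_eq_zero_iff.mp h1 x
    exact ⟨⟨a, mem_nonZeroDivisors_of_ne_zero ha⟩, hx⟩
  obtain ⟨γ, hγ, hγ0⟩ := Submodule.annihilator_top_inter_nonZeroDivisors h2
  have h3 : ∀ x, γ • x ∈ LinearMap.range f := fun x => by
    rw [← Submodule.Quotient.mk_eq_zero, Submodule.Quotient.mk_smul]
    exact Submodule.mem_annihilator.mp hγ _ Submodule.mem_top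
  let α := (LinearEquiv.ofInjective f hf).symm.toLinearMap ∘ₗ
    LinearMap.codRestrict (LinearMap.range f) (γ • LinearMap.id) h3
  have h4 : ∀ r, f (α r) = γ • r := fun r => by simp [α]
  exact ⟨γ, nonZeroDivisors.ne_zero hγ0, ⟨α, f, h4, fun v => hf (by rw [h4, map_smul])⟩⟩

lemma add_pow_le_aux (a b d : ℕ) : (a + b) ^ (d + 1) ≤ a ^ (d + 1) + (d + 1) * b * (a + b) ^ d := by
  induction d with
  | zero => simp
  | succ d ih =>
    have h1 : a ^ (d + 1) ≤ (a + b) ^ (d + 1) := Nat.pow_le_pow_left (by omega) _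
    calc (a + b) ^ (d + 1 + 1) = (a + b) ^ (d + 1) * a + b * (a + b) ^ (d + 1) := by ring
      _ ≤ (a ^ (d + 1) + (d + 1) * b * (a + b) ^ d) * (a + b) - a ^ (d + 1) * b +
          b * (a + b) ^ (d + 1) := by
        gcongr
        apply Nat.le_sub_of_add_le
        nlinarith [Nat.mul_le_mul_right a ih, Nat.zero_le ((d + 1) * b * (a + b) ^ d * b)]
      _ = _ := by
        rw [Nat.sub_eq_of_eq_add (c := a ^ (d + 1 + 1) + (d + 1) * b * (a + b) ^ (d + 1)) (by ring)]
        ring

lemma le_of_asymp {e r d c sh D k : ℕ} (h : ∀ N : ℕ, ∃ q, N ≤ q ∧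
    e * ∏ i : Fin d, ((i + 1) * (q - c) - sh) ≤
      d.factorial * (q ^ d * r + d * (D * (k * q + 1) ^ (d - 1)))) : e ≤ r := by
  by_contra hlt
  have h0 : ∀ q, d.factorial * (q - (c + sh)) ^ d ≤ ∏ i : Fin d, ((i + 1) * (q - c) - sh) := by
    intro q
    rw [← Finset.prod_range_add_one_eq_factorial, Finset.prod_range, ← Fin.prod_const,
      ← Finset.prod_mul_distrib]
    refine Finset.prod_le_prod' fun i _ => ?_
    rw [← Nat.sub_sub, Nat.mul_sub]
    exact Nat.sub_le_sub_left (Nat.le_mul_of_pos_left _ (by omega)) _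
  cases d with
  | zero => obtain ⟨q, -, hq⟩ := h 0; simp at hq; omega
  | succ d =>
    obtain ⟨q, hq, h1⟩ := h ((d + 1) * (e * (c + sh) + D * (k + 1) ^ d) + (c + sh) + 1)
    have h2 := Nat.le_of_mul_le_mul_left (((mul_left_comm _ _ _).le.trans
      (Nat.mul_le_mul_left e (h0 q))).trans h1) (Nat.factorial_pos _)
    have h3 := add_pow_le_aux (q - (c + sh)) (c + sh) d
    rw [Nat.sub_add_cancel (by omega)] at h3
    have h4 : (k * q + 1) ^ d ≤ (k + 1) ^ d * q ^ d := by
      rw [← mul_pow]; exact Nat.pow_le_pow_left (by rw [add_mul]; omega) d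
    rw [Nat.add_sub_cancel] at h2
    have h5 : 0 < q ^ d := by have : 0 < q := by omega
                              positivity
    have h6 : (r + 1) * q ^ (d + 1) ≤ e * q ^ (d + 1) := Nat.mul_le_mul_right _ (by omega)
    have h7 := Nat.mul_le_mul_left e h3
    have h8 := Nat.mul_le_mul_left ((d + 1) * D) h4
    have h9 := Nat.mul_le_mul_right (q ^ d) hq
    rw [pow_succ q] at h6 h7 h2
    generalize (q - (c + sh)) ^ (d + 1) = A at *
    generalize (k * q + 1) ^ d = B at *
    generalize (k + 1) ^ d = C at *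
    generalize q ^ d = Q at *
    nlinarith [Nat.zero_le ((c + sh) * Q)]

end Vale.Agent.P202
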