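import Vale.Agent.P202.Basic

/-! Helpers for job JFlat: power series over power series. -/

open MvPowerSeries

namespace Vale.Agent.P202.JFlat

lemma flat_map {k A τ : Type*} [Field k] [CommRing A] [Finite τ] (σ : k →+* A) :
    (MvPowerSeries.map (σ := τ) σ).Flat := by
  classical
  let := σ.toAlgebra
  let := (MvPowerSeries.map (σ := τ) σ).toAlgebra
  refine Module.Flat.of_forall_isTrivialRelation fun {l f x} h => ?_
  have hsm : ∀ (a : MvPowerSeries τ k) (b : MvPowerSeries τ A) m, coeff m (a • b) =
      ∑ p ∈ Finset.HasAntidiagonal.antidiagonal m, coeff p.1 a • coeff p.2 b := by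
    intro a b m
    rw [show a • b = MvPowerSeries.map σ a * b from rfl, coeff_mul]
    rfl
  obtain ⟨r, a, ha⟩ := Submodule.fg_iff_exists_fin_generating_family.mp
    (IsNoetherian.noetherian (LinearMap.ker (Fintype.linearCombination (MvPowerSeries τ k) f)))
  let ev : A →ₗ[k] (Module.Dual k A → k) := LinearMap.pi fun φ => φ
  have hev : LinearMap.ker ev = ⊥ := by
    rw [LinearMap.ker_eq_bot']
    intro v hv
    exact (Module.forall_dual_apply_eq_zero_iff k v).mp fun φ => congrFun hv φ
  obtain ⟨ρ, hρ⟩ := ev.exists_leftInverse_of_injective hev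
  let px : Module.Dual k A → Fin l → MvPowerSeries τ k := fun φ i m => φ (coeff m (x i))
  have hpx : ∀ φ i m, coeff m (px φ i) = φ (coeff m (x i)) := fun _ _ _ => rfl
  have hmem : ∀ φ, ∃ y : Fin r → MvPowerSeries τ k, ∑ j, y j • a j = px φ := by
    intro φ
    rw [← Submodule.mem_span_range_iff_exists_fun, ha, LinearMap.mem_ker,
      Fintype.linearCombination_apply]
    ext m
    have := congrArg (fun z => φ (coeff m z)) h
    simp only [map_sum, hsm, map_smul, map_zero] at this
    simp only [map_sum, smul_eq_mul, mul_comm (px φ _), coeff_mul, hpx, map_zero]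
    exact this
  choose y hy using hmem
  let Y : Fin r → MvPowerSeries τ A := fun j m => ρ fun φ => coeff m (y φ j)
  have hY : ∀ j m, coeff m (Y j) = ρ fun φ => coeff m (y φ j) := fun _ _ => rfl
  refine ⟨r, fun i j => a j i, Y, fun i => ?_, fun j => ?_⟩
  · ext m
    simp only [map_sum, hsm, hY, ← map_smul]
    simp only [← map_sum]
    rw [← show ρ (ev (coeff m (x i))) = coeff m (x i) from LinearMap.congr_fun hρ _]
    congr 1
    ext φ
    have := congrArg (fun z => coeff m (z i)) (hy φ)
    simp only [Finset.sum_apply, Pi.smul_apply, smul_eq_mul, map_sum, mul_comm (y φ _), coeff_mul,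
      hpx] at this
    simp only [Finset.sum_apply, Pi.smul_apply, smul_eq_mul, this]
    rfl
  · have : a j ∈ LinearMap.ker (Fintype.linearCombination (MvPowerSeries τ k) f) :=
      ha ▸ Submodule.subset_span ⟨j, rfl⟩
    simpa [Fintype.linearCombination_apply, mul_comm] using this

/-- Power series over power series. -/
noncomputable def sumEquiv {σ τ υ : Type*} (R : Type*) [CommRing R]
    (e : (υ →₀ ℕ) ≃+ (σ →₀ ℕ) × (τ →₀ ℕ)) :
    MvPowerSeries τ (MvPowerSeries σ R) ≃+* MvPowerSeries υ R where
  toFun F := fun m => coeff (e m).1 (coeff (e m).2 F)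
  invFun f := fun q p => coeff (e.symm (p, q)) f
  left_inv F := by
    ext q p
    change coeff (e (e.symm (p, q))).1 (coeff (e (e.symm (p, q))).2 F) = _
    rw [e.apply_symm_apply]
    rfl
  right_inv f := by
    ext m
    change coeff (e.symm ((e m).1, (e m).2)) f = _
    simp
  map_add' F G := by
    ext m
    change coeff (e m).1 (coeff (e m).2 (F + G)) = _
    simp only [map_add]
    rfl
  map_mul' F G := by
    classical
    ext m
    change coeff (e m).1 (coeff (e m).2 (F * G)) = _
    simp only [coeff_mul, map_sum]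
    rw [← Finset.sum_product']
    refine Finset.sum_nbij' (fun z => (e.symm (z.2.1, z.1.1), e.symm (z.2.2, z.1.2)))
      (fun z => (((e z.1).2, (e z.2).2), ((e z.1).1, (e z.2).1))) ?_ ?_ ?_ ?_ ?_
    · rintro ⟨⟨q1, q2⟩, p1, p2⟩ hz
      simp only [Finset.mem_product, Finset.HasAntidiagonal.mem_antidiagonal] at hz ⊢
      rw [← map_add, Prod.mk_add_mk, hz.1, hz.2]
      simp
    · rintro ⟨m1, m2⟩ hz
      simp only [Finset.mem_product, Finset.HasAntidiagonal.mem_antidiagonal] at hz ⊢
      rw [← hz, map_add]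
      exact ⟨rfl, rfl⟩
    · rintro ⟨⟨q1, q2⟩, p1, p2⟩ _
      simp
    · rintro ⟨m1, m2⟩ _
      simp
    · rintro ⟨⟨q1, q2⟩, p1, p2⟩ _
      change _ = coeff (e (e.symm (p1, q1))).1 (coeff (e (e.symm (p1, q1))).2 F) *
        coeff (e (e.symm (p2, q2))).1 (coeff (e (e.symm (p2, q2))).2 G)
      simp

lemma coeff_sumEquiv {σ τ υ : Type*} (R : Type*) [CommRing R]
    (e : (υ →₀ ℕ) ≃+ (σ →₀ ℕ) × (τ →₀ ℕ)) (F : MvPowerSeries τ (MvPowerSeries σ R)) (m) :
    coeff m (sumEquiv R e F) = coeff (e m).1 (coeff (e m).2 F) := rfl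

theorem exists_flat_PS {k l : Type*} [Field k] [Field l] (s d : ℕ) (σ : k →+* PS s l) :
    ∃ ι : PS d k →+* PS (s + d) l, ι.Flat ∧
      (∀ j, ι (MvPowerSeries.X j) = MvPowerSeries.X (Fin.natAdd s j)) ∧
      ∀ c, ι (MvPowerSeries.C c) = MvPowerSeries.rename (Fin.castAdd d) (σ c) := by
  classical
  let e : (Fin (s + d) →₀ ℕ) ≃+ (Fin s →₀ ℕ) × (Fin d →₀ ℕ) :=
    (Finsupp.domCongr finSumFinEquiv.symm).trans Finsupp.sumFinsuppAddEquivProdFinsupp
  have e1 : ∀ m i, (e m).1 i = m (Fin.castAdd d i) := fun m i => by simp [e]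
  have e2 : ∀ m j, (e m).2 j = m (Fin.natAdd s j) := fun m i => by simp [e]
  refine ⟨(sumEquiv l e).toRingHom.comp (MvPowerSeries.map σ),
    (flat_map σ).comp (.of_bijective (sumEquiv l e).bijective), fun j => ?_, fun c => ?_⟩
  · ext m
    have h : e (Finsupp.single (Fin.natAdd s j) 1) = (0, Finsupp.single j 1) := by
      ext i
      · rw [e1, Finsupp.single_eq_of_ne]
        · rfl
        · intro h; have := congrArg Fin.val h; simp at this; omega
      · rw [e2]; simp [Finsupp.single_apply]
    simp only [RingHom.comp_apply, map_X, RingEquiv.toRingHom_eq_coe, RingHom.coe_coe,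
      coeff_sumEquiv, coeff_X, ← e.injective.eq_iff (a := m), h, Prod.ext_iff]
    by_cases h2 : (e m).2 = Finsupp.single j 1 <;> simp [h2, coeff_one]
  · ext m
    simp only [RingHom.comp_apply, map_C, RingEquiv.toRingHom_eq_coe, RingHom.coe_coe,
      coeff_sumEquiv, coeff_C]
    split_ifs with h2
    · have : m = Finsupp.embDomain (Fin.castAddEmb d) (e m).1 := by
        ext i
        refine Fin.addCases (fun i => ?_) (fun j => ?_) i
        · rw [← e1]
          exact (Finsupp.embDomain_apply_self (Fin.castAddEmb d) _ i).symm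
        · rw [← e2, h2, Finsupp.embDomain_of_notMem_range]
          · rfl
          · rintro ⟨i, h⟩; have := congrArg Fin.val h; simp at this; omega
      conv_rhs => rw [this]
      exact (coeff_embDomain_rename (Fin.castAddEmb d) _ _).symm
    · rw [coeff_rename_eq_zero, map_zero]
      rintro ⟨p, rfl⟩
      apply h2
      ext j
      rw [e2, Finsupp.mapDomain_of_notMem_range]
      · rfl
      · rintro ⟨i, h⟩; have := congrArg Fin.val h; simp at this; omega

end Vale.Agent.P202.JFlat
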