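import Vale.Agent.P202.Model
import Vale.Agent.P202.Filt
import Vale.Agent.P202.JFlatA

/-! Job JFlat (see notes/P202.md): flatness criteria. -/

open IsLocalRing

namespace Vale.Agent.P202

theorem colon_of_flat {A C : Type*} [CommRing A] [CommRing C] [Algebra A C] [Module.Flat A C]
    (I : Ideal A) (w : A) (c : C) (h : algebraMap A C w * c ∈ I.map (algebraMap A C)) :
    c ∈ Ideal.map (algebraMap A C) (I.colon {w}) := by
  have hx' : algebraMap A C w * c ∈ I • (⊤ : Submodule A C) := by
    rw [Ideal.smul_top_eq_map]; exact h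
  rw [← Submodule.span_univ, ← Set.range_id, Submodule.mem_ideal_smul_span_iff_exists_sum] at hx'
  obtain ⟨a, ha, he⟩ := hx'
  have h0 : ∑ o : Option a.support,
      (o.elim w fun i => -a i) • (o.elim c fun i => (i : C)) = 0 := by
    rw [Fintype.sum_option]
    simp only [Option.elim, neg_smul, Finset.sum_neg_distrib]
    rw [Algebra.smul_def, ← he, Finsupp.sum, ← Finset.sum_coe_sort a.support]
    exact add_neg_cancel _
  obtain ⟨k, b, y, h1, h2⟩ := Module.Flat.isTrivialRelation_of_sum_smul_eq_zero (R := A) (M := C)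
    (f := fun o : Option a.support => o.elim w fun i => -a i)
    (x := fun o : Option a.support => o.elim c fun i => (i : C)) h0
  rw [show c = _ from h1 none]
  refine Ideal.sum_mem _ fun j _ => ?_
  rw [Algebra.smul_def]
  refine Ideal.mul_mem_right _ _ (Ideal.mem_map_of_mem _ ?_)
  have := h2 j
  rw [Fintype.sum_option] at this
  rw [Submodule.mem_colon_singleton, smul_eq_mul, mul_comm,
    show w * b none j = _ from eq_neg_of_add_eq_zero_left this]
  exact neg_mem (I.sum_mem fun i _ => I.mul_mem_right _ (neg_mem (ha i)))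

namespace JFlat

lemma colon_le {A : Type*} [CommRing A] [IsNoetherianRing A] (m I : Ideal A) (w : A) :
    ∃ e : ℕ, ∀ n, (I ⊔ m ^ (n + e)).colon {w} ≤ I.colon {w} ⊔ m ^ n := by
  obtain ⟨e, he⟩ := m.exists_pow_inf_eq_pow_smul (Submodule.span A {I.mkQ w})
  refine ⟨e, fun n a ha => ?_⟩
  rw [Submodule.mem_colon_singleton] at ha
  have h1 : I.mkQ (a • w) ∈ m ^ (n + e) • ⊤ ⊓ Submodule.span A {I.mkQ w} := by
    constructor
    · obtain ⟨u, hu, v, hv, huv⟩ := Submodule.mem_sup.mp ha
      have : I.mkQ (a • w) = v • I.mkQ 1 := by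
        rw [← huv, map_add, ← map_smul, smul_eq_mul, mul_one,
          show I.mkQ u = 0 from (Submodule.Quotient.mk_eq_zero I).mpr hu, zero_add]
      rw [this]
      exact Submodule.smul_mem_smul hv Submodule.mem_top
    · rw [map_smul]
      exact Submodule.smul_mem _ _ (Submodule.mem_span_singleton_self _)
  rw [he _ (by omega), Nat.add_sub_cancel] at h1
  have h2 := Submodule.smul_mono le_rfl inf_le_right h1
  obtain ⟨b, hb, hbw⟩ := (Submodule.mem_smul_span_singleton).mp h2
  refine Submodule.mem_sup.mpr ⟨a - b, ?_, b, hb, by ring⟩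
  rw [Submodule.mem_colon_singleton, ← Submodule.Quotient.mk_eq_zero, ← Submodule.mkQ_apply,
    sub_smul, map_sub, ← hbw, map_smul, sub_self]

lemma mem_of_forall {C : Type*} [CommRing C] [IsLocalRing C] [IsNoetherianRing C] (J : Ideal C)
    (c : C) (h : ∀ n, c ∈ J ⊔ maximalIdeal C ^ n) : c ∈ J := by
  rw [← Submodule.Quotient.mk_eq_zero, ← Submodule.mem_bot C,
    ← (maximalIdeal C).iInf_pow_smul_eq_bot_of_isLocalRing (maximalIdeal.isMaximal C).ne_top,
    Submodule.mem_iInf]
  intro n
  obtain ⟨u, hu, v, hv, rfl⟩ := Submodule.mem_sup.mp (h n)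
  have : (Submodule.Quotient.mk (u + v) : C ⧸ J) = v • Submodule.Quotient.mk 1 := by
    rw [← Submodule.Quotient.mk_smul, Submodule.Quotient.eq]
    simpa using hu
  rw [this]
  exact Submodule.smul_mem_smul hv Submodule.mem_top

lemma flat_of_colon_all {A C : Type*} [CommRing A] [CommRing C] [Algebra A C]
    (h : ∀ (I : Ideal A) (w : A) (c : C), algebraMap A C w * c ∈ I.map (algebraMap A C) →
      c ∈ Ideal.map (algebraMap A C) (I.colon {w})) : Module.Flat A C := by
  have key : ∀ (l : ℕ) (f : Fin l → A) (x : Fin l → C), ∑ i, f i • x i = 0 →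
      x ∈ Submodule.span C (Set.range
        fun a : {a : Fin l → A // ∑ i, f i * a i = 0} => fun i => algebraMap A C (a.1 i)) := by
    intro l
    induction l with
    | zero => intro f x _; rw [Subsingleton.elim x 0]; exact zero_mem _
    | succ l ih =>
      intro f x hx
      set S := Submodule.span C (Set.range
        fun a : {a : Fin (l + 1) → A // ∑ i, f i * a i = 0} => fun i => algebraMap A C (a.1 i))
      have hS : ∀ v ∈ S, ∑ i, f i • v i = 0 := by
        intro v hv
        refine Submodule.span_induction ?_ ?_ ?_ ?_ hv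
        · rintro _ ⟨a, rfl⟩
          simp only [Algebra.smul_def, ← map_mul, ← map_sum, a.2, map_zero]
        · simp
        · intro y z _ _ hy hz
          simp [Finset.sum_add_distrib, hy, hz]
        · intro c y _ hy
          simp only [Pi.smul_apply, smul_comm _ c, ← Finset.smul_sum, hy, smul_zero]
      have h1 := h (Ideal.span (Set.range fun i : Fin l => f i.succ)) (f 0) (x 0) (by
        rw [Fin.sum_univ_succ] at hx
        rw [← Algebra.smul_def, eq_neg_of_add_eq_zero_left hx]
        refine neg_mem (Ideal.sum_mem _ fun i _ => ?_)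
        rw [Algebra.smul_def]
        exact Ideal.mul_mem_right _ _ (Ideal.mem_map_of_mem _ (Ideal.subset_span ⟨i, rfl⟩)))
      have h2 : ∃ v ∈ S, v 0 = x 0 := by
        refine Submodule.span_induction (p := fun c _ => ∃ v ∈ S, v 0 = c) ?_ ?_ ?_ ?_ h1
        · rintro _ ⟨a, ha, rfl⟩
          obtain ⟨b, hb⟩ := Ideal.mem_span_range_iff_exists_fun.mp
            (Submodule.mem_colon_singleton.mp ha)
          refine ⟨_, Submodule.subset_span ⟨⟨Fin.cons a fun i => -b i, ?_⟩, rfl⟩, rfl⟩
          rw [Fin.sum_univ_succ]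
          simp only [Fin.cons_zero, Fin.cons_succ, mul_neg, Finset.sum_neg_distrib, mul_comm _ (b _),
            hb, smul_eq_mul]
          ring
        · exact ⟨0, zero_mem _, rfl⟩
        · rintro _ _ _ _ ⟨v, hv, rfl⟩ ⟨v', hv', rfl⟩
          exact ⟨v + v', add_mem hv hv', rfl⟩
        · rintro c _ _ ⟨v, hv, rfl⟩
          exact ⟨c • v, Submodule.smul_mem _ _ hv, rfl⟩
      obtain ⟨v, hv, hv0⟩ := h2
      have h3 := ih (fun i => f i.succ) (fun i => (x - v) i.succ) (by
        have : ∑ i, f i • (x - v) i = 0 := by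
          simp [smul_sub, Finset.sum_sub_distrib, hx, hS v hv]
        rw [Fin.sum_univ_succ] at this
        simpa [hv0] using this)
      have h4 : ∀ z ∈ Submodule.span C (Set.range
          fun a : {a : Fin l → A // ∑ i, f i.succ * a i = 0} => fun i => algebraMap A C (a.1 i)),
          (Fin.cons 0 z : Fin (l + 1) → C) ∈ S := by
        intro z hz
        refine Submodule.span_induction ?_ ?_ ?_ ?_ hz
        · rintro _ ⟨a, rfl⟩
          refine Submodule.subset_span ⟨⟨Fin.cons 0 a.1, ?_⟩, ?_⟩
          · rw [Fin.sum_univ_succ]; simpa using a.2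
          · ext i
            refine Fin.cases ?_ (fun i => ?_) i <;> simp
        · have : (Fin.cons 0 0 : Fin (l + 1) → C) = 0 := by
            ext i
            refine Fin.cases ?_ (fun i => ?_) i <;> simp
          rw [this]; exact zero_mem _
        · intro y z _ _ hy hz
          have : (Fin.cons 0 (y + z) : Fin (l + 1) → C) = Fin.cons 0 y + Fin.cons 0 z := by
            ext i
            refine Fin.cases ?_ (fun i => ?_) i <;> simp
          rw [this]; exact add_mem hy hz
        · intro c y _ hy
          have : (Fin.cons 0 (c • y) : Fin (l + 1) → C) = c • Fin.cons 0 y := by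
            ext i
            refine Fin.cases ?_ (fun i => ?_) i <;> simp
          rw [this]; exact Submodule.smul_mem _ _ hy
      have h5 : x = (Fin.cons 0 fun i => (x - v) i.succ : Fin (l + 1) → C) + v := by
        ext i
        refine Fin.cases ?_ (fun i => ?_) i <;> simp [hv0]
      rw [h5]
      exact add_mem (h4 _ h3) hv
  refine Module.Flat.of_forall_isTrivialRelation fun {l f x} hx => ?_
  obtain ⟨c, hc⟩ := Finsupp.mem_span_range_iff_exists_finsupp.mp (key l f x hx)
  rw [← (Fintype.equivFin (Fin l)).symm.isTrivialRelation_comp, Equiv.isTrivialRelation_comp]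
  refine ⟨c.support.card, fun i j => (c.support.equivFin.symm j).1.1 i,
    fun j => c (c.support.equivFin.symm j), fun i => ?_, fun j => (c.support.equivFin.symm j).1.2⟩
  rw [← hc, Finsupp.sum, Finset.sum_apply, ← Finset.sum_coe_sort c.support,
    ← c.support.equivFin.symm.sum_comp]
  refine Finset.sum_congr rfl fun j _ => ?_
  simp [Algebra.smul_def, mul_comm]

end JFlat

theorem flat_of_colon {A C : Type*} [CommRing A] [IsLocalRing A] [IsNoetherianRing A]
    [CommRing C] [IsLocalRing C] [IsNoetherianRing C] [Algebra A C] [IsLocalHom (algebraMap A C)]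
    (h : ∀ (I : Ideal A) (n : ℕ) (w : A) (c : C), maximalIdeal A ^ n ≤ I →
      algebraMap A C w * c ∈ I.map (algebraMap A C) →
      c ∈ Ideal.map (algebraMap A C) (I.colon {w})) : Module.Flat A C := by
  refine JFlat.flat_of_colon_all fun I w c hc => JFlat.mem_of_forall _ _ fun n => ?_
  obtain ⟨e, he⟩ := JFlat.colon_le (maximalIdeal A) I w
  have h1 := Ideal.map_mono (he n) (h (I ⊔ maximalIdeal A ^ (n + e)) (n + e) w c le_sup_right
    (Ideal.map_mono le_sup_left hc))
  rw [Ideal.map_sup, Ideal.map_pow] at h1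
  have h2 : (maximalIdeal A).map (algebraMap A C) ≤ maximalIdeal C :=
    ((local_hom_TFAE _).out 0 2).mp (inferInstance : IsLocalHom (algebraMap A C))
  exact SetLike.le_def.mp (sup_le_sup_left (Ideal.pow_right_mono h2 n) _) h1

namespace JFlat

lemma one_le_ln {C : Type*} [CommRing C] {J : Ideal C} {c : C} (h : c ∉ J) :
    1 ≤ ln C (J.colon {c}) := by
  rw [Order.one_le_iff_ne_zero, ln, Ne, Module.length_eq_zero_iff,
    Submodule.Quotient.subsingleton_iff, Ideal.eq_top_iff_one, Submodule.mem_colon_singleton]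
  simpa using h

lemma sub_len {A C : Type*} [CommRing A] [IsNoetherianRing A] [CommRing C] [Algebra A C]
    (m : Ideal A) (N : ℕ) (lam : ℕ∞) (hl : ln C (m.map (algebraMap A C)) ≤ lam) (I' I : Ideal A) :
    m ^ N ≤ I → I ≤ I' →
      ln C (I.map (algebraMap A C)) + ln A I' * lam ≤
        ln C (I'.map (algebraMap A C)) + ln A I * lam := by
  induction I using IsNoetherian.induction with
  | hgt I ih =>
    intro h1 h2
    by_cases h : I' ≤ I
    · rw [le_antisymm h2 h]
    have hex : ∃ j, m ^ j * I' ≤ I := ⟨N, Ideal.mul_le_left.trans h1⟩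
    classical
    have hj := Nat.find_spec hex
    obtain ⟨j, hj'⟩ : ∃ j, Nat.find hex = j + 1 :=
      Nat.exists_eq_succ_of_ne_zero fun h0 => h (by simpa [h0] using hj)
    obtain ⟨w, hw1, hw2⟩ := SetLike.not_le_iff_exists.mp (Nat.find_min hex (m := j) (by omega))
    have hw3 : ∀ a ∈ m, a * w ∈ I := fun a ha => hj (by
      rw [hj', pow_succ', mul_assoc]; exact Ideal.mul_mem_mul ha hw1)
    have ih' := ih (I ⊔ Ideal.span {w}) (lt_of_le_of_ne le_sup_left fun he => hw2
        (he ▸ Ideal.mem_sup_right (Ideal.mem_span_singleton_self w))) (h1.trans le_sup_left)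
      (sup_le h2 ((Ideal.span_singleton_le_iff_mem _).mpr (Ideal.mul_le_right hw1)))
    have e1 := len_colon A I w
    have e2 := len_colon C (Ideal.map (algebraMap A C) I) (algebraMap A C w)
    have e3 : ln C ((Ideal.map (algebraMap A C) I).colon {algebraMap A C w}) ≤ lam := by
      refine (len_anti C ?_).trans hl
      rw [Ideal.map_le_iff_le_comap]
      intro a ha
      rw [Ideal.mem_comap, Submodule.mem_colon_singleton, smul_eq_mul, ← map_mul]
      exact Ideal.mem_map_of_mem _ (hw3 a ha)
    rw [Ideal.map_sup, Ideal.map_span, Set.image_singleton] at ih'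
    rw [e1, e2, add_assoc, add_mul, add_left_comm (ln C (Ideal.map (algebraMap A C) I'))]
    refine add_le_add (e3.trans ?_) ih'
    exact le_mul_of_one_le_left' (one_le_ln hw2)

end JFlat

theorem flat_of_lengths {A C : Type*} [CommRing A] [IsLocalRing A] [IsNoetherianRing A]
    [CommRing C] [IsLocalRing C] [IsNoetherianRing C] [Algebra A C] [IsLocalHom (algebraMap A C)]
    (lam : ℕ) (hlen : ∀ N : ℕ, Module.length C (C ⧸ (maximalIdeal A ^ N).map (algebraMap A C)) =
      Module.length A (A ⧸ maximalIdeal A ^ N) * lam) : Module.Flat A C := by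
  have hl : ln C ((maximalIdeal A).map (algebraMap A C)) ≤ lam := by
    have := hlen 1
    rw [pow_one, len_residue_one, one_mul] at this
    exact this.le
  have hfin : ∀ (I : Ideal A) (N : ℕ), maximalIdeal A ^ N ≤ I → ln A I * lam ≠ ⊤ := by
    intro I N hI
    obtain ⟨r, y, hy⟩ := Submodule.fg_iff_exists_fin_generating_family.mp
      (IsNoetherian.noetherian (maximalIdeal A))
    have h1 := (len_anti A ((Ideal.pow_le_pow_right (Nat.le_succ N)).trans hI)).trans
      (length_quot_pow_le y hy.symm N)
    exact WithTop.mul_ne_top (ne_top_of_le_ne_top (ENat.natCast_ne_top _) h1) (ENat.natCast_ne_top _)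
  have hall : ∀ (I : Ideal A) (N : ℕ), maximalIdeal A ^ N ≤ I →
      ln C (I.map (algebraMap A C)) = ln A I * lam := by
    intro I N hI
    apply le_antisymm
    · have := JFlat.sub_len (maximalIdeal A) N lam hl ⊤ I hI le_top
      simpa [ln, Ideal.map_top] using this
    · have := JFlat.sub_len (maximalIdeal A) N lam hl I _ le_rfl hI
      rw [show ln C _ = ln A _ * lam from hlen N, add_comm] at this
      exact (ENat.add_le_add_iff_right (hfin _ N le_rfl)).mp this
  refine flat_of_colon fun I N w c hI hc => ?_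
  by_contra hn
  have hI1 : maximalIdeal A ^ N ≤ I.colon {w} := fun a ha =>
    Submodule.mem_colon_singleton.mpr (I.mul_mem_right _ (hI ha))
  have hI2 : maximalIdeal A ^ N ≤ I ⊔ Ideal.span {w} := hI.trans le_sup_left
  have e1 := len_colon A I w
  have e2 := len_colon C (I.map (algebraMap A C)) (algebraMap A C w)
  have e3 := hall _ N hI2
  rw [Ideal.map_sup, Ideal.map_span, Set.image_singleton] at e3
  rw [hall I N hI, e1, add_mul, e3, ← hall _ N hI1] at e2
  have e4 := WithTop.add_right_cancel (hfin _ N hI2) e2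
  have e5 := len_colon C ((I.colon {w}).map (algebraMap A C)) c
  have e6 : ln C ((I.map (algebraMap A C)).colon {algebraMap A C w}) ≤
      ln C ((I.colon {w}).map (algebraMap A C) ⊔ Ideal.span {c}) := by
    refine len_anti C (sup_le ?_ ?_)
    · rw [Ideal.map_le_iff_le_comap]
      intro a ha
      rw [Ideal.mem_comap, Submodule.mem_colon_singleton, smul_eq_mul, ← map_mul]
      exact Ideal.mem_map_of_mem _ (Submodule.mem_colon_singleton.mp ha)
    · rw [Ideal.span_singleton_le_iff_mem, Submodule.mem_colon_singleton, smul_eq_mul, mul_comm]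
      exact hc
  have e7 : 1 + ln C ((I.colon {w}).map (algebraMap A C)) ≤
      0 + ln C ((I.colon {w}).map (algebraMap A C)) := by
    rw [zero_add]
    exact (add_le_add (JFlat.one_le_ln hn) (e4.le.trans e6)).trans e5.ge
  have e8 := (ENat.add_le_add_iff_right (by rw [hall _ N hI1]; exact hfin _ N hI1)).mp e7
  simp at e8

theorem exists_flat_PS {k l : Type*} [Field k] [Field l] (s d : ℕ) (σ : k →+* PS s l) :
    ∃ ι : PS d k →+* PS (s + d) l, ι.Flat ∧
      (∀ j, ι (MvPowerSeries.X j) = MvPowerSeries.X (Fin.natAdd s j)) ∧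
      ∀ c, ι (MvPowerSeries.C c) = MvPowerSeries.rename (Fin.castAdd d) (σ c) :=
  JFlat.exists_flat_PS s d σ

end Vale.Agent.P202
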