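import Vale.Agent.P202.Min

/-! Helpers for job JRes: purity, flat kernels, minimal generators, gluing and homotopies. -/

open IsLocalRing Matrix

namespace Vale.Agent.P202.JRes

/-- `Z ∩ I F ≤ I Z`. -/
def Pure {T F : Type*} [CommRing T] [AddCommGroup F] [Module T F] (I : Ideal T)
    (Z : Submodule T F) : Prop :=
  ∀ x ∈ Z, x ∈ I • (⊤ : Submodule T F) → x ∈ I • Z

section
variable {R T F : Type*} [CommRing R] [CommRing T] [Algebra R T] [AddCommGroup F] [Module T F]
  [Module R F] [IsScalarTower R T F]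

lemma pure_of_flat (m : Ideal R) (Z : Submodule T F) [Module.Flat R (F ⧸ Z)] :
    Pure (m.map (algebraMap R T)) Z := by
  intro x hxZ hx
  have hx' : x ∈ m • (⊤ : Submodule R F) := by
    have h := Submodule.restrictScalars_map_smul_eq (S := R) m (⊤ : Submodule T F)
    rw [Submodule.restrictScalars_top] at h
    rw [← h]; exact hx
  rw [← Submodule.span_univ, ← Set.range_id, Submodule.mem_ideal_smul_span_iff_exists_sum] at hx'
  obtain ⟨a, ha, rfl⟩ := hx'
  have h0 : ∑ i : a.support, a i • Z.mkQ (i : F) = 0 := by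
    have : Z.mkQ (a.sum fun i c => c • id i) = 0 := (Submodule.Quotient.mk_eq_zero Z).mpr hxZ
    rw [← this, Finsupp.sum, map_sum, ← Finset.sum_coe_sort a.support]
    rfl
  obtain ⟨k, b, y, h1, h2⟩ := Module.Flat.isTrivialRelation_of_sum_smul_eq_zero h0
  beta_reduce at h1 h2
  choose g hg using fun j => Z.mkQ_surjective (y j)
  have hz : ∀ i : a.support, (i : F) - ∑ j, b i j • g j ∈ Z := by
    intro i
    rw [← Submodule.Quotient.mk_eq_zero, ← Submodule.mkQ_apply, map_sub, h1, map_sum, sub_eq_zero]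
    refine Finset.sum_congr rfl fun j _ => ?_
    rw [← hg j]; rfl
  have e : (a.sum fun i c => c • id i) =
      ∑ i : a.support, algebraMap R T (a i) • ((i : F) - ∑ j, b i j • g j) := by
    simp only [algebraMap_smul, smul_sub, Finset.sum_sub_distrib, Finset.smul_sum, smul_smul]
    rw [Finset.sum_comm]
    simp only [← Finset.sum_smul, h2, zero_smul, Finset.sum_const_zero, sub_zero]
    rw [Finsupp.sum, ← Finset.sum_coe_sort a.support]
    rfl
  rw [e]
  exact Submodule.sum_mem _ fun i _ =>
    Submodule.smul_mem_smul (Ideal.mem_map_of_mem _ (ha i)) (hz i)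

lemma flat_sub (Z : Submodule T F) [Module.Flat R F] [Module.Flat R (F ⧸ Z)] :
    Module.Flat R Z := by
  rw [Module.Flat.iff_rTensor_injective']
  intro I
  have h1 := LinearMap.lTensor_injective_of_exact_of_flat (R := R) (Z.mkQ.restrictScalars R)
    Z.mkQ_surjective (Z.subtype.restrictScalars R) Z.subtype_injective
    (LinearMap.exact_subtype_mkQ Z) I
  have h2 := Module.Flat.iff_rTensor_injective'.mp (inferInstance : Module.Flat R F) I
  have h3 : (LinearMap.rTensor F I.subtype) ∘ₗ (Z.subtype.restrictScalars R).lTensor I =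
      (Z.subtype.restrictScalars R).lTensor R ∘ₗ LinearMap.rTensor Z I.subtype := by
    ext; simp
  have h4 : Function.Injective
      ((Z.subtype.restrictScalars R).lTensor R ∘ₗ LinearMap.rTensor Z I.subtype) := by
    rw [← h3]; exact h2.comp h1
  exact Function.Injective.of_comp h4
end

section
variable {T F F' : Type*} [CommRing T] [AddCommGroup F] [Module T F] [AddCommGroup F']
  [Module T F']

lemma pure_succ (I : Ideal T) (Y : T) (Z : Submodule T F) (π : F' →ₗ[T] F)
    (hπ : LinearMap.range π = Z)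
    (hF : ∀ x : F, Y • x ∈ I • (⊤ : Submodule T F) → x ∈ I • (⊤ : Submodule T F))
    (h1 : Pure I Z) (h2 : Pure I (LinearMap.ker π)) :
    Pure (I ⊔ Ideal.span {Y}) (LinearMap.ker π) := by
  intro x hx hxI
  rw [Submodule.sup_smul] at hxI ⊢
  obtain ⟨u, hu, v, hv, rfl⟩ := Submodule.mem_sup.mp hxI
  rw [Submodule.ideal_span_singleton_smul, Submodule.mem_smul_pointwise_iff_exists] at hv
  obtain ⟨w, -, rfl⟩ := hv
  have hmap : ∀ u : F', u ∈ I • (⊤ : Submodule T F') → π u ∈ I • Z := by
    intro u hu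
    have := Submodule.mem_map_of_mem (f := π) hu
    rwa [Submodule.map_smul'', Submodule.map_top, hπ] at this
  have h3 : Y • π w ∈ I • (⊤ : Submodule T F) := by
    have h4 : π u + Y • π w = 0 := by simpa using hx
    rw [eq_neg_of_add_eq_zero_right h4]
    exact neg_mem (Submodule.smul_mono le_rfl le_top (hmap u hu))
  have h5 : π w ∈ I • Z := h1 _ (hπ ▸ LinearMap.mem_range_self π w) (hF _ h3)
  rw [← hπ, ← Submodule.map_top, ← Submodule.map_smul''] at h5
  obtain ⟨u', hu', hw⟩ := h5
  have hz : w - u' ∈ LinearMap.ker π := by simp [hw]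
  have e : u + Y • w = (u + Y • u') + Y • (w - u') := by rw [smul_sub]; abel
  have h6 : u + Y • u' ∈ LinearMap.ker π := by
    have := sub_mem hx (Submodule.smul_mem _ Y hz)
    rwa [e, add_sub_cancel_right] at this
  rw [e]
  refine add_mem (Submodule.mem_sup_left (h2 _ h6 (add_mem hu (Submodule.smul_mem _ _ hu'))))
    (Submodule.mem_sup_right (Submodule.smul_mem_smul (Ideal.mem_span_singleton_self Y) hz))

lemma mem_smul_top_pi {β : Type*} [Fintype β] (I : Ideal T) (x : β → T) :
    x ∈ I • (⊤ : Submodule T (β → T)) ↔ ∀ b, x b ∈ I := by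
  classical
  constructor
  · intro h
    refine Submodule.smul_induction_on h (fun r hr y _ b => I.mul_mem_right _ hr)
      (fun y z hy hz b => add_mem (hy b) (hz b))
  · intro h
    rw [pi_eq_sum_univ' x]
    exact Submodule.sum_mem _ fun b _ => Submodule.smul_mem_smul (h b) Submodule.mem_top

lemma exists_min_gen [IsLocalRing T] (Z : Submodule T F) (hZ : Z.FG) :
    ∃ (r : ℕ) (π : Fin r → F), Submodule.span T (Set.range π) = Z ∧
      ∀ c : Fin r → T, ∑ i, c i • π i = 0 → ∀ i, c i ∈ maximalIdeal T := by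
  classical
  have hex : ∃ r, ∃ π : Fin r → F, Submodule.span T (Set.range π) = Z :=
    Submodule.fg_iff_exists_fin_generating_family.mp hZ
  obtain ⟨π, hπ⟩ := Nat.find_spec hex
  refine ⟨_, π, hπ, fun c hc i => ?_⟩
  by_contra hu
  obtain ⟨u, hu⟩ := notMem_maximalIdeal.mp hu
  have hmin := fun m => Nat.find_min hex (m := m)
  generalize Nat.find hex = r at *
  cases r with
  | zero => exact i.elim0
  | succ r =>
    refine hmin r (by omega) ⟨fun j => π (i.succAbove j), le_antisymm ?_ ?_⟩
    · rw [← hπ]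
      exact Submodule.span_mono (by rintro _ ⟨j, rfl⟩; exact ⟨_, rfl⟩)
    · rw [← hπ, Submodule.span_le]
      rintro _ ⟨j, rfl⟩
      rcases eq_or_ne j i with rfl | hj
      · rw [Fin.sum_univ_succAbove _ j, ← hu] at hc
        have : π j = -((↑u⁻¹ : T) • ∑ k, c (j.succAbove k) • π (j.succAbove k)) := by
          rw [eq_neg_of_add_eq_zero_right hc]; simp [smul_smul]
        rw [this]
        exact neg_mem (Submodule.smul_mem _ _ (Submodule.sum_mem _ fun k _ =>
          Submodule.smul_mem _ _ (Submodule.subset_span ⟨k, rfl⟩)))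
      · obtain ⟨k, rfl⟩ := Fin.exists_succAbove_eq hj
        exact Submodule.subset_span ⟨k, rfl⟩
end

section
variable {T : Type*} [CommRing T] {β ι : Type*} [Fintype β] [Fintype ι]

lemma glue (deg : ι → ℕ) (D : Matrix ι ι T) (M : Matrix β ι T) (DD : D * D = 0)
    (hD : ∀ μ ν, D μ ν ≠ 0 → deg ν = deg μ + 1) (MD : M * D = 0)
    (hM : ∀ b μ, M b μ ≠ 0 → deg μ = 0)
    (ex : ∀ y, M *ᵥ y = 0 → D *ᵥ y = 0 → ∃ η, D *ᵥ η = y) :
    fromBlocks (0 : Matrix β β T) M 0 D * fromBlocks (0 : Matrix β β T) M 0 D = 0 ∧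
    (∀ μ ν, fromBlocks (0 : Matrix β β T) M 0 D μ ν ≠ 0 →
      Sum.elim (fun _ => 0) (fun μ => deg μ + 1) ν =
        Sum.elim (fun _ => 0) (fun μ => deg μ + 1) μ + 1) ∧
    ∀ y : β ⊕ ι → T, (∃ η, M *ᵥ η = y ∘ Sum.inl) → fromBlocks (0 : Matrix β β T) M 0 D *ᵥ y = 0 →
      ∃ η, fromBlocks (0 : Matrix β β T) M 0 D *ᵥ η = y := by
  refine ⟨?_, ?_, ?_⟩
  · simp [fromBlocks_multiply, MD, DD]
  · rintro (μ | μ) (ν | ν) h
    · simp at h
    · simpa using hM μ ν (by simpa using h)
    · simp at h
    · simpa using hD μ ν (by simpa using h)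
  · rintro y ⟨η₀, h0⟩ hy
    rw [fromBlocks_mulVec] at hy
    have h1 : M *ᵥ (y ∘ Sum.inr) = 0 := by
      ext b; simpa using congrFun hy (Sum.inl b)
    have h2 : D *ᵥ (y ∘ Sum.inr) = 0 := by
      ext b; simpa using congrFun hy (Sum.inr b)
    obtain ⟨η₁, h3⟩ := ex _ h1 h2
    refine ⟨Sum.elim 0 fun μ => if deg μ = 0 then η₀ μ else η₁ μ, ?_⟩
    rw [fromBlocks_mulVec]
    ext (b | μ)
    · have := congrFun h0 b
      simp only [Function.comp_apply] at this
      rw [← this]
      simp only [zero_mulVec, zero_add, Sum.elim_inl, Sum.elim_comp_inr, mulVec, dotProduct]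
      refine Finset.sum_congr rfl fun ν _ => ?_
      by_cases h : M b ν = 0
      · simp [h]
      · simp [hM b ν h]
    · have := congrFun h3 μ
      simp only [Function.comp_apply] at this
      rw [← this]
      simp only [zero_mulVec, zero_add, Sum.elim_inr, Sum.elim_comp_inr, mulVec, dotProduct]
      refine Finset.sum_congr rfl fun ν _ => ?_
      by_cases h : D μ ν = 0
      · simp [h]
      · simp [hD μ ν h]

lemma homotopy [DecidableEq ι] (deg : ι → ℕ) (D : Matrix ι ι T) (DD : D * D = 0)
    (hD : ∀ μ ν, D μ ν ≠ 0 → deg ν = deg μ + 1) (J : Ideal T)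
    (ex : ∀ y, (∀ μ, deg μ = 0 → y μ ∈ J) → D *ᵥ y = 0 → ∃ η, D *ᵥ η = y) {r : T} (hr : r ∈ J)
    (n : ℕ) : ∃ H : Matrix ι ι T, (∀ μ ν, H μ ν ≠ 0 → deg μ = deg ν + 1) ∧
      (∀ μ ν, n ≤ deg ν → H μ ν = 0) ∧
      ∀ μ ν, deg ν < n → (D * H + H * D) μ ν = (r • (1 : Matrix ι ι T)) μ ν := by
  induction n with
  | zero => exact ⟨0, by simp, by simp, by simp⟩
  | succ n ih =>
    obtain ⟨H, h1, h2, h3⟩ := ih
    have hHD : ∀ μ ν, (H * D) μ ν ≠ 0 → deg μ = deg ν ∧ 0 < deg ν := by
      intro μ ν hne
      obtain ⟨κ, -, hκ⟩ := Finset.exists_ne_zero_of_sum_ne_zero hne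
      have := h1 μ κ (left_ne_zero_of_mul hκ)
      have := hD κ ν (right_ne_zero_of_mul hκ)
      omega
    have key : ∀ ν, deg ν = n → ∃ η : ι → T, (∀ μ, η μ ≠ 0 → deg μ = n + 1) ∧
        ∀ μ, (D *ᵥ η) μ = (r • (1 : Matrix ι ι T) - H * D) μ ν := by
      intro ν hν
      obtain ⟨η, hη⟩ := ex (fun μ => (r • (1 : Matrix ι ι T) - H * D) μ ν) (by
        intro μ hμ
        have : (H * D) μ ν = 0 := by
          by_contra h; have := hHD μ ν h; omega
        rw [Matrix.sub_apply, this, sub_zero]
        exact J.mul_mem_right _ hr) (by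
        ext μ
        have e1 : (D *ᵥ fun μ => (r • (1 : Matrix ι ι T) - H * D) μ ν) μ =
            (D * (r • (1 : Matrix ι ι T) - H * D)) μ ν := rfl
        have e2 : D * (r • (1 : Matrix ι ι T) - H * D) =
            (r • (1 : Matrix ι ι T) - (D * H + H * D)) * D := by
          simp [mul_sub, sub_mul, add_mul, mul_assoc, DD]
        rw [e1, e2, mul_apply]
        refine Finset.sum_eq_zero fun κ _ => ?_
        by_cases h : D κ ν = 0
        · simp [h]
        · have := hD κ ν h
          rw [Matrix.sub_apply, h3 μ κ (by omega), sub_self, zero_mul])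
      refine ⟨fun μ => if deg μ = n + 1 then η μ else 0, fun μ h => ?_, fun μ => ?_⟩
      · by_contra h'; simp [h'] at h
      · by_cases hμ : deg μ = n
        · rw [← congrFun hη μ]
          refine Finset.sum_congr rfl fun κ _ => ?_
          by_cases h : D μ κ = 0
          · simp [h]
          · have := hD μ κ h
            simp [this, hμ]
        · have a1 : (H * D) μ ν = 0 := by
            by_contra h; have := hHD μ ν h; omega
          have a2 : μ ≠ ν := by rintro rfl; exact hμ hν
          rw [Matrix.sub_apply, a1, sub_zero, Matrix.smul_apply, one_apply_ne a2, smul_zero]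
          refine Finset.sum_eq_zero fun κ _ => ?_
          by_cases h : D μ κ = 0
          · simp [h]
          · have := hD μ κ h
            have : deg κ ≠ n + 1 := by omega
            simp [this]
    choose η hη1 hη2 using key
    let H' : Matrix ι ι T := of fun μ ν => if h : deg ν = n then η ν h μ else H μ ν
    have hH' : ∀ μ ν, deg ν ≤ n → (H' * D) μ ν = (H * D) μ ν := by
      intro μ ν hν
      refine Finset.sum_congr rfl fun κ _ => ?_
      by_cases h : D κ ν = 0
      · simp [h]
      · have := hD κ ν h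
        have : deg κ ≠ n := by omega
        simp [H', this]
    refine ⟨H', fun μ ν h => ?_, fun μ ν h => ?_, fun μ ν h => ?_⟩
    · by_cases hν : deg ν = n
      · rw [hν]; exact hη1 ν hν μ (by simpa [H', hν] using h)
      · exact h1 μ ν (by simpa [H', hν] using h)
    · have hν : deg ν ≠ n := by omega
      simp [H', hν, h2 μ ν (by omega)]
    · rw [Matrix.add_apply, hH' μ ν (by omega)]
      by_cases hν : deg ν = n
      · have : (D * H') μ ν = (D *ᵥ η ν hν) μ := by
          simp [H', hν, mul_apply, mulVec, dotProduct]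
        rw [this, hη2, Matrix.sub_apply, sub_add_cancel]
      · rw [← h3 μ ν (by omega), Matrix.add_apply]
        congr 1
        simp [H', hν, mul_apply]
end

end Vale.Agent.P202.JRes
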