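import Vale.Agent.P202.Min

/-! The Koszul complex of a finite free algebra as a complex over the base. -/

open Matrix IsLocalRing

namespace Vale.Agent.P202

variable {d : ℕ} {R S ι : Type*} [CommRing R] [CommRing S] [Algebra R S] [Fintype ι]
  [DecidableEq ι]

/-- Block matrix built from integer matrices on subsets and matrices over `R`. -/
def kM (M : Fin d → Matrix (Finset (Fin d)) (Finset (Fin d)) ℤ) (Z : Fin d → Matrix ι ι R) :
    Matrix (Finset (Fin d) × ι) (Finset (Fin d) × ι) R :=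
  of fun p q => ∑ l, (M l p.1 q.1 : R) * Z l p.2 q.2

omit [Fintype ι] [DecidableEq ι] in
lemma kM_map {R' : Type*} [CommRing R'] (φ : R →+* R') (M) (Z : Fin d → Matrix ι ι R) :
    (kM M Z).map φ = kM M fun l => (Z l).map φ := by
  ext p q; simp [kM]

/-- Coordinates of a Koszul chain. -/
noncomputable def crd (b : Module.Basis ι R S) (y : Finset (Fin d) → S) : Finset (Fin d) × ι → R :=
  fun p => b.repr (y p.1) p.2

omit [DecidableEq ι] in
lemma crd_surj (b : Module.Basis ι R S) (v : Finset (Fin d) × ι → R) : ∃ y, crd b y = v :=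
  ⟨fun A => b.equivFun.symm fun i => v (A, i), by
    ext p; rw [crd, ← b.equivFun_apply, LinearEquiv.apply_symm_apply]⟩

omit [Fintype ι] [DecidableEq ι] in
lemma crd_inj (b : Module.Basis ι R S) : Function.Injective (crd (d := d) b) := by
  intro y y' h
  ext A
  exact b.ext_elem fun i => congrFun h (A, i)

omit [Fintype ι] [DecidableEq ι] in
lemma crd_add (b : Module.Basis ι R S) (y y' : Finset (Fin d) → S) :
    crd b (y + y') = crd b y + crd b y' := by ext p; simp [crd]

omit [Fintype ι] [DecidableEq ι] in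
lemma crd_smul (b : Module.Basis ι R S) (r : R) (y : Finset (Fin d) → S) :
    crd b (r • y) = r • crd b y := by ext p; simp [crd]

omit [Fintype ι] [DecidableEq ι] in
lemma crd_zero (b : Module.Basis ι R S) : crd (d := d) b 0 = 0 := by ext p; simp [crd]

omit [Fintype ι] [DecidableEq ι] in
lemma inDeg_crd (b : Module.Basis ι R S) (n : ℕ) (y : Finset (Fin d) → S) :
    InDeg (fun p : Finset (Fin d) × ι => p.1.card) n (crd b y) ↔ InDeg Finset.card n y := by
  constructor
  · intro h A hA
    exact b.ext_elem fun i => by simpa [crd] using h (A, i) hA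
  · intro h p hp
    simp [crd, h p.1 hp]

lemma kM_mulVec (b : Module.Basis ι R S) (M) (w : Fin d → S) (y : Finset (Fin d) → S) :
    kM M (fun l => Algebra.leftMulMatrix b (w l)) *ᵥ crd b y =
      crd b fun A => ∑ l, w l * ∑ B, M l A B • y B := by
  ext ⟨A, i⟩
  simp only [mulVec, dotProduct, kM, crd, of_apply, Fintype.sum_prod_type, Finset.sum_mul,
    Finset.mul_sum, map_sum, Finsupp.coe_finsetSum, Finset.sum_apply, mul_smul_comm, map_zsmul,
    Finsupp.coe_smul, Pi.smul_apply]
  rw [Finset.sum_comm (γ := Fin d)]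
  refine Finset.sum_congr rfl fun B _ => ?_
  rw [Finset.sum_comm]
  refine Finset.sum_congr rfl fun l _ => ?_
  rw [← Algebra.leftMulMatrix_mulVec_repr]
  simp [mulVec, dotProduct, Finset.mul_sum, mul_assoc]

/-- The Koszul differential. -/
def kd (z : Fin d → S) (y : Finset (Fin d) → S) : Finset (Fin d) → S := ∑ l, z l • Ct l y

/-- The Koszul homotopies. -/
def kh (z : Fin d → S) (y : Finset (Fin d) → S) : Finset (Fin d) → S := ∑ l, z l • Wd l y

lemma kD_mulVec (b : Module.Basis ι R S) (w : Fin d → S) (y : Finset (Fin d) → S) :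
    kM Cm (fun l => Algebra.leftMulMatrix b (w l)) *ᵥ crd b y = crd b (kd w y) := by
  rw [kM_mulVec]; congr 1; ext A; simp only [sum_Cm]; simp [kd]

lemma kH_mulVec (b : Module.Basis ι R S) (w : Fin d → S) (y : Finset (Fin d) → S) :
    kM Wm (fun l => Algebra.leftMulMatrix b (w l)) *ᵥ crd b y = crd b (kh w y) := by
  rw [kM_mulVec]; congr 1; ext A; simp only [sum_Wm]; simp [kh]

lemma Ct_smul (i : Fin d) (c : S) (y : Finset (Fin d) → S) : Ct i (c • y) = c • Ct i y := by
  ext A; by_cases h : i ∈ A <;> simp [Ct, h, mul_left_comm]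

lemma Wd_smul (i : Fin d) (c : S) (y : Finset (Fin d) → S) : Wd i (c • y) = c • Wd i y := by
  ext A; by_cases h : i ∈ A <;> simp [Wd, h, mul_left_comm]

lemma kd_kd (z : Fin d → S) (y) : kd z (kd z y) = 0 := by
  simp only [kd, Ct_sum, Ct_smul, Finset.smul_sum, smul_smul]
  refine sum_anti _ (fun i j => ?_) (fun i => by rw [Ct_Ct_self, smul_zero])
  rw [mul_comm (z j), ← smul_add, Ct_Ct, smul_zero]

lemma kd_kh (z a : Fin d → S) (y) : kd z (kh a y) + kh a (kd z y) = (∑ l, a l * z l) • y := by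
  simp only [kd, kh, Ct_sum, Ct_smul, Wd_sum, Wd_smul, Finset.smul_sum, smul_smul]
  rw [Finset.sum_comm, ← Finset.sum_add_distrib, Finset.sum_smul]
  refine Finset.sum_congr rfl fun i _ => ?_
  rw [← Finset.sum_add_distrib, Finset.sum_eq_single i]
  · rw [mul_comm (z i), ← smul_add, Ct_Wd_self]
  · intro j _ hj; rw [mul_comm (z j), ← smul_add, Ct_Wd_ne hj, smul_zero]
  · simp

/-- The Koszul complex. -/
noncomputable def kos (b : Module.Basis ι R S) (z : Fin d → S) (s : Fin d → R)
    (hs : ∀ j, algebraMap R S (s j) ∈ Ideal.span (Set.range z)) :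
    Cx R d s (Finset (Fin d) × ι) where
  deg p := p.1.card
  deg_le p := by simpa using Finset.card_le_univ p.1
  D := kM Cm fun l => Algebra.leftMulMatrix b (z l)
  H j := kM Wm fun l => Algebra.leftMulMatrix b
    ((Ideal.mem_span_range_iff_exists_fun.mp (hs j)).choose l)
  DD := by
    rw [Matrix.ext_iff_mulVec]
    intro v
    obtain ⟨y, rfl⟩ := crd_surj b v
    rw [← mulVec_mulVec, kD_mulVec, kD_mulVec, kd_kd, crd_zero, zero_mulVec]
  hD p q h := by
    rw [kM, of_apply] at h
    obtain ⟨l, -, hl⟩ := Finset.exists_ne_zero_of_sum_ne_zero h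
    have h1 : Cm l p.1 q.1 ≠ 0 := fun h => hl (by simp [h])
    have h2 : l ∉ p.1 ∧ q.1 = insert l p.1 := by
      by_contra hc; exact h1 (if_neg hc)
    rw [h2.2, Finset.card_insert_of_notMem h2.1]
  hH j p q h := by
    rw [kM, of_apply] at h
    obtain ⟨l, -, hl⟩ := Finset.exists_ne_zero_of_sum_ne_zero h
    have h1 : Wm l p.1 q.1 ≠ 0 := fun h => hl (by simp [h])
    have h2 : l ∈ p.1 ∧ q.1 = p.1.erase l := by
      by_contra hc; exact h1 (if_neg hc)
    rw [h2.2, Finset.card_erase_add_one h2.1]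
  hom j := by
    rw [Matrix.ext_iff_mulVec]
    intro v
    obtain ⟨y, rfl⟩ := crd_surj b v
    rw [add_mulVec, ← mulVec_mulVec, ← mulVec_mulVec, kD_mulVec, kH_mulVec, kH_mulVec, kD_mulVec,
      ← crd_add, kd_kh, (Ideal.mem_span_range_iff_exists_fun.mp (hs j)).choose_spec,
      algebraMap_smul, crd_smul, smul_mulVec, one_mulVec]

lemma kos_D (b : Module.Basis ι R S) (z : Fin d → S) (s : Fin d → R) (hs) :
    (kos b z s hs).D = kM Cm fun l => Algebra.leftMulMatrix b (z l) := rfl

lemma kos_deg (b : Module.Basis ι R S) (z : Fin d → S) (s : Fin d → R) (hs) :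
    (kos b z s hs).deg = fun p => p.1.card := rfl

lemma kd_apply (z : Fin d → S) (y) (A) :
    kd z y A = ∑ l, z l * if l ∈ A then 0 else sg l A • y (insert l A) := by
  simp [kd, Ct]

/-- A chain of degree one. -/
def ch1 (w : Fin d → S) : Finset (Fin d) → S := ∑ i, Pi.single {i} (w i)

lemma ch1_single (w : Fin d → S) (i) : ch1 w {i} = w i := by
  rw [ch1, Finset.sum_apply, Finset.sum_eq_single i]
  · simp
  · intro j _ hj
    exact Pi.single_eq_of_ne (by simpa using hj.symm) _
  · simp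

lemma inDeg_ch1 (w : Fin d → S) : InDeg Finset.card 1 (ch1 w) := by
  refine InDeg.sum _ fun i _ A hA => Pi.single_eq_of_ne ?_ _
  rintro rfl; simp at hA

lemma kd_ch1 (z w : Fin d → S) : kd z (ch1 w) = Pi.single ∅ (∑ l, w l * z l) := by
  ext A
  rw [kd_apply]
  by_cases hA : A = ∅
  · subst hA
    simp [sg, ch1_single, mul_comm]
  · rw [Pi.single_eq_of_ne hA]
    refine Finset.sum_eq_zero fun l _ => ?_
    split_ifs with h
    · simp
    · rw [inDeg_ch1 w _ (by
        rw [Finset.card_insert_of_notMem h]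
        have := Finset.card_pos.mpr (Finset.nonempty_iff_ne_empty.mpr hA)
        omega)]
      simp

lemma kos_H0 (b : Module.Basis ι R S) (z : Fin d → S) (s : Fin d → R) (hs)
    (hz : Ideal.span (Set.range z) ≠ ⊤) : (kos b z s hs).H0 := by
  intro h
  obtain ⟨η, hη⟩ := h (crd b (Pi.single ∅ 1)) ((inDeg_crd b 0 _).mpr fun A hA =>
    Pi.single_eq_of_ne (by rintro rfl; simp at hA) _)
  obtain ⟨y, rfl⟩ := crd_surj b η
  have h1 := congrFun (crd_inj b ((kD_mulVec b z y).symm.trans hη)) ∅
  rw [kd_apply, Pi.single_eq_same] at h1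
  refine hz ((Ideal.eq_top_iff_one _).mpr (h1 ▸ Ideal.sum_mem _ fun l _ =>
    Ideal.mul_mem_right _ _ (Ideal.subset_span ⟨l, rfl⟩)))

/-- Colon capturing up to a fixed element. -/
theorem colon_capture (b : Module.Basis ι R S) (z : Fin d → S) (s : Fin d → R)
    (hs : ∀ j, algebraMap R S (s j) ∈ Ideal.span (Set.range z)) (g : R)
    (hg : ∀ (j : Fin d) (r : R), s j * r ∈ Ideal.span (s '' {i | i < j}) →
      g * r ∈ Ideal.span (s '' {i | i < j})) (j : Fin d) (w : S)
    (hw : z j * w ∈ Ideal.span (z '' {i | i ≠ j})) :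
    algebraMap R S g ^ d * w ∈ Ideal.span (z '' {i | i ≠ j}) := by
  have : ∃ c : Fin d → S, c j = w ∧ ∑ l, c l * z l = 0 := by
    rw [Set.image_eq_range] at hw
    obtain ⟨c, hc⟩ := Ideal.mem_span_range_iff_exists_fun.mp hw
    refine ⟨fun l => if h : l ≠ j then -c ⟨l, h⟩ else w, by simp, ?_⟩
    rw [← Finset.add_sum_erase _ _ (Finset.mem_univ j),
      Finset.sum_subtype (p := fun i => i ∈ {i | i ≠ j}) (F := inferInstance) _ (by simp)]
    simp only [ne_eq, not_true_eq_false, dite_false]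
    rw [mul_comm, ← hc, ← Finset.sum_add_distrib]
    refine Finset.sum_eq_zero fun x _ => ?_
    rw [dif_pos (show ¬x.1 = j from x.2)]; simp
  obtain ⟨c, rfl, hc⟩ := this
  obtain ⟨η, -, hη⟩ := (kos b z s hs).almost_acyclic g hg d 1 0 (add_comm _ _) one_pos
    (crd b (ch1 c)) ((inDeg_crd b 1 _).mpr (inDeg_ch1 c)) (by
      intro μ
      rw [kos_D, kD_mulVec, kd_ch1, hc, Pi.single_zero, crd_zero]
      simp)
  obtain ⟨y, rfl⟩ := crd_surj b η
  have h1 : crd b (g ^ d • ch1 c) = crd b (kd z y) := by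
    rw [crd_smul, ← kD_mulVec]
    ext μ
    have := hη μ
    simpa [sub_eq_zero, kos_D] using this
  have h2 := congrFun (crd_inj b h1) {j}
  rw [Pi.smul_apply, ch1_single, Algebra.smul_def, map_pow] at h2
  rw [h2, kd_apply]
  refine Ideal.sum_mem _ fun l _ => ?_
  by_cases hl : l = j
  · simp [hl]
  · exact Ideal.mul_mem_right _ _ (Ideal.subset_span ⟨l, hl, rfl⟩)

end Vale.Agent.P202
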