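import Vale.Agent.P202.CoreP
import Vale.Agent.P202.Filt
import Vale.Agent.P202.Kos

/-! The lower bound for complexes with small entries over a finite extension of a power series
ring. -/

open Matrix IsLocalRing

namespace Vale.Agent.P202

/-- Generic isomorphism with a free module. -/
structure Gen (P R : Type*) [CommRing P] [CommRing R] [Algebra P R] (e : ℕ) (g : P) where
  α : R →ₗ[P] (Fin e → P)
  β : (Fin e → P) →ₗ[P] R
  βα : ∀ r, β (α r) = g • r
  αβ : ∀ v, α (β v) = g • v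

namespace Gen
variable {P R : Type*} [CommRing P] [CommRing R] [Algebra P R] {e : ℕ} {g : P} (G : Gen P R e g)
  {ι : Type*}

/-- Matrix of multiplication. -/
noncomputable def mm : R →ₗ[P] Matrix (Fin e) (Fin e) P where
  toFun r := of fun l l' => G.α (r * G.β (Pi.single l' 1)) l
  map_add' r r' := by ext l l'; simp [add_mul]
  map_smul' c r := by ext l l'; simp

/-- Block matrix. -/
noncomputable def blk (M : Matrix ι ι R) : Matrix (ι × Fin e) (ι × Fin e) P :=
  of fun p q => G.mm (M p.1 q.1) p.2 q.2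

/-- Componentwise `α`. -/
def A : (ι → R) →ₗ[P] (ι × Fin e → P) where
  toFun y p := G.α (y p.1) p.2
  map_add' y y' := by ext p; simp
  map_smul' c y := by ext p; simp

/-- Componentwise `β`. -/
def B : (ι × Fin e → P) →ₗ[P] (ι → R) where
  toFun v ν := G.β fun l => v (ν, l)
  map_add' v v' := by ext ν; rw [Pi.add_apply, ← map_add]; rfl
  map_smul' c v := by ext ν; rw [Pi.smul_apply, ← map_smul]; rfl

lemma BA (y : ι → R) : G.B (G.A y) = g • y := by
  ext ν; exact G.βα (y ν)

lemma AB (v : ι × Fin e → P) : G.A (G.B v) = g • v := by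
  ext p; exact congrFun (G.αβ _) _

lemma blk_mulVec [Fintype ι] (M : Matrix ι ι R) (v : ι × Fin e → P) :
    G.blk M *ᵥ v = G.A (M *ᵥ G.B v) := by
  ext ⟨μ, l⟩
  simp only [mulVec, dotProduct, blk, of_apply, Fintype.sum_prod_type, A, B, LinearMap.coe_mk,
    AddHom.coe_mk, map_sum, Finset.sum_apply, mm]
  refine Finset.sum_congr rfl fun ν _ => ?_
  conv_rhs => rw [pi_eq_sum_univ' (fun l => v (ν, l))]
  simp [Finset.mul_sum, mul_comm]

lemma mulVec_smul' [Fintype ι] (M : Matrix ι ι R) (c : P) (y : ι → R) :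
    M *ᵥ (c • y) = c • M *ᵥ y := mulVec_smul _ _ _

lemma blk_mem (I : Ideal P) {M : Matrix ι ι R} (hM : ∀ μ ν, M μ ν ∈ I.map (algebraMap P R)) (p q) :
    G.blk M p q ∈ I := by
  have : ∀ r ∈ I.map (algebraMap P R), ∀ l l', G.mm r l l' ∈ I := by
    intro r hr l l'
    have hr' : r ∈ (I • ⊤ : Submodule P R) := by rwa [Ideal.smul_top_eq_map]
    refine Submodule.smul_induction_on hr' (fun c hc x _ => ?_) (fun x y hx hy => ?_)
    · rw [map_smul]; exact I.mul_mem_right _ hc
    · rw [map_add]; exact add_mem hx hy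
  exact this _ (hM _ _) _ _

/-- The complex over the base ring. -/
noncomputable def cx {d : ℕ} {s : Fin d → R} {t : Fin d → P} (hs : ∀ j, s j = algebraMap P R (t j))
    [Fintype ι] [DecidableEq ι] (X : Cx R d s ι) : Cx P d (fun j => g ^ 2 * t j) (ι × Fin e) where
  deg p := X.deg p.1
  deg_le p := X.deg_le _
  D := G.blk X.D
  H j := G.blk (X.H j)
  DD := by
    rw [ext_iff_mulVec]
    intro v
    rw [← mulVec_mulVec, blk_mulVec, blk_mulVec, BA, mulVec_smul', X.D_D]; simp
  hD p q h := X.hD _ _ fun h' => h (by simp [blk, h'])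
  hH j p q h := X.hH j _ _ fun h' => h (by simp [blk, h'])
  hom j := by
    rw [ext_iff_mulVec]
    intro v
    rw [add_mulVec, ← mulVec_mulVec, ← mulVec_mulVec, blk_mulVec, blk_mulVec, blk_mulVec,
      blk_mulVec, BA, BA, mulVec_smul', mulVec_smul', X.D_H, ← map_add, ← smul_add, sub_add_cancel,
      hs, algebraMap_smul, map_smul, map_smul, AB, smul_mulVec, one_mulVec, smul_smul, smul_smul]
    congr 1; ring

include G in
lemma colon {d : ℕ} (t : Fin d → P)
    (ht : ∀ (j : Fin d) (r : P), t j * r ∈ Ideal.span (t '' {i | i < j}) →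
      r ∈ Ideal.span (t '' {i | i < j})) (j : Fin d) (r : R)
    (h : algebraMap P R (t j) * r ∈ Ideal.span ((fun j => algebraMap P R (t j)) '' {i | i < j})) :
    algebraMap P R g * r ∈ Ideal.span ((fun j => algebraMap P R (t j)) '' {i | i < j}) := by
  rw [← Set.image_image, ← Ideal.map_span] at h ⊢
  set I := Ideal.span (t '' {i | i < j})
  have h1 : ∀ x ∈ I.map (algebraMap P R), ∀ l, G.α x l ∈ I := by
    intro r hr l
    have hr' : r ∈ (I • ⊤ : Submodule P R) := by rwa [Ideal.smul_top_eq_map]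
    refine Submodule.smul_induction_on hr' (fun c hc x _ => ?_) (fun x y hx hy => ?_)
    · rw [map_smul]; exact I.mul_mem_right _ hc
    · rw [map_add]; exact add_mem hx hy
  have h2 : ∀ l, G.α r l ∈ I := fun l => ht j _ (by
    have := h1 _ h l
    rwa [← Algebra.smul_def, map_smul] at this)
  rw [← Algebra.smul_def, ← G.βα, pi_eq_sum_univ' (G.α r), map_sum]
  refine Ideal.sum_mem _ fun l _ => ?_
  rw [map_smul, Algebra.smul_def]
  exact Ideal.mul_mem_right _ _ (Ideal.mem_map_of_mem _ (h2 l))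

end Gen

theorem lower_bound {d : ℕ} {K R : Type*} [Field K] [CommRing R] [Algebra (PS d K) R] {e : ℕ}
    {g : PS d K} (hg : g ≠ 0) (G : Gen (PS d K) R e g) {ι : Type*} [Fintype ι] [DecidableEq ι]
    {s : Fin d → R} {a q : ℕ} (hs : ∀ j, s j = algebraMap (PS d K) R (MvPowerSeries.X j ^ a))
    (X : Cx R d s ι) (hD : ∀ μ ν, X.D μ ν ∈ (xI d K ^ q).map (algebraMap (PS d K) R)) (μ₀ : ι)
    (I : Ideal R) (hI : ∀ r ∈ I, ∃ η, InDeg X.deg 1 η ∧ X.D *ᵥ η = Pi.single μ₀ r) :
    ((e * ∏ i : Fin d, ((i + 1) * q - shift (g ^ 2)) : ℕ) : ℕ∞) ≤ d.factorial * ln (PS d K) I := by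
  let E : Matrix (ι × Fin e) (Fin e) (PS d K) := of fun p l => if p = (μ₀, l) then 1 else 0
  let Y := (I.restrictScalars (PS d K)).comap G.β
  refine (coreP (pow_ne_zero 2 hg) (G.cx hs X) (G.blk_mem _ hD) E Eᵀ ?_ Y ?_).trans ?_
  · ext l l'
    simp [E, mul_apply, one_apply, eq_comm]
  · intro y hy
    obtain ⟨η, h1, h2⟩ := hI _ hy
    refine ⟨G.A η, fun p hp => by simp [Gen.A, h1 p.1 hp], ?_⟩
    change G.blk X.D *ᵥ _ = _
    rw [G.blk_mulVec, G.BA, Gen.mulVec_smul', h2, map_smul, pow_two, mul_smul]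
    congr 1
    ext ⟨μ, l⟩
    by_cases h : μ = μ₀
    · subst h
      simp [Gen.A, E, mulVec, dotProduct, G.αβ]
    · simp [Gen.A, E, mulVec, dotProduct, h]
  · gcongr
    refine Module.length_le_of_injective
      (Y.liftQ ((Ideal.Quotient.mkₐ (PS d K) I).toLinearMap ∘ₗ G.β) fun y hy => ?_) ?_
    · exact Ideal.Quotient.eq_zero_iff_mem.mpr hy
    · rw [← LinearMap.ker_eq_bot]
      exact Submodule.ker_liftQ_eq_bot _ _ _ fun y hy => Ideal.Quotient.eq_zero_iff_mem.mp hy

end Vale.Agent.P202
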