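import Vale.Agent.P202.Basic

open Pointwise

namespace Vale.Agent.P202

/-- Laurent polynomials in `d` variables. -/
abbrev LP (d : ℕ) (k : Type*) [Field k] := AddMonoidAlgebra k (Fin d → ℤ)

/-- Laurent series in one variable over Laurent polynomials. -/
def Lam (d : ℕ) (k : Type*) [Field k] := HahnSeries ℤ (LP d k)

variable {d : ℕ} {k : Type*} [Field k]

noncomputable instance : CommRing (Lam d k) := inferInstanceAs (CommRing (HahnSeries ℤ (LP d k)))

instance : IsDomain (Lam d k) := inferInstanceAs (IsDomain (HahnSeries ℤ (LP d k)))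

/-- The identification with Hahn series. -/
noncomputable def toH : Lam d k ≃+* HahnSeries ℤ (LP d k) := RingEquiv.refl _

/-- Coefficient. -/
noncomputable def co (f : Lam d k) (t : ℤ) : LP d k := (toH f).coeff t

/-- Single term. -/
noncomputable def sgl (s : ℤ) : LP d k →+ Lam d k :=
  (toH.symm.toAddMonoidHom).comp (HahnSeries.single.addMonoidHom s)

lemma toH_sgl (s : ℤ) (x : LP d k) : toH (sgl s x) = HahnSeries.single s x := rfl

lemma sgl_mul_sgl (s s' : ℤ) (x x' : LP d k) : sgl s x * sgl s' x' = sgl (s + s') (x * x') :=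
  toH.injective (by rw [map_mul, toH_sgl, toH_sgl, toH_sgl, HahnSeries.single_mul_single])

/-- Constants. -/
noncomputable def cst : LP d k →+* Lam d k := toH.symm.toRingHom.comp HahnSeries.C

lemma sgl_zero (x : LP d k) : sgl 0 x = cst x := rfl

/-- Double coefficient. -/
noncomputable def cf (f : Lam d k) (t : ℤ) (a : Fin d → ℤ) : k := (co f t).coeff a

lemma ext_co {f g : Lam d k} (h : ∀ t, co f t = co g t) : f = g :=
  toH.injective (by ext1; ext1 t; exact h t)

lemma ext_cf {f g : Lam d k} (h : ∀ t a, cf f t a = cf g t a) : f = g :=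
  ext_co fun t => by ext a; exact h t a

@[simp] lemma co_zero (t) : co (0 : Lam d k) t = 0 := by simp [co]
@[simp] lemma co_add (f g : Lam d k) (t) : co (f + g) t = co f t + co g t := by simp [co]
@[simp] lemma co_neg (f : Lam d k) (t) : co (-f) t = - co f t := by simp [co]
@[simp] lemma co_sub (f g : Lam d k) (t) : co (f - g) t = co f t - co g t := by simp [co]

@[simp] lemma cf_zero (t a) : cf (0 : Lam d k) t a = 0 := by simp [cf]
@[simp] lemma cf_add (f g : Lam d k) (t a) : cf (f + g) t a = cf f t a + cf g t a := by simp [cf]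
@[simp] lemma cf_neg (f : Lam d k) (t a) : cf (-f) t a = - cf f t a := by simp [cf]
@[simp] lemma cf_sub (f g : Lam d k) (t a) : cf (f - g) t a = cf f t a - cf g t a := by simp [cf]

/-- `cf` as an additive map. -/
noncomputable def cfHom (t : ℤ) (a : Fin d → ℤ) : Lam d k →+ k where
  toFun f := cf f t a
  map_zero' := cf_zero t a
  map_add' f g := cf_add f g t a

lemma cf_sum {ι : Type*} (s : Finset ι) (f : ι → Lam d k) (t a) :
    cf (∑ i ∈ s, f i) t a = ∑ i ∈ s, cf (f i) t a := map_sum (cfHom t a) f s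

@[simp] lemma cf_zsmul (n : ℤ) (f : Lam d k) (t a) : cf (n • f) t a = n • cf f t a :=
  map_zsmul (cfHom t a) n f

/-- Series with support in a given set of monomials. -/
def Sup (p : ℤ → (Fin d → ℤ) → Prop) : AddSubgroup (Lam d k) where
  carrier := {f | ∀ t a, cf f t a ≠ 0 → p t a}
  zero_mem' := by simp
  add_mem' := by
    intro f g hf hg t a h
    by_cases h1 : cf f t a = 0
    · exact hg t a (by simpa [h1] using h)
    · exact hf t a h1
  neg_mem' := by
    intro f hf t a h
    exact hf t a (by simpa using h)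

lemma mem_Sup {p : ℤ → (Fin d → ℤ) → Prop} {f : Lam d k} :
    f ∈ Sup p ↔ ∀ t a, cf f t a ≠ 0 → p t a := Iff.rfl

lemma Sup_mono {p q : ℤ → (Fin d → ℤ) → Prop} (h : ∀ t a, p t a → q t a) {f : Lam d k}
    (hf : f ∈ Sup p) : f ∈ Sup q := fun t a h' => h t a (hf t a h')

lemma mul_mem_Sup {p q r : ℤ → (Fin d → ℤ) → Prop}
    (h : ∀ t a t' a', p t a → q t' a' → r (t + t') (a + a')) {f g : Lam d k}
    (hf : f ∈ Sup p) (hg : g ∈ Sup q) : f * g ∈ Sup r := by
  classical
  intro t a hne
  unfold cf co at hne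
  rw [map_mul, HahnSeries.coeff_mul, AddMonoidAlgebra.coeff_sum, Finsupp.finsetSum_apply] at hne
  obtain ⟨⟨t₁, t₂⟩, hmem, hne'⟩ := Finset.exists_ne_zero_of_sum_ne_zero hne
  have ht : t₁ + t₂ = t := (Finset.mem_antidiagonal.mp hmem).2.2
  have := AddMonoidAlgebra.support_coeff_mul_subset ((toH f).coeff t₁) ((toH g).coeff t₂)
    (Finsupp.mem_support_iff.mpr hne')
  obtain ⟨a₁, h₁, a₂, h₂, ha⟩ := Finset.mem_add.mp this
  rw [← ht, ← ha]
  exact h _ _ _ _ (hf _ _ (Finsupp.mem_support_iff.mp h₁)) (hg _ _ (Finsupp.mem_support_iff.mp h₂))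

open Classical in
/-- Projection onto a set of monomials. -/
noncomputable def proj (p : ℤ → (Fin d → ℤ) → Prop) (f : Lam d k) : Lam d k := toH.symm
  { coeff t := AddMonoidAlgebra.ofCoeff (((toH f).coeff t).coeff.filter (p t))
    isPWO_support' := (toH f).isPWO_support.mono <| by
      intro t ht h
      apply ht
      simp [h, Finsupp.filter_zero] }

open Classical in
lemma cf_proj (p : ℤ → (Fin d → ℤ) → Prop) (f : Lam d k) (t a) :
    cf (proj p f) t a = if p t a then cf f t a else 0 := by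
  simp [cf, co, proj, Finsupp.filter_apply]

lemma cf_single (s : ℤ) (b : Fin d → ℤ) (c : k) (t a) :
    cf (sgl s (AddMonoidAlgebra.single b c) : Lam d k) t a =
      if t = s ∧ a = b then c else 0 := by
  classical
  unfold cf co
  rw [toH_sgl]
  by_cases ht : t = s
  · subst ht
    by_cases ha : a = b
    · subst ha; simp
    · simp [ha]
  · simp [HahnSeries.coeff_single_of_ne ht, ht]

/-- The monomial `w^s u^b`. -/
noncomputable def mon (s : ℤ) (b : Fin d → ℤ) : Lam d k :=
  sgl s (AddMonoidAlgebra.single b 1)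

lemma mon_mul (s s' : ℤ) (b b' : Fin d → ℤ) :
    (mon s b : Lam d k) * mon s' b' = mon (s + s') (b + b') := by
  simp [mon, sgl_mul_sgl, AddMonoidAlgebra.single_mul_single]

lemma mon_zero : (mon 0 0 : Lam d k) = 1 := rfl

lemma mon_mem {p : ℤ → (Fin d → ℤ) → Prop} {s : ℤ} {b : Fin d → ℤ} (h : p s b) :
    (mon s b : Lam d k) ∈ Sup p := by
  intro t a hne
  rw [mon, cf_single] at hne
  split_ifs at hne with h'
  · rw [h'.1, h'.2]; exact h
  · exact absurd rfl hne

/-- The subring attached to a submonoid of monomials. -/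
def SupRing (p : ℤ → (Fin d → ℤ) → Prop) (h0 : p 0 0)
    (h : ∀ t a t' a', p t a → p t' a' → p (t + t') (a + a')) : Subring (Lam d k) where
  carrier := (Sup p : AddSubgroup (Lam d k))
  mul_mem' := mul_mem_Sup h
  one_mem' := mon_mem h0
  add_mem' := fun h1 h2 => (Sup p).add_mem h1 h2
  zero_mem' := (Sup p).zero_mem
  neg_mem' := by intro x hx; exact (Sup p).neg_mem hx

lemma mem_SupRing {p : ℤ → (Fin d → ℤ) → Prop} {h0 : p 0 0}
    {h : ∀ t a t' a', p t a → p t' a' → p (t + t') (a + a')} {f : Lam d k} :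
    f ∈ SupRing p h0 h ↔ f ∈ Sup p := Iff.rfl

lemma single_mem {p : ℤ → (Fin d → ℤ) → Prop} {s : ℤ} {b : Fin d → ℤ} (h : p s b) (c : k) :
    (sgl s (AddMonoidAlgebra.single b c) : Lam d k) ∈ Sup p := by
  intro t a hne
  rw [cf_single] at hne
  split_ifs at hne with h'
  · rw [h'.1, h'.2]; exact h
  · exact absurd rfl hne

end Vale.Agent.P202
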