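import Vale.Agent.P202.LenC

/-! Job Len (see notes/P202.md): length estimates and multiplicity = rank. -/

open IsLocalRing

namespace Vale.Agent.P202

section general
variable {A : Type*} [CommRing A] [IsLocalRing A] [IsNoetherianRing A] {h : ℕ} (y : Fin h → A)
  (hy : maximalIdeal A = Ideal.span (Set.range y))
include hy

/-- L1 -/
theorem length_quot_pow_le (N : ℕ) :
    Module.length A (A ⧸ maximalIdeal A ^ (N + 1)) ≤ ((N + h).choose h : ℕ) := by
  exact length_quot_pow_leL y hy N

/-- L2 -/
theorem length_quot_span_sup_pow_le {γ : A} (hγ : γ ≠ 0) : ∃ C : ℕ, ∀ N : ℕ,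
    Module.length A (A ⧸ (Ideal.span {γ} ⊔ maximalIdeal A ^ (N + 1))) ≤
      (h * C * (N + 1) ^ (h - 1) : ℕ) := by
  exact length_quot_span_sup_pow_leL y hy hγ

/-- L3 -/
theorem length_rank_estimate [IsDomain A] (M : Type*) [AddCommGroup M] [Module A M]
    [Module.Finite A M] : ∃ C : ℕ, ∀ (I : Ideal A) (N : ℕ), maximalIdeal A ^ (N + 1) ≤ I →
      Module.length A (M ⧸ (I • ⊤ : Submodule A M)) ≤
        Module.finrank A M * Module.length A (A ⧸ I) + (h * C * (N + 1) ^ (h - 1) : ℕ) ∧
      Module.finrank A M * Module.length A (A ⧸ I) ≤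
        Module.length A (M ⧸ (I • ⊤ : Submodule A M)) + (h * C * (N + 1) ^ (h - 1) : ℕ) := by
  exact length_rank_estimateL y hy M
end general

/-- L4 -/
theorem length_PS_quot_pow (d : ℕ) (K : Type*) [Field K] (N : ℕ) :
    Module.length (PS d K) (PS d K ⧸ xI d K ^ (N + 1)) = ((N + d).choose d : ℕ) := by
  exact length_PS_quot_powL N

/-- L5 -/
theorem length_PS_quot_bracket (d : ℕ) (K : Type*) [Field K] (n : ℕ) :
    Module.length (PS d K)
      (PS d K ⧸ Ideal.span (Set.range fun i => (MvPowerSeries.X i : PS d K) ^ n)) =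
      (n ^ d : ℕ) := by
  exact length_PS_quot_bracketL n

/-- L6: lengths over a local algebra with the same residue field. -/
theorem length_eq_of_residue {K A : Type*} [Field K] [CommRing A] [IsLocalRing A] [Algebra K A]
    (hK : Function.Surjective (algebraMap K (ResidueField A)))
    (M : Type*) [AddCommGroup M] [Module A M] [Module K M] [IsScalarTower K A M] :
    Module.length A M = Module.length K M := by
  exact length_eq_of_residueL hK M

/-- L7: multiplicity equals rank over a Noether normalization by a reduction. -/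
theorem isMult_finrank {d : ℕ} {K A : Type*} [Field K] [CommRing A] [IsLocalRing A]
    [Algebra K A] [Algebra (PS d K) A] [IsScalarTower K (PS d K) A] [Module.Finite (PS d K) A]
    (hK : Function.Surjective (algebraMap K (ResidueField A)))
    (hred : IsRed ((xI d K).map (algebraMap (PS d K) A)) (maximalIdeal A)) :
    IsMult A d (Module.finrank (PS d K) A) := by
  haveI := isDomain_PSL d K
  obtain ⟨C, hC⟩ := length_rank_estimateL _ (maximalIdeal_PS d K) A
  obtain ⟨c, hc⟩ := hred.pow_le
  have key : ∀ N : ℕ, Module.length A (A ⧸ (xI d K).map (algebraMap (PS d K) A) ^ N) =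
      Module.length (PS d K) (A ⧸ (xI d K ^ N • ⊤ : Submodule (PS d K) A)) := fun N => by
    rw [Ideal.smul_top_eq_map, Ideal.map_pow,
      (Submodule.Quotient.restrictScalarsEquiv (PS d K) _).length_eq,
      length_eq_of_residueL hK, length_eq_of_residueL (residue_PS_surj (d := d) (K := K))]
  have hb := fun N => hC (xI d K ^ (N + 1)) N (by rw [maximalIdeal_PS])
  simp only [length_PS_quot_powL, ← key] at hb
  have hup : ∀ N, Module.length A (A ⧸ maximalIdeal A ^ (N + 1)) ≤
      (Module.finrank (PS d K) A * (N + d).choose d + d * C * (N + 1) ^ (d - 1) : ℕ) := fun N => by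
    refine (len_quot_anti (Ideal.pow_right_mono hred.1 _)).trans ((hb N).1.trans (le_of_eq ?_))
    rw [Nat.cast_add, Nat.cast_mul (Module.finrank _ _)]
  refine tendsto_of_hs_bounds (C := C) (c := c) (fun N => ENat.toNat_le_of_le_coe (hup N))
    fun N => ?_
  have h1 := (hb N).2.trans (add_le_add (len_quot_anti (hc (N + 1))) le_rfl)
  have h2 : Module.length A (A ⧸ maximalIdeal A ^ (N + 1 + c)) ≠ ⊤ := by
    rw [add_right_comm]
    exact ne_top_of_le_ne_top (ENat.coe_ne_top _) (hup (N + c))
  rw [← ENat.coe_toNat h2] at h1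
  rw [hs, ← add_assoc]
  exact_mod_cast h1

/-- L8: multiplicity of a localization. -/
theorem hs_localization_le {D : ℕ} {K S : Type*} [Field K] [CommRing S]
    [Algebra (PS D K) S] [Module.Finite (PS D K) S] (Q : Ideal S) [Q.IsPrime] {h : ℕ}
    (y : Fin h → Localization.AtPrime (Q.comap (algebraMap (PS D K) S)))
    (hy : maximalIdeal _ = Ideal.span (Set.range y)) {e : ℝ}
    (he : IsMult (Localization.AtPrime Q) h e) : e ≤ Module.finrank (PS D K) S := by
  haveI := isDomain_PSL D K
  set q := Q.comap (algebraMap (PS D K) S) with hq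
  have hnz : q.primeCompl ≤ nonZeroDivisors (PS D K) := q.primeCompl_le_nonZeroDivisors
  haveI : IsDomain (Localization.AtPrime q) := IsLocalization.isDomain_localization hnz
  obtain ⟨C, hC⟩ := length_rank_estimateL y hy (LocalizedModule q.primeCompl S)
  have hr : Module.finrank (Localization.AtPrime q) (LocalizedModule q.primeCompl S) =
      Module.finrank (PS D K) S := by
    rw [IsLocalization.finrank_eq _ q.primeCompl hnz,
      IsLocalizedModule.finrank_eq q.primeCompl (LocalizedModule.mkLinearMap q.primeCompl S) hnz]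
  let φ := Localization.localRingHom q Q (algebraMap (PS D K) S) rfl
  letI := φ.toAlgebra
  haveI : IsLocalHom φ := Localization.isLocalHom_localRingHom _ _ _ _
  haveI : IsScalarTower (PS D K) (Localization.AtPrime q) (Localization.AtPrime Q) :=
    IsScalarTower.of_algebraMap_eq fun x => by
      rw [IsScalarTower.algebraMap_apply (PS D K) S]
      exact (Localization.localRingHom_to_map q Q _ rfl x).symm
  have hun : ∀ x : q.primeCompl, IsUnit (algebraMap (PS D K)
      (Module.End (PS D K) (Localization.AtPrime Q)) x) := fun x => by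
    rw [Module.End.isUnit_iff]
    have hu : IsUnit (algebraMap (PS D K) (Localization.AtPrime Q) x) := by
      rw [IsScalarTower.algebraMap_apply (PS D K) S]
      exact IsLocalization.map_units (Localization.AtPrime Q)
        (⟨algebraMap (PS D K) S x, x.2⟩ : Q.primeCompl)
    convert hu.smul_bijective (β := Localization.AtPrime Q) using 1
    funext z
    simp [Algebra.smul_def]
  let g0 : LocalizedModule q.primeCompl S →ₗ[PS D K] Localization.AtPrime Q :=
    IsLocalizedModule.lift q.primeCompl (LocalizedModule.mkLinearMap q.primeCompl S)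
      (IsScalarTower.toAlgHom (PS D K) S (Localization.AtPrime Q)).toLinearMap hun
  let g := g0.extendScalarsOfIsLocalization q.primeCompl (Localization.AtPrime q)
  have hg : ∀ s : S, g (LocalizedModule.mkLinearMap q.primeCompl S s) =
      algebraMap S (Localization.AtPrime Q) s := fun s =>
    IsLocalizedModule.lift_apply q.primeCompl _ _ hun s
  let Φ : Ideal (Localization.AtPrime Q) →
      Submodule (Localization.AtPrime q) (LocalizedModule q.primeCompl S) := fun J =>
    (J.restrictScalars (Localization.AtPrime q)).comap g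
  have hΦ : StrictMono Φ := fun J J' hJ => by
    refine lt_of_le_of_ne (fun z hz => hJ.le hz) fun heq => hJ.not_ge fun z hz => ?_
    obtain ⟨s, t, rfl⟩ := IsLocalization.exists_mk'_eq Q.primeCompl z
    rw [IsLocalization.mk'_mem_iff, ← hg] at hz ⊢
    have : LocalizedModule.mkLinearMap q.primeCompl S s ∈ Φ J' := hz
    rwa [← heq] at this
  refine le_of_hs_le (C := C) he fun N => ENat.toNat_le_of_le_coe ?_
  have h1 := (hC _ N le_rfl).1.trans (add_le_add
    (mul_le_mul_right (length_quot_pow_leL y hy N) _) le_rfl)
  rw [hr, ← Nat.cast_mul, ← Nat.cast_add] at h1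
  refine le_trans ?_ h1
  rw [Module.length_quotient]
  refine (Order.coheight_le_coheight_apply_of_strictMono Φ hΦ _).trans ?_
  rw [← Module.length_quotient]
  refine len_quot_anti (Submodule.smul_le.mpr fun a ha z _ => ?_)
  show g (a • z) ∈ maximalIdeal (Localization.AtPrime Q) ^ (N + 1)
  rw [map_smul, Algebra.smul_def]
  refine Ideal.mul_mem_right _ _ (Ideal.pow_right_mono (IsLocalRing.map_maximalIdeal_le φ) _ ?_)
  rw [← Ideal.map_pow]
  exact Ideal.mem_map_of_mem _ ha

/-- L9: the growth exponent is unique. -/
theorem IsMult.dim_unique {A B : Type*} [CommRing A] [IsLocalRing A] [CommRing B] [IsLocalRing B]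
    (hAB : hs A = hs B) {d d' : ℕ} {e e' : ℝ} (h : IsMult A d e) (h' : IsMult B d' e')
    (he : 0 < e) (he' : 0 < e') : d = d' ∧ e = e' := by
  unfold IsMult at h h'
  rw [hAB] at h
  have hd : d = d' := by
    rcases lt_trichotomy d d' with hd | hd | hd
    · exact absurd (dim_unique_aux h h' hd) he'.ne'
    · exact hd
    · exact absurd (dim_unique_aux h' h hd) he.ne'
  subst hd
  exact ⟨rfl, tendsto_nhds_unique h h'⟩

/-- L10: bracket powers. For a finite module `M` over the power series ring,
`rank M * n^d ≤ length (M / (X_1^n, ..., X_d^n) M)`. -/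
theorem finrank_mul_le_length_bracket {d : ℕ} {K : Type*} [Field K] (M : Type*) [AddCommGroup M]
    [Module (PS d K) M] [Module.Finite (PS d K) M] (n : ℕ) :
    ((Module.finrank (PS d K) M * n ^ d : ℕ) : ℕ∞) ≤ Module.length (PS d K)
      (M ⧸ ((Ideal.span (Set.range fun i => (MvPowerSeries.X i : PS d K) ^ n)) • ⊤ :
        Submodule (PS d K) M)) := by
  exact finrank_mul_le_length_bracketL M n

/-- L11: asymptotic converse of L10. -/
theorem le_finrank_of_bracket {d : ℕ} {K : Type*} [Field K] (M : Type*) [AddCommGroup M]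
    [Module (PS d K) M] [Module.Finite (PS d K) M] (e : ℕ)
    (h : ∀ n : ℕ, 1 ≤ n → ((e * n ^ d : ℕ) : ℕ∞) ≤ Module.length (PS d K)
      (M ⧸ ((Ideal.span (Set.range fun i => (MvPowerSeries.X i : PS d K) ^ n)) • ⊤ :
        Submodule (PS d K) M))) : e ≤ Module.finrank (PS d K) M := by
  exact le_finrank_of_bracketL M e h

end Vale.Agent.P202
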