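import Vale.Agent.P202.Basic

/-! Length estimates: general tools and monomial filtrations. -/

open IsLocalRing Finset

namespace Vale.Agent.P202

section tools
variable {A : Type*} [CommRing A] {M P Q : Type*} [AddCommGroup M] [Module A M]
  [AddCommGroup P] [Module A P] [AddCommGroup Q] [Module A Q]

theorem len_le_add (f : P →ₗ[A] M) (g : M →ₗ[A] Q) (h : LinearMap.ker g ≤ LinearMap.range f) :
    Module.length A M ≤ Module.length A P + Module.length A Q := by
  rw [Module.length_eq_add_of_exact (LinearMap.ker g).subtype g.rangeRestrict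
    (Submodule.subtype_injective _) g.surjective_rangeRestrict (by
      rw [LinearMap.exact_iff, LinearMap.ker_rangeRestrict, Submodule.range_subtype])]
  refine add_le_add ?_ (Module.length_le_of_injective _ (Submodule.subtype_injective _))
  exact (Module.length_le_of_injective _ (Submodule.inclusion_injective h)).trans
    (Module.length_le_of_surjective _ f.surjective_rangeRestrict)

theorem len_quot_anti {N N' : Submodule A M} (h : N ≤ N') :
    Module.length A (M ⧸ N') ≤ Module.length A (M ⧸ N) :=
  Module.length_le_of_surjective (Submodule.factor h) (Submodule.factor_surjective h)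

theorem len_quot_step (N : Submodule A M) (x : M) (J : Ideal A) (hJ : ∀ a ∈ J, a • x ∈ N) :
    Module.length A (M ⧸ N) ≤
      Module.length A (A ⧸ J) + Module.length A (M ⧸ (N ⊔ Submodule.span A {x})) := by
  refine len_le_add (J.liftQ (N.mkQ ∘ₗ LinearMap.toSpanSingleton A M x) fun a ha => ?_)
    (Submodule.factor le_sup_left) fun z hz => ?_
  · rw [LinearMap.mem_ker, LinearMap.comp_apply, LinearMap.toSpanSingleton_apply,
      Submodule.mkQ_apply, Submodule.Quotient.mk_eq_zero]
    exact hJ a ha
  · obtain ⟨z, rfl⟩ := N.mkQ_surjective z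
    rw [LinearMap.mem_ker, Submodule.factor_mk, Submodule.mkQ_apply,
      Submodule.Quotient.mk_eq_zero, Submodule.mem_sup] at hz
    obtain ⟨n, hn, w, hw, rfl⟩ := hz
    obtain ⟨a, rfl⟩ := Submodule.mem_span_singleton.mp hw
    refine ⟨Submodule.Quotient.mk a, ?_⟩
    rw [Submodule.liftQ_apply]
    simp [(Submodule.Quotient.mk_eq_zero N).mpr hn]

theorem len_quot_finset {ι : Type*} (N : Submodule A M) (x : ι → M) (J : Ideal A) (s : Finset ι)
    (hJ : ∀ i ∈ s, ∀ a ∈ J, a • x i ∈ N) :
    Module.length A (M ⧸ N) ≤ s.card * Module.length A (A ⧸ J) +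
      Module.length A (M ⧸ (N ⊔ Submodule.span A (x '' s))) := by
  classical
  induction s using Finset.induction_on with
  | empty => simpa using len_quot_anti (by simp)
  | insert i s hi ih =>
    refine (ih fun j hj => hJ j (mem_insert_of_mem hj)).trans ?_
    have h1 := len_quot_step (N ⊔ Submodule.span A (x '' s)) (x i) J fun a ha =>
      Submodule.mem_sup_left (hJ i (mem_insert_self _ _) a ha)
    have h2 : N ⊔ Submodule.span A (x '' ↑(insert i s)) ≤
        N ⊔ Submodule.span A (x '' s) ⊔ Submodule.span A {x i} := by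
      rw [coe_insert, Set.image_insert_eq, Submodule.span_insert, sup_assoc, sup_comm
        (Submodule.span A (x '' s))]
    rw [card_insert_of_notMem hi, Nat.cast_add, add_mul, Nat.cast_one, one_mul, add_assoc]
    exact add_le_add le_rfl (h1.trans (add_le_add le_rfl (len_quot_anti h2)))

end tools

section mono
variable {A : Type*} [CommRing A] {h : ℕ} (y : Fin h → A)

/-- Monomials in `y`. -/
def monL (ν : Fin h →₀ ℕ) : A := ∏ i, y i ^ ν i

theorem monL_add (ν κ : Fin h →₀ ℕ) : monL y (ν + κ) = monL y ν * monL y κ := by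
  simp [monL, pow_add, prod_mul_distrib]

theorem monL_single (i : Fin h) : monL y (Finsupp.single i 1) = y i := by
  rw [monL, prod_eq_single i] <;> simp +contextual [Finsupp.single_apply, eq_comm]

/-- Exponents of degree `j`. -/
noncomputable def degL (h j : ℕ) : Finset (Fin h →₀ ℕ) := finsuppAntidiag univ j

theorem mem_degL {j : ℕ} {ν : Fin h →₀ ℕ} : ν ∈ degL h j ↔ ∑ i, ν i = j := by simp [degL]

theorem card_degL (h j : ℕ) : (degL h j).card = h.multichoose j := by
  simp [degL, card_finsuppAntidiag_nat_eq_multichoose]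

theorem sum_card_degL (h N : ℕ) : ∑ j ∈ range (N + 1), (degL h j).card = (N + h).choose h := by
  have : ∑ j ∈ range (N + 1), (degL h j).card = (h + 1).multichoose N := by
    induction N with
    | zero => simp [card_degL]
    | succ N ih => rw [sum_range_succ, ih, card_degL, Nat.multichoose_succ_succ, add_comm]
  rw [this, Nat.multichoose_eq, show h + 1 + N - 1 = N + h by omega, Nat.choose_symm_add]

theorem monL_mem (ν : Fin h →₀ ℕ) : monL y ν ∈ Ideal.span (Set.range y) ^ (∑ i, ν i) := by
  rw [← prod_pow_eq_pow_sum]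
  exact Ideal.prod_mem_prod fun i _ =>
    Ideal.pow_mem_pow (Ideal.subset_span (Set.mem_range_self i)) _

theorem pow_le_span_monL (j : ℕ) :
    Ideal.span (Set.range y) ^ j ≤ Ideal.span (monL y '' degL h j) := by
  induction j with
  | zero =>
    rw [pow_zero, Ideal.one_eq_top, top_le_iff, Ideal.eq_top_iff_one]
    exact Ideal.subset_span ⟨0, by simp [mem_degL], by simp [monL]⟩
  | succ j ih =>
    rw [pow_succ]
    refine (Ideal.mul_mono_left ih).trans ?_
    rw [Ideal.span_mul_span']
    refine Ideal.span_mono ?_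
    rintro _ ⟨_, ⟨ν, hν, rfl⟩, _, ⟨i, rfl⟩, rfl⟩
    refine ⟨ν + Finsupp.single i 1, ?_, by rw [monL_add, monL_single]⟩
    rw [mem_coe, mem_degL] at hν ⊢
    simp [sum_add_distrib, hν, Finsupp.single_apply]

variable [IsLocalRing A] (hy : maximalIdeal A = Ideal.span (Set.range y))
include hy

theorem len_filtration (I : Ideal A) (T : ℕ → Finset (Fin h →₀ ℕ)) (hT : ∀ j, T j ⊆ degL h j)
    (hle : ∀ j, maximalIdeal A ^ j ≤ I ⊔ maximalIdeal A ^ (j + 1) ⊔ Ideal.span (monL y '' T j))
    (N : ℕ) : Module.length A (A ⧸ (I ⊔ maximalIdeal A ^ N)) ≤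
      (∑ j ∈ range N, (T j).card : ℕ) := by
  induction N with
  | zero =>
    have : Subsingleton (A ⧸ (I ⊔ maximalIdeal A ^ 0)) := by
      rw [Ideal.Quotient.subsingleton_iff]; simp
    simp
  | succ N ih =>
    have h1 := len_quot_finset (I ⊔ maximalIdeal A ^ (N + 1)) (monL y) (maximalIdeal A) (T N)
      fun ν hν a ha => by
        refine Submodule.mem_sup_right ?_
        rw [pow_succ']
        refine Ideal.mul_mem_mul ha ?_
        have := monL_mem y ν
        rwa [mem_degL.mp (hT N hν), ← hy] at this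
    have h2 : Module.length A (A ⧸ maximalIdeal A) = 1 :=
      Module.length_eq_one_iff.mpr (isSimpleModule_iff_isCoatom.mpr
        (Ideal.isMaximal_def.mp inferInstance))
    rw [h2, mul_one] at h1
    rw [sum_range_succ, Nat.cast_add, add_comm (_ : ℕ∞)]
    refine h1.trans (add_le_add le_rfl (le_trans (len_quot_anti ?_) ih))
    exact sup_le (le_sup_of_le_left le_sup_left) (hle N)

theorem length_quot_pow_leL (N : ℕ) :
    Module.length A (A ⧸ maximalIdeal A ^ (N + 1)) ≤ ((N + h).choose h : ℕ) := by
  have := len_filtration y hy ⊥ (degL h) (fun _ => subset_rfl)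
    (fun j => le_sup_of_le_right (hy ▸ pow_le_span_monL y j)) (N + 1)
  rwa [bot_sup_eq, sum_card_degL] at this

end mono

theorem card_not_leL {h s : ℕ} (μ : Fin h →₀ ℕ) (hμ : ∀ i, μ i ≤ s) (N : ℕ) :
    ∑ j ∈ range (N + 1), ((degL h j).filter fun ν => ¬μ ≤ ν).card ≤
      h * s * (N + 1) ^ (h - 1) := by
  classical
  rw [← card_biUnion]
  · calc _ ≤ (univ.biUnion fun i : Fin h => Fintype.piFinset fun l : Fin h =>
            if l = i then range s else range (N + 1)).card := by
          refine card_le_card_of_injOn (fun ν => ⇑ν) (fun ν hν => ?_)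
            fun _ _ _ _ h => DFunLike.coe_injective h
          simp only [coe_biUnion, mem_coe, Set.mem_iUnion, mem_filter, mem_degL, mem_range,
            Finsupp.le_def, not_forall, not_le] at hν
          obtain ⟨j, hj, hs, i, hi⟩ := hν
          simp only [coe_biUnion, mem_coe, Set.mem_iUnion, Fintype.mem_piFinset]
          refine ⟨i, mem_univ _, fun l => ?_⟩
          split_ifs with hl
          · subst hl; exact mem_range.mpr (hi.trans_le (hμ l))
          · have := single_le_sum (f := fun i => ν i) (fun _ _ => Nat.zero_le _) (mem_univ l)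
            exact mem_range.mpr (by omega)
      _ ≤ ∑ i : Fin h, s * (N + 1) ^ (h - 1) := by
          refine card_biUnion_le.trans (sum_le_sum fun i _ => le_of_eq ?_)
          rw [Fintype.card_piFinset, ← mul_prod_erase _ _ (mem_univ i), if_pos rfl, card_range,
            prod_congr rfl fun l hl => by rw [if_neg (ne_of_mem_erase hl), card_range],
            prod_const, card_erase_of_mem (mem_univ i), card_univ, Fintype.card_fin]
      _ = _ := by simp [mul_assoc]
  · intro i _ j _ hij
    refine disjoint_left.mpr fun ν h1 h2 => hij ?_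
    rw [← mem_degL.mp (mem_filter.mp h1).1, ← mem_degL.mp (mem_filter.mp h2).1]

theorem length_quot_span_sup_pow_leL {A : Type*} [CommRing A] [IsLocalRing A] [IsNoetherianRing A]
    {h : ℕ} (y : Fin h → A) (hy : maximalIdeal A = Ideal.span (Set.range y)) {γ : A}
    (hγ : γ ≠ 0) : ∃ C : ℕ, ∀ N : ℕ,
    Module.length A (A ⧸ (Ideal.span {γ} ⊔ maximalIdeal A ^ (N + 1))) ≤
      (h * C * (N + 1) ^ (h - 1) : ℕ) := by
  classical
  have hex : ∃ n, γ ∉ maximalIdeal A ^ n := by
    by_contra hc
    push Not at hc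
    apply hγ
    rw [← Ideal.mem_bot, ← Ideal.iInf_pow_eq_bot_of_isLocalRing (maximalIdeal A)
      (maximalIdeal.isMaximal A).ne_top, Ideal.mem_iInf]
    exact hc
  obtain ⟨s, hs⟩ : ∃ s, Nat.find hex = s + 1 :=
    Nat.exists_eq_succ_of_ne_zero fun h0 => by simpa [h0] using Nat.find_spec hex
  have hs1 : γ ∉ maximalIdeal A ^ (s + 1) := hs ▸ Nat.find_spec hex
  have hs0 : γ ∈ maximalIdeal A ^ s := not_not.mp (Nat.find_min hex (by omega))
  obtain ⟨c, hc⟩ := (Submodule.mem_span_image_finset_iff_exists_fun' A).mp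
    (pow_le_span_monL y s (hy ▸ hs0))
  have hmem : ∀ ν : Fin h →₀ ℕ, monL y ν ∈ maximalIdeal A ^ (∑ i, ν i) := fun ν =>
    hy ▸ monL_mem y ν
  have hne : ((degL h s).filter fun ν => c ν ∉ maximalIdeal A).Nonempty := by
    by_contra hcon
    apply hs1
    rw [← hc, pow_succ']
    refine Ideal.sum_mem _ fun ν hν => Ideal.mul_mem_mul ?_ (mem_degL.mp hν ▸ hmem ν)
    by_contra hh
    exact hcon ⟨ν, mem_filter.mpr ⟨hν, hh⟩⟩
  let o : MonomialOrder (Fin h) := MonomialOrder.lex
  obtain ⟨μ, hμ, hmax⟩ := exists_max_image _ (fun ν => o.toSyn ν) hne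
  obtain ⟨hμs, hμu⟩ := mem_filter.mp hμ
  have hu : IsUnit (c μ) := by simpa using hμu
  refine ⟨s, fun N => le_trans (len_filtration y hy (Ideal.span {γ})
    (fun j => (degL h j).filter fun ν => ¬μ ≤ ν) (fun j => filter_subset _ _) (fun j => ?_)
    (N + 1)) ?_⟩
  · set J := Ideal.span {γ} ⊔ maximalIdeal A ^ (j + 1) ⊔
      Ideal.span (monL y '' ↑((degL h j).filter fun ν => ¬μ ≤ ν)) with hJ
    have key : ∀ t : o.syn, ∀ ν ∈ degL h j, o.toSyn ν = t → monL y ν ∈ J := by
      intro t
      induction t using WellFoundedLT.induction with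
      | _ t ih =>
      intro ν hν ht
      by_cases hle : μ ≤ ν
      swap
      · exact Submodule.mem_sup_right (Ideal.subset_span ⟨ν, mem_filter.mpr ⟨hν, hle⟩, rfl⟩)
      obtain ⟨κ, rfl⟩ := exists_add_of_le hle
      have hdeg : ∀ ν' ∈ degL h s, ∑ i, (ν' + κ) i = j := fun ν' hν' => by
        have h1 := mem_degL.mp hν
        simp only [Finsupp.add_apply, sum_add_distrib, mem_degL.mp hν', mem_degL.mp hμs] at h1 ⊢
        exact h1
      rw [← Ideal.unit_mul_mem_iff_mem _ hu]
      have e : c μ * monL y (μ + κ) =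
          monL y κ * γ - ∑ ν' ∈ (degL h s).erase μ, c ν' * monL y (ν' + κ) := by
        rw [← hc, ← add_sum_erase _ _ hμs, mul_add, mul_sum]
        simp only [monL_add, smul_eq_mul]
        rw [sum_congr rfl fun ν' _ => show monL y κ * (c ν' * monL y ν') =
          c ν' * (monL y ν' * monL y κ) by ring]
        ring
      rw [e]
      refine J.sub_mem (Submodule.mem_sup_left (Submodule.mem_sup_left
        (Ideal.mul_mem_left _ _ (Ideal.mem_span_singleton_self γ)))) (J.sum_mem fun ν' hν' => ?_)
      have hν's := mem_of_mem_erase hν'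
      by_cases hcm : c ν' ∈ maximalIdeal A
      · refine Submodule.mem_sup_left (Submodule.mem_sup_right ?_)
        rw [pow_succ']
        exact Ideal.mul_mem_mul hcm (hdeg ν' hν's ▸ hmem _)
      · refine J.mul_mem_left _ (ih _ ?_ _ (mem_degL.mpr (hdeg ν' hν's)) rfl)
        rw [← ht, map_add, map_add]
        refine add_lt_add_of_lt_of_le (lt_of_le_of_ne (hmax ν' (mem_filter.mpr ⟨hν's, hcm⟩))
          fun heq => ne_of_mem_erase hν' (o.toSyn.injective heq)) le_rfl
    refine (hy ▸ pow_le_span_monL y j : maximalIdeal A ^ j ≤ _).trans (Ideal.span_le.mpr ?_)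
    rintro _ ⟨ν, hν, rfl⟩
    exact key _ ν hν rfl
  · exact_mod_cast card_not_leL μ (fun i => by
      have := single_le_sum (f := fun i => μ i) (fun _ _ => Nat.zero_le _) (mem_univ i)
      rwa [mem_degL.mp hμs] at this) N

end Vale.Agent.P202
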