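import Vale.Agent.P202.LenA

/-! Length estimates: rank comparison and monomial ideals of power series rings. -/

open IsLocalRing Finset

namespace Vale.Agent.P202

section cmp
variable {A : Type*} [CommRing A] {M P : Type*} [AddCommGroup M] [Module A M]
  [AddCommGroup P] [Module A P]

theorem len_cmp (f : P →ₗ[A] M) (γ : A) (hf : ∀ x, γ • x ∈ LinearMap.range f) (s : Finset M)
    (hs : Submodule.span A (s : Set M) = ⊤) (I : Ideal A) :
    Module.length A (M ⧸ (I • ⊤ : Submodule A M)) ≤ Module.length A (P ⧸ (I • ⊤ : Submodule A P)) +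
      s.card * Module.length A (A ⧸ (Ideal.span {γ} ⊔ I)) := by
  have h1 := len_quot_finset ((I • ⊤ : Submodule A M) ⊔ LinearMap.range f) id
    (Ideal.span {γ} ⊔ I) s fun x _ a ha => by
      obtain ⟨b, hb, c, hc, rfl⟩ := Submodule.mem_sup.mp ha
      obtain ⟨b, rfl⟩ := Ideal.mem_span_singleton'.mp hb
      rw [add_smul, mul_smul]
      exact Submodule.add_mem _ (Submodule.mem_sup_right (Submodule.smul_mem _ _ (hf _)))
        (Submodule.mem_sup_left (Submodule.smul_mem_smul hc Submodule.mem_top))
  have h2 : Subsingleton (M ⧸ ((I • ⊤ : Submodule A M) ⊔ LinearMap.range f ⊔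
      Submodule.span A (id '' (s : Set M)))) := by
    rw [Submodule.Quotient.subsingleton_iff, Set.image_id, hs, sup_top_eq]
  rw [Module.length_eq_zero (M := M ⧸ (_ ⊔ Submodule.span A (id '' (s : Set M)))), add_zero] at h1
  refine (len_le_add (Submodule.mapQ (I • ⊤ : Submodule A P) (I • ⊤ : Submodule A M) f ?_)
    (Submodule.factor (le_sup_left (b := LinearMap.range f))) fun z hz => ?_).trans
    (add_le_add le_rfl h1)
  · rw [← Submodule.map_le_iff_le_comap, Submodule.map_smul'']
    exact Submodule.smul_mono le_rfl le_top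
  · obtain ⟨z, rfl⟩ := Submodule.mkQ_surjective _ z
    rw [LinearMap.mem_ker, Submodule.factor_mk, Submodule.mkQ_apply,
      Submodule.Quotient.mk_eq_zero, Submodule.mem_sup] at hz
    obtain ⟨n, hn, _, ⟨w, rfl⟩, rfl⟩ := hz
    refine ⟨Submodule.Quotient.mk w, ?_⟩
    simp [(Submodule.Quotient.mk_eq_zero _).mpr hn]

theorem len_free (r : ℕ) (I : Ideal A) :
    Module.length A ((Fin r → A) ⧸ (I • ⊤ : Submodule A (Fin r → A))) =
      r * Module.length A (A ⧸ I) := by
  classical
  apply le_antisymm
  · have h1 := len_quot_finset (I • ⊤ : Submodule A (Fin r → A)) (fun i => Pi.single i (1 : A)) I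
      univ fun i _ a ha => Submodule.smul_mem_smul ha Submodule.mem_top
    have h2 : Subsingleton ((Fin r → A) ⧸ ((I • ⊤ : Submodule A (Fin r → A)) ⊔
        Submodule.span A ((fun i => Pi.single i (1 : A)) '' (univ : Finset (Fin r))))) := by
      rw [Submodule.Quotient.subsingleton_iff, coe_univ, Set.image_univ]
      have := (Pi.basisFun A (Fin r)).span_eq
      simp only [funext (Pi.basisFun_apply A (Fin r))] at this
      rw [this, sup_top_eq]
    rw [Module.length_eq_zero (M := (Fin r → A) ⧸ (_ ⊔ Submodule.span A _)), add_zero] at h1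
    simpa using h1
  · have h1 := Module.length_le_of_surjective
      (Submodule.liftQ (I • ⊤ : Submodule A (Fin r → A)) (LinearMap.compLeft I.mkQ (Fin r)) (by
        refine Submodule.smul_le.mpr fun a ha x _ => ?_
        rw [LinearMap.mem_ker]
        funext i
        exact (Submodule.Quotient.mk_eq_zero _).mpr (I.mul_mem_right _ ha))) (fun z => by
        choose w hw using fun i => I.mkQ_surjective (z i)
        exact ⟨Submodule.Quotient.mk w, funext hw⟩)
    simpa using h1

theorem exists_cmp [IsDomain A] [Module.Finite A M] :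
    ∃ (γ : A) (f : (Fin (Module.finrank A M) → A) →ₗ[A] M)
      (g : M →ₗ[A] (Fin (Module.finrank A M) → A)), γ ≠ 0 ∧
      (∀ x, γ • x ∈ LinearMap.range f) ∧ ∀ x, γ • x ∈ LinearMap.range g := by
  obtain ⟨v, hv⟩ := exists_linearIndependent_of_le_finrank (R := A) (M := M) le_rfl
  let f := Fintype.linearCombination A v
  have hf : Function.Injective f := hv.fintypeLinearCombination_injective
  have h1 : Module.finrank A (M ⧸ LinearMap.range f) = 0 := by
    have := Submodule.finrank_quotient_add_finrank (LinearMap.range f)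
    rw [LinearMap.finrank_range_of_inj hf, Module.finrank_fin_fun] at this
    omega
  have h2 : Module.IsTorsion A (M ⧸ LinearMap.range f) := fun x => by
    obtain ⟨a, ha, hx⟩ := Module.finrank_eq_zero_iff.mp h1 x
    exact ⟨⟨a, mem_nonZeroDivisors_of_ne_zero ha⟩, hx⟩
  obtain ⟨γ, hγ, hγ0⟩ := Submodule.annihilator_top_inter_nonZeroDivisors h2
  have h3 : ∀ x, γ • x ∈ LinearMap.range f := fun x => by
    rw [← Submodule.Quotient.mk_eq_zero, Submodule.Quotient.mk_smul]
    exact Submodule.mem_annihilator.mp hγ _ Submodule.mem_top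
  refine ⟨γ, f, (LinearEquiv.ofInjective f hf).symm.toLinearMap ∘ₗ
    LinearMap.codRestrict (LinearMap.range f) (γ • LinearMap.id) h3,
    nonZeroDivisors.ne_zero hγ0, h3, fun x => ⟨f x, ?_⟩⟩
  rw [LinearMap.comp_apply, LinearEquiv.coe_coe, LinearEquiv.symm_apply_eq]
  ext
  simp

end cmp

theorem length_rank_estimateL {A : Type*} [CommRing A] [IsLocalRing A] [IsNoetherianRing A]
    {h : ℕ} (y : Fin h → A) (hy : maximalIdeal A = Ideal.span (Set.range y))
    [IsDomain A] (M : Type*) [AddCommGroup M] [Module A M]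
    [Module.Finite A M] : ∃ C : ℕ, ∀ (I : Ideal A) (N : ℕ), maximalIdeal A ^ (N + 1) ≤ I →
      Module.length A (M ⧸ (I • ⊤ : Submodule A M)) ≤
        Module.finrank A M * Module.length A (A ⧸ I) + (h * C * (N + 1) ^ (h - 1) : ℕ) ∧
      Module.finrank A M * Module.length A (A ⧸ I) ≤
        Module.length A (M ⧸ (I • ⊤ : Submodule A M)) + (h * C * (N + 1) ^ (h - 1) : ℕ) := by
  obtain ⟨γ, f, g, hγ, hf, hg⟩ := exists_cmp (A := A) (M := M)
  obtain ⟨C, hC⟩ := length_quot_span_sup_pow_leL y hy hγ
  obtain ⟨s, hs⟩ := (Module.Finite.fg_top : (⊤ : Submodule A M).FG)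
  obtain ⟨t, ht⟩ := (Module.Finite.fg_top : (⊤ : Submodule A (Fin (Module.finrank A M) → A)).FG)
  refine ⟨(s.card + t.card) * C, fun I N hI => ?_⟩
  have h1 : Module.length A (A ⧸ (Ideal.span {γ} ⊔ I)) ≤ (h * C * (N + 1) ^ (h - 1) : ℕ) :=
    (len_quot_anti (sup_le_sup_left hI _)).trans (hC N)
  have h2 : ∀ k : ℕ, k ≤ s.card + t.card → (k : ℕ∞) * Module.length A (A ⧸ (Ideal.span {γ} ⊔ I)) ≤
      (h * ((s.card + t.card) * C) * (N + 1) ^ (h - 1) : ℕ) := fun k hk => by
    refine (mul_le_mul_right h1 _).trans ?_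
    rw [← Nat.cast_mul, Nat.cast_le]
    calc _ ≤ (s.card + t.card) * (h * C * (N + 1) ^ (h - 1)) := Nat.mul_le_mul_right _ hk
      _ = _ := by ring
  rw [← len_free]
  exact ⟨(len_cmp f γ hf s hs I).trans (add_le_add le_rfl (h2 _ (by omega))),
    (len_cmp g γ hg t ht I).trans (add_le_add le_rfl (h2 _ (by omega)))⟩

theorem length_eq_of_residueL {K A : Type*} [Field K] [CommRing A] [IsLocalRing A] [Algebra K A]
    (hK : Function.Surjective (algebraMap K (ResidueField A)))
    (M : Type*) [AddCommGroup M] [Module A M] [Module K M] [IsScalarTower K A M] :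
    Module.length A M = Module.length K M := by
  rw [IsLocalRing.length_restrictScalars K A M,
    Module.length_eq_of_surjective (S := ResidueField K) (R := ResidueField A)
      (M := ResidueField A), Module.length_eq_one (ResidueField A) (ResidueField A), mul_one]
  intro z
  obtain ⟨k, rfl⟩ := hK z
  exact ⟨residue K k, rfl⟩

section ps
variable {d : ℕ} {K : Type*} [Field K]

theorem residue_PS_surj : Function.Surjective (algebraMap K (ResidueField (PS d K))) := by
  intro z
  obtain ⟨f, rfl⟩ := residue_surjective z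
  refine ⟨MvPowerSeries.constantCoeff f, ?_⟩
  rw [IsScalarTower.algebraMap_apply K (PS d K), ResidueField.algebraMap_eq, ← sub_eq_zero,
    ← map_sub, residue_eq_zero_iff, maximalIdeal_PS, mem_xI_iff]
  simp [MvPowerSeries.algebraMap_apply]

theorem len_monomial_ideal (J : Ideal (PS d K)) (T : Finset (Fin d →₀ ℕ))
    (h : ∀ f, f ∈ J ↔ ∀ m ∈ T, MvPowerSeries.coeff m f = 0) :
    Module.length (PS d K) (PS d K ⧸ J) = T.card := by
  classical
  let φ : PS d K →ₗ[K] (T → K) := LinearMap.pi fun m => MvPowerSeries.coeff m.1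
  have hφ : Function.Surjective φ := fun z =>
    ⟨fun m => if hm : m ∈ T then z ⟨m, hm⟩ else 0, funext fun m => dif_pos m.2⟩
  have hk : J.restrictScalars K = LinearMap.ker φ := by
    ext f
    simp [h, φ, funext_iff]
  rw [length_eq_of_residueL residue_PS_surj,
    ← (Submodule.Quotient.restrictScalarsEquiv K J).length_eq,
    (Submodule.quotEquivOfEq _ _ hk).length_eq, (φ.quotKerEquivOfSurjective hφ).length_eq]
  simp

theorem length_PS_quot_powL (N : ℕ) :
    Module.length (PS d K) (PS d K ⧸ xI d K ^ (N + 1)) = ((N + d).choose d : ℕ) := by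
  classical
  rw [len_monomial_ideal _ ((range (N + 1)).biUnion (degL d)), card_biUnion, sum_card_degL]
  · intro i _ j _ hij
    exact disjoint_left.mpr fun ν h1 h2 => hij (by rw [← mem_degL.mp h1, ← mem_degL.mp h2])
  · intro f
    simp only [mem_xI_pow_iff, mem_biUnion, mem_range, mem_degL, exists_eq_right',
      Finsupp.degree_eq_sum]

theorem mem_bracket_aux (n : ℕ) (s : Finset (Fin d)) : ∀ f : PS d K,
    (∀ m : Fin d →₀ ℕ, (∀ i ∈ s, m i < n) → MvPowerSeries.coeff m f = 0) →
      f ∈ Ideal.span (Set.range fun i => (MvPowerSeries.X i : PS d K) ^ n) := by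
  classical
  induction s using Finset.induction_on with
  | empty =>
    intro f hf
    have : f = 0 := MvPowerSeries.ext fun m => hf m (by simp)
    simp [this]
  | insert i s _ ih =>
    intro f hf
    let r : PS d K := fun m => if m i < n then MvPowerSeries.coeff m f else 0
    have hr : ∀ m, MvPowerSeries.coeff m r = if m i < n then MvPowerSeries.coeff m f else 0 :=
      fun _ => rfl
    rw [← sub_add_cancel f r]
    refine Ideal.add_mem _ (Ideal.mem_of_dvd _ (MvPowerSeries.X_pow_dvd_iff.mpr fun m hm => ?_)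
      (Ideal.subset_span (Set.mem_range_self i))) (ih r fun m hm => ?_)
    · rw [map_sub, hr, if_pos hm, sub_self]
    · rw [hr]
      split_ifs with hi
      · exact hf m fun j hj => (mem_insert.mp hj).elim (fun h => h ▸ hi) (hm j)
      · rfl

theorem mem_bracket_iff (n : ℕ) (f : PS d K) :
    f ∈ Ideal.span (Set.range fun i => (MvPowerSeries.X i : PS d K) ^ n) ↔
      ∀ m : Fin d →₀ ℕ, (∀ i, m i < n) → MvPowerSeries.coeff m f = 0 := by
  refine ⟨fun hf m hm => ?_, fun hf => mem_bracket_aux n univ f fun m hm => hf m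
    fun i => hm i (mem_univ i)⟩
  obtain ⟨c, rfl⟩ := Ideal.mem_span_range_iff_exists_fun.mp hf
  rw [map_sum]
  exact sum_eq_zero fun i _ => MvPowerSeries.X_pow_dvd_iff.mp (dvd_mul_left _ _) m (hm i)

theorem length_PS_quot_bracketL (n : ℕ) :
    Module.length (PS d K)
      (PS d K ⧸ Ideal.span (Set.range fun i => (MvPowerSeries.X i : PS d K) ^ n)) =
      (n ^ d : ℕ) := by
  classical
  rw [len_monomial_ideal _ ((Fintype.piFinset fun _ : Fin d => range n).map
    Finsupp.equivFunOnFinite.symm.toEmbedding)]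
  · simp
  · intro f
    simp [mem_bracket_iff, mem_map_equiv]

theorem pow_le_bracket (n : ℕ) : maximalIdeal (PS d K) ^ (d * n + 1) ≤
    Ideal.span (Set.range fun i => (MvPowerSeries.X i : PS d K) ^ n) := by
  intro f hf
  rw [maximalIdeal_PS, mem_xI_pow_iff] at hf
  refine (mem_bracket_iff n f).mpr fun m hm => hf m ?_
  rw [Finsupp.degree_eq_sum]
  have := sum_le_card_nsmul univ (fun i => m i) n fun i _ => (hm i).le
  simp only [card_univ, Fintype.card_fin, smul_eq_mul] at this
  omega

end ps

end Vale.Agent.P202
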