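import Vale.Agent.P202.LenB

/-! Length estimates: bracket powers and asymptotics. -/

open IsLocalRing Finset Filter Topology

namespace Vale.Agent.P202

section bracket
variable {A : Type*} [CommRing A] {M : Type*} [AddCommGroup M] [Module A M]

theorem len_pow_step (I : Ideal A) (z : A) (k : ℕ) :
    Module.length A (M ⧸ ((Ideal.span {z ^ k} ⊔ I) • ⊤ : Submodule A M)) ≤
      k * Module.length A (M ⧸ ((Ideal.span {z} ⊔ I) • ⊤ : Submodule A M)) := by
  induction k with
  | zero =>
    have : Subsingleton (M ⧸ ((Ideal.span {z ^ 0} ⊔ I) • ⊤ : Submodule A M)) := by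
      rw [Submodule.Quotient.subsingleton_iff]; simp
    simp
  | succ k ih =>
    have hle : ((Ideal.span {z ^ (k + 1)} ⊔ I) • ⊤ : Submodule A M) ≤
        (Ideal.span {z ^ k} ⊔ I) • ⊤ := Submodule.smul_mono_left (sup_le_sup_right
      (Ideal.span_singleton_le_span_singleton.mpr (pow_dvd_pow z k.le_succ)) _)
    rw [Nat.cast_succ, add_mul, one_mul, add_comm (_ : ℕ∞)]
    refine (len_le_add (Submodule.mapQ ((Ideal.span {z} ⊔ I) • ⊤ : Submodule A M)
      ((Ideal.span {z ^ (k + 1)} ⊔ I) • ⊤ : Submodule A M) (z ^ k • LinearMap.id) ?_)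
      (Submodule.factor hle) fun w hw => ?_).trans (add_le_add le_rfl ih)
    · refine Submodule.smul_le.mpr fun a ha x _ => ?_
      obtain ⟨b, hb, c, hc, rfl⟩ := Submodule.mem_sup.mp ha
      obtain ⟨b, rfl⟩ := Ideal.mem_span_singleton'.mp hb
      rw [Submodule.mem_comap, LinearMap.smul_apply, LinearMap.id_apply, smul_smul]
      refine Submodule.smul_mem_smul ?_ Submodule.mem_top
      rw [mul_add]
      refine Ideal.add_mem _ (Submodule.mem_sup_left (Ideal.mem_span_singleton'.mpr
        ⟨b, by ring⟩)) (Submodule.mem_sup_right (I.mul_mem_left _ hc))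
    · obtain ⟨w, rfl⟩ := Submodule.mkQ_surjective _ w
      rw [LinearMap.mem_ker, Submodule.factor_mk, Submodule.mkQ_apply,
        Submodule.Quotient.mk_eq_zero, Submodule.sup_smul, Submodule.mem_sup] at hw
      obtain ⟨u, hu, v, hv, rfl⟩ := hw
      rw [Submodule.ideal_span_singleton_smul, Submodule.mem_smul_pointwise_iff_exists] at hu
      obtain ⟨u, -, rfl⟩ := hu
      refine ⟨Submodule.Quotient.mk u, ?_⟩
      have hv0 : (Submodule.Quotient.mk v :
          M ⧸ ((Ideal.span {z ^ (k + 1)} ⊔ I) • ⊤ : Submodule A M)) = 0 :=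
        (Submodule.Quotient.mk_eq_zero _).mpr (Submodule.smul_mono_left le_sup_right hv)
      simp [hv0]

theorem len_pow_finset {ι : Type*} (z : ι → A) (k : ℕ) (s : Finset ι) : ∀ I : Ideal A,
    Module.length A (M ⧸ ((Ideal.span ((fun i => z i ^ k) '' s) ⊔ I) • ⊤ : Submodule A M)) ≤
      k ^ s.card * Module.length A (M ⧸ ((Ideal.span (z '' s) ⊔ I) • ⊤ : Submodule A M)) := by
  classical
  induction s using Finset.induction_on with
  | empty =>
    intro I
    rw [coe_empty, Set.image_empty, Set.image_empty, card_empty, pow_zero, one_mul]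
  | insert i s hi ih =>
    intro I
    rw [coe_insert, Set.image_insert_eq, Set.image_insert_eq, Ideal.span_insert, Ideal.span_insert,
      card_insert_of_notMem hi, pow_succ', mul_assoc, sup_assoc]
    refine (len_pow_step _ (z i) k).trans (mul_le_mul_right ?_ _)
    rw [sup_left_comm, sup_assoc, sup_left_comm (Ideal.span {z i})]
    exact ih _

end bracket

theorem le_of_pow_boundL {a b d C k : ℕ}
    (h : ∀ m, 1 ≤ m → a * m ^ d ≤ b * m ^ d + d * C * (k * m + 1) ^ (d - 1)) : a ≤ b := by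
  by_contra hab
  cases d with
  | zero => have := h 1 le_rfl; simp at this; omega
  | succ d =>
    set m := (d + 1) * C * (k + 1) ^ d + 1 with hm
    have h1 := h m (by omega)
    rw [Nat.add_sub_cancel] at h1
    have h2 : (b + 1) * m ^ (d + 1) ≤ a * m ^ (d + 1) := Nat.mul_le_mul_right _ (by omega)
    have h3 : (k * m + 1) ^ d ≤ (k + 1) ^ d * m ^ d := by
      rw [← mul_pow]; exact Nat.pow_le_pow_left (by rw [add_mul]; omega) d
    have h4 : (d + 1) * C * (k * m + 1) ^ d ≤ (d + 1) * C * (k + 1) ^ d * m ^ d := by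
      rw [mul_assoc ((d + 1) * C)]; exact Nat.mul_le_mul_left _ h3
    have h5 : 0 < m ^ d := by positivity
    have h6 : m ^ (d + 1) = (d + 1) * C * (k + 1) ^ d * m ^ d + m ^ d := by
      rw [pow_succ', hm]; ring
    rw [add_mul, one_mul] at h2
    omega

theorem isDomain_PSL (d : ℕ) (K : Type*) [Field K] : IsDomain (PS d K) :=
  NoZeroDivisors.to_isDomain _

section ps
variable {d : ℕ} {K : Type*} [Field K] (M : Type*) [AddCommGroup M] [Module (PS d K) M]
  [Module.Finite (PS d K) M]

theorem finrank_mul_le_length_bracketL (n : ℕ) :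
    ((Module.finrank (PS d K) M * n ^ d : ℕ) : ℕ∞) ≤ Module.length (PS d K)
      (M ⧸ ((Ideal.span (Set.range fun i => (MvPowerSeries.X i : PS d K) ^ n)) • ⊤ :
        Submodule (PS d K) M)) := by
  haveI := isDomain_PSL d K
  obtain ⟨C, hC⟩ := length_rank_estimateL _ (maximalIdeal_PS d K) M
  generalize hl : Module.length (PS d K) (M ⧸ ((Ideal.span (Set.range fun i =>
    (MvPowerSeries.X i : PS d K) ^ n)) • ⊤ : Submodule (PS d K) M)) = l
  induction l using ENat.recTopCoe with
  | top => exact le_top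
  | coe l =>
    rw [Nat.cast_le]
    refine le_of_pow_boundL (d := d) (C := C) (k := d * n) fun m _ => ?_
    have h1 := (hC _ _ (pow_le_bracket (n * m))).2
    have h2 := len_pow_finset (M := M) (fun i => (MvPowerSeries.X i : PS d K) ^ n) m univ ⊥
    rw [coe_univ, Set.image_univ, Set.image_univ, sup_bot_eq, sup_bot_eq, card_univ,
      Fintype.card_fin, hl, show (fun i => ((MvPowerSeries.X i : PS d K) ^ n) ^ m) =
        fun i => MvPowerSeries.X i ^ (n * m) from funext fun i => (pow_mul _ _ _).symm] at h2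
    rw [length_PS_quot_bracketL] at h1
    have h3 := h1.trans (add_le_add h2 le_rfl)
    have h4 : Module.finrank (PS d K) M * (n * m) ^ d ≤
        m ^ d * l + d * C * (d * (n * m) + 1) ^ (d - 1) := by exact_mod_cast h3
    rw [mul_pow] at h4
    rw [mul_assoc d n m]
    linarith

theorem le_finrank_of_bracketL (e : ℕ)
    (h : ∀ n : ℕ, 1 ≤ n → ((e * n ^ d : ℕ) : ℕ∞) ≤ Module.length (PS d K)
      (M ⧸ ((Ideal.span (Set.range fun i => (MvPowerSeries.X i : PS d K) ^ n)) • ⊤ :
        Submodule (PS d K) M))) : e ≤ Module.finrank (PS d K) M := by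
  haveI := isDomain_PSL d K
  obtain ⟨C, hC⟩ := length_rank_estimateL _ (maximalIdeal_PS d K) M
  refine le_of_pow_boundL (d := d) (C := C) (k := d) fun n hn => ?_
  have h1 := (hC _ _ (pow_le_bracket n)).1
  rw [length_PS_quot_bracketL] at h1
  exact_mod_cast (h n hn).trans h1

end ps

section lim

theorem tendsto_shift_div (a b : ℕ) :
    Tendsto (fun N : ℕ => ((N + a : ℕ) : ℝ) / ((N + b : ℕ) : ℝ)) atTop (𝓝 1) := by
  have h1 : Tendsto (fun N : ℕ => ((N + b : ℕ) : ℝ)) atTop atTop :=
    tendsto_natCast_atTop_atTop.comp (tendsto_add_atTop_nat b)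
  have h2 := (tendsto_const_nhds (x := (a : ℝ) - b)).div_atTop h1
  have h3 := h2.const_add 1
  rw [add_zero] at h3
  refine h3.congr' ?_
  filter_upwards [h1.eventually_gt_atTop 0] with N hN
  field_simp
  push_cast; ring

theorem tendsto_choose_div (d a : ℕ) : Tendsto (fun N : ℕ =>
    (d.factorial : ℝ) * ((N + d).choose d : ℕ) / ((N + a : ℕ) : ℝ) ^ d) atTop (𝓝 1) := by
  have h1 := (Asymptotics.isEquivalent_iff_tendsto_one (by
    filter_upwards [eventually_gt_atTop 0] with n hn
    positivity)).mp (isEquivalent_choose d)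
  have h2 := (h1.comp (tendsto_add_atTop_nat d)).mul ((tendsto_shift_div d a).pow d)
  rw [one_pow, mul_one] at h2
  refine h2.congr' ?_
  filter_upwards [eventually_gt_atTop 0] with N hN
  have : (0 : ℝ) < ((N + d : ℕ) : ℝ) := by positivity
  have : (0 : ℝ) < ((N + a : ℕ) : ℝ) := by positivity
  simp only [Function.comp, Pi.div_apply, div_pow]
  field_simp

theorem tendsto_err_div (d C a : ℕ) : Tendsto (fun N : ℕ =>
    (d.factorial : ℝ) * (d * C * (N + 1) ^ (d - 1) : ℕ) / ((N + a : ℕ) : ℝ) ^ d) atTop (𝓝 0) := by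
  cases d with
  | zero => simp
  | succ d =>
    have h1 : Tendsto (fun N : ℕ => ((N + a : ℕ) : ℝ)) atTop atTop :=
      tendsto_natCast_atTop_atTop.comp (tendsto_add_atTop_nat a)
    have h2 := (((tendsto_shift_div 1 a).pow d).const_mul
      (((d + 1).factorial : ℝ) * ((d + 1) * C))).div_atTop h1
    refine h2.congr' ?_
    filter_upwards [h1.eventually_gt_atTop 0] with N hN
    simp only [div_pow, Nat.add_sub_cancel, pow_succ]
    field_simp
    push_cast; ring

theorem tendsto_upperL (r d C a : ℕ) : Tendsto (fun N : ℕ => (d.factorial : ℝ) *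
    (r * (N + d).choose d + d * C * (N + 1) ^ (d - 1) : ℕ) / ((N + a : ℕ) : ℝ) ^ d) atTop
    (𝓝 r) := by
  have h := ((tendsto_choose_div d a).const_mul (r : ℝ)).add (tendsto_err_div d C a)
  rw [mul_one, add_zero] at h
  refine h.congr fun N => ?_
  rw [Nat.cast_add (r * _), Nat.cast_mul r]; ring

theorem le_of_hs_le {u : ℕ → ℕ} {r d C : ℕ} {e : ℝ}
    (he : Tendsto (fun N : ℕ => ((d.factorial : ℝ) * (u N : ℝ)) / (N : ℝ) ^ d) atTop (𝓝 e))
    (h : ∀ N, u (N + 1) ≤ r * (N + d).choose d + d * C * (N + 1) ^ (d - 1)) : e ≤ r := by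
  refine le_of_tendsto_of_tendsto' (he.comp (tendsto_add_atTop_nat 1)) (tendsto_upperL r d C 1)
    fun N => ?_
  simp only [Function.comp]
  gcongr
  exact h N

theorem tendsto_of_hs_bounds {u : ℕ → ℕ} {r d C c : ℕ}
    (h1 : ∀ N, u (N + 1) ≤ r * (N + d).choose d + d * C * (N + 1) ^ (d - 1))
    (h2 : ∀ N, r * (N + d).choose d ≤ u (N + (1 + c)) + d * C * (N + 1) ^ (d - 1)) :
    Tendsto (fun N : ℕ => ((d.factorial : ℝ) * (u N : ℝ)) / (N : ℝ) ^ d) atTop (𝓝 r) := by
  rw [← tendsto_add_atTop_iff_nat (1 + c)]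
  have hlo := ((tendsto_choose_div d (1 + c)).const_mul (r : ℝ)).sub (tendsto_err_div d C (1 + c))
  rw [mul_one, sub_zero] at hlo
  have hup := (tendsto_upperL r d C 1).comp (tendsto_add_atTop_nat c)
  refine tendsto_of_tendsto_of_tendsto_of_le_of_le hlo hup (fun N => ?_) fun N => ?_
  · have h3 : (r : ℝ) * ((N + d).choose d : ℕ) ≤
        u (N + (1 + c)) + (d * C * (N + 1) ^ (d - 1) : ℕ) := by exact_mod_cast h2 N
    simp only
    rw [← mul_div_assoc, ← sub_div, mul_left_comm, ← mul_sub]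
    gcongr
    linarith
  · simp only [Function.comp]
    rw [show N + (1 + c) = N + c + 1 by omega]
    gcongr
    exact h1 (N + c)

theorem dim_unique_aux {u : ℕ → ℕ} {d d' : ℕ} {e e' : ℝ}
    (h : Tendsto (fun N : ℕ => ((d.factorial : ℝ) * (u N : ℝ)) / (N : ℝ) ^ d) atTop (𝓝 e))
    (h' : Tendsto (fun N : ℕ => ((d'.factorial : ℝ) * (u N : ℝ)) / (N : ℝ) ^ d') atTop (𝓝 e'))
    (hd : d < d') : e' = 0 := by
  obtain ⟨k, rfl⟩ := Nat.exists_eq_add_of_lt hd
  have h1 : Tendsto (fun N : ℕ => (N : ℝ) ^ (k + 1)) atTop atTop :=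
    (tendsto_pow_atTop (by omega)).comp tendsto_natCast_atTop_atTop
  have h2 := (h.const_mul (((d + k + 1).factorial : ℝ) / d.factorial)).div_atTop h1
  refine tendsto_nhds_unique h' (h2.congr' ?_)
  filter_upwards [eventually_gt_atTop 0] with N hN
  have : (0 : ℝ) < N := by exact_mod_cast hN
  have : (0 : ℝ) < d.factorial := by positivity
  field_simp
  ring

end lim

end Vale.Agent.P202
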