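import Vale.Agent.P202.Cx

/-! Minimal models of complexes over a local ring. -/

open Matrix IsLocalRing

namespace Vale.Agent.P202

/-- A rectangular matrix homogeneous of degree `k`. -/
def Hg {α β R : Type*} [Zero R] (da : α → ℕ) (db : β → ℕ) (k : ℤ) (M : Matrix α β R) : Prop :=
  ∀ μ ν, M μ ν ≠ 0 → (da μ : ℤ) = db ν + k

section
variable {α β γ R : Type*} [CommRing R] {da : α → ℕ} {db : β → ℕ} {dc : γ → ℕ} {k l : ℤ}

lemma Hg.mul [Fintype β] {M : Matrix α β R} {N : Matrix β γ R} (hM : Hg da db k M)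
    (hN : Hg db dc l N) {m : ℤ} (h : k + l = m) : Hg da dc m (M * N) := by
  intro μ ν hne
  obtain ⟨x, -, hx⟩ := Finset.exists_ne_zero_of_sum_ne_zero hne
  have h1 := hM μ x (left_ne_zero_of_mul hx)
  have h2 := hN x ν (right_ne_zero_of_mul hx)
  omega

lemma Hg.sub {M N : Matrix α β R} (hM : Hg da db k M) (hN : Hg da db k N) :
    Hg da db k (M - N) := by
  intro μ ν hne
  by_cases h : M μ ν = 0
  · exact hN μ ν fun h' => hne (by simp [h, h'])
  · exact hM μ ν h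

lemma Hg.one [DecidableEq α] : Hg da da 0 (1 : Matrix α α R) := by
  intro μ ν hne
  by_cases h : μ = ν
  · simp [h]
  · simp [h] at hne

lemma Hg.map {R' : Type*} [CommRing R'] {M : Matrix α β R} (hM : Hg da db k M) (φ : R →+* R') :
    Hg da db k (M.map φ) := fun μ ν h => hM μ ν fun h' => h (by simp [h'])

lemma Hg.inDeg [Fintype β] {M : Matrix α β R} (hM : Hg da db 0 M) {n : ℕ} {y : β → R}
    (hy : InDeg db n y) : InDeg da n (M *ᵥ y) := by
  intro μ h
  refine Finset.sum_eq_zero fun ν _ => ?_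
  by_cases h1 : M μ ν = 0
  · simp [h1]
  · have := hM μ ν h1
    rw [hy ν (by omega), mul_zero]
end

namespace Cx
variable {R : Type*} [CommRing R] {d : ℕ} {s : Fin d → R}

lemma hgD {ι : Type*} [Fintype ι] [DecidableEq ι] (X : Cx R d s ι) : Hg X.deg X.deg (-1) X.D :=
  fun μ ν h => by have := X.hD μ ν h; omega

lemma hgH {ι : Type*} [Fintype ι] [DecidableEq ι] (X : Cx R d s ι) (j) :
    Hg X.deg X.deg 1 (X.H j) := fun μ ν h => by have := X.hH j μ ν h; omega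

/-- The homology in degree zero does not vanish. -/
def H0 {ι : Type*} [Fintype ι] [DecidableEq ι] (X : Cx R d s ι) : Prop :=
  ¬ ∀ y, InDeg X.deg 0 y → ∃ η, X.D *ᵥ η = y

/-- A retraction of complexes. -/
def Retr {ι ι' : Type*} [Fintype ι] [DecidableEq ι] [Fintype ι'] [DecidableEq ι']
    (X : Cx R d s ι) (X' : Cx R d s ι') : Prop :=
  ∃ (I : Matrix ι ι' R) (Q : Matrix ι' ι R), Q * I = 1 ∧ Q * X.D = X'.D * Q ∧
    Hg X.deg X'.deg 0 I ∧ Hg X'.deg X.deg 0 Q

lemma step {ι : Type*} [Fintype ι] [DecidableEq ι] (X : Cx R d s ι) (h0 : X.H0) {μ₀ ν₀ : ι}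
    (hu : IsUnit (X.D μ₀ ν₀)) [Nontrivial R] :
    ∃ X' : Cx R d s {μ // μ ≠ μ₀ ∧ μ ≠ ν₀}, X'.H0 ∧ X.Retr X' := by
  obtain ⟨u, hu⟩ := hu
  have hdeg := X.hD μ₀ ν₀ (hu ▸ u.ne_zero)
  have hne : μ₀ ≠ ν₀ := by rintro rfl; omega
  let h : Matrix ι ι R := single ν₀ μ₀ (↑u⁻¹ : R)
  let J : Matrix ι {μ // μ ≠ μ₀ ∧ μ ≠ ν₀} R := of fun μ ν => if μ = ν.1 then 1 else 0
  let E : Matrix ι ι R := 1 - X.D * h - h * X.D
  let dg : {μ // μ ≠ μ₀ ∧ μ ≠ ν₀} → ℕ := fun μ => X.deg μ.1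
  have gh : Hg X.deg X.deg 1 h := by
    intro μ ν hne
    by_cases h1 : ν₀ = μ ∧ μ₀ = ν
    · obtain ⟨rfl, rfl⟩ := h1; omega
    · simp [h, single, h1] at hne
  have gJ : Hg X.deg dg 0 J := by
    intro μ ν hne
    by_cases h1 : μ = ν.1
    · simp [h1, dg]
    · simp [J, h1] at hne
  have gJt : Hg dg X.deg 0 Jᵀ := fun μ ν hne => by have := gJ ν μ hne; omega
  have gE : Hg X.deg X.deg 0 E := (Hg.one.sub (X.hgD.mul gh rfl)).sub (gh.mul X.hgD rfl)
  have hDh : h * X.D * h = h := by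
    simp only [h, single_mul_mul_single, ← hu]; simp
  have hh : h * h = 0 := single_mul_single_of_ne _ _ _ _ hne _
  have hJ : h * J = 0 := by
    ext μ ν
    simp [h, J, mul_apply, single, ν.2.1.symm]
  have Jh : Jᵀ * h = 0 := by
    ext μ ν
    rw [mul_apply]
    refine Finset.sum_eq_zero fun x _ => ?_
    by_cases h1 : x = μ.1
    · simp [h, h1, single, μ.2.2.symm]
    · simp [J, h1]
  have JJ : Jᵀ * J = 1 := by
    ext μ ν
    simp [J, mul_apply, one_apply, Subtype.ext_iff, eq_comm]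
  have JJ' : J * Jᵀ = 1 - single μ₀ μ₀ 1 - single ν₀ ν₀ 1 := by
    ext μ ν
    by_cases h1 : μ ≠ μ₀ ∧ μ ≠ ν₀
    · rw [mul_apply, Finset.sum_eq_single ⟨μ, h1⟩]
      · simp [J, one_apply, single, h1.1.symm, h1.2.symm, eq_comm]
      · intro x _ hx
        have : μ ≠ x.1 := fun h => hx (Subtype.ext h.symm)
        simp [J, this]
      · simp
    · rw [mul_apply, Finset.sum_eq_zero]
      · by_cases h2 : μ = μ₀
        · subst h2; simp [one_apply, single, hne.symm]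
        · have h3 : μ = ν₀ := by tauto
          subst h3; simp [one_apply, single, hne]
      · intro x _
        have : μ ≠ x.1 := fun h => h1 (h ▸ x.2)
        simp [J, this]
  have ED : E * X.D = X.D * E := by
    simp only [E, sub_mul, mul_sub, mul_assoc, X.DD, one_mul, mul_one, mul_zero, sub_zero]
    rw [← mul_assoc X.D X.D, X.DD, zero_mul, sub_zero]
  have Eh : E * h = 0 := by
    simp only [E, sub_mul, one_mul, hDh, mul_assoc X.D, hh, mul_zero, sub_zero, sub_self]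
  have hE : h * E = 0 := by
    simp only [E, mul_sub, mul_one, ← mul_assoc, hDh, hh, zero_mul, sub_self]
  have EE : E * E = E := by
    nth_rewrite 2 [show E = 1 - X.D * h - h * X.D from rfl]
    rw [mul_sub, mul_sub, mul_one, ← mul_assoc, ED, mul_assoc, Eh, ← mul_assoc, Eh]; simp
  have E1 : E * single ν₀ ν₀ 1 = 0 := by
    have : (single ν₀ ν₀ 1 : Matrix ι ι R) = h * single μ₀ ν₀ (u : R) := by simp [h]
    rw [this, ← mul_assoc, Eh, zero_mul]
  have E2 : single μ₀ μ₀ 1 * E = 0 := by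
    have : (single μ₀ μ₀ 1 : Matrix ι ι R) = single μ₀ ν₀ (u : R) * h := by simp [h]
    rw [this, mul_assoc, hE, mul_zero]
  obtain ⟨I, hI⟩ : ∃ I, I = E * J := ⟨_, rfl⟩
  obtain ⟨Q, hQ⟩ : ∃ Q, Q = Jᵀ * E := ⟨_, rfl⟩
  have QI : Q * I = 1 := by
    simp only [hQ, hI]
    rw [Matrix.mul_assoc, ← Matrix.mul_assoc E, EE]
    simp only [E, Matrix.sub_mul, Matrix.mul_sub, Matrix.mul_assoc, hJ, Matrix.one_mul, JJ,
      Matrix.mul_zero, sub_zero]
    rw [← Matrix.mul_assoc, Jh, Matrix.zero_mul, sub_zero]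
  have IQ : I * Q = E := by
    simp only [hQ, hI]
    clear_value E
    rw [Matrix.mul_assoc, ← Matrix.mul_assoc J, JJ', sub_mul, sub_mul, E2, mul_sub, ← mul_assoc E _ E,
      E1]
    simp [EE]
  have QE : Q * E = Q := by simp only [hQ, Matrix.mul_assoc, EE]
  have EI : E * I = I := by simp only [hI, ← Matrix.mul_assoc, EE]
  have gI : Hg X.deg dg 0 I := hI ▸ gE.mul gJ rfl
  have gQ : Hg dg X.deg 0 Q := hQ ▸ gJt.mul gE rfl
  have QD : Q * X.D * I * Q = Q * X.D := by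
    rw [Matrix.mul_assoc, IQ, Matrix.mul_assoc, ← ED, ← Matrix.mul_assoc, QE]
  have DI : I * (Q * X.D * I) = X.D * I := by
    rw [← Matrix.mul_assoc, ← Matrix.mul_assoc, IQ, ED, Matrix.mul_assoc, EI]
  let X' : Cx R d s {μ // μ ≠ μ₀ ∧ μ ≠ ν₀} :=
    { deg := dg
      deg_le := fun μ => X.deg_le _
      D := Q * X.D * I
      H := fun j => Q * X.H j * I
      DD := by
        rw [Matrix.mul_assoc, DI, Matrix.mul_assoc, ← Matrix.mul_assoc X.D, X.DD]; simp
      hD := fun μ ν hne => by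
        have := ((gQ.mul X.hgD rfl).mul gI rfl) μ ν hne; omega
      hH := fun j μ ν hne => by
        have := ((gQ.mul (X.hgH j) rfl).mul gI rfl) μ ν hne; omega
      hom := fun j => by
        rw [Matrix.mul_assoc (Q * X.H j), DI, ← Matrix.mul_assoc, ← Matrix.mul_assoc, QD,
          ← Matrix.mul_assoc, ← Matrix.add_mul, Matrix.mul_assoc, Matrix.mul_assoc,
          ← Matrix.mul_add, X.hom]
        simp [QI] }
  refine ⟨X', fun hall => h0 fun y hy => ?_, I, Q, QI, QD.symm, gI, gQ⟩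
  obtain ⟨η, hη⟩ := hall (Q *ᵥ y) (gQ.inDeg hy)
  refine ⟨I *ᵥ η + h *ᵥ y, ?_⟩
  have hDy : X.D *ᵥ y = 0 := by
    ext μ
    refine Finset.sum_eq_zero fun ν _ => ?_
    by_cases h1 : X.D μ ν = 0
    · simp [h1]
    · have := X.hD μ ν h1
      rw [hy ν (by omega), mul_zero]
  rw [mulVec_add, mulVec_mulVec, ← DI, ← mulVec_mulVec, show (Q * X.D * I) *ᵥ η = _ from hη,
    mulVec_mulVec, IQ, mulVec_mulVec]
  simp only [E, sub_mulVec, one_mulVec, ← mulVec_mulVec y h X.D, hDy, mulVec_zero]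
  abel

universe u

theorem exists_min [IsLocalRing R] (n : ℕ) : ∀ (ι : Type u) [Fintype ι] [DecidableEq ι]
    (X : Cx R d s ι), Fintype.card ι ≤ n → X.H0 →
    ∃ (ι' : Type u) (_ : Fintype ι') (_ : DecidableEq ι') (X' : Cx R d s ι') (μ₀ : ι'),
      (∀ μ ν, X'.D μ ν ∈ maximalIdeal R) ∧ X'.deg μ₀ = 0 ∧ X.Retr X' := by
  induction n with
  | zero =>
    intro ι _ _ X hn h0
    have : IsEmpty ι := Fintype.card_eq_zero_iff.mp (by omega)
    exact absurd (fun y _ => ⟨0, Subsingleton.elim _ _⟩) h0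
  | succ n ih =>
    intro ι _ _ X hn h0
    by_cases hm : ∀ μ ν, X.D μ ν ∈ maximalIdeal R
    · have : ∃ μ₀, X.deg μ₀ = 0 := by
        by_contra hc
        push Not at hc
        exact h0 fun y hy => ⟨0, by ext μ; simp [hy μ (hc μ)]⟩
      obtain ⟨μ₀, h⟩ := this
      exact ⟨ι, _, _, X, μ₀, hm, h, 1, 1, by simp, by simp, Hg.one, Hg.one⟩
    · push Not at hm
      obtain ⟨μ₀, ν₀, hu⟩ := hm
      obtain ⟨X', h1, I, Q, a1, a2, a3, a4⟩ := X.step h0 (notMem_maximalIdeal.mp hu)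
      obtain ⟨ι'', _, _, X'', μ, b1, b2, I', Q', c1, c2, c3, c4⟩ := ih _ X' (by
        have := Fintype.card_subtype_lt (p := fun μ => μ ≠ μ₀ ∧ μ ≠ ν₀) (x := μ₀) (by simp)
        omega) h1
      refine ⟨ι'', _, _, X'', μ, b1, b2, I * I', Q' * Q, ?_, ?_, a3.mul c3 rfl, c4.mul a4 rfl⟩
      · rw [Matrix.mul_assoc, ← Matrix.mul_assoc Q, a1, Matrix.one_mul, c1]
      · rw [Matrix.mul_assoc, a2, ← Matrix.mul_assoc, c2, Matrix.mul_assoc]

end Cx

end Vale.Agent.P202
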