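import Vale.Agent.P202.ModelB

/-! Job Model (see notes/P202.md): complete models of local rings and of flat local maps. -/

open IsLocalRing

universe u v

namespace Vale.Agent.P202

/-- M1 -/
theorem hs_eq_of_flat (A B : Type*) [CommRing A] [IsLocalRing A] [IsNoetherianRing A]
    [CommRing B] [IsLocalRing B] [IsNoetherianRing B] [Algebra A B] [Module.Flat A B]
    (h : (maximalIdeal A).map (algebraMap A B) = maximalIdeal B) :
    hs A = hs B ∧ ringKrullDim A = ringKrullDim B := by
  refine ⟨(LP_of_flat h).hs_eq.symm, ?_⟩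
  haveI := isLocalHom_of_map_le h.le
  have h1 := Ideal.height_eq_height_add_of_liesOver_of_hasGoingDown (maximalIdeal A)
    (maximalIdeal B)
  haveI : Nontrivial (B ⧸ maximalIdeal B) :=
    Ideal.Quotient.nontrivial_iff.mpr Ideal.IsPrime.ne_top'
  rw [h, Ideal.map_quotient_self, Ideal.height_bot, add_zero] at h1
  rw [← maximalIdeal_height_eq_ringKrullDim, ← maximalIdeal_height_eq_ringKrullDim, h1]

/-- M2: a flat complete extension with infinite coefficient field. -/
theorem exists_complete_model (k : Type*) (A : Type u) [Field k] [PerfectField k] [CommRing A]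
    [IsLocalRing A] [IsNoetherianRing A] [Algebra k A] :
    ∃ (K : Type u) (_ : Field K) (_ : Infinite K) (B : Type u) (_ : CommRing B) (_ : IsLocalRing B)
      (_ : IsNoetherianRing B) (_ : Algebra K B) (_ : Algebra A B),
      Module.Flat A B ∧ (maximalIdeal A).map (algebraMap A B) = maximalIdeal B ∧
      IsAdicComplete (maximalIdeal B) B ∧ Function.Surjective (algebraMap K (ResidueField B)) := by
  let P : Ideal (Polynomial A) := (maximalIdeal A).map Polynomial.C
  let T := Localization.AtPrime P
  have hT : (maximalIdeal A).map (algebraMap A T) = maximalIdeal T := by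
    rw [IsScalarTower.algebraMap_eq A (Polynomial A) T, ← Ideal.map_map]
    exact Localization.AtPrime.map_eq_maximalIdeal
  let B := AdicCompletion (maximalIdeal T) T
  obtain ⟨K, _, _, _, -, hK⟩ := exists_coeffM k B
  have hB : maximalIdeal B = (maximalIdeal T).map (algebraMap T B) :=
    AdicCompletion.maximalIdeal_eq_map
  haveI : Infinite (ResidueField B) := by
    refine Infinite.of_injective (fun i : ℕ => residue B (algebraMap T B
      (algebraMap (Polynomial A) T (Polynomial.X ^ i)))) fun i j hij => ?_
    by_contra hne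
    have h1 := Ideal.Quotient.eq.mp hij
    rw [← map_sub, ← map_sub, ← Ideal.mem_comap, IsLocalRing.maximalIdeal_comap,
      IsLocalization.AtPrime.to_map_mem_maximal_iff T P, Ideal.mem_map_C_iff] at h1
    have h2 := h1 i
    rw [Polynomial.coeff_sub, Polynomial.coeff_X_pow, Polynomial.coeff_X_pow, if_pos rfl,
      if_neg hne, sub_zero] at h2
    exact Ideal.IsPrime.ne_top' ((Ideal.eq_top_iff_one _).mpr h2)
  refine ⟨K, inferInstance, Infinite.of_surjective _ hK, B, inferInstance, inferInstance,
    isNoetherianRing_of_complete K B (hB ▸ (maximalIdeal T).fg_of_isNoetherianRing.map _) hK,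
    inferInstance, inferInstance, Module.Flat.trans A T B, ?_, inferInstance, hK⟩
  rw [IsScalarTower.algebraMap_eq A T B, ← Ideal.map_map, hT, hB]

/-- M3: finite free model of a flat local map with zero-dimensional closed fibre, when the
residue field of the base is perfect. -/
theorem exists_finite_model (k : Type*) (R : Type u) (S : Type v) [Field k] [PerfectField k]
    [CommRing R] [IsLocalRing R] [IsNoetherianRing R] [Algebra k R]
    [PerfectField (ResidueField R)]
    [CommRing S] [IsLocalRing S] [IsNoetherianRing S] [Algebra R S] [Module.Flat R S]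
    [IsLocalHom (algebraMap R S)] (a : ℕ)
    (ha : maximalIdeal S ^ a ≤ (maximalIdeal R).map (algebraMap R S)) :
    ∃ (K : Type v) (_ : Field K) (_ : IsAlgClosed K)
      (R' : Type (max u v)) (_ : CommRing R') (_ : IsLocalRing R') (_ : IsNoetherianRing R')
      (_ : Algebra K R')
      (S' : Type v) (_ : CommRing S') (_ : IsLocalRing S') (_ : IsNoetherianRing S')
      (_ : Algebra K S') (_ : Algebra R' S') (_ : IsScalarTower K R' S'),
      IsLocalHom (algebraMap R' S') ∧ Module.Free R' S' ∧ Module.Finite R' S' ∧
      IsAdicComplete (maximalIdeal R') R' ∧ IsAdicComplete (maximalIdeal S') S' ∧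
      Function.Surjective (algebraMap K (ResidueField R')) ∧
      Function.Surjective (algebraMap K (ResidueField S')) ∧
      hs R' = hs R ∧ hs S' = hs S := by
  have fgR := (maximalIdeal R).fg_of_isNoetherianRing
  have fgS := (maximalIdeal S).fg_of_isNoetherianRing
  let Rh := AdicCompletion (maximalIdeal R) R
  let Sh := AdicCompletion (maximalIdeal S) S
  have lR : LenPres (algebraMap R Rh) := LP_compl fgR
  have lS : LenPres (algebraMap S Sh) := LP_compl fgS
  have hmm : (maximalIdeal R).map (algebraMap R S) ≤ maximalIdeal S :=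
    IsLocalRing.map_maximalIdeal_le _
  obtain ⟨k1, _, _, _, -, hk1⟩ := exists_coeffM k Rh
  haveI : PerfectField (ResidueField Rh) := PerfectField.of_ringEquiv
    (RingEquiv.ofBijective _ (AdicCompletion.residueField_map_bijective R))
  haveI : PerfectField k1 := PerfectField.of_ringEquiv
    (RingEquiv.ofBijective _ ⟨(algebraMap k1 (ResidueField Rh)).injective, hk1⟩).symm
  obtain ⟨ψ, hψ⟩ := exists_lift_compl (maximalIdeal R) (maximalIdeal Sh)
    ((algebraMap S Sh).comp (algebraMap R S)) (by
      rw [← Ideal.map_le_iff_le_comap, ← Ideal.map_map, ← lS.1]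
      exact Ideal.map_mono hmm)
  letI : Algebra k1 Sh := (ψ.comp (algebraMap k1 Rh)).toAlgebra
  obtain ⟨l, _, _, _, hl1, hl⟩ := exists_coeffM k1 Sh
  let K := AlgebraicClosure l
  obtain ⟨R', _, _, _, _, f, hf, cR, kR, hfc, uR⟩ :=
    exists_baseChange.{u, v, v} k1 Rh K (lR.1 ▸ fgR.map _) hk1
  obtain ⟨S', _, _, _, _, g, hg, cS, kS, hgc, -⟩ :=
    exists_baseChange.{v, v, v} l Sh K (lS.1 ▸ fgS.map _) hl
  have hcomm0 : ψ.comp (algebraMap R Rh) = (algebraMap S Sh).comp (algebraMap R S) :=
    RingHom.ext hψ
  obtain ⟨φ, hφ, hφc⟩ := uR S' (g.comp ψ) (by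
      rw [← lR.1, Ideal.map_map, RingHom.comp_assoc, hcomm0, ← Ideal.map_map, ← Ideal.map_map,
        ← hg.1, ← lS.1]
      exact Ideal.map_mono (Ideal.map_mono hmm)) fun c => by
    rw [IsScalarTower.algebraMap_apply k1 l K, ← hgc, hl1]
    rfl
  letI : Algebra R' S' := φ.toAlgebra
  have lR' := lR.comp hf
  have lS' := lS.comp hg
  have hcomm : (algebraMap R' S').comp (f.comp (algebraMap R Rh)) =
      (g.comp (algebraMap S Sh)).comp (algebraMap R S) := RingHom.ext fun r => by
    show φ (f _) = _
    rw [hφ, RingHom.comp_apply, hψ]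
    rfl
  have hpow : ∀ N, (maximalIdeal R' ^ N).map (algebraMap R' S') =
      ((maximalIdeal R ^ N).map (algebraMap R S)).map (g.comp (algebraMap S Sh)) := fun N => by
    rw [← lR'.1, ← Ideal.map_pow, Ideal.map_map, hcomm, Ideal.map_map]
  haveI hloc : IsLocalHom (algebraMap R' S') := isLocalHom_of_map_le (by
    have := hpow 1
    rw [pow_one, pow_one] at this
    rw [this, ← lS'.1]
    exact Ideal.map_mono hmm)
  haveI tw : IsScalarTower K R' S' := IsScalarTower.of_algebraMap_eq fun c => (hφc c).symm
  have hfin : Module.length S (S ⧸ (maximalIdeal R).map (algebraMap R S)) ≠ ⊤ := by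
    obtain ⟨h, y, hy⟩ := Submodule.fg_iff_exists_fin_generating_family.mp fgS
    exact ne_top_of_le_ne_top (ENat.coe_ne_top _)
      ((len_quot_anti ((Ideal.pow_le_pow_right a.le_succ).trans ha)).trans
        (length_quot_pow_leL y hy.symm a))
  obtain ⟨hfree, hfinite⟩ := free_of_lengths (R := R') (S := S') (fun b => by
      obtain ⟨c, hc⟩ := kS (residue S' b)
      exact ⟨algebraMap K R' c, by rw [← IsScalarTower.algebraMap_apply, ← hc]; rfl⟩)
    (Module.length S (S ⧸ (maximalIdeal R).map (algebraMap R S))).toNat fun N => by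
      rw [hpow, lS'.2 _ (a * N), len_flat, ENat.coe_toNat hfin, ← lR'.1, ← Ideal.map_pow,
        lR'.2 _ N le_rfl]
      rw [pow_mul, Ideal.map_pow]
      exact Ideal.pow_right_mono ha N
  exact ⟨K, inferInstance, inferInstance, R', inferInstance, inferInstance, inferInstance,
    inferInstance, S', inferInstance, inferInstance, inferInstance, inferInstance, inferInstance,
    tw, hloc, hfree, hfinite, cR, cS, kR, kS, lR'.hs_eq, lS'.hs_eq⟩

end Vale.Agent.P202
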