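import Vale.Agent.P202.Cohen
import Vale.Agent.P202.Len

/-! Job Model, tools: length preserving local maps, completions, base change of coefficient
fields. -/

open IsLocalRing TensorProduct

universe u v w

namespace Vale.Agent.P202

section lp
variable {A B C : Type*} [CommRing A] [IsLocalRing A] [CommRing B] [IsLocalRing B]
  [CommRing C] [IsLocalRing C]

/-- Local maps which preserve the maximal ideal and the lengths of primary quotients. -/
def LenPres (f : A →+* B) : Prop :=
  (maximalIdeal A).map f = maximalIdeal B ∧ ∀ (I : Ideal A) (N : ℕ), maximalIdeal A ^ N ≤ I →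
    Module.length B (B ⧸ I.map f) = Module.length A (A ⧸ I)

theorem LenPres.comp {f : A →+* B} {g : B →+* C} (hf : LenPres f) (hg : LenPres g) : LenPres (g.comp f) := by
  refine ⟨by rw [← Ideal.map_map, hf.1, hg.1], fun I N hI => ?_⟩
  rw [← Ideal.map_map, hg.2 _ N, hf.2 I N hI]
  rw [← hf.1, ← Ideal.map_pow]
  exact Ideal.map_mono hI

theorem LenPres.hs_eq {f : A →+* B} (hf : LenPres f) : hs B = hs A := by
  funext N
  rw [hs, hs, ← hf.2 _ N le_rfl, Ideal.map_pow, hf.1]

theorem isLocalHom_of_map_le {f : A →+* B} (h : (maximalIdeal A).map f ≤ maximalIdeal B) :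
    IsLocalHom f := ((local_hom_TFAE f).out 0 2).mpr h

theorem len_residue_one : Module.length A (A ⧸ maximalIdeal A) = 1 :=
  Module.length_eq_one_iff.mpr (isSimpleModule_iff_isCoatom.mpr
    (Ideal.isMaximal_def.mp inferInstance))

theorem len_flat [Algebra A B] [Module.Flat A B] [IsLocalHom (algebraMap A B)] (I : Ideal A) :
    Module.length B (B ⧸ I.map (algebraMap A B)) = Module.length A (A ⧸ I) *
      Module.length B (B ⧸ (maximalIdeal A).map (algebraMap A B)) := by
  rw [(Algebra.TensorProduct.quotIdealMapEquivTensorQuot B I).toLinearEquiv.length_eq,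
    IsLocalRing.length_baseChange]

theorem LP_of_flat [Algebra A B] [Module.Flat A B]
    (h : (maximalIdeal A).map (algebraMap A B) = maximalIdeal B) : LenPres (algebraMap A B) := by
  haveI := isLocalHom_of_map_le h.le
  refine ⟨h, fun I _ _ => ?_⟩
  rw [len_flat, h, len_residue_one, mul_one]

theorem len_eq_of_res [Algebra A B] [IsLocalHom (algebraMap A B)]
    (h : ∀ b : B, ∃ a : A, residue B (algebraMap A B a) = residue B b)
    (M : Type*) [AddCommGroup M] [Module A M] [Module B M] [IsScalarTower A B M] :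
    Module.length A M = Module.length B M := by
  rw [IsLocalRing.length_restrictScalars A B M,
    Module.length_eq_of_surjective (S := ResidueField A) (R := ResidueField B)
      (M := ResidueField B), Module.length_eq_one (ResidueField B) (ResidueField B), mul_one]
  intro z
  obtain ⟨b, rfl⟩ := residue_surjective z
  obtain ⟨a, ha⟩ := h b
  exact ⟨residue A a, ha⟩

end lp

section compl
variable {T : Type*} [CommRing T] (M : Ideal T)

theorem compl_approx (fg : M.FG) (N : ℕ) (x : AdicCompletion M T) :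
    ∃ t : T, x - algebraMap T _ t ∈ (M ^ N).map (algebraMap T (AdicCompletion M T)) := by
  obtain ⟨t, ht⟩ := Submodule.Quotient.mk_surjective _ (x.1 N)
  refine ⟨t, ?_⟩
  rw [← Submodule.restrictScalars_mem T, ← Ideal.smul_top_eq_map,
    AdicCompletion.pow_smul_top_eq_ker_eval fg, AdicCompletion.algebraMap_apply]
  simpa [AdicCompletion.eval, sub_eq_zero] using ht.symm

theorem compl_comap (N : ℕ) (I : Ideal T) (hI : M ^ N ≤ I) (t : T)
    (ht : algebraMap T (AdicCompletion M T) t ∈ I.map (algebraMap T (AdicCompletion M T))) :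
    t ∈ I := by
  have h1 := Ideal.mem_map_of_mem (AdicCompletion.evalₐ M N).toRingHom ht
  rw [Ideal.map_map] at h1
  have h2 : (AdicCompletion.evalₐ M N).toRingHom.comp (algebraMap T (AdicCompletion M T)) =
      Ideal.Quotient.mk (M ^ N) := (AdicCompletion.evalₐ M N).comp_algebraMap
  rw [← RingHom.comp_apply, h2, Ideal.mem_quotient_iff_mem hI] at h1
  exact h1

theorem exists_lift_compl {B : Type*} [CommRing B] (J : Ideal B) [IsAdicComplete J B]
    (g : T →+* B) (hg : M ≤ J.comap g) :
    ∃ g' : AdicCompletion M T →+* B, ∀ t, g' (algebraMap T _ t) = g t := by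
  have hN : ∀ N, M ^ N ≤ (J ^ N).comap g := fun N =>
    (Ideal.pow_right_mono hg N).trans (Ideal.le_comap_pow g N)
  let f : ∀ N : ℕ, AdicCompletion M T →+* B ⧸ J ^ N := fun N =>
    (Ideal.quotientMap (J ^ N) g (hN N)).comp (AdicCompletion.evalₐ M N).toRingHom
  have hf : ∀ {m n : ℕ} (hle : m ≤ n), (Ideal.Quotient.factorPow J hle).comp (f n) = f m := by
    intro m n hle
    ext x
    obtain ⟨x, rfl⟩ := AdicCompletion.mk_surjective M T x
    simp only [f, RingHom.comp_apply, AlgHom.toRingHom_eq_coe, RingHom.coe_coe,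
      AdicCompletion.evalₐ_mk, Ideal.quotientMap_mk, Ideal.Quotient.factor_mk]
    rw [Ideal.Quotient.eq, ← map_sub]
    apply hN m
    have := (x.2 hle).symm
    rw [SModEq.sub_mem] at this
    simpa using this
  refine ⟨IsAdicComplete.liftRingHom J f hf, fun t => ?_⟩
  refine IsHausdorff.eq_iff_smodEq (I := J) |>.mpr fun n => ?_
  rw [SModEq.sub_mem, smul_eq_mul, Ideal.mul_top, ← Ideal.Quotient.eq,
    IsAdicComplete.mk_liftRingHom]
  simp [f, AdicCompletion.algebraMap_apply]

theorem LP_compl [IsLocalRing T] (fg : (maximalIdeal T).FG) :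
    haveI := AdicCompletion.isLocalRing_of_fg fg
    LenPres (algebraMap T (AdicCompletion (maximalIdeal T) T)) := by
  haveI := AdicCompletion.isLocalRing_of_fg fg
  haveI := AdicCompletion.algebraMap_isLocalHom_of_fg fg
  have hm := AdicCompletion.maximalIdeal_eq_map_of_fg fg
  refine ⟨hm.symm, fun I N hI => ?_⟩
  rw [← len_eq_of_res (A := T) fun b => ?_]
  · symm
    refine (LinearEquiv.ofBijective (Ideal.quotientMapₐ (R₁ := T)
      (I.map (algebraMap T (AdicCompletion (maximalIdeal T) T)))
      (Algebra.ofId T (AdicCompletion (maximalIdeal T) T)) (I := I)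
      Ideal.le_comap_map).toLinearMap ⟨?_, fun z => ?_⟩).length_eq
    · rw [injective_iff_map_eq_zero]
      intro z hz
      obtain ⟨t, rfl⟩ := Ideal.Quotient.mk_surjective z
      exact Ideal.Quotient.eq_zero_iff_mem.mpr
        (compl_comap _ N I hI t (Ideal.Quotient.eq_zero_iff_mem.mp hz))
    · obtain ⟨x, rfl⟩ := Ideal.Quotient.mk_surjective z
      obtain ⟨t, ht⟩ := compl_approx _ fg N x
      exact ⟨Ideal.Quotient.mk I t, (Ideal.Quotient.eq.mpr (Ideal.map_mono hI ht)).symm⟩
  · obtain ⟨t, ht⟩ := compl_approx _ fg 1 b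
    rw [pow_one, ← hm] at ht
    exact ⟨t, (Ideal.Quotient.eq.mpr ht).symm⟩

end compl

theorem exists_baseChange (F : Type*) (A : Type u) (K : Type v) [Field F] [Field K] [Algebra F K]
    [CommRing A] [IsLocalRing A] [Algebra F A] (hfg : (maximalIdeal A).FG)
    (hF : Function.Surjective (algebraMap F (ResidueField A))) :
    ∃ (A' : Type (max u v)) (_ : CommRing A') (_ : IsLocalRing A') (_ : IsNoetherianRing A')
      (_ : Algebra K A') (f : A →+* A'), LenPres f ∧ IsAdicComplete (maximalIdeal A') A' ∧
      Function.Surjective (algebraMap K (ResidueField A')) ∧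
      (∀ c, f (algebraMap F A c) = algebraMap K A' (algebraMap F K c)) ∧
      ∀ (B : Type w) [CommRing B] [IsLocalRing B] [Algebra K B] [IsAdicComplete (maximalIdeal B) B]
        (g : A →+* B), (maximalIdeal A).map g ≤ maximalIdeal B →
        (∀ c, g (algebraMap F A c) = algebraMap K B (algebraMap F K c)) →
        ∃ g' : A' →+* B, (∀ a, g' (f a) = g a) ∧
          ∀ c, g' (algebraMap K A' c) = algebraMap K B c := by
  let e : F ≃ₐ[F] ResidueField A :=
    AlgEquiv.ofBijective (Algebra.ofId F _) ⟨(algebraMap F (ResidueField A)).injective, hF⟩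
  let π0 : A →ₐ[F] F := e.symm.toAlgHom.comp (IsScalarTower.toAlgHom F A (ResidueField A))
  have hπ0 : ∀ a, a - algebraMap F A (π0 a) ∈ maximalIdeal A := fun a => by
    rw [← Ideal.Quotient.eq]
    exact (e.apply_symm_apply (residue A a)).symm
  have hπ1 : ∀ a ∈ maximalIdeal A, π0 a = 0 := fun a ha => by
    have : residue A a = 0 := (residue_eq_zero_iff a).mpr ha
    show e.symm (residue A a) = 0
    rw [this, map_zero]
  let ρ : A ⊗[F] K →ₐ[F] K :=
    Algebra.TensorProduct.productMap ((Algebra.ofId F K).comp π0) (AlgHom.id F K)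
  let M0 : Ideal (A ⊗[F] K) := (maximalIdeal A).map (algebraMap A (A ⊗[F] K))
  have hρ : ∀ x, x - (1 : A) ⊗ₜ[F] ρ x ∈ M0 := fun x => by
    induction x with
    | zero => simp
    | add x y hx hy =>
      have := M0.add_mem hx hy
      rwa [← add_sub_add_comm, ← tmul_add, ← map_add] at this
    | tmul a c =>
      have : a ⊗ₜ[F] c - (1 : A) ⊗ₜ[F] ρ (a ⊗ₜ[F] c) =
          algebraMap A (A ⊗[F] K) (a - algebraMap F A (π0 a)) * (1 : A) ⊗ₜ[F] c := by
        rw [Algebra.TensorProduct.algebraMap_apply, Algebra.TensorProduct.tmul_mul_tmul]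
        simp [ρ, sub_tmul, Algebra.algebraMap_eq_smul_one, smul_tmul, Algebra.ofId_apply]
      rw [this]
      exact Ideal.mul_mem_right _ _ (Ideal.mem_map_of_mem _ (hπ0 a))
  have hker : M0 = RingHom.ker ρ := by
    refine le_antisymm (Ideal.map_le_iff_le_comap.mpr fun a ha => ?_) fun x hx => ?_
    · simp [ρ, RingHom.mem_ker, hπ1 a ha]
    · have := hρ x
      rwa [(RingHom.mem_ker).mp hx, tmul_zero, sub_zero] at this
  haveI : M0.IsMaximal := by
    rw [hker]
    exact RingHom.ker_isMaximal_of_surjective _ fun c => ⟨1 ⊗ₜ c, by simp [ρ]⟩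
  let T := Localization.AtPrime M0
  have hT : (maximalIdeal A).map (algebraMap A T) = maximalIdeal T := by
    rw [IsScalarTower.algebraMap_eq A (A ⊗[F] K) T, ← Ideal.map_map]
    exact Localization.AtPrime.map_eq_maximalIdeal
  have fg : (maximalIdeal T).FG := hT ▸ hfg.map _
  haveI := AdicCompletion.isLocalRing_of_fg fg
  let A' := AdicCompletion (maximalIdeal T) T
  have hc : IsAdicComplete (maximalIdeal A') A' := AdicCompletion.isAdicComplete_of_fg fg
  let j : A ⊗[F] K →+* A' := (algebraMap T A').comp (algebraMap (A ⊗[F] K) T)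
  letI : Algebra K A' :=
    (j.comp (Algebra.TensorProduct.includeRight (R := F) (A := A) (B := K)).toRingHom).toAlgebra
  have hj : ∀ c : K, algebraMap K A' c = j (1 ⊗ₜ c) := fun _ => rfl
  have hLP : LenPres ((algebraMap T A').comp (algebraMap A T)) := (LP_of_flat hT).comp (LP_compl fg)
  have hmA' : maximalIdeal A' = (maximalIdeal T).map (algebraMap T A') :=
    AdicCompletion.maximalIdeal_eq_map_of_fg fg
  have hK : Function.Surjective (algebraMap K (ResidueField A')) := fun z => by
    obtain ⟨x, rfl⟩ := residue_surjective z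
    obtain ⟨t, ht⟩ := compl_approx _ fg 1 x
    rw [pow_one, ← hmA'] at ht
    obtain ⟨y, hy⟩ := (IsLocalization.AtPrime.equivQuotMaximalIdeal M0 T).surjective
      (Ideal.Quotient.mk _ t)
    obtain ⟨y, rfl⟩ := Ideal.Quotient.mk_surjective y
    rw [IsLocalization.AtPrime.equivQuotMaximalIdeal_apply_mk, Ideal.Quotient.eq] at hy
    have h1 : j y - algebraMap T A' t ∈ maximalIdeal A' := by
      rw [hmA']
      simpa [j] using Ideal.mem_map_of_mem (algebraMap T A') hy
    have h2 : j (y - 1 ⊗ₜ ρ y) ∈ maximalIdeal A' := by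
      have := Ideal.mem_map_of_mem (algebraMap (A ⊗[F] K) T) (hρ y)
      rw [Localization.AtPrime.map_eq_maximalIdeal] at this
      exact hmA' ▸ Ideal.mem_map_of_mem (algebraMap T A') this
    refine ⟨ρ y, ?_⟩
    rw [IsScalarTower.algebraMap_apply K A', hj]
    refine (Ideal.Quotient.eq.mpr ?_).symm
    have := (maximalIdeal A').add_mem ((maximalIdeal A').sub_mem ht h1) h2
    rw [map_sub] at this
    convert this using 1
    ring
  refine ⟨A', inferInstance, inferInstance,
    isNoetherianRing_of_complete K A' (hmA' ▸ fg.map _) hK, inferInstance, _, hLP, hc, hK,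
    fun c => ?_, fun B _ _ _ _ g hg hgc => ?_⟩
  · rw [hj, RingHom.comp_apply, IsScalarTower.algebraMap_apply A (A ⊗[F] K) T]
    show j _ = _
    congr 1
    rw [Algebra.TensorProduct.algebraMap_apply]
    simp only [Algebra.algebraMap_eq_smul_one, smul_tmul, smul_eq_mul, mul_one]
  · letI : Algebra F B := ((algebraMap K B).comp (algebraMap F K)).toAlgebra
    let g0 : A ⊗[F] K →ₐ[F] B :=
      Algebra.TensorProduct.productMap ⟨g, hgc⟩ ⟨algebraMap K B, fun _ => rfl⟩
    have h0 : M0 ≤ (maximalIdeal B).comap g0 := Ideal.map_le_iff_le_comap.mpr fun a ha => by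
      simpa [g0] using hg (Ideal.mem_map_of_mem g ha)
    have h1 : M0 = (maximalIdeal B).comap g0 :=
      Ideal.IsMaximal.eq_of_le inferInstance (Ideal.comap_ne_top _ (Ideal.IsPrime.ne_top')) h0
    have hu : ∀ s : M0.primeCompl, IsUnit (g0.toRingHom s) := fun s => by
      have : (s : A ⊗[F] K) ∉ (maximalIdeal B).comap g0 := h1 ▸ s.2
      simpa using this
    let g1 : T →+* B := IsLocalization.lift hu
    obtain ⟨g', hg'⟩ := exists_lift_compl (maximalIdeal T) (maximalIdeal B) g1 (by
      rw [← Localization.AtPrime.map_eq_maximalIdeal, Ideal.map_le_iff_le_comap]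
      intro x hx
      simpa [g1] using h0 hx)
    refine ⟨g', fun a => ?_, fun c => ?_⟩
    · rw [RingHom.comp_apply, hg', IsScalarTower.algebraMap_apply A (A ⊗[F] K) T]
      simp [g1, g0]
    · rw [hj, RingHom.comp_apply, hg']
      simp [g1, g0]

end Vale.Agent.P202
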