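import Vale.Agent.P202.ModelA

/-! Job Model, tools: coefficient fields and freeness from lengths. -/

open IsLocalRing

universe u v

namespace Vale.Agent.P202

theorem exists_coeffM (k : Type*) (B : Type u) [Field k] [PerfectField k] [CommRing B]
    [IsLocalRing B] [Algebra k B] [IsAdicComplete (maximalIdeal B) B] :
    ∃ (K : Type u) (_ : Field K) (_ : Algebra K B) (_ : Algebra k K),
      (∀ c, algebraMap K B (algebraMap k K c) = algebraMap k B c) ∧
      Function.Surjective (algebraMap K (ResidueField B)) := by
  obtain ⟨ι, hι⟩ := exists_coeffField k B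
  exact ⟨ResidueField B, inferInstance, ι.toRingHom.toAlgebra, inferInstance, ι.commutes,
    fun a => ⟨a, hι a⟩⟩

theorem exists_gens_of_length {R M : Type*} [CommRing R] [AddCommGroup M] [Module R M] (n : ℕ) :
    ∀ N : Submodule R M, Module.length R (M ⧸ N) ≤ n →
      ∃ x : Fin n → M, N ⊔ Submodule.span R (Set.range x) = ⊤ := by
  induction n with
  | zero =>
    intro N hN
    rw [Nat.cast_zero, nonpos_iff_eq_zero, Module.length_eq_zero_iff,
      Submodule.Quotient.subsingleton_iff] at hN
    exact ⟨Fin.elim0, by simp [hN]⟩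
  | succ n ih =>
    intro N hN
    by_cases h : N = ⊤
    · exact ⟨0, by simp [h]⟩
    obtain ⟨y, -, hy⟩ := SetLike.exists_of_lt (lt_top_iff_ne_top.mpr h)
    have hlt : N < N ⊔ Submodule.span R {y} := lt_of_le_of_ne le_sup_left fun h' =>
      hy (h' ▸ Submodule.mem_sup_right (Submodule.mem_span_singleton_self y))
    have h1 := Order.coheight_add_one_le hlt
    rw [← Module.length_quotient, ← Module.length_quotient] at h1
    obtain ⟨x, hx⟩ := ih (N ⊔ Submodule.span R {y}) (by
      have h2 := h1.trans hN
      rw [Nat.cast_succ] at h2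
      exact (ENat.add_le_add_iff_right ENat.one_ne_top).mp h2)
    refine ⟨Fin.cons y x, ?_⟩
    rw [Fin.range_cons, Submodule.span_insert, ← sup_assoc, hx]

theorem mem_smul_top_pi {R : Type*} [CommRing R] {n : ℕ} (I : Ideal R) (x : Fin n → R) :
    x ∈ (I • ⊤ : Submodule R (Fin n → R)) ↔ ∀ i, x i ∈ I := by
  constructor
  · intro hx i
    refine Submodule.smul_induction_on (p := fun x : Fin n → R => x i ∈ I) hx
      (fun a ha y _ => I.mul_mem_right _ ha) fun y z hy hz => I.add_mem hy hz
  · intro hx
    rw [pi_eq_sum_univ' x]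
    exact Submodule.sum_mem _ fun i _ => Submodule.smul_mem_smul (hx i) Submodule.mem_top

theorem isPrecomplete_piM {R : Type*} [CommRing R] (I : Ideal R) [h : IsPrecomplete I R] (n : ℕ) :
    IsPrecomplete I (Fin n → R) := by
  refine ⟨fun f hf => ?_⟩
  have : ∀ i, ∃ L : R, ∀ N, f N i ≡ L [SMOD (I ^ N • ⊤ : Submodule R R)] := fun i =>
    h.prec (f := fun N => f N i) fun {m N} hle => by
      have := hf hle
      rw [SModEq.sub_mem, mem_smul_top_pi] at this
      simpa [SModEq.sub_mem] using this i
  choose L hL using this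
  refine ⟨L, fun N => ?_⟩
  rw [SModEq.sub_mem, mem_smul_top_pi]
  intro i
  simpa [SModEq.sub_mem] using hL i N

theorem free_of_lengths {R S : Type*} [CommRing R] [IsLocalRing R] [IsNoetherianRing R]
    [CommRing S] [IsLocalRing S] [IsNoetherianRing S] [Algebra R S] [IsLocalHom (algebraMap R S)]
    [IsAdicComplete (maximalIdeal R) R]
    (hres : ∀ b : S, ∃ a : R, residue S (algebraMap R S a) = residue S b) (lam : ℕ)
    (hlen : ∀ N : ℕ, Module.length S (S ⧸ (maximalIdeal R ^ N).map (algebraMap R S)) =
      Module.length R (R ⧸ maximalIdeal R ^ N) * lam) :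
    Module.Free R S ∧ Module.Finite R S := by
  have key : ∀ N : ℕ, Module.length R (S ⧸ (maximalIdeal R ^ N • ⊤ : Submodule R S)) =
      lam * Module.length R (R ⧸ maximalIdeal R ^ N) := fun N => by
    rw [Ideal.smul_top_eq_map, (Submodule.Quotient.restrictScalarsEquiv R _).length_eq,
      len_eq_of_res hres, hlen, mul_comm]
  obtain ⟨x, hx⟩ := exists_gens_of_length lam (maximalIdeal R • ⊤ : Submodule R S) (by
    have := key 1
    rw [pow_one, len_residue_one, mul_one] at this
    exact this.le)
  let π := Fintype.linearCombination R x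
  haveI := isPrecomplete_piM (maximalIdeal R) lam
  haveI : IsHausdorff (maximalIdeal R) S :=
    IsHausdorff.of_map (J := maximalIdeal S) (IsLocalRing.map_maximalIdeal_le _)
  have hsurj : Function.Surjective π := by
    refine surjective_of_mkQ_comp_surjective (I := maximalIdeal R) fun z => ?_
    obtain ⟨z, rfl⟩ := Submodule.mkQ_surjective _ z
    have hz : z ∈ (maximalIdeal R • ⊤ : Submodule R S) ⊔ Submodule.span R (Set.range x) := by
      rw [hx]; trivial
    obtain ⟨a, ha, b, hb, rfl⟩ := Submodule.mem_sup.mp hz
    rw [← Fintype.range_linearCombination] at hb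
    obtain ⟨c, rfl⟩ := hb
    refine ⟨c, ?_⟩
    simp [π, (Submodule.Quotient.mk_eq_zero _).mpr ha]
  have hinj : Function.Injective π := by
    rw [injective_iff_map_eq_zero]
    intro z hz
    refine IsHausdorff.haus' (I := maximalIdeal R) z fun N => ?_
    rw [SModEq.zero]
    by_contra hzN
    have hle : (maximalIdeal R ^ N • ⊤ : Submodule R (Fin lam → R)) ≤
        (maximalIdeal R ^ N • ⊤ : Submodule R S).comap π := by
      rw [← Submodule.map_le_iff_le_comap, Submodule.map_smul'']
      exact Submodule.smul_mono le_rfl le_top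
    have h1 := Order.coheight_add_one_le (lt_of_le_of_ne hle fun h => hzN (by
      rw [h, Submodule.mem_comap, hz]; exact Submodule.zero_mem _))
    rw [← Module.length_quotient, ← Module.length_quotient, len_free, ← key] at h1
    have h2 := Module.length_le_of_surjective
      (Submodule.mapQ _ (maximalIdeal R ^ N • ⊤ : Submodule R S) π le_rfl) fun w => by
        obtain ⟨w, rfl⟩ := Submodule.mkQ_surjective _ w
        obtain ⟨w, rfl⟩ := hsurj w
        exact ⟨Submodule.Quotient.mk w, rfl⟩
    have h3 : Module.length R (S ⧸ (maximalIdeal R ^ N • ⊤ : Submodule R S)) ≠ ⊤ := by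
      obtain ⟨h, y, hy⟩ := Submodule.fg_iff_exists_fin_generating_family.mp
        (maximalIdeal R).fg_of_isNoetherianRing
      rw [key]
      refine WithTop.mul_ne_top (ENat.coe_ne_top _) (ne_top_of_le_ne_top (ENat.coe_ne_top _)
        ((len_quot_anti (Ideal.pow_le_pow_right N.le_succ)).trans
          (length_quot_pow_leL y hy.symm N)))
    exact absurd ((add_le_add h2 le_rfl).trans h1) (by
      rw [not_le]; exact (ENat.lt_add_one_iff h3).mpr le_rfl)
  let e := LinearEquiv.ofBijective π ⟨hinj, hsurj⟩
  exact ⟨Module.Free.of_equiv e, Module.Finite.equiv e⟩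

end Vale.Agent.P202
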