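import Vale.Agent.P202.TKb
import Vale.Agent.P202.Frob
import Vale.Agent.P202.JFlat

/-! Pushouts and rank comparison. -/

open Matrix IsLocalRing Function
open scoped nonZeroDivisors

namespace Vale.Agent.P202

universe u v in
open scoped TensorProduct in
lemma exists_po (P : Type*) (R : Type u) (B : Type v) [CommRing P] [CommRing R] [CommRing B]
    [Algebra P R] [Algebra P B] : ∃ (T : Type (max u v)) (_ : CommRing T) (_ : Algebra P T)
      (_ : Algebra R T) (_ : Algebra B T) (_ : IsScalarTower P R T) (_ : IsScalarTower P B T),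
      Algebra.IsPushout P R B T := by
  let _ : Algebra B (R ⊗[P] B) := Algebra.TensorProduct.rightAlgebra
  exact ⟨R ⊗[P] B, _, _, _, _, inferInstance, Algebra.TensorProduct.right_isScalarTower,
    TensorProduct.isPushout⟩

section po
variable {P R B T : Type*} [CommRing P] [CommRing R] [CommRing B] [CommRing T] [Algebra P R]
  [Algebra P B] [Algebra P T] [Algebra R T] [Algebra B T] [IsScalarTower P R T]
  [IsScalarTower P B T] (h : Algebra.IsPushout P R B T)
include h

omit h in
lemma po_comm (f : P) : algebraMap R T (algebraMap P R f) = algebraMap B T (algebraMap P B f) := by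
  rw [← IsScalarTower.algebraMap_apply, ← IsScalarTower.algebraMap_apply]

lemma po_lift {X : Type*} [CommRing X] (f : R →+* X) (g : B →+* X)
    (hfg : ∀ p, f (algebraMap P R p) = g (algebraMap P B p)) :
    ∃ θ : T →+* X, (∀ r, θ (algebraMap R T r) = f r) ∧ ∀ b, θ (algebraMap B T b) = g b := by
  let _ : Algebra P X := (f.comp (algebraMap P R)).toAlgebra
  let f' : R →ₐ[P] X := { f with commutes' := fun _ => rfl }
  let g' : B →ₐ[P] X := { g with commutes' := fun p => (hfg p).symm }
  exact ⟨(Algebra.pushoutDesc T f' g' fun _ _ => mul_comm _ _).toRingHom,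
    Algebra.pushoutDesc_left T f' g' _, Algebra.pushoutDesc_right T f' g' _⟩

lemma po_ind (Q : T → Prop) (h0 : Q 0) (h1 : ∀ r b, Q (algebraMap B T b * algebraMap R T r))
    (h2 : ∀ x y, Q x → Q y → Q (x + y)) (t : T) : Q t := by
  obtain ⟨x, rfl⟩ := (Algebra.IsPushout.equiv P R B T).surjective t
  induction x with
  | zero => rwa [map_zero]
  | tmul r b => rw [Algebra.IsPushout.equiv_tmul, mul_comm]; exact h1 r b
  | add x y hx hy => rw [map_add]; exact h2 _ _ hx hy

lemma po_ext {X : Type*} [CommRing X] {f g : T →+* X}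
    (h1 : ∀ r, f (algebraMap R T r) = g (algebraMap R T r))
    (h2 : ∀ b, f (algebraMap B T b) = g (algebraMap B T b)) : f = g :=
  RingHom.ext <| po_ind h (fun t => f t = g t) (by simp) (fun r b => by simp [h1, h2])
    fun x y hx hy => by simp [hx, hy]

lemma po_flat [Module.Flat P B] : Module.Flat R T := Module.Flat.isBaseChange P R B T h.out

lemma po_span {α : Type*} (x : α → R) (hx : Submodule.span P (Set.range x) = ⊤) :
    Submodule.span B (Set.range fun i => algebraMap R T (x i)) = ⊤ := by
  rw [eq_top_iff]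
  intro t _
  refine po_ind h (· ∈ Submodule.span B (Set.range fun i => algebraMap R T (x i))) (zero_mem _)
    (fun r b => ?_) (fun _ _ => add_mem) t
  rw [← Algebra.smul_def]
  refine Submodule.smul_mem _ _ ?_
  refine Submodule.span_induction (p := fun r _ => algebraMap R T r ∈
    Submodule.span B (Set.range fun i => algebraMap R T (x i))) ?_ ?_ ?_ ?_
    (hx.ge (Submodule.mem_top : r ∈ _))
  · rintro _ ⟨i, rfl⟩; exact Submodule.subset_span ⟨i, rfl⟩
  · simp
  · intro x y _ _ hx hy; rw [map_add]; exact add_mem hx hy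
  · intro a x _ hx
    rw [Algebra.smul_def, map_mul, po_comm (B := B), ← Algebra.smul_def]
    exact Submodule.smul_mem _ _ hx

lemma po_finite [Module.Finite P R] : Module.Finite B T := by
  obtain ⟨m, x, hx⟩ := Module.Finite.exists_fin (R := P) (M := R)
  exact ⟨po_span h x hx ▸ Submodule.fg_span (Set.finite_range _)⟩

lemma po_gen {R' T' : Type*} [CommRing R'] [CommRing T'] [Algebra P R'] [Algebra B T']
    (π : R →ₐ[P] R') (hπ : Function.Surjective π) (θ : T →ₐ[B] T') (hθ : Function.Surjective θ)
    (hk : RingHom.ker θ = (RingHom.ker π).map (algebraMap R T)) {e : ℕ} {g : P} (G : Gen P R' e g) :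
    Nonempty (Gen B T' e (algebraMap P B g)) := by
  have hb := h.symm.out
  let c : (Fin e → P) →ₗ[P] (Fin e → B) := (Algebra.linearMap P B).compLeft (Fin e)
  let α₀ : T →ₗ[B] (Fin e → B) := hb.lift (c ∘ₗ G.α ∘ₗ π.toLinearMap)
  have hα₀ : ∀ r, α₀ (algebraMap R T r) = c (G.α (π r)) := fun r => hb.lift_eq _ r
  have hker : LinearMap.ker θ.toLinearMap ≤ LinearMap.ker α₀ := by
    intro x hx
    have hx' : x ∈ (RingHom.ker π).map (algebraMap R T) := hk ▸ hx
    have : ∀ t, α₀ (t * x) = 0 := by
      refine Submodule.span_induction (p := fun x _ => ∀ t, α₀ (t * x) = 0) ?_ ?_ ?_ ?_ hx'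
      · rintro _ ⟨r, hr, rfl⟩ t
        refine po_ind h (fun t => α₀ (t * algebraMap R T r) = 0) (by simp) (fun r' b => ?_)
          (fun x y hx hy => by simp only [add_mul, map_add, hx, hy, add_zero]) t
        have hr' : π r = 0 := hr
        simp only [mul_assoc, ← map_mul]
        rw [← Algebra.smul_def, map_smul, hα₀, map_mul, hr']
        simp
      · simp
      · intro x y _ _ hx hy t; rw [mul_add, map_add, hx, hy, add_zero]
      · intro a x _ hx t; rw [smul_eq_mul, ← mul_assoc, hx]
    simpa using this 1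
  let α : T' →ₗ[B] (Fin e → B) := ((LinearMap.ker θ.toLinearMap).liftQ α₀ hker) ∘ₗ
    (θ.toLinearMap.quotKerEquivOfSurjective hθ).symm.toLinearMap
  have hα : ∀ t, α (θ t) = α₀ t := fun t => by
    have := θ.toLinearMap.quotKerEquivOfSurjective_symm_apply hθ t
    simp only [α, LinearMap.comp_apply, LinearEquiv.coe_coe]
    erw [this]
    rfl
  choose ρ hρ using fun l => hπ (G.β (Pi.single l 1))
  let β : (Fin e → B) →ₗ[B] T' := Fintype.linearCombination B fun l => θ (algebraMap R T (ρ l))
  have hβ : ∀ v r, π r = G.β v → β (c v) = θ (algebraMap R T r) := by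
    intro v r hr
    have h1 : r - ∑ l, v l • ρ l ∈ RingHom.ker π := by
      rw [RingHom.mem_ker, map_sub, hr, map_sum, sub_eq_zero]
      conv_lhs => rw [pi_eq_sum_univ' v]
      simp [hρ]
    have h2 := Ideal.mem_map_of_mem (algebraMap R T) h1
    rw [← hk, RingHom.mem_ker, map_sub, map_sub, sub_eq_zero] at h2
    rw [h2]
    simp [β, c, Fintype.linearCombination_apply, Algebra.smul_def, po_comm (B := B)]
  refine ⟨α, β, fun t => ?_, fun v => ?_⟩
  · obtain ⟨t, rfl⟩ := hθ t
    rw [hα]
    refine po_ind h (fun t => β (α₀ t) = algebraMap P B g • θ t) (by simp) (fun r b => ?_)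
      (fun x y hx hy => by simp only [map_add, hx, hy, smul_add]) t
    rw [← Algebra.smul_def, map_smul, map_smul, map_smul, hα₀, hβ _ (g • r) (by
      rw [G.βα, map_smul]), smul_comm, Algebra.smul_def g, map_mul, po_comm (B := B), map_mul,
      AlgHom.commutes, ← Algebra.smul_def]
  · rw [pi_eq_sum_univ' v]
    simp only [map_sum, map_smul, Finset.smul_sum]
    refine Finset.sum_congr rfl fun l _ => ?_
    rw [smul_comm]
    congr 1
    simp only [β, Fintype.linearCombination_apply_single, one_smul, hα, hα₀, hρ, G.αβ]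
    ext i
    by_cases hi : i = l <;> simp [c, hi]

end po

lemma Gen.le_finrank {P R : Type*} [CommRing P] [IsDomain P] [CommRing R] [Algebra P R]
    [Module.Finite P R] {e : ℕ} {g : P} (G : Gen P R e g) (hg : g ≠ 0) :
    e ≤ Module.finrank P R := by
  have := LinearMap.finrank_le_finrank_of_injective (f := G.β) (by
    rw [injective_iff_map_eq_zero]
    intro v hv
    have := G.αβ v
    rw [hv, map_zero] at this
    exact (smul_eq_zero.mp this.symm).resolve_left hg)
  simpa using this

lemma map_le_jacobson {A T : Type*} [CommRing A] [IsLocalRing A] [CommRing T] [Algebra A T]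
    [Module.Finite A T] {t : T} {n : ℕ} (h : t ^ n ∈ (maximalIdeal A).map (algebraMap A T)) :
    t ∈ Ideal.jacobson (⊥ : Ideal T) := by
  rw [Ideal.jacobson, Submodule.mem_sInf]
  rintro M ⟨-, hM⟩
  have := Ideal.isMaximal_comap_of_isIntegral_of_isMaximal (R := A) M
  exact hM.isPrime.mem_of_pow_mem n
    (Ideal.map_le_iff_le_comap.mpr (eq_maximalIdeal this).ge h)

lemma gen_Phi {Q S X β : Type*} [CommRing Q] [CommRing S] [CommRing X] [Algebra Q S] [Algebra Q X]
    [Fintype β] (ψ : S →+* X) (hψ : ∀ a, algebraMap Q X a = ψ (algebraMap Q S a)) (u : β → X) :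
    ∃ Φ : (Fin (Fintype.card β) → S) →ₗ[Q] X, ∀ c : β → S,
      ∑ k, ψ (c k) * u k ∈ LinearMap.range Φ := by
  let ε := Fintype.equivFin β
  refine ⟨{ toFun v := ∑ k, ψ (v (ε k)) * u k
            map_add' v v' := by simp [add_mul, Finset.sum_add_distrib]
            map_smul' a v := by simp [Algebra.smul_def, hψ, Finset.mul_sum, mul_assoc] },
    fun c => ⟨fun k => c (ε.symm k), by simp⟩⟩

lemma finite_of_gen {Q S X β : Type*} [CommRing Q] [CommRing S] [CommRing X] [Algebra Q S]
    [Algebra Q X] [Fintype β] [Module.Finite Q S] (ψ : S →+* X)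
    (hψ : ∀ a, algebraMap Q X a = ψ (algebraMap Q S a)) (u : β → X)
    (hu : ∀ x, ∃ c : β → S, x = ∑ k, ψ (c k) * u k) : Module.Finite Q X := by
  obtain ⟨Φ, h⟩ := gen_Phi ψ hψ u
  exact Module.Finite.of_surjective Φ fun x => by obtain ⟨c, rfl⟩ := hu x; exact h c

lemma finrank_le_of_gen {Q S X β : Type*} [CommRing Q] [IsDomain Q] [CommRing S] [CommRing X]
    [Algebra Q S] [Algebra Q X] [Fintype β] [Module.Finite Q S] [Module.Finite Q X] (ψ : S →+* X)
    (hψ : ∀ a, algebraMap Q X a = ψ (algebraMap Q S a)) (u : β → X) {δ : Q} (hδ : δ ≠ 0)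
    (hu : ∀ x, ∃ c : β → S, δ • x = ∑ k, ψ (c k) * u k) :
    Module.finrank Q X ≤ Fintype.card β * Module.finrank Q S := by
  obtain ⟨Φ, h⟩ := gen_Phi ψ hψ u
  refine (finrank_le_of_smul Φ hδ fun x => ?_).trans (finrank_fun_le _)
  obtain ⟨c, hc⟩ := hu x
  exact hc ▸ h c

lemma exists_colon_prime {U : Type*} [CommRing U] [IsNoetherianRing U] {I : Ideal U} (hI : I ≠ ⊤) :
    ∃ w, (I.colon {w}).IsPrime ∧ I < I ⊔ Ideal.span {w} := by
  have : Nontrivial (U ⧸ I) := Ideal.Quotient.nontrivial_iff.mpr hI
  obtain ⟨Q, hQ⟩ := associatedPrimes.nonempty U (U ⧸ I)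
  obtain ⟨hQ, w, rfl⟩ := isAssociatedPrime_iff.mp hQ
  obtain ⟨w, rfl⟩ := Ideal.Quotient.mk_surjective w
  have e1 : (⊥ : Submodule U (U ⧸ I)).colon {Ideal.Quotient.mk I w} = I.colon {w} := by
    ext r
    rw [Submodule.mem_colon_singleton, Submodule.mem_colon_singleton, Submodule.mem_bot,
      ← Ideal.Quotient.eq_zero_iff_mem]
    rfl
  rw [e1] at hQ
  refine ⟨w, hQ, left_lt_sup.mpr fun h => hQ.ne_top ?_⟩
  rw [Ideal.eq_top_iff_one, Submodule.mem_colon_singleton, one_smul]
  exact h (Ideal.mem_span_singleton_self w)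

lemma finrank_eq_zero_of_not_inj {A T : Type*} [CommRing A] [IsDomain A] [CommRing T] [Algebra A T]
    [Module.Finite A T] (h : ¬ Function.Injective (algebraMap A T)) : Module.finrank A T = 0 := by
  rw [injective_iff_map_eq_zero] at h
  push Not at h
  obtain ⟨f, h1, h2⟩ := h
  exact Module.finrank_eq_zero_iff.mpr fun y => ⟨f, h2, by rw [Algebra.smul_def, h1, zero_mul]⟩

theorem rank_induction {A U W Q : Type*} [CommRing A] [IsDomain A] [CommRing U] [Algebra A U]
    [Module.Finite A U] [IsNoetherianRing U] [CommRing W] [Algebra U W] [CommRing Q] [IsDomain Q]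
    [Algebra Q W] [Module.Finite Q W] (x y : ℕ)
    (hcol : ∀ (I : Ideal U) (w : U), ∃ δ : Q, δ ≠ 0 ∧ ∀ t : W,
      algebraMap U W w * t ∈ I.map (algebraMap U W) →
      δ • t ∈ Ideal.map (algebraMap U W) (I.colon {w}))
    (hp : ∀ I : Ideal U, I.IsPrime → Function.Injective (algebraMap A (U ⧸ I)) →
      Module.finrank A (U ⧸ I) * x ≤ y * Module.finrank Q (W ⧸ I.map (algebraMap U W))) :
    Module.finrank A U * x ≤ y * Module.finrank Q W := by
  have hall : ∀ I : Ideal U, Module.finrank A (U ⧸ I) * x ≤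
      y * Module.finrank Q (W ⧸ I.map (algebraMap U W)) := by
    intro I
    induction I using IsNoetherian.induction with
    | hgt I ih =>
      by_cases hI : I = ⊤
      · subst hI
        rw [Module.finrank_zero_of_subsingleton, zero_mul]
        exact Nat.zero_le _
      obtain ⟨w, h1, h2⟩ := exists_colon_prime hI
      obtain ⟨δ, hδ, h3⟩ := hcol I w
      rw [finrank_colon _ I w, finrank_colon _ (Ideal.map _ I) (algebraMap U W w),
        ← Set.image_singleton (a := w), ← Ideal.map_span, ← Ideal.map_sup, add_mul, mul_add]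
      refine add_le_add ?_ (ih _ h2)
      by_cases hinj : Function.Injective (algebraMap A (U ⧸ I.colon {w}))
      swap
      · rw [finrank_eq_zero_of_not_inj hinj, zero_mul]; exact Nat.zero_le _
      refine (hp _ h1 hinj).trans (Nat.mul_le_mul_left _ ?_)
      refine finrank_le_of_smul ((Submodule.mapQ _ (Ideal.map (algebraMap U W) (I.colon {w}))
        (algebraMap Q W δ • LinearMap.id) fun t ht => ?_).restrictScalars Q) hδ fun t => ?_
      · have := h3 t (by
          rw [Set.image_singleton, Submodule.mem_colon_singleton, smul_eq_mul, mul_comm] at ht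
          exact ht)
        simpa [Algebra.smul_def] using this
      · obtain ⟨t, rfl⟩ := Submodule.Quotient.mk_surjective _ t
        refine ⟨Submodule.Quotient.mk t, ?_⟩
        rw [LinearMap.restrictScalars_apply, Submodule.mapQ_apply, ← Submodule.Quotient.mk_smul]
        simp
  have := hall ⊥
  rwa [Ideal.map_bot, (AlgEquiv.quotientBot A U).toLinearEquiv.finrank_eq,
    (AlgEquiv.quotientBot Q W).toLinearEquiv.finrank_eq] at this

end Vale.Agent.P202
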