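import Vale.Agent.P202.Push

/-! The rank of the Frobenius pull-back over a Cohen factorization. -/

open Matrix IsLocalRing Function
open scoped nonZeroDivisors

namespace Vale.Agent.P202

lemma exists_desc {T S X : Type*} [CommRing T] [CommRing S] [CommRing X] (π : T →+* S)
    (hπ : Surjective π) (θ : T →+* X) (h : ∀ t, π t = 0 → θ t = 0) :
    ∃ ψ : S →+* X, ∀ t, ψ (π t) = θ t :=
  ⟨π.liftOfSurjective hπ ⟨θ, h⟩, π.liftOfSurjective_comp_apply hπ ⟨θ, h⟩⟩

lemma exists_dvd_of_flat {R S Q : Type*} [CommRing R] [IsDomain R] [CommRing S] [Algebra R S]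
    [Module.Flat R S] [CommRing Q] [Nontrivial Q] [Algebra Q S] [Module.Finite Q S] {r : R}
    (hr : r ≠ 0) : ∃ δ : Q, δ ≠ 0 ∧ algebraMap R S r ∣ algebraMap Q S δ := by
  refine (Algebra.IsIntegral.isIntegral (R := Q) _).isAlgebraic.exists_nonzero_dvd
    (mem_nonZeroDivisors_iff_left.mpr fun s hs => ?_)
  have := colon_of_flat ⊥ r s (by rw [hs]; exact zero_mem _)
  have e : (⊥ : Ideal R).colon {r} = ⊥ := by
    ext x; simp [Submodule.mem_colon_singleton, hr]
  simpa [e] using this

lemma finrank_pos_of_inj' {A T : Type*} [CommRing A] [IsDomain A] [CommRing T] [Algebra A T]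
    [Module.Finite A T] (h : Function.Injective (algebraMap A T)) : 0 < Module.finrank A T := by
  by_contra h0
  obtain ⟨a, ha, h1⟩ := (Module.finrank_eq_zero_iff (R := A) (M := T)).mp (by omega) 1
  rw [Algebra.smul_def, mul_one, map_eq_zero_iff _ h] at h1
  exact ha h1

lemma torV {d s : ℕ} {l A U V ι : Type*} [Field l] [CommRing A] [IsDomain A] [CommRing U]
    [Algebra A U] [Module.Finite A U] [Algebra A (PS (s + d) l)] [CommRing V] [Algebra A V]
    [Algebra U V] [Algebra (PS (s + d) l) V] [IsScalarTower A U V]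
    [IsScalarTower A (PS (s + d) l) V] (hV : Algebra.IsPushout A U (PS (s + d) l) V)
    [Fintype ι] [DecidableEq ι] {J : Ideal V} (F : Rs V s J ι) (z : Fin d → V)
    {a c : ℕ} (ht : ∀ i, algebraMap (PS (s + d) l) V (MvPowerSeries.X i ^ a) ∈
      J ⊔ Ideal.span (Set.range z))
    (hz : ∀ i, z i ^ c ∈ (maximalIdeal (PS (s + d) l)).map (algebraMap _ V)) (I : Ideal U) :
    ∃ g : A, g ≠ 0 ∧ ∀ j ∈ J, j ∈ I.map (algebraMap U V) →
      algebraMap U V (algebraMap A U g) ^ (s + d) * j ∈ I.map (algebraMap U V) * J := by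
  have := po_finite hV
  obtain ⟨g₁, hg₁, ⟨G₁⟩⟩ := exists_gen A (U ⧸ I)
  obtain ⟨G₂⟩ := po_gen hV (Ideal.Quotient.mkₐ A I) Ideal.Quotient.mk_surjective
    (Ideal.Quotient.mkₐ _ (I.map (algebraMap U V))) Ideal.Quotient.mk_surjective
    (Ideal.mk_ker.trans (congrArg (Ideal.map (algebraMap U V)) Ideal.mk_ker.symm)) G₁
  generalize I.map (algebraMap U V) = K at G₂ ⊢
  have : IsNoetherianRing V := IsNoetherianRing.of_finite (PS (s + d) l) V
  refine ⟨g₁, hg₁, fun j hj hj' => ?_⟩
  have h1 := torT (a := a) F (Ideal.Quotient.mk K) Ideal.Quotient.mk_surjective G₂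
    (fun i => Ideal.Quotient.mk K (z i)) (fun i => by
      have := Ideal.mem_map_of_mem (Ideal.Quotient.mk K) (ht i)
      rwa [Ideal.map_sup, Ideal.map_span, ← Set.range_comp, Ideal.Quotient.mk_algebraMap] at this)
    (fun i => map_le_jacobson (A := PS (s + d) l) (n := c) (by
      have := Ideal.mem_map_of_mem (Ideal.Quotient.mk K) (hz i)
      rwa [map_pow, Ideal.map_map, Ideal.Quotient.mk_comp_algebraMap] at this))
    (algebraMap U V (algebraMap A U g₁))
    (by rw [po_comm (B := PS (s + d) l), Ideal.Quotient.mk_algebraMap]) hj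
    (Ideal.Quotient.eq_zero_iff_mem.mpr hj')
  rwa [Ideal.mk_ker] at h1

lemma colT {A U V Q : Type*} [CommRing A] [CommRing U] [Algebra A U] [CommRing V] [Algebra U V]
    [Module.Flat U V] {J : Ideal V} {N : ℕ}
    (htor : ∀ I : Ideal U, ∃ g : A, g ≠ 0 ∧ ∀ j ∈ J, j ∈ I.map (algebraMap U V) →
      algebraMap U V (algebraMap A U g) ^ N * j ∈ I.map (algebraMap U V) * J)
    [CommRing Q] [Algebra Q (V ⧸ J)]
    (hNZ : ∀ g : A, g ≠ 0 → ∃ δ : Q, δ ≠ 0 ∧ Ideal.Quotient.mk J
      (algebraMap U V (algebraMap A U g) ^ N) ∣ algebraMap Q _ δ) (I : Ideal U) (w : U) :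
    ∃ δ : Q, δ ≠ 0 ∧ ∀ t : V ⧸ J, algebraMap U (V ⧸ J) w * t ∈ I.map (algebraMap U (V ⧸ J)) →
      δ • t ∈ Ideal.map (algebraMap U (V ⧸ J)) (I.colon {w}) := by
  obtain ⟨g₁, hg₁, h0⟩ := htor (I ⊔ Ideal.span {w})
  obtain ⟨δ, hδ, t₀, ht₀⟩ := hNZ g₁ hg₁
  refine ⟨δ, hδ, fun x hx => ?_⟩
  obtain ⟨x, rfl⟩ := Ideal.Quotient.mk_surjective x
  rw [← Ideal.Quotient.mk_comp_algebraMap, ← Ideal.map_map, RingHom.comp_apply, ← map_mul,
    Ideal.mem_quotient_iff_mem_sup] at hx
  obtain ⟨i, hi, j, hj, hij⟩ := Submodule.mem_sup.mp hx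
  have h1 := h0 j hj (by
      rw [show j = algebraMap U V w * x - i by rw [← hij]; ring]
      exact sub_mem (Ideal.mul_mem_right _ _ (Ideal.mem_map_of_mem _
        (Ideal.mem_sup_right (Ideal.mem_span_singleton_self w)))) (Ideal.map_mono le_sup_left hi))
  generalize algebraMap U V (algebraMap A U g₁) ^ N = γ at h1 ht₀
  rw [Ideal.map_sup, Ideal.map_span, Set.image_singleton, Ideal.sup_mul] at h1
  obtain ⟨i', hi', j', hj', hij'⟩ := Submodule.mem_sup.mp h1
  obtain ⟨j'', hj'', rfl⟩ := Ideal.mem_span_singleton_mul.mp hj'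
  have h2 := colon_of_flat I w (γ * x - j'') (by
    rw [show algebraMap U V w * (γ * x - j'') = γ * i + i' by
      linear_combination (-γ) * hij - hij']
    exact add_mem (Ideal.mul_mem_left _ _ hi) (Ideal.mul_le_left hi'))
  have h3 : Ideal.Quotient.mk J (γ * x) ∈ Ideal.map (algebraMap U (V ⧸ J)) (I.colon {w}) := by
    rw [← Ideal.Quotient.mk_comp_algebraMap, ← Ideal.map_map, Ideal.mem_quotient_iff_mem_sup,
      ← sub_add_cancel (γ * x) j'']
    exact Submodule.add_mem_sup h2 hj''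
  rw [Algebra.smul_def, ht₀, mul_right_comm, ← map_mul]
  exact Ideal.mul_mem_right _ _ h3

lemma primeT {P A R U : Type*} [CommRing P] [IsDomain P] [CommRing A] [CommRing R] [IsDomain R]
    [CommRing U] [Algebra P R] [Module.Finite P R] [Algebra P A] [Algebra P U] [Algebra R U]
    [Algebra A U] [IsScalarTower P R U] [IsScalarTower P A U] (hPA : Injective (algebraMap P A))
    (κ : U →+* R) {q : ℕ} (hq : q ≠ 0) (hU1 : ∀ u, algebraMap R U (κ u) = u ^ q) (I : Ideal U)
    (hI : I.IsPrime) (hinj : Injective (algebraMap A (U ⧸ I))) : I = RingHom.ker κ := by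
  ext u
  constructor
  · intro hu
    have h1 : I.comap (algebraMap R U) = ⊥ := by
      refine Ideal.eq_bot_of_comap_eq_bot (R := P) (eq_bot_iff.mpr fun f hf => ?_)
      rw [Ideal.mem_comap, Ideal.mem_comap, po_comm (B := A),
        ← Ideal.Quotient.eq_zero_iff_mem] at hf
      exact (injective_iff_map_eq_zero _).mp hPA _ ((injective_iff_map_eq_zero _).mp hinj _ hf)
    have h2 : κ u ∈ I.comap (algebraMap R U) := by
      rw [Ideal.mem_comap, hU1]
      exact Ideal.pow_mem_of_mem _ hu _ (Nat.pos_of_ne_zero hq)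
    rwa [h1] at h2
  · intro hu
    refine hI.mem_of_pow_mem q ?_
    rw [← hU1, show κ u = 0 from hu, map_zero]
    exact zero_mem _

lemma genD {P A R D : Type*} [CommRing P] [IsDomain P] [CommRing A] [IsDomain A] (ε : A ≃+* P)
    [CommRing R] [Algebra P R] [Module.Finite P R] [CommRing D] [IsDomain D] [Algebra A D]
    [Module.Finite A D] (hf0 : 0 < Module.finrank A D) (ρ : D →+* R)
    (hρA : ∀ f, ρ (algebraMap A D (ε.symm f)) = algebraMap P R f) :
    ∃ M, M * Module.finrank A D ≤ Module.finrank P R ∧ ∃ (u : Fin M → R) (γ : D), γ ≠ 0 ∧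
      ∀ r, ∃ c : Fin M → D, ρ γ * r = ∑ k, ρ (c k) * u k := by
  obtain ⟨m, x, hx⟩ := Module.Finite.exists_fin (R := P) (M := R)
  simp only [← Nat.le_div_iff_mul_le hf0]
  refine exists_gen_basis ρ x (fun r => ?_) _ fun M u hu => ?_
  · obtain ⟨f, rfl⟩ := (Submodule.mem_span_range_iff_exists_fun _).mp
      (hx.ge (Submodule.mem_top : r ∈ _))
    exact ⟨fun k => algebraMap A _ (ε.symm (f k)), by simp [hρA, Algebra.smul_def]⟩
  obtain ⟨β, hβ⟩ := exists_linearIndependent_of_le_finrank (R := A) (M := D) le_rfl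
  rw [Nat.le_div_iff_mul_le hf0]
  have : LinearIndependent P fun k : Fin M × Fin (Module.finrank A D) =>
      ρ (β k.2) * u k.1 := by
    rw [Fintype.linearIndependent_iff]
    rintro c hc ⟨k, i⟩
    have h1 := hu (fun k => ∑ i, ε.symm (c (k, i)) • β i) (by
      rw [← hc, Fintype.sum_prod_type]
      simp [Algebra.smul_def, hρA, Finset.sum_mul, mul_assoc]) k
    simpa using Fintype.linearIndependent_iff.mp hβ _ h1 i
  simpa using this.fintype_card_le_finrank

lemma genV {A B P R U V T β : Type*} [CommRing A] [CommRing B] [CommRing P] [CommRing R]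
    [CommRing U] [CommRing V] [CommRing T] [Fintype β] [Algebra P R] [Algebra P A] [Algebra P U]
    [Algebra R U] [Algebra A U] [IsScalarTower P R U] [IsScalarTower P A U]
    (hU : Algebra.IsPushout P R A U) [Algebra A B] [Algebra A V] [Algebra U V] [Algebra B V]
    [IsScalarTower A U V] [IsScalarTower A B V] (hV : Algebra.IsPushout A U B V)
    [Algebra R T] [Algebra B T] (θ : T →+* V) {q : ℕ}
    (hθR : ∀ r, θ (algebraMap R T r) = algebraMap U V (algebraMap R U r))
    (hθB : ∀ b, θ (algebraMap B T b) = algebraMap B V (b ^ q)) (v : β → B)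
    (hv : ∀ f, ∃ c : β → B, f = ∑ i, c i ^ q * v i) (x : V) :
    ∃ c : β → T, x = ∑ k, θ (c k) * algebraMap B V (v k) := by
  have hadd : ∀ x y : V, (∃ c : β → T, x = ∑ k, θ (c k) * algebraMap B V (v k)) →
      (∃ c : β → T, y = ∑ k, θ (c k) * algebraMap B V (v k)) →
      ∃ c : β → T, x + y = ∑ k, θ (c k) * algebraMap B V (v k) := by
    rintro x y ⟨c, hc⟩ ⟨c', hc'⟩
    exact ⟨c + c', by simp [hc, hc', add_mul, Finset.sum_add_distrib]⟩
  refine po_ind hV _ ⟨0, by simp⟩ (fun u b => ?_) hadd x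
  refine po_ind hU (fun u => ∃ c : β → T, algebraMap B V b * algebraMap U V u =
    ∑ k, θ (c k) * algebraMap B V (v k)) ⟨0, by simp⟩ (fun r a => ?_)
    (fun x y hx hy => by rw [map_add, mul_add]; exact hadd _ _ hx hy) u
  obtain ⟨c, hc⟩ := hv (b * algebraMap A _ a)
  refine ⟨fun k => algebraMap _ T (c k) * algebraMap R T r, ?_⟩
  rw [map_mul (algebraMap U V), po_comm (B := B), ← mul_assoc, ← map_mul, hc, map_sum,
    Finset.sum_mul]
  refine Finset.sum_congr rfl fun k _ => ?_
  rw [map_mul θ, hθB, hθR, map_mul]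
  ring

lemma rankX {P R B T U V S X Q : Type*} [CommRing P] [CommRing R] [IsDomain R] [CommRing B]
    [CommRing T] [Algebra P R] [Algebra P B] [Algebra P T] [Algebra R T] [Algebra B T]
    [IsScalarTower P R T] [IsScalarTower P B T] (h : Algebra.IsPushout P R B T) [CommRing U]
    [CommRing V] [Algebra U V] [Algebra B V] (κU : U →+* R) (κ : V →+* T)
    (hκU : ∀ u, κ (algebraMap U V u) = algebraMap R T (κU u))
    (hκB : ∀ b, κ (algebraMap B V b) = algebraMap B T b) (θ : T →+* V) {q : ℕ} (hq : q ≠ 0)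
    (hκθ : ∀ t, κ (θ t) = t ^ q) [CommRing S] [Algebra R S] [Module.Flat R S]
    (π : T →+* S) (hπ : Surjective π) (hπR : ∀ r, π (algebraMap R T r) = algebraMap R S r)
    [CommRing Q] [IsDomain Q] [Algebra Q S] [Module.Finite Q S]
    [CommRing X] [Algebra Q X] (mk : T →+* X) (hmk : Surjective mk) (ψ : S →+* X)
    (hψ : ∀ t, ψ (π t) = mk (t ^ q)) (hQ : ∀ a, algebraMap Q X a = ψ (algebraMap Q S a))
    [Module.Finite Q X] {J : Ideal V} (hJ : J = (RingHom.ker π).map θ) [Algebra Q (V ⧸ J)]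
    [Module.Finite Q (V ⧸ J)] (ψW : S →+* V ⧸ J) (hψW : ∀ t, ψW (π t) = Ideal.Quotient.mk J (θ t))
    (hQW : ∀ a, algebraMap Q (V ⧸ J) a = ψW (algebraMap Q S a))
    {M : ℕ} (u : Fin M → R) (γ : R) (hγ : γ ≠ 0)
    (hu : ∀ r, ∃ c : Fin M → U, γ * r = ∑ k, κU (c k) * u k) :
    Module.finrank Q X ≤ M * Module.finrank Q
      ((V ⧸ J) ⧸ Ideal.map (algebraMap U (V ⧸ J)) (RingHom.ker κU)) := by
  obtain ⟨δ, hδ, t₀, ht₀⟩ := exists_dvd_of_flat (S := S) (Q := Q) hγ
  obtain ⟨ψ₁, hψ₁⟩ := exists_desc ((Ideal.Quotient.mk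
    (Ideal.map (algebraMap U (V ⧸ J)) (RingHom.ker κU))).comp
    (Ideal.Quotient.mk J)) (Ideal.Quotient.mk_surjective.comp Ideal.Quotient.mk_surjective)
    (mk.comp κ) fun t ht => by
      rw [RingHom.comp_apply, Ideal.Quotient.eq_zero_iff_mem, ← Ideal.Quotient.mk_comp_algebraMap,
        ← Ideal.map_map, Ideal.mem_quotient_iff_mem_sup, hJ] at ht
      refine SetLike.le_def.mp (sup_le (c := RingHom.ker (mk.comp κ))
        (Ideal.map_le_iff_le_comap.mpr fun y hy => ?_)
        (Ideal.map_le_iff_le_comap.mpr fun y hy => ?_)) ht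
      · simp [hκU, show κU y = 0 from hy]
      · simp only [Ideal.mem_comap, RingHom.mem_ker, RingHom.comp_apply, hκθ, ← hψ]
        rw [show π y = 0 from hy, map_zero]
  simp only [RingHom.comp_apply] at hψ₁
  have ha := finrank_le_of_gen (Q := Q) ψ₁ (fun a => by
      obtain ⟨t, ht⟩ := hπ (algebraMap Q S a)
      rw [← Ideal.Quotient.mk_algebraMap, hQW, hQ, ← ht, hψW, hψ₁, hκθ, hψ])
    (fun k => mk (algebraMap R T (u k))) hδ fun y => by
      have key : ∀ t : T, ∃ c : Fin M → V, algebraMap R T γ * t =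
          ∑ k, κ (c k) * algebraMap R T (u k) := by
        refine po_ind h _ ⟨0, by simp⟩ (fun r b => ?_) ?_
        · obtain ⟨c, hc⟩ := hu r
          refine ⟨fun k => algebraMap _ V b * algebraMap U V (c k), ?_⟩
          rw [mul_left_comm, ← map_mul, hc, map_sum, Finset.mul_sum]
          simp [hκB, hκU, mul_assoc]
        · rintro x y ⟨c, hc⟩ ⟨c', hc'⟩
          exact ⟨c + c', by simp [mul_add, hc, hc', add_mul, Finset.sum_add_distrib]⟩
      obtain ⟨t, ht⟩ := hmk (mk (algebraMap R T γ) ^ (q - 1) * ψ t₀ * y)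
      obtain ⟨c, hc⟩ := key t
      refine ⟨fun k => Ideal.Quotient.mk _ (Ideal.Quotient.mk J (c k)), ?_⟩
      simp only [hψ₁, ← map_mul, ← map_sum, ← hc]
      rw [map_mul, ht, Algebra.smul_def, hQ, ht₀, map_mul, ← hπR, hψ, map_pow,
        ← Nat.sub_add_cancel (Nat.pos_of_ne_zero hq), pow_succ, Nat.add_sub_cancel]
      ring
  rwa [Fintype.card_fin] at ha

theorem rankT (p : ℕ) [Fact p.Prime] (n : ℕ) {d s : ℕ} {l P A R T S X Q ι : Type*} [Field l]
    [CharP l p] [PerfectField l] [CommRing P] [IsDomain P] [IsNoetherianRing P] [CharP P p]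
    [CommRing A] (ε : A ≃+* P) [CommRing R] [IsDomain R] [Algebra P R] [Module.Finite P R]
    (hinj : Injective (algebraMap P R)) [Algebra P (PS (s + d) l)] [Module.Flat P (PS (s + d) l)]
    [CommRing T] [CharP T p] [Algebra P T] [Algebra R T] [Algebra (PS (s + d) l) T]
    [IsScalarTower P R T] [IsScalarTower P (PS (s + d) l) T]
    (h : Algebra.IsPushout P R (PS (s + d) l) T) [CommRing S] [Algebra R S] [Module.Flat R S]
    (π : T →+* S) (hπ : Surjective π) (hπR : ∀ r, π (algebraMap R T r) = algebraMap R S r)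
    [Fintype ι] [DecidableEq ι] (F : Rs T s (RingHom.ker π) ι) (z : Fin d → T) {a c : ℕ}
    (ht : ∀ i, algebraMap (PS (s + d) l) T (MvPowerSeries.X i ^ a) ∈
      RingHom.ker π ⊔ Ideal.span (Set.range z))
    (hz : ∀ i, z i ^ c ∈ (maximalIdeal (PS (s + d) l)).map (algebraMap _ T))
    [CommRing Q] [IsDomain Q] [Algebra Q S] [Module.Finite Q S]
    [CommRing X] [Algebra Q X] (mk : T →+* X) (hmk : Surjective mk) (ψ : S →+* X)
    (hψ : ∀ t, ψ (π t) = mk (t ^ p ^ n)) (hQ : ∀ a, algebraMap Q X a = ψ (algebraMap Q S a))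
    [Module.Finite Q X] : Module.finrank Q X ≤ (p ^ n) ^ (s + d) * Module.finrank Q S := by
  classical
  have hp0 : p ^ n ≠ 0 := pow_ne_zero n (Fact.out : p.Prime).ne_zero
  have := isDomain_PSL (s + d) l
  have : IsDomain A := ε.toMulEquiv.isDomain
  have : IsNoetherianRing A := isNoetherianRing_of_ringEquiv P ε.symm
  have : CharP (PS (s + d) l) p :=
    charP_of_injective_ringHom (MvPowerSeries.C (σ := Fin (s + d))).injective p
  have : CharP R p := charP_of_injective_ringHom hinj p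
  let _ : Algebra P A := (ε.symm.toRingHom.comp (iterateFrobenius P p n)).toAlgebra
  have hPA : ∀ f, ε (algebraMap P A f) = f ^ p ^ n := fun f => ε.apply_symm_apply _
  have hPAi : Injective (algebraMap P A) := (injective_iff_map_eq_zero _).mpr fun f h0 => by
    have h2 := hPA f
    rw [h0, map_zero] at h2
    exact pow_eq_zero_iff hp0 |>.mp h2.symm
  let _ : Algebra A (PS (s + d) l) := ((algebraMap P _).comp ε.toRingHom).toAlgebra
  have hAB : ∀ a, algebraMap A (PS (s + d) l) a = algebraMap P _ (ε a) := fun _ => rfl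
  have : Module.Flat A (PS (s + d) l) :=
    RingHom.Flat.comp (RingHom.Flat.of_bijective ε.bijective)
      (RingHom.flat_algebraMap_iff.mpr inferInstance)
  obtain ⟨U, _, _, _, _, _, _, hU⟩ := exists_po P R A
  obtain ⟨V, _, _, _, _, _, _, hV⟩ := exists_po A U (PS (s + d) l)
  have := po_finite hU
  have := po_finite hV
  have := po_flat hV
  have : IsNoetherianRing U := IsNoetherianRing.of_finite A U
  obtain ⟨θ, hθR, hθB⟩ := po_lift h ((algebraMap U V).comp (algebraMap R U))
    ((algebraMap (PS (s + d) l) V).comp (iterateFrobenius _ p n)) fun f => by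
      simp only [RingHom.comp_apply, iterateFrobenius_def]
      rw [po_comm (B := A) f, po_comm (B := PS (s + d) l) (algebraMap P A f), hAB, hPA, map_pow]
  simp only [RingHom.comp_apply, iterateFrobenius_def] at hθR hθB
  obtain ⟨κU, hκR, hκA⟩ := po_lift hU (iterateFrobenius R p n)
    ((algebraMap P R).comp ε.toRingHom) fun f => by
      change _ = algebraMap P R (ε _)
      rw [hPA, map_pow, iterateFrobenius_def]
  simp only [iterateFrobenius_def] at hκR
  replace hκA : ∀ a, κU (algebraMap A U a) = algebraMap P R (ε a) := hκA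
  obtain ⟨κ, hκU, hκB⟩ := po_lift hV ((algebraMap R T).comp κU) (algebraMap _ T) fun a => by
    rw [RingHom.comp_apply, hκA, hAB, po_comm (B := PS (s + d) l)]
  simp only [RingHom.comp_apply] at hκU
  have hκθ : ∀ t, κ (θ t) = t ^ p ^ n := by
    have : κ.comp θ = iterateFrobenius T p n := po_ext h
      (fun r => by simp [hθR, hκU, hκR, iterateFrobenius_def])
      (fun b => by simp [hθB, hκB, iterateFrobenius_def])
    exact fun t => DFunLike.congr_fun this t
  have hAU : Injective (algebraMap A U) := fun x y hxy =>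
    ε.injective (hinj (by rw [← hκA, ← hκA, hxy]))
  have : CharP A p := charP_of_injective_ringHom ε.symm.injective (f := ε.symm.toRingHom) p
  have : CharP U p := charP_of_injective_ringHom hAU p
  have hU1 : ∀ u, algebraMap R U (κU u) = u ^ p ^ n := by
    have : (algebraMap R U).comp κU = iterateFrobenius U p n := po_ext hU
      (fun r => by simp [hκR, iterateFrobenius_def])
      (fun b => by
        rw [RingHom.comp_apply, hκA, po_comm (B := A), iterateFrobenius_def, ← map_pow]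
        congr 1
        exact ε.injective (by rw [hPA, map_pow]))
    exact fun t => DFunLike.congr_fun this t
  -- the ring `W`
  set J := (RingHom.ker π).map θ
  obtain ⟨ψW, hψW⟩ := exists_desc π hπ ((Ideal.Quotient.mk J).comp θ) fun t ht =>
    Ideal.Quotient.eq_zero_iff_mem.mpr (Ideal.mem_map_of_mem _ ht)
  simp only [RingHom.comp_apply] at hψW
  let _ : Algebra Q (V ⧸ J) := (ψW.comp (algebraMap Q S)).toAlgebra
  have hQW : ∀ a, algebraMap Q (V ⧸ J) a = ψW (algebraMap Q S a) := fun _ => rfl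
  obtain ⟨v, hv⟩ := PS_frob_span p (d := s + d) (K := l) n
  have hgenW : ∀ x : V ⧸ J, ∃ c : (Fin (s + d) → Fin (p ^ n)) → S,
      x = ∑ k, ψW (c k) * Ideal.Quotient.mk J (algebraMap _ V (v k)) := by
    intro x
    obtain ⟨x, rfl⟩ := Ideal.Quotient.mk_surjective x
    obtain ⟨c, rfl⟩ := genV hU hV θ hθR hθB v hv x
    exact ⟨fun k => π (c k), by simp [hψW]⟩
  have := finite_of_gen ψW hQW _ hgenW
  have hW := finrank_le_of_gen ψW hQW _ one_ne_zero (by simpa using hgenW)
  simp only [Fintype.card_pi, Fintype.card_fin, Finset.prod_const, Finset.card_univ] at hW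
  refine le_trans ?_ hW
  -- the prime
  set 𝔓 := RingHom.ker κU
  have : 𝔓.IsPrime := RingHom.ker_isPrime κU
  have hAD : Injective (algebraMap A (U ⧸ 𝔓)) := by
    rw [injective_iff_map_eq_zero]
    intro x hx
    have : κU (algebraMap A U x) = 0 := Ideal.Quotient.eq_zero_iff_mem.mp hx
    rw [hκA, map_eq_zero_iff _ hinj] at this
    exact ε.injective (by rw [this, map_zero])
  have hf0 := finrank_pos_of_inj' hAD
  -- comparison of the Frobenius base change with the reduced quotient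
  have hb := rank_induction (A := A) (U := U) (W := V ⧸ J) (Q := Q)
    (Module.finrank Q ((V ⧸ J) ⧸ 𝔓.map (algebraMap U (V ⧸ J)))) (Module.finrank A (U ⧸ 𝔓))
    (colT (torV (a := a * p ^ n) (c := c) hV (F.map θ) (fun i => θ (z i)) (fun i => by
        have := Ideal.mem_map_of_mem θ (ht i)
        rwa [Ideal.map_sup, Ideal.map_span, ← Set.range_comp, hθB, ← pow_mul] at this)
      (fun i => by
        have := Ideal.mem_map_of_mem θ (hz i)
        rw [map_pow, Ideal.map_map] at this
        refine SetLike.le_def.mp (Ideal.map_le_iff_le_comap.mpr fun b hb => ?_) this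
        rw [Ideal.mem_comap, RingHom.comp_apply, hθB]
        exact Ideal.mem_map_of_mem _ (Ideal.pow_mem_of_mem _ hb _ (Nat.pos_of_ne_zero hp0))))
      fun g₁ hg₁ => by
        obtain ⟨δ, hδ, t₀, ht₀⟩ := exists_dvd_of_flat (S := S) (Q := Q)
          (r := algebraMap P R (ε g₁) ^ (s + d)) (pow_ne_zero _ (by
            rw [ne_eq, map_eq_zero_iff _ hinj, map_eq_zero_iff _ ε.injective]; exact hg₁))
        refine ⟨δ, hδ, ?_⟩
        rw [hQW, ht₀, map_mul, ← hπR, hψW, hθR, ← hκA, ← map_pow κU, hU1]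
        simp only [map_pow]
        exact (dvd_pow_self _ hp0).mul_right _)
    (fun I hI hIinj => by rw [primeT hPAi κU hp0 hU1 I hI hIinj])
  obtain ⟨g, hg, ⟨G⟩⟩ := exists_gen P R
  obtain ⟨GU⟩ := po_gen hU (AlgHom.id P R) surjective_id (AlgHom.id A U) surjective_id (by
    rw [(RingHom.injective_iff_ker_eq_bot _).mp injective_id,
      (RingHom.injective_iff_ker_eq_bot _).mp injective_id, Ideal.map_bot]) G
  have he := GU.le_finrank (by rwa [ne_eq, map_eq_zero_iff _ hPAi])
  obtain ⟨M, hM, u, γ, hγ, hu⟩ := genD ε hf0 (RingHom.kerLift κU) fun f => by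
    rw [← Ideal.Quotient.mk_algebraMap, RingHom.kerLift_mk, hκA, ε.apply_symm_apply]
  have ha := rankX h κU κ hκU hκB θ hp0 hκθ π hπ hπR mk hmk ψ hψ hQ rfl ψW hψW hQW u _
    (by rwa [ne_eq, map_eq_zero_iff _ (RingHom.kerLift_injective κU)]) fun r => by
      obtain ⟨c, hc⟩ := hu r
      choose c' hc' using fun k => Ideal.Quotient.mk_surjective (c k)
      refine ⟨c', hc.trans (Finset.sum_congr rfl fun k _ => ?_)⟩
      rw [← hc', ← RingHom.kerLift_mk κU]
  refine Nat.le_of_mul_le_mul_left ?_ hf0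
  calc _ ≤ Module.finrank A (U ⧸ 𝔓) * (M * _) := Nat.mul_le_mul_left _ ha
    _ = M * Module.finrank A (U ⧸ 𝔓) * _ := by rw [← mul_assoc, mul_comm _ M]
    _ ≤ Module.finrank A U * _ := Nat.mul_le_mul_right _ (hM.trans he)
    _ ≤ _ := hb

end Vale.Agent.P202
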