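import Vale.Agent.P202.LB
import Vale.Agent.P202.Len

/-! Auxiliary estimates for the Frobenius step. -/

open Matrix IsLocalRing

namespace Vale.Agent.P202

section ps
variable {d : ℕ} {K : Type*} [Field K]

lemma mem_brk_iff (n : ℕ) (s : Finset (Fin d)) (f : PS d K) :
    f ∈ Ideal.span ((fun i => (MvPowerSeries.X i : PS d K) ^ n) '' s) ↔
      ∀ m : Fin d →₀ ℕ, (∀ i ∈ s, m i < n) → MvPowerSeries.coeff m f = 0 := by
  classical
  constructor
  · intro hf m hm
    refine Submodule.span_induction (p := fun f _ => ∀ g : PS d K,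
      MvPowerSeries.coeff m (g * f) = 0) ?_ ?_ ?_ ?_ hf 1 |>.symm ▸ (by simp)
    · rintro _ ⟨i, hi, rfl⟩ g
      exact MvPowerSeries.X_pow_dvd_iff.mp (dvd_mul_left _ _) m (hm i hi)
    · simp
    · intro x y _ _ hx hy g; rw [mul_add, map_add, hx, hy, add_zero]
    · intro a x _ hx g; rw [smul_eq_mul, ← mul_assoc, hx]
  · induction s using Finset.induction_on generalizing f with
    | empty =>
      intro hf
      have : f = 0 := MvPowerSeries.ext fun m => hf m (by simp)
      simp [this]
    | insert i s _ ih =>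
      intro hf
      let r : PS d K := fun m => if m i < n then MvPowerSeries.coeff m f else 0
      have hr : ∀ m, MvPowerSeries.coeff m r = if m i < n then MvPowerSeries.coeff m f else 0 :=
        fun _ => rfl
      rw [← sub_add_cancel f r]
      refine Ideal.add_mem _ (Ideal.mem_of_dvd _ (MvPowerSeries.X_pow_dvd_iff.mpr fun m hm => ?_)
        (Ideal.subset_span ⟨i, by simp, rfl⟩))
        (Ideal.span_mono (Set.image_mono (by simp)) (ih r fun m hm => ?_))
      · rw [map_sub, hr, if_pos hm, sub_self]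
      · rw [hr]
        split_ifs with hi
        · exact hf m fun j hj => (Finset.mem_insert.mp hj).elim (fun h => h ▸ hi) (hm j)
        · rfl

lemma PS_regular (n : ℕ) (j : Fin d) (r : PS d K)
    (h : MvPowerSeries.X j ^ n * r ∈
      Ideal.span ((fun i => (MvPowerSeries.X i : PS d K) ^ n) '' {i | i < j})) :
    r ∈ Ideal.span ((fun i => (MvPowerSeries.X i : PS d K) ^ n) '' {i | i < j}) := by
  have e : ({i | i < j} : Set (Fin d)) = (Finset.univ.filter (· < j) : Finset (Fin d)) := by simp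
  rw [e, mem_brk_iff] at h ⊢
  intro m hm
  have := h (Finsupp.single j n + m) fun i hi => by
    have h1 : i ≠ j := (Finset.mem_filter.mp hi).2.ne
    simpa [h1] using hm i hi
  rwa [MvPowerSeries.X_pow_eq, MvPowerSeries.coeff_add_monomial_mul, one_mul] at this
end ps

lemma length_eq_of_smul {A A' M : Type*} [Ring A] [Ring A'] [AddCommGroup M] [Module A M]
    [Module A' M] (h : ∀ a : A, ∃ a' : A', ∀ m : M, a • m = a' • m)
    (h' : ∀ a' : A', ∃ a : A, ∀ m : M, a' • m = a • m) : Module.length A M = Module.length A' M := by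
  let e : Submodule A M ≃o Submodule A' M :=
    { toFun := fun N => { N.toAddSubmonoid with
        smul_mem' := fun c x hx => by obtain ⟨a, ha⟩ := h' c; rw [ha]; exact N.smul_mem a hx }
      invFun := fun N => { N.toAddSubmonoid with
        smul_mem' := fun c x hx => by obtain ⟨a, ha⟩ := h c; rw [ha]; exact N.smul_mem a hx }
      left_inv := fun _ => rfl
      right_inv := fun _ => rfl
      map_rel_iff' := Iff.rfl }
  rw [← WithBot.coe_inj, Module.coe_length, Module.coe_length]
  exact Order.krullDim_eq_of_orderIso e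

lemma ln_eq_of_range {d d' : ℕ} {K K' T : Type*} [Field K] [Field K'] [CommRing T]
    [Algebra (PS d K) T] [Algebra (PS d' K') T]
    (hK : (Set.range fun k : K => algebraMap (PS d K) T (MvPowerSeries.C k)) =
      Set.range fun k : K' => algebraMap (PS d' K') T (MvPowerSeries.C k)) (I : Ideal T) :
    ln (PS d K) I = ln (PS d' K') I := by
  let _ : Module K (T ⧸ I) := Module.compHom _ (algebraMap K (PS d K))
  let _ : Module K' (T ⧸ I) := Module.compHom _ (algebraMap K' (PS d' K'))
  have : IsScalarTower K (PS d K) (T ⧸ I) := ⟨fun a b c => by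
    rw [Algebra.smul_def a b, mul_smul]; rfl⟩
  have : IsScalarTower K' (PS d' K') (T ⧸ I) := ⟨fun a b c => by
    rw [Algebra.smul_def a b, mul_smul]; rfl⟩
  rw [ln, ln, length_eq_of_residue residue_PS_surj, length_eq_of_residue residue_PS_surj]
  have key : ∀ (k : K) (k' : K'), algebraMap (PS d K) T (MvPowerSeries.C k) =
      algebraMap (PS d' K') T (MvPowerSeries.C k') → ∀ m : T ⧸ I, k • m = k' • m := by
    intro k k' h m
    change (MvPowerSeries.C k : PS d K) • m = (MvPowerSeries.C k' : PS d' K') • m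
    rw [← algebraMap_smul T, h, algebraMap_smul]
  refine length_eq_of_smul (fun k => ?_) (fun k' => ?_)
  · obtain ⟨k', hk⟩ := hK.le ⟨k, rfl⟩
    exact ⟨k', key k k' hk.symm⟩
  · obtain ⟨k, hk⟩ := hK.ge ⟨k', rfl⟩
    exact ⟨k, fun m => (key k k' hk m).symm⟩

lemma ln_eq_smul_top {A T : Type*} [CommRing A] [CommRing T] [Algebra A T] (I : Ideal A) :
    ln A (I.map (algebraMap A T)) = Module.length A (T ⧸ (I • ⊤ : Submodule A T)) := by
  rw [Ideal.smul_top_eq_map, (Submodule.Quotient.restrictScalarsEquiv A _).length_eq, ln]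

lemma ln_le_of_span {A T α : Type*} [CommRing A] [CommRing T] [Algebra A T] [Fintype α]
    (x : α → T) (hx : Submodule.span A (Set.range x) = ⊤) (J : Ideal A) (I : Ideal T)
    (h : J.map (algebraMap A T) ≤ I) :
    ln A I ≤ Fintype.card α * Module.length A (A ⧸ J) := by
  have := len_quot_finset (I.restrictScalars A) x J Finset.univ fun i _ a ha => by
    rw [Algebra.smul_def]
    exact I.mul_mem_right _ (h (Ideal.mem_map_of_mem _ ha))
  rw [Finset.coe_univ, Set.image_univ, hx, sup_top_eq, Module.length_eq_zero (M := _ ⧸ ⊤), add_zero,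
    (Submodule.Quotient.restrictScalarsEquiv A _).length_eq] at this
  exact this

section bc
variable {d : ℕ} {R S R' S' ι : Type*} [CommRing R] [CommRing S] [Algebra R S] [CommRing R']
  [CommRing S'] [Algebra R' S'] [Fintype ι] [DecidableEq ι]
  (b : Module.Basis ι R S) (b' : Module.Basis ι R' S') (φ : R →+* R') (ψ : S →+* S')
  (hψ : ∀ r, ψ (algebraMap R S r) = algebraMap R' S' (φ r)) (hb : ∀ i, b' i = ψ (b i))
include hψ hb

omit [DecidableEq ι] in
lemma repr_map (s : S) (i : ι) : b'.repr (ψ s) i = φ (b.repr s i) := by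
  have : ψ s = ∑ i, φ (b.repr s i) • b' i := by
    conv_lhs => rw [← b.sum_repr s]
    simp [Algebra.smul_def, hψ, hb]
  rw [this, b'.repr_sum_self]

lemma leftMul_map (s : S) :
    Algebra.leftMulMatrix b' (ψ s) = (Algebra.leftMulMatrix b s).map φ := by
  ext i k
  rw [map_apply, Algebra.leftMulMatrix_eq_repr_mul, Algebra.leftMulMatrix_eq_repr_mul, hb,
    ← map_mul, repr_map b b' φ ψ hψ hb]

theorem step_lower [IsLocalRing R] {K : Type*} [Field K] [Algebra (PS d K) R'] {e : ℕ}
    {g : PS d K} (hg : g ≠ 0) (G : Gen (PS d K) R' e g) [Algebra (PS d K) S']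
    [IsScalarTower (PS d K) R' S'] (z : Fin d → S) (s : Fin d → R)
    (hs : ∀ j, algebraMap R S (s j) ∈ Ideal.span (Set.range z))
    (hz : Ideal.span (Set.range z) ≠ ⊤) {a q : ℕ}
    (hφs : ∀ j, φ (s j) = algebraMap (PS d K) R' (MvPowerSeries.X j ^ a))
    (hq : ∀ r ∈ maximalIdeal R, φ r ∈ (xI d K ^ q).map (algebraMap (PS d K) R')) :
    ((e * ∏ i : Fin d, ((i + 1) * q - shift (g ^ 2)) : ℕ) : ℕ∞) ≤
      d.factorial * ln (PS d K) (Ideal.span (Set.range fun i => ψ (z i))) := by
  obtain ⟨ι', _, _, X', μ₀, h1, h2, I, Q, c1, c2, c3, c4⟩ :=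
    Cx.exists_min _ _ (kos b z s hs) le_rfl (kos_H0 b z s hs hz)
  obtain ⟨y, hy⟩ := crd_surj b' (I.map φ *ᵥ Pi.single μ₀ 1)
  have hy0 : y = Pi.single ∅ (y ∅) := by
    have : InDeg Finset.card 0 y := (inDeg_crd b' 0 y).mp (hy ▸ (c3.map φ).inDeg fun μ hμ =>
      Pi.single_eq_of_ne (by rintro rfl; exact hμ h2) _)
    ext A
    by_cases hA : A = ∅
    · simp [hA]
    · rw [Pi.single_eq_of_ne hA, this A (by simpa using hA)]
  set Z := Ideal.span (Set.range fun i => ψ (z i))
  let J : Ideal R' := (Z.restrictScalars R').comap (LinearMap.toSpanSingleton R' S' (y ∅))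
  refine (lower_bound hg G hφs (X'.map φ) (fun μ ν => hq _ (h1 μ ν)) μ₀ J ?_).trans ?_
  · intro r hr
    obtain ⟨c, hc⟩ := Ideal.mem_span_range_iff_exists_fun.mp hr
    refine ⟨Q.map φ *ᵥ crd b' (ch1 c), (c4.map φ).inDeg ((inDeg_crd b' 1 _).mpr (inDeg_ch1 c)), ?_⟩
    change X'.D.map φ *ᵥ _ = _
    rw [mulVec_mulVec, ← Matrix.map_mul, ← c2, Matrix.map_mul, ← mulVec_mulVec, kos_D, kM_map]
    simp only [← leftMul_map b b' φ ψ hψ hb]
    rw [kD_mulVec, kd_ch1, hc, LinearMap.toSpanSingleton_apply, Pi.single_smul, ← hy0, crd_smul, hy,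
      mulVec_smul, mulVec_mulVec, ← Matrix.map_mul, c1, Matrix.map_one _ (map_zero _) (map_one _),
      one_mulVec, ← Pi.single_smul, smul_eq_mul, mul_one]
  · gcongr
    refine Module.length_le_of_injective (((J.liftQ ((Ideal.Quotient.mkₐ R' Z).toLinearMap ∘ₗ
      LinearMap.toSpanSingleton R' S' (y ∅)) fun y hy => ?_)).restrictScalars (PS d K)) ?_
    · exact Ideal.Quotient.eq_zero_iff_mem.mpr hy
    · rw [LinearMap.coe_restrictScalars, ← LinearMap.ker_eq_bot]
      exact Submodule.ker_liftQ_eq_bot _ _ _ fun y hy =>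
        (Ideal.Quotient.eq_zero_iff_mem (I := Z)).mp hy

end bc

theorem step_upper {d : ℕ} {K R S ι : Type*} [Field K] [CommRing R] [CommRing S] [Algebra R S]
    [Fintype ι] [DecidableEq ι] (b : Module.Basis ι R S) [Algebra (PS d K) R] {e : ℕ}
    {g : PS d K} (G : Gen (PS d K) R e g) [Algebra (PS d K) S] [IsScalarTower (PS d K) R S]
    (z : Fin d → S) {a : ℕ}
    (hs : ∀ j, algebraMap (PS d K) S (MvPowerSeries.X j ^ a) ∈ Ideal.span (Set.range z))
    (n : ℕ) (hn : 1 ≤ n) :
    n ^ d * ln (PS d K) (Ideal.span (Set.range z)) ≤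
      ln (PS d K) (Ideal.span (Set.range fun i => z i ^ n)) + d * n ^ d *
        ln (PS d K) (Ideal.span (Set.range z) ⊔ Ideal.span {algebraMap (PS d K) S (g ^ d)}) := by
  refine len_filt _ z _ (fun m j w _ hw => ?_) n hn
  have h1 : Ideal.span (Set.range z) ≤ (Ideal.span (Set.range fun i => z i ^ m i)).radical := by
    rw [Ideal.span_le]
    rintro _ ⟨i, rfl⟩
    exact ⟨m i, Ideal.subset_span ⟨i, rfl⟩⟩
  choose N hN using fun j => h1 (hs j)
  have := colon_capture b (fun i => z i ^ m i)
    (fun j => algebraMap (PS d K) R (MvPowerSeries.X j ^ (a * ∑ i, N i))) (fun j => by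
      rw [← IsScalarTower.algebraMap_apply, pow_mul, map_pow]
      exact Ideal.pow_mem_of_pow_mem _ (hN j)
        (Finset.single_le_sum (fun _ _ => Nat.zero_le _) (Finset.mem_univ j)))
    (algebraMap (PS d K) R g) (G.colon _ (PS_regular _)) j w hw
  rwa [← IsScalarTower.algebraMap_apply, ← map_pow] at this

end Vale.Agent.P202
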