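import Vale.Agent.P202.StepA

/-! The Frobenius step. -/

open Matrix IsLocalRing
open scoped nonZeroDivisors

namespace Vale.Agent.P202

lemma finrank_le_of_smul {A M M' : Type*} [CommRing A] [IsDomain A] [AddCommGroup M] [Module A M]
    [AddCommGroup M'] [Module A M'] [Module.Finite A M] [Module.Finite A M'] (f : M' →ₗ[A] M)
    {δ : A} (hδ : δ ≠ 0) (h : ∀ x, δ • x ∈ LinearMap.range f) :
    Module.finrank A M ≤ Module.finrank A M' := by
  have h1 : Module.finrank A (M ⧸ LinearMap.range f) = 0 := by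
    rw [Module.finrank_eq_zero_iff]
    intro x
    obtain ⟨x, rfl⟩ := Submodule.Quotient.mk_surjective _ x
    exact ⟨δ, hδ, by rw [← Submodule.Quotient.mk_smul, Submodule.Quotient.mk_eq_zero]; exact h x⟩
  have h2 := Submodule.finrank_quotient_add_finrank (LinearMap.range f)
  have h3 := LinearMap.finrank_range_le f
  omega

lemma finrank_fun_le {A M : Type*} [CommRing A] [IsDomain A] [AddCommGroup M] [Module A M]
    [Module.Finite A M] (N : ℕ) : Module.finrank A (Fin N → M) ≤ N * Module.finrank A M := by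
  obtain ⟨γ, f, -, hγ, hf, -⟩ := exists_cmp (A := A) (M := M)
  refine (finrank_le_of_smul (f.compLeft (Fin N)) hγ fun x => ?_).trans (by
    simp [Module.finrank_pi_fintype])
  choose y hy using fun i => hf (x i)
  exact ⟨y, funext hy⟩

section bc
variable {R S R' S' ι : Type*} [CommRing R] [CommRing S] [Algebra R S] [CommRing R']
  [CommRing S'] [Algebra R' S'] [Fintype ι]
  (b : Module.Basis ι R S) (b' : Module.Basis ι R' S') (φ : R →+* R') (ψ : S →+* S')
  (hψ : ∀ r, ψ (algebraMap R S r) = algebraMap R' S' (φ r)) (hb : ∀ i, b' i = ψ (b i))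
  {A : Type*} [CommRing A] [Algebra A S] [Algebra A S']
  (hA : ∀ a, algebraMap A S' a = ψ (algebraMap A S a))
include hψ hb hA

lemma exists_Phi {N : ℕ} (u : Fin N → R') (γ : R)
    (hu : ∀ r, ∃ c : Fin N → R, φ γ * r = ∑ k, φ (c k) * u k) :
    ∃ Φ : (Fin N → S) →ₗ[A] S', ∀ s, ψ (algebraMap R S γ) * s ∈ LinearMap.range Φ := by
  let Φ : (Fin N → S) →ₗ[A] S' :=
    { toFun v := ∑ k, ψ (v k) * algebraMap R' S' (u k)
      map_add' v v' := by simp [add_mul, Finset.sum_add_distrib]
      map_smul' a v := by simp [Algebra.smul_def, hA, Finset.mul_sum, mul_assoc] }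
  refine ⟨Φ, fun s => ?_⟩
  rw [← b'.sum_repr s, Finset.mul_sum]
  refine Submodule.sum_mem _ fun i _ => ?_
  obtain ⟨c, hc⟩ := hu (b'.repr s i)
  refine ⟨fun k => algebraMap R S (c k) * b i, ?_⟩
  rw [hψ, Algebra.smul_def, ← mul_assoc, ← map_mul, hc, map_sum, Finset.sum_mul]
  simp only [Φ, LinearMap.coe_mk, AddHom.coe_mk]
  refine Finset.sum_congr rfl fun k _ => ?_
  simp only [map_mul, hψ, hb]; ring

lemma step_finite [Module.Finite A S] {N : ℕ} (u : Fin N → R')
    (hu : ∀ r, ∃ c : Fin N → R, r = ∑ k, φ (c k) * u k) : Module.Finite A S' := by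
  obtain ⟨Φ, h⟩ := exists_Phi b b' φ ψ hψ hb hA u 1 (by simpa using hu)
  exact Module.Finite.of_surjective Φ fun s => by simpa using h s

lemma step_rank [IsDomain A] [Module.Finite A S] [Module.Finite A S'] {N : ℕ} (u : Fin N → R')
    (γ : R) (hγ : algebraMap R S γ ∈ S⁰)
    (hu : ∀ r, ∃ c : Fin N → R, φ γ * r = ∑ k, φ (c k) * u k) :
    Module.finrank A S' ≤ N * Module.finrank A S := by
  obtain ⟨Φ, h⟩ := exists_Phi b b' φ ψ hψ hb hA u γ hu
  obtain ⟨δ, hδ, t, ht⟩ := (Algebra.IsIntegral.isIntegral (R := A)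
    (algebraMap R S γ)).isAlgebraic.exists_nonzero_dvd hγ
  refine (finrank_le_of_smul Φ hδ fun x => ?_).trans (finrank_fun_le N)
  rw [Algebra.smul_def, hA, ht, map_mul, mul_assoc]
  exact h _

end bc

universe u v w in
open scoped TensorProduct in
lemma exists_bc {R : Type u} {S : Type v} {R' : Type w} {ι : Type*} [CommRing R] [CommRing S]
    [Algebra R S] [CommRing R'] (b : Module.Basis ι R S) (φ : R →+* R') :
    ∃ (S' : Type (max v w)) (_ : CommRing S') (_ : Algebra R' S') (ψ : S →+* S')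
      (b' : Module.Basis ι R' S'), (∀ r, ψ (algebraMap R S r) = algebraMap R' S' (φ r)) ∧
      ∀ i, b' i = ψ (b i) := by
  let _ := φ.toAlgebra
  exact ⟨R' ⊗[R] S, _, _, (Algebra.TensorProduct.includeRight : S →ₐ[R] R' ⊗[R] S).toRingHom,
    Algebra.TensorProduct.basis R' b,
    fun r => (Algebra.TensorProduct.includeRight : S →ₐ[R] R' ⊗[R] S).commutes r,
    fun i => Algebra.TensorProduct.basis_apply b i⟩

theorem step {d : ℕ} {K K' R S R' ι : Type*} [Field K] [Field K'] [CommRing R] [IsLocalRing R]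
    [CommRing S] [Algebra R S] [CommRing R'] [Fintype ι] [DecidableEq ι] (b : Module.Basis ι R S)
    [Algebra (PS d K') S] [Module.Finite (PS d K') S] [Algebra (PS d K) R'] {e : ℕ}
    {g : PS d K} (hg : g ≠ 0) (G : Gen (PS d K) R' e g) {m : ℕ} (x : Fin m → R')
    (hx : Submodule.span (PS d K) (Set.range x) = ⊤) (φ : R →+* R') (s : Fin d → R)
    (hs : ∀ j, algebraMap R S (s j) ∈ (xI d K').map (algebraMap (PS d K') S))
    (hz : (xI d K').map (algebraMap (PS d K') S) ≠ ⊤) {a q : ℕ}
    (hφs : ∀ j, φ (s j) = algebraMap (PS d K) R' (MvPowerSeries.X j ^ a))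
    (hq : ∀ r ∈ maximalIdeal R, φ r ∈ (xI d K ^ q).map (algebraMap (PS d K) R'))
    {N₀ : ℕ} (u₀ : Fin N₀ → R') (hu₀ : ∀ r, ∃ c : Fin N₀ → R, r = ∑ k, φ (c k) * u₀ k)
    {N : ℕ} (u : Fin N → R') (γ : R) (hγ : algebraMap R S γ ∈ S⁰)
    (hu : ∀ r, ∃ c : Fin N → R, φ γ * r = ∑ k, φ (c k) * u k)
    (hK : ∀ k : K, ∃ (k' : K') (r : R), algebraMap (PS d K') S (MvPowerSeries.C k') =
      algebraMap R S r ∧ φ r = algebraMap (PS d K) R' (MvPowerSeries.C k))
    (hK' : ∀ k' : K', ∃ (k : K) (r : R), algebraMap (PS d K') S (MvPowerSeries.C k') =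
      algebraMap R S r ∧ φ r = algebraMap (PS d K) R' (MvPowerSeries.C k))
    {L : ℕ} (hL : Module.length (PS d K) (PS d K ⧸ (Ideal.span {g ^ d} ⊔
      maximalIdeal (PS d K) ^ (d * a + 1))) ≤ L) :
    e * ∏ i : Fin d, ((i + 1) * q - shift (g ^ 2)) ≤
      d.factorial * (N * Module.finrank (PS d K') S + d * (m * Fintype.card ι * L)) := by
  have := isDomain_PSL d K'
  obtain ⟨S', _, _, ψ, b', hψ, hb⟩ := exists_bc b φ
  let _ : Algebra (PS d K) S' := ((algebraMap R' S').comp (algebraMap (PS d K) R')).toAlgebra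
  have : IsScalarTower (PS d K) R' S' := IsScalarTower.of_algebraMap_eq fun _ => rfl
  let _ : Algebra (PS d K') S' := (ψ.comp (algebraMap (PS d K') S)).toAlgebra
  have hA : ∀ a, algebraMap (PS d K') S' a = ψ (algebraMap (PS d K') S a) := fun _ => rfl
  have := step_finite b b' φ ψ hψ hb hA u₀ hu₀
  have h1 := step_rank b b' φ ψ hψ hb hA u γ hγ hu
  let z : Fin d → S := fun i => algebraMap (PS d K') S (MvPowerSeries.X i)
  have hzz : (xI d K').map (algebraMap (PS d K') S) = Ideal.span (Set.range z) := by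
    rw [Ideal.map_span, ← Set.range_comp]; rfl
  rw [hzz] at hs hz
  have h2 := step_lower b b' φ ψ hψ hb hg G z s hs hz hφs hq
  have hs' : ∀ j, algebraMap (PS d K) S' (MvPowerSeries.X j ^ a) ∈
      Ideal.span (Set.range fun i => ψ (z i)) := fun j => by
    rw [IsScalarTower.algebraMap_apply (PS d K) R' S', ← hφs, ← hψ]
    have := Ideal.mem_map_of_mem ψ (hs j)
    rwa [Ideal.map_span, ← Set.range_comp] at this
  have h3 := step_upper b' G (fun i => ψ (z i)) hs'
  have h4 : ln (PS d K) (Ideal.span (Set.range fun i => ψ (z i)) ⊔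
      Ideal.span {algebraMap (PS d K) S' (g ^ d)}) ≤ (m * Fintype.card ι * L : ℕ) := by
    refine (ln_le_of_span (fun p : Fin m × ι => x p.1 • b' p.2) ?_ (Ideal.span {g ^ d} ⊔
      maximalIdeal (PS d K) ^ (d * a + 1)) _ ?_).trans ?_
    · rw [eq_top_iff]
      intro y _
      rw [← b'.sum_repr y]
      refine Submodule.sum_mem _ fun i _ => ?_
      obtain ⟨c, hc⟩ := (Submodule.mem_span_range_iff_exists_fun _).mp
        (hx.ge (Submodule.mem_top : b'.repr y i ∈ _))
      rw [← hc, Finset.sum_smul]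
      refine Submodule.sum_mem _ fun k _ => ?_
      rw [smul_assoc]
      exact Submodule.smul_mem _ _ (Submodule.subset_span (Set.mem_range_self (k, i)))
    · rw [Ideal.map_sup, Ideal.map_span, Set.image_singleton, sup_comm]
      refine sup_le_sup_right ((Ideal.map_mono (pow_le_bracket a)).trans ?_) _
      rw [Ideal.map_span, Ideal.span_le]
      rintro _ ⟨_, ⟨j, rfl⟩, rfl⟩
      exact hs' j
    · rw [Fintype.card_prod, Fintype.card_fin, Nat.cast_mul (_ * _)]
      gcongr
  have hKK : (Set.range fun k : K => algebraMap (PS d K) S' (MvPowerSeries.C k)) =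
      Set.range fun k : K' => algebraMap (PS d K') S' (MvPowerSeries.C k) := by
    have key : ∀ (k : K) (k' : K') (r : R), algebraMap (PS d K') S (MvPowerSeries.C k') =
        algebraMap R S r ∧ φ r = algebraMap (PS d K) R' (MvPowerSeries.C k) →
        algebraMap (PS d K') S' (MvPowerSeries.C k') =
          algebraMap (PS d K) S' (MvPowerSeries.C k) := fun k k' r h => by
      rw [hA, h.1, hψ, h.2, ← IsScalarTower.algebraMap_apply]
    apply le_antisymm
    · rintro _ ⟨k, rfl⟩
      obtain ⟨k', r, h⟩ := hK k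
      exact ⟨k', key k k' r h⟩
    · rintro _ ⟨k', rfl⟩
      obtain ⟨k, r, h⟩ := hK' k'
      exact ⟨k, (key k k' r h).symm⟩
  have h5 : ln (PS d K) (Ideal.span (Set.range fun i => ψ (z i))) ≤
      (Module.finrank (PS d K') S' + d * (m * Fintype.card ι * L) : ℕ) := by
    refine ENat.forall_natCast_le_iff_le.mp fun l hl => ?_
    rw [Nat.cast_le, ← tsub_le_iff_right]
    refine le_finrank_of_bracket S' _ fun n hn => ?_
    rw [← ln_eq_smul_top, ← ln_eq_of_range hKK, Ideal.map_span, ← Set.range_comp, tsub_mul,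
      ENat.natCast_sub, tsub_le_iff_right]
    have h6 := h3 n hn
    have e1 : (algebraMap (PS d K') S' ∘ fun i => MvPowerSeries.X i ^ n) = fun i => ψ (z i) ^ n := by
      ext i; simp [hA, z]
    rw [e1]
    refine le_trans ?_ (h6.trans (add_le_add le_rfl ?_))
    · push_cast; rw [mul_comm]; gcongr
    · calc _ ≤ d * n ^ d * ((m * Fintype.card ι * L : ℕ) : ℕ∞) := by gcongr
        _ = _ := by push_cast; ring
  have h7 := h2.trans (mul_le_mul_right h5 _)
  norm_cast at h7
  exact h7.trans (Nat.mul_le_mul_left _ (Nat.add_le_add_right h1 _))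

end Vale.Agent.P202
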