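import Vale.Agent.P202.Kos

/-! Tensor product of a resolution of a cyclic module with a Koszul complex. -/

open Matrix IsLocalRing Function

namespace Vale.Agent.P202

/-- A complex of length at most `s` with degree zero homology `T / J`, on which `J` acts
null-homotopically. -/
structure Rs (T : Type*) [CommRing T] (s : ℕ) (J : Ideal T) (ι : Type*) [Fintype ι]
    [DecidableEq ι] where
  deg : ι → ℕ
  D : Matrix ι ι T
  μ₀ : ι
  deg_le : ∀ μ, deg μ ≤ s
  DD : D * D = 0
  hD : ∀ μ ν, D μ ν ≠ 0 → deg ν = deg μ + 1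
  deg0 : ∀ μ, deg μ = 0 ↔ μ = μ₀
  span : Ideal.span (Set.range (D μ₀)) = J
  hom : ∀ r ∈ J, ∃ H : Matrix ι ι T, (∀ μ ν, H μ ν ≠ 0 → deg μ = deg ν + 1) ∧
    D * H + H * D = r • (1 : Matrix ι ι T)

variable {d s : ℕ} {U ι : Type*} [CommRing U] [Fintype ι] [DecidableEq ι]

/-- Base change. -/
noncomputable def Rs.map {J : Ideal U} (F : Rs U s J ι) {U' : Type*} [CommRing U'] (θ : U →+* U') :
    Rs U' s (J.map θ) ι where
  deg := F.deg
  D := F.D.map θ
  μ₀ := F.μ₀
  deg_le := F.deg_le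
  DD := by rw [← Matrix.map_mul, F.DD]; simp
  hD μ ν h := F.hD μ ν fun h' => h (by simp [h'])
  deg0 := F.deg0
  span := by
    have := congrArg (Ideal.map θ) F.span
    rw [Ideal.map_span, ← Set.range_comp] at this
    exact this
  hom r hr := by
    refine Submodule.span_induction ?_ ⟨0, by simp, by simp⟩ ?_ ?_ hr
    · rintro _ ⟨x, hx, rfl⟩
      obtain ⟨H, h1, h2⟩ := F.hom x hx
      refine ⟨H.map θ, fun μ ν h => h1 μ ν fun h' => h (by simp [h']), ?_⟩
      rw [← Matrix.map_mul, ← Matrix.map_mul, ← Matrix.map_add _ (map_add θ), h2]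
      ext μ ν
      by_cases h : μ = ν <;> simp [h]
    · rintro x y - - ⟨H, h1, h2⟩ ⟨H', h1', h2'⟩
      refine ⟨H + H', fun μ ν h => ?_, by rw [mul_add, add_mul, add_smul, ← h2, ← h2']; abel⟩
      by_cases h0 : H μ ν = 0
      · exact h1' μ ν fun h' => h (by simp [h0, h'])
      · exact h1 μ ν h0
    · rintro a x - ⟨H, h1, h2⟩
      refine ⟨a • H, fun μ ν h => h1 μ ν fun h' => h (by simp [h']), ?_⟩
      rw [mul_smul_comm, smul_mul_assoc, ← smul_add, h2, smul_smul, smul_eq_mul]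

/-- Signed block diagonal matrix. -/
def eM (M : Matrix ι ι U) : Matrix (Finset (Fin d) × ι) (Finset (Fin d) × ι) U :=
  of fun p q => if p.1 = q.1 then (-1) ^ p.1.card * M p.2 q.2 else 0

/-- Its action on chains. -/
def eV (M : Matrix ι ι U) (y : Finset (Fin d) → ι → U) : Finset (Fin d) → ι → U :=
  fun A => (-1 : U) ^ A.card • M *ᵥ y A

/-- Koszul differential with module coefficients. -/
def kdV (z : Fin d → U) (y : Finset (Fin d) → ι → U) : Finset (Fin d) → ι → U :=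
  ∑ l, z l • Ct l y

/-- Koszul homotopy with module coefficients. -/
def khV (z : Fin d → U) (y : Finset (Fin d) → ι → U) : Finset (Fin d) → ι → U :=
  ∑ l, z l • Wd l y

/-- The total matrices. -/
def tM (M : Matrix ι ι U) (N : Fin d → Matrix (Finset (Fin d)) (Finset (Fin d)) ℤ) (z : Fin d → U) :
    Matrix (Finset (Fin d) × ι) (Finset (Fin d) × ι) U := eM M + kM N fun l => z l • 1

lemma tM_mulVec (M : Matrix ι ι U) (N) (z : Fin d → U) (y : Finset (Fin d) → ι → U) :
    tM M N z *ᵥ uncurry y = uncurry (eV M y + fun A => ∑ l, z l • ∑ B, N l A B • y B) := by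
  ext ⟨A, μ⟩
  simp only [tM, add_mulVec, Pi.add_apply, uncurry_apply_pair]
  congr 1
  · simp only [mulVec, dotProduct, eM, eV, Fintype.sum_prod_type, of_apply, Pi.smul_apply,
      smul_eq_mul, Finset.mul_sum, uncurry_apply_pair]
    rw [Finset.sum_comm]
    simp [mul_assoc]
  · simp only [mulVec, dotProduct, kM, of_apply, Fintype.sum_prod_type, Finset.sum_mul,
      uncurry_apply_pair, Finset.sum_apply, Pi.smul_apply, smul_eq_mul, Finset.mul_sum]
    rw [Finset.sum_comm (γ := Fin d)]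
    refine Finset.sum_congr rfl fun B _ => ?_
    rw [Finset.sum_comm]
    refine Finset.sum_congr rfl fun l _ => ?_
    simp [one_apply, mul_left_comm, mul_assoc]

lemma tD_mulVec (M : Matrix ι ι U) (z : Fin d → U) (y : Finset (Fin d) → ι → U) :
    tM M Cm z *ᵥ uncurry y = uncurry (eV M y + kdV z y) := by
  rw [tM_mulVec]; congr 2; ext A; simp only [sum_Cm]; simp [kdV]

lemma tH_mulVec (M : Matrix ι ι U) (z : Fin d → U) (y : Finset (Fin d) → ι → U) :
    tM M Wm z *ᵥ uncurry y = uncurry (eV M y + khV z y) := by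
  rw [tM_mulVec]; congr 2; ext A; simp only [sum_Wm]; simp [khV]

section
omit [DecidableEq ι]

lemma eV_add (M : Matrix ι ι U) (y y' : Finset (Fin d) → ι → U) :
    eV M (y + y') = eV M y + eV M y' := by
  ext1 A; simp [eV, mulVec_add]

lemma eV_eV (M M' : Matrix ι ι U) (y : Finset (Fin d) → ι → U) :
    eV M (eV M' y) = fun A => (M * M') *ᵥ y A := by
  ext1 A
  rw [eV, eV, mulVec_smul, smul_smul, ← mul_pow, mulVec_mulVec]; simp

lemma eV_kdV (M : Matrix ι ι U) (z : Fin d → U) (y : Finset (Fin d) → ι → U) :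
    eV M (kdV z y) = -kdV z (eV M y) := by
  ext1 A
  simp only [eV, kdV, Finset.sum_apply, Pi.smul_apply, Pi.neg_apply, mulVec_sum, Finset.smul_sum,
    ← Finset.sum_neg_distrib]
  refine Finset.sum_congr rfl fun l _ => ?_
  by_cases h : l ∈ A
  · simp [Ct, h]
  · simp only [Ct, h, if_false, eV, Finset.card_insert_of_notMem h, mulVec_smul, pow_succ]
    module

lemma eV_khV (M : Matrix ι ι U) (z : Fin d → U) (y : Finset (Fin d) → ι → U) :
    eV M (khV z y) = -khV z (eV M y) := by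
  ext1 A
  simp only [eV, khV, Finset.sum_apply, Pi.smul_apply, Pi.neg_apply, mulVec_sum, Finset.smul_sum,
    ← Finset.sum_neg_distrib]
  refine Finset.sum_congr rfl fun l _ => ?_
  by_cases h : l ∈ A
  · simp only [Wd, h, if_true, eV, mulVec_smul, ← Finset.card_erase_add_one h, pow_succ]
    module
  · simp [Wd, h]

omit [Fintype ι]

lemma Ct_smulV (i : Fin d) (c : U) (y : Finset (Fin d) → ι → U) : Ct i (c • y) = c • Ct i y := by
  ext1 A; by_cases h : i ∈ A <;> simp only [Ct, h, if_true, if_false, Pi.smul_apply, smul_zero]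
  rw [smul_comm]

lemma Wd_smulV (i : Fin d) (c : U) (y : Finset (Fin d) → ι → U) : Wd i (c • y) = c • Wd i y := by
  ext1 A; by_cases h : i ∈ A <;> simp only [Wd, h, if_true, if_false, Pi.smul_apply, smul_zero]
  rw [smul_comm]

lemma kdV_add (z : Fin d → U) (y y' : Finset (Fin d) → ι → U) :
    kdV z (y + y') = kdV z y + kdV z y' := by
  simp only [kdV, ← Finset.sum_add_distrib, ← smul_add]
  refine Finset.sum_congr rfl fun l _ => ?_
  congr 1; ext1 A; by_cases h : l ∈ A <;> simp [Ct, h]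

lemma khV_add (z : Fin d → U) (y y' : Finset (Fin d) → ι → U) :
    khV z (y + y') = khV z y + khV z y' := by
  simp only [khV, ← Finset.sum_add_distrib, ← smul_add]
  refine Finset.sum_congr rfl fun l _ => ?_
  congr 1; ext1 A; by_cases h : l ∈ A <;> simp [Wd, h]

lemma kdV_kdV (z : Fin d → U) (y : Finset (Fin d) → ι → U) : kdV z (kdV z y) = 0 := by
  simp only [kdV, Ct_sum, Ct_smulV, Finset.smul_sum, smul_smul]
  refine sum_anti _ (fun i j => ?_) (fun i => by rw [Ct_Ct_self, smul_zero])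
  rw [mul_comm (z j), ← smul_add, Ct_Ct, smul_zero]

lemma kdV_khV (z a : Fin d → U) (y : Finset (Fin d) → ι → U) :
    kdV z (khV a y) + khV a (kdV z y) = (∑ l, a l * z l) • y := by
  simp only [kdV, khV, Ct_sum, Ct_smulV, Wd_sum, Wd_smulV, Finset.smul_sum, smul_smul]
  rw [Finset.sum_comm, ← Finset.sum_add_distrib, Finset.sum_smul]
  refine Finset.sum_congr rfl fun i _ => ?_
  rw [← Finset.sum_add_distrib, Finset.sum_eq_single i]
  · rw [mul_comm (z i), ← smul_add, Ct_Wd_self]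
  · intro j _ hj; rw [mul_comm (z j), ← smul_add, Ct_Wd_ne hj, smul_zero]
  · simp

lemma kdV_apply (z : Fin d → U) (y : Finset (Fin d) → ι → U) (A μ) :
    kdV z y A μ = ∑ l, z l * if l ∈ A then 0 else sg l A • y (insert l A) μ := by
  simp only [kdV, Finset.sum_apply, Pi.smul_apply, smul_eq_mul, Ct]
  refine Finset.sum_congr rfl fun l _ => ?_
  split_ifs <;> rfl
end

lemma tM_ne {M : Matrix ι ι U} {N} {z : Fin d → U} {p q} (h : tM M N z p q ≠ 0) :
    (p.1 = q.1 ∧ M p.2 q.2 ≠ 0) ∨ (p.2 = q.2 ∧ ∃ l, N l p.1 q.1 ≠ 0) := by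
  by_contra hc
  push Not at hc
  apply h
  rw [tM, Matrix.add_apply, kM, eM, of_apply, of_apply, Finset.sum_eq_zero, add_zero]
  · split_ifs with h1
    · rw [hc.1 h1, mul_zero]
    · rfl
  · intro l _
    by_cases h2 : p.2 = q.2
    · simp [hc.2 h2 l]
    · simp [h2]

lemma tM_mem (I : Ideal U) {M : Matrix ι ι U} (hM : ∀ μ ν, M μ ν ∈ I) (N) {z : Fin d → U}
    (hz : ∀ l, z l ∈ I) (p q) : tM M N z p q ∈ I := by
  rw [tM, Matrix.add_apply, kM, eM, of_apply, of_apply]
  refine add_mem ?_ (I.sum_mem fun l _ => I.mul_mem_left _ (I.mul_mem_right _ (hz l)))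
  split_ifs
  · exact I.mul_mem_left _ (hM _ _)
  · exact I.zero_mem

namespace Rs
variable {J : Ideal U} (F : Rs U s J ι) (z : Fin d → U)

lemma exists_hom {r : U} (hr : r ∈ J ⊔ Ideal.span (Set.range z)) :
    ∃ H : Matrix (Finset (Fin d) × ι) (Finset (Fin d) × ι) U,
      (∀ p q, H p q ≠ 0 → p.1.card + F.deg p.2 = q.1.card + F.deg q.2 + 1) ∧
      tM F.D Cm z * H + H * tM F.D Cm z = r • 1 := by
  obtain ⟨x, hx, v, hv, rfl⟩ := Submodule.mem_sup.mp hr
  obtain ⟨a, rfl⟩ := Ideal.mem_span_range_iff_exists_fun.mp hv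
  obtain ⟨H, h1, h2⟩ := F.hom x hx
  refine ⟨tM H Wm a, fun p q h => ?_, ?_⟩
  · rcases tM_ne h with ⟨e, h⟩ | ⟨e, l, h⟩
    · rw [e, h1 _ _ h, add_assoc]
    · have h2 : l ∈ p.1 ∧ q.1 = p.1.erase l := by
        by_contra hc; exact h (if_neg hc)
      rw [e, h2.2, ← Finset.card_erase_add_one h2.1]; omega
  · rw [Matrix.ext_iff_mulVec]
    intro v
    rw [← uncurry_curry v, add_mulVec, ← mulVec_mulVec, ← mulVec_mulVec, tD_mulVec, tH_mulVec,
      tH_mulVec, tD_mulVec, eV_add, eV_add, kdV_add, khV_add, eV_kdV, eV_khV, eV_eV, eV_eV,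
      smul_mulVec, one_mulVec]
    have h3 := kdV_khV z a (curry v)
    ext ⟨A, μ⟩
    have h4 := congrFun (congrArg (· *ᵥ curry v A) h2) μ
    have h5 := congrFun (congrFun h3 A) μ
    simp only [add_mulVec, smul_mulVec, one_mulVec, Pi.add_apply, Pi.smul_apply, smul_eq_mul,
      uncurry_apply_pair, Pi.neg_apply] at h4 h5 ⊢
    linear_combination h4 + h5

/-- The total complex. -/
noncomputable def cx (t : Fin (s + d) → U) (ht : ∀ i, t i ∈ J ⊔ Ideal.span (Set.range z)) :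
    Cx U (s + d) t (Finset (Fin d) × ι) where
  deg p := p.1.card + F.deg p.2
  deg_le p := by
    have := F.deg_le p.2
    have : p.1.card ≤ d := by simpa using Finset.card_le_univ p.1
    omega
  D := tM F.D Cm z
  H i := (F.exists_hom z (ht i)).choose
  DD := by
    rw [Matrix.ext_iff_mulVec]
    intro v
    rw [← uncurry_curry v, ← mulVec_mulVec, tD_mulVec, tD_mulVec, eV_add, kdV_add, eV_kdV, eV_eV,
      kdV_kdV, F.DD]
    ext ⟨A, μ⟩
    simp
  hD p q h := by
    rcases tM_ne h with ⟨e, h⟩ | ⟨e, l, h⟩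
    · rw [e, F.hD _ _ h, add_assoc]
    · have h2 : l ∉ p.1 ∧ q.1 = insert l p.1 := by
        by_contra hc; exact h (if_neg hc)
      rw [e, h2.2, Finset.card_insert_of_notMem h2.1]; omega
  hH i := (F.exists_hom z (ht i)).choose_spec.1
  hom i := (F.exists_hom z (ht i)).choose_spec.2

lemma cx_D (t ht) : (F.cx z t ht).D = tM F.D Cm z := rfl

/-- A chain of degree one. -/
def ch (c : ι → U) (w : Fin d → U) : Finset (Fin d) → ι → U :=
  fun A μ => if A = ∅ then c μ else if μ = F.μ₀ then ch1 w A else 0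

lemma inDeg_ch {c : ι → U} (hc : InDeg F.deg 1 c) (w : Fin d → U) (t ht) :
    InDeg (F.cx z t ht).deg 1 (uncurry (F.ch c w)) := by
  rintro ⟨A, μ⟩ h
  change A.card + F.deg μ ≠ 1 at h
  simp only [uncurry_apply_pair, ch]
  split_ifs with h1 h2
  · exact hc μ (by simpa [h1] using h)
  · exact inDeg_ch1 w A (by simpa [(F.deg0 μ).mpr h2] using h)
  · rfl

lemma D_ch {c : ι → U} (hc : InDeg F.deg 1 c) (w : Fin d → U) :
    tM F.D Cm z *ᵥ uncurry (F.ch c w) =
      Pi.single (∅, F.μ₀) ((F.D *ᵥ c) F.μ₀ + ∑ l, w l * z l) := by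
  rw [tD_mulVec]
  ext ⟨A, μ⟩
  have h1 := congrFun (kd_ch1 z w) A
  rw [kd_apply] at h1
  have h2 : kdV z (F.ch c w) A μ =
      if μ = F.μ₀ then (Pi.single ∅ (∑ l, w l * z l) : Finset (Fin d) → U) A else 0 := by
    rw [kdV_apply, ← h1]
    split_ifs with h <;> simp [ch, h]
  rw [uncurry_apply_pair, Pi.add_apply, Pi.add_apply, h2]
  by_cases hA : A = ∅
  · subst hA
    have e : F.ch c w ∅ = c := by ext; simp [ch]
    rw [eV, e]
    by_cases hμ : μ = F.μ₀
    · simp [hμ]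
    · have : (F.D *ᵥ c) μ = 0 := Finset.sum_eq_zero fun ν _ => by
        by_cases h3 : F.D μ ν = 0
        · simp [h3]
        · have := F.hD μ ν h3
          have := (F.deg0 μ).not.mpr hμ
          rw [hc ν (by omega), mul_zero]
      simp [hμ, this]
  · have : (F.D *ᵥ F.ch c w A) μ = 0 := Finset.sum_eq_zero fun ν _ => by
      by_cases h3 : F.D μ ν = 0
      · simp [h3]
      · have := F.hD μ ν h3
        have : ν ≠ F.μ₀ := (F.deg0 ν).not.mp (by omega)
        simp [ch, hA, this]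
    simp [eV, this, hA]

lemma exists_of_mem {r : U} (hr : r ∈ J) : ∃ c, InDeg F.deg 1 c ∧ (F.D *ᵥ c) F.μ₀ = r := by
  rw [← F.span] at hr
  obtain ⟨c, rfl⟩ := Ideal.mem_span_range_iff_exists_fun.mp hr
  refine ⟨fun ν => if F.deg ν = 1 then c ν else 0, fun ν h => if_neg h,
    Finset.sum_congr rfl fun ν _ => ?_⟩
  by_cases h : F.D F.μ₀ ν = 0
  · simp [h]
  · have := F.hD _ _ h
    rw [(F.deg0 _).mpr rfl] at this
    simp [this, mul_comm]

lemma mulVec_mem (c : ι → U) : (F.D *ᵥ c) F.μ₀ ∈ J := by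
  exact F.span.le (Ideal.sum_mem _ fun ν _ => Ideal.mul_mem_right _ _ (Ideal.subset_span ⟨ν, rfl⟩))

variable (t : Fin (s + d) → U) (ht : ∀ i, t i ∈ J ⊔ Ideal.span (Set.range z)) (g : U)
  (hg : ∀ (j : Fin (s + d)) (r : U), t j * r ∈ Ideal.span (t '' {i | i < j}) →
    g * r ∈ Ideal.span (t '' {i | i < j}))
include F ht hg

lemma cycle {c : ι → U} (hc : InDeg F.deg 1 c) (w : Fin d → U)
    (h : (F.D *ᵥ c) F.μ₀ + ∑ l, w l * z l = 0) :
    ∃ y, g ^ (s + d) • F.ch c w = eV F.D y + kdV z y := by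
  obtain ⟨η, -, hη⟩ := (F.cx z t ht).almost_acyclic g hg (s + d) 1 0 (add_comm _ _) one_pos _
    (F.inDeg_ch z hc w t ht) (by
      intro μ
      rw [cx_D, F.D_ch z hc, h]
      simp)
  refine ⟨curry η, ?_⟩
  ext A μ
  have := hη (A, μ)
  rw [cx_D, ← uncurry_curry η, tD_mulVec] at this
  simpa [sub_eq_zero] using this

theorem colon (j : Fin d) (w : U) (hw : z j * w ∈ J ⊔ Ideal.span (z '' {i | i ≠ j})) :
    g ^ (s + d) * w ∈ J ⊔ Ideal.span (z '' {i | i ≠ j}) := by
  obtain ⟨x, hx, v, hv, hxv⟩ := Submodule.mem_sup.mp hw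
  obtain ⟨c, hc, hc'⟩ := F.exists_of_mem (neg_mem hx)
  have : ∃ a : Fin d → U, a j = w ∧ ∑ l, a l * z l = x := by
    rw [Set.image_eq_range] at hv
    obtain ⟨a, ha⟩ := Ideal.mem_span_range_iff_exists_fun.mp hv
    refine ⟨fun l => if h : l ≠ j then -a ⟨l, h⟩ else w, by simp, ?_⟩
    rw [← Finset.add_sum_erase _ _ (Finset.mem_univ j),
      Finset.sum_subtype (p := fun i => i ∈ {i | i ≠ j}) (F := inferInstance) _ (by simp)]
    simp only [ne_eq, not_true_eq_false, dite_false]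
    rw [mul_comm, ← hxv, ← ha, add_assoc, ← Finset.sum_add_distrib, add_eq_left]
    refine Finset.sum_eq_zero fun x _ => ?_
    rw [dif_pos (show ¬x.1 = j from x.2)]; simp
  obtain ⟨a, rfl, ha⟩ := this
  obtain ⟨y, hy⟩ := F.cycle z t ht g hg hc a (by rw [hc', ha, neg_add_cancel])
  have h2 := congrFun (congrFun hy {j}) F.μ₀
  simp only [Pi.smul_apply, ch, Finset.singleton_ne_empty, if_false, if_true, ch1_single,
    smul_eq_mul, Pi.add_apply, eV] at h2
  rw [h2, kdV_apply]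
  refine Submodule.add_mem_sup (J.mul_mem_left _ (F.mulVec_mem _)) (Ideal.sum_mem _ fun l _ => ?_)
  by_cases hl : l = j
  · simp [hl]
  · exact Ideal.mul_mem_right _ _ (Ideal.subset_span ⟨l, hl, rfl⟩)

theorem h1_approx {c : ι → U} (hc : InDeg F.deg 1 c) (h : (F.D *ᵥ c) F.μ₀ = 0) :
    ∃ y, ∀ μ, (g ^ (s + d) • c - F.D *ᵥ y) μ ∈ Ideal.span (Set.range z) := by
  obtain ⟨y, hy⟩ := F.cycle z t ht g hg hc 0 (by simp [h])
  refine ⟨y ∅, fun μ => ?_⟩
  have h2 := congrFun (congrFun hy ∅) μ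
  simp only [Pi.smul_apply, ch, if_true, smul_eq_mul, Pi.add_apply, eV, Finset.card_empty,
    pow_zero, one_mul] at h2
  rw [Pi.sub_apply, Pi.smul_apply, smul_eq_mul, h2, add_sub_cancel_left, kdV_apply]
  exact Ideal.sum_mem _ fun l _ => Ideal.mul_mem_right _ _ (Ideal.subset_span ⟨l, rfl⟩)

end Rs

end Vale.Agent.P202
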