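import Vale.Agent.P202.TK
import Vale.Agent.P202.StepB

/-! Estimates for quotients with a finite resolution. -/

open Matrix IsLocalRing Function

namespace Vale.Agent.P202

lemma ln_map_mk (A : Type*) {T : Type*} [CommRing A] [CommRing T] [Algebra A T] (J I : Ideal T) :
    ln A (I.map (Ideal.Quotient.mk J)) = ln A (J ⊔ I) :=
  (DoubleQuot.quotQuotEquivQuotSupₐ A J I).toLinearEquiv.length_eq

variable {d s : ℕ} {l U ι : Type*} [Field l] [CommRing U] [Fintype ι] [DecidableEq ι]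
  [Algebra (PS (s + d) l) U] {e : ℕ} {g : PS (s + d) l} (G : Gen (PS (s + d) l) U e g)
  {J : Ideal U} (F : Rs U s J ι) (z : Fin d → U) {a : ℕ}
  (ht : ∀ i, algebraMap (PS (s + d) l) U (MvPowerSeries.X i ^ a) ∈ J ⊔ Ideal.span (Set.range z))
include G F ht

theorem lowerT (hg : g ≠ 0) {q : ℕ}
    (hD : ∀ μ ν, F.D μ ν ∈ (xI (s + d) l ^ q).map (algebraMap (PS (s + d) l) U))
    (hz : ∀ i, z i ∈ (xI (s + d) l ^ q).map (algebraMap (PS (s + d) l) U)) :
    ((e * ∏ i : Fin (s + d), ((i + 1) * q - shift (g ^ 2)) : ℕ) : ℕ∞) ≤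
      (s + d).factorial * ln (PS (s + d) l) (J ⊔ Ideal.span (Set.range z)) := by
  refine lower_bound hg G (fun _ => rfl) (F.cx z _ ht) (tM_mem _ hD _ hz) (∅, F.μ₀) _ ?_
  intro r hr
  obtain ⟨x, hx, v, hv, rfl⟩ := Submodule.mem_sup.mp hr
  obtain ⟨w, rfl⟩ := Ideal.mem_span_range_iff_exists_fun.mp hv
  obtain ⟨c, hc, rfl⟩ := F.exists_of_mem hx
  exact ⟨_, F.inDeg_ch z hc w _ ht, F.D_ch z hc w⟩

omit G F in
lemma exists_pow_mem (m : Fin d → ℕ) : ∃ b, ∀ i, algebraMap (PS (s + d) l) U (MvPowerSeries.X i ^ b) ∈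
    J ⊔ Ideal.span (Set.range fun i => z i ^ m i) := by
  have h1 : J ⊔ Ideal.span (Set.range z) ≤
      (J ⊔ Ideal.span (Set.range fun i => z i ^ m i)).radical := by
    refine sup_le (le_sup_left.trans Ideal.le_radical) ?_
    rw [Ideal.span_le]
    rintro _ ⟨i, rfl⟩
    exact ⟨m i, Ideal.mem_sup_right (Ideal.subset_span ⟨i, rfl⟩)⟩
  choose N hN using fun j => h1 (ht j)
  refine ⟨a * ∑ i, N i, fun j => ?_⟩
  rw [pow_mul, map_pow]
  exact Ideal.pow_mem_of_pow_mem _ (hN j)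
    (Finset.single_le_sum (fun _ _ => Nat.zero_le _) (Finset.mem_univ j))

theorem upperT (n : ℕ) (hn : 1 ≤ n) :
    n ^ d * ln (PS (s + d) l) (J ⊔ Ideal.span (Set.range z)) ≤
      ln (PS (s + d) l) (Ideal.span (Set.range fun i => Ideal.Quotient.mk J (z i) ^ n)) +
        d * n ^ d * ln (PS (s + d) l) (J ⊔ (Ideal.span (Set.range z) ⊔
          Ideal.span {algebraMap (PS (s + d) l) U (g ^ (s + d))})) := by
  have := len_filt (PS (s + d) l) (fun i => Ideal.Quotient.mk J (z i))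
    (Ideal.Quotient.mk J (algebraMap _ U (g ^ (s + d)))) (fun m j w _ hw => ?_) n hn
  · rwa [← ln_map_mk, ← ln_map_mk, Ideal.map_sup, Ideal.map_span, Ideal.map_span,
      ← Set.range_comp, Set.image_singleton]
  obtain ⟨w, rfl⟩ := Ideal.Quotient.mk_surjective w
  obtain ⟨b, hb⟩ := exists_pow_mem z ht m
  have e1 : Ideal.span ((fun i => Ideal.Quotient.mk J (z i) ^ m i) '' {i | i ≠ j}) =
      (Ideal.span ((fun i => z i ^ m i) '' {i | i ≠ j})).map (Ideal.Quotient.mk J) := by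
    rw [Ideal.map_span, Set.image_image]; rfl
  rw [e1, ← map_mul, Ideal.mem_quotient_iff_mem_sup, sup_comm]
  rw [e1, ← map_pow, ← map_mul, Ideal.mem_quotient_iff_mem_sup, sup_comm] at hw
  rw [map_pow]
  exact F.colon _ _ hb _ (G.colon _ (PS_regular _)) j w hw

theorem h1T [IsNoetherianRing U] (hz : ∀ i, z i ∈ Ideal.jacobson (⊥ : Ideal U)) {c : ι → U}
    (hc : InDeg F.deg 1 c) (h : (F.D *ᵥ c) F.μ₀ = 0) :
    ∃ y, algebraMap _ U g ^ (s + d) • c = F.D *ᵥ y := by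
  let N := LinearMap.range F.D.mulVecLin
  have h1 := (Ideal.span (Set.range z)).iInf_pow_smul_eq_bot_of_le_jacobson (M := (ι → U) ⧸ N)
    (Ideal.span_le.mpr (Set.range_subset_iff.mpr hz))
  have h2 : N.mkQ (algebraMap _ U g ^ (s + d) • c) = 0 := by
    rw [← Submodule.mem_bot U, ← h1, Submodule.mem_iInf]
    intro n
    obtain ⟨b, hb⟩ := exists_pow_mem z ht fun _ => n
    obtain ⟨y, hy⟩ := F.h1_approx _ _ hb _ (G.colon _ (PS_regular _)) hc h
    have e : N.mkQ (algebraMap _ U g ^ (s + d) • c) =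
        N.mkQ (algebraMap _ U g ^ (s + d) • c - F.D *ᵥ y) := by
      rw [map_sub, show N.mkQ (F.D *ᵥ y) = 0 from (Submodule.Quotient.mk_eq_zero N).mpr ⟨y, rfl⟩,
        sub_zero]
    rw [e, pi_eq_sum_univ' (_ - _), map_sum]
    refine Submodule.sum_mem _ fun μ _ => ?_
    rw [map_smul]
    refine Submodule.smul_mem_smul (SetLike.le_def.mp (Ideal.span_le.mpr ?_) (hy μ)) trivial
    rintro _ ⟨i, rfl⟩
    exact Ideal.pow_mem_pow (Ideal.subset_span (Set.mem_range_self i)) _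
  obtain ⟨y, hy⟩ := (Submodule.Quotient.mk_eq_zero N).mp h2
  exact ⟨y, hy.symm⟩

omit G F ht in
theorem torT {V : Type*} [CommRing V] {J : Ideal V} (F : Rs V s J ι) (θ : V →+* U)
    (hθ : Function.Surjective θ) (G : Gen (PS (s + d) l) U e g) (z : Fin d → U)
    (ht : ∀ i, algebraMap (PS (s + d) l) U (MvPowerSeries.X i ^ a) ∈
      J.map θ ⊔ Ideal.span (Set.range z))
    [IsNoetherianRing U] (hz : ∀ i, z i ∈ Ideal.jacobson (⊥ : Ideal U)) (γ : V)
    (hγ : θ γ = algebraMap _ U g) {j : V} (hj : j ∈ J) (hj' : θ j = 0) :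
    γ ^ (s + d) * j ∈ RingHom.ker θ * J := by
  obtain ⟨c, hc, rfl⟩ := F.exists_of_mem hj
  obtain ⟨y, hy⟩ := h1T G (F.map θ) z ht hz (c := θ ∘ c)
    (fun μ h => by simp [hc μ h]) (by rw [← hj', RingHom.map_mulVec]; rfl)
  choose y' hy' using fun μ => hθ (y μ)
  have e : γ ^ (s + d) * (F.D *ᵥ c) F.μ₀ = (F.D *ᵥ (γ ^ (s + d) • c - F.D *ᵥ y')) F.μ₀ := by
    rw [mulVec_sub, mulVec_mulVec, F.DD, mulVec_smul]; simp
  rw [e, mul_comm]
  refine Ideal.sum_mem _ fun ν _ => Ideal.mul_mem_mul (F.span.le (Ideal.subset_span ⟨ν, rfl⟩)) ?_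
  rw [RingHom.mem_ker, Pi.sub_apply, map_sub, RingHom.map_mulVec, sub_eq_zero]
  have := congrFun hy ν
  rw [show θ ∘ y' = y from funext hy']
  simpa [hγ, Rs.map] using this

end Vale.Agent.P202
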