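import Vale.Agent.P202.Lam
import Vale.Agent.P202.Coinv

namespace Vale.Agent.P202

variable {d : ℕ} {k : Type*} [Field k]

/-- Exponent vectors as integer vectors. -/
def toZ (d : ℕ) : (Fin d →₀ ℕ) →+ (Fin d → ℤ) where
  toFun m i := m i
  map_zero' := by ext; simp
  map_add' _ _ := by ext; simp

lemma toZ_injective : Function.Injective (toZ d) := by
  intro m m' h
  ext i
  have := congrFun h i
  simpa [toZ] using this

/-- Polynomials as Laurent polynomials. -/
noncomputable def varpi (d : ℕ) (k : Type*) [Field k] : MvPolynomial (Fin d) k →ₐ[k] LP d k :=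
  AddMonoidAlgebra.mapDomainAlgHom k k (toZ d)

lemma varpi_injective : Function.Injective (varpi d k) :=
  AddMonoidAlgebra.mapDomain_injective toZ_injective

lemma varpi_monomial (m : Fin d →₀ ℕ) (c : k) :
    varpi d k (MvPolynomial.monomial m c) = AddMonoidAlgebra.single (toZ d m) c :=
  AddMonoidAlgebra.mapDomain_single

lemma varpi_X (i : Fin d) :
    varpi d k (MvPolynomial.X i) = AddMonoidAlgebra.single (Pi.single i 1) 1 := by
  rw [MvPolynomial.X, varpi_monomial]
  congr 1
  ext j
  simp [toZ, Finsupp.single_apply, Pi.single_apply, eq_comm]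

lemma varpi_nonneg (p : MvPolynomial (Fin d) k) (a : Fin d → ℤ)
    (h : (varpi d k p).coeff a ≠ 0) (i : Fin d) : 0 ≤ a i := by
  by_contra hlt
  apply h
  apply Finsupp.mapDomain_of_notMem_range
  rintro ⟨m, rfl⟩
  exact hlt (by simp [toZ])

lemma exists_varpi (x : LP d k) (h : ∀ a, x.coeff a ≠ 0 → ∀ i, 0 ≤ a i) :
    ∃ p, varpi d k p = x := by
  refine ⟨AddMonoidAlgebra.comapDomain (toZ d) toZ_injective x, ?_⟩
  apply AddMonoidAlgebra.mapDomain_comapDomain
  intro a ha
  have := h a (Finsupp.mem_support_iff.mp ha)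
  refine ⟨Finsupp.equivFunOnFinite.symm fun i => (a i).toNat, ?_⟩
  ext i
  simp [toZ, this i]

/-- Images of the variables. -/
noncomputable def thv (d : ℕ) (k : Type*) [Field k] (j : Fin d) : PowerSeries (LP d k) :=
  PowerSeries.X * PowerSeries.C (varpi d k (es d k j))

lemma hasSubst_thv : MvPowerSeries.HasSubst (thv d k) :=
  MvPowerSeries.hasSubst_of_constantCoeff_zero fun j => by
    change PowerSeries.constantCoeff (thv d k j) = 0
    simp [thv]

/-- Substitution `x_j ↦ w e_j(u)`. -/
noncomputable def th0 (d : ℕ) (k : Type*) [Field k] : PS d k →ₐ[k] PowerSeries (LP d k) :=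
  MvPowerSeries.substAlgHom (hasSubst_thv (d := d) (k := k))

/-- Substitution `x_j ↦ w e_j(u)`. -/
noncomputable def th (d : ℕ) (k : Type*) [Field k] : PS d k →+* Lam d k :=
  toH.symm.toRingHom.comp ((HahnSeries.ofPowerSeries ℤ (LP d k)).comp (th0 d k).toRingHom)

lemma toH_th (f : PS d k) : toH (th d k f) = HahnSeries.ofPowerSeries ℤ (LP d k) (th0 d k f) := rfl

lemma th0_X (j : Fin d) : th0 d k (MvPowerSeries.X j) = thv d k j :=
  MvPowerSeries.substAlgHom_X _ j

lemma th0_coe (p : MvPolynomial (Fin d) k) : th0 d k p = MvPolynomial.aeval (thv d k) p :=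
  MvPowerSeries.substAlgHom_coe _ p

lemma th_X (j : Fin d) :
    th d k (MvPowerSeries.X j) = sgl 1 (varpi d k (es d k j)) := by
  apply toH.injective
  rw [toH_th, toH_sgl]
  simp [th0_X, thv, HahnSeries.C_apply, HahnSeries.single_mul_single]

lemma coeff_th0_of_mem {n : ℕ} {f : PS d k} (hf : f ∈ xI d k ^ n) {t : ℕ} (ht : t < n) :
    PowerSeries.coeff t (th0 d k f) = 0 := by
  have h1 : (xI d k).map (th0 d k) ≤ Ideal.span {PowerSeries.X} := by
    rw [Ideal.map_span, Ideal.span_le]
    rintro _ ⟨_, ⟨j, rfl⟩, rfl⟩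
    rw [th0_X]
    exact Ideal.mem_span_singleton.mpr (Dvd.intro _ rfl)
  have h2 : th0 d k f ∈ (Ideal.span {PowerSeries.X}) ^ n := by
    have := Ideal.mem_map_of_mem (th0 d k) hf
    rw [Ideal.map_pow] at this
    exact Ideal.pow_right_mono h1 n this
  rw [Ideal.span_singleton_pow, Ideal.mem_span_singleton, PowerSeries.X_pow_dvd_iff] at h2
  exact h2 t ht

lemma sub_trunc_mem (f : PS d k) (n : ℕ) :
    f - (MvPowerSeries.truncTotal n f : MvPolynomial (Fin d) k) ∈ xI d k ^ n := by
  rw [mem_xI_pow_iff]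
  intro m hm
  simp [MvPowerSeries.coeff_truncTotal _ hm]

lemma coeff_th (f : PS d k) (t : ℕ) : co (th d k f) t = PowerSeries.coeff t (th0 d k f) := by
  simp [co, toH_th]

lemma coeff_th_neg (f : PS d k) {t : ℤ} (ht : t < 0) : co (th d k f) t = 0 := by
  simp only [co, toH_th, HahnSeries.ofPowerSeries_apply]
  apply HahnSeries.embDomain_of_notMem_range
  rintro ⟨n, hn⟩
  have : (n : ℤ) = t := hn
  omega

/-- Support condition of the image of the power series ring. -/
def pP (n : ℕ) (t : ℤ) (a : Fin d → ℤ) : Prop := (n : ℤ) ≤ t ∧ ∀ i, 0 ≤ a i ∧ a i ≤ t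

lemma es_mem (j : Fin d) :
    (sgl 1 (varpi d k (es d k j)) : Lam d k) ∈ Sup (pP 1) := by
  rw [es, MvPolynomial.esymm_eq_sum_monomial, map_sum, map_sum]
  refine AddSubgroup.sum_mem _ fun t _ => ?_
  rw [varpi_monomial]
  refine single_mem ⟨by simp, fun i => ?_⟩ _
  simp only [toZ, AddMonoidHom.coe_mk, ZeroHom.coe_mk, Finsupp.finsetSum_apply,
    Finsupp.single_apply, Finset.sum_ite_eq']
  split_ifs <;> simp

lemma pP_add {n m : ℕ} (t a t' a') (h : pP (d := d) n t a) (h' : pP (d := d) m t' a') :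
    pP (n + m) (t + t') (a + a') := by
  refine ⟨by push_cast; linarith [h.1, h'.1], fun i => ?_⟩
  have := h.2 i; have := h'.2 i
  simp only [Pi.add_apply]; omega

lemma th_coe_mem (p : MvPolynomial (Fin d) k) : th d k p ∈ Sup (pP 0) := by
  induction p using MvPolynomial.induction_on with
  | C c =>
    have : th d k (MvPolynomial.C c : MvPolynomial (Fin d) k) =
        sgl 0 (AddMonoidAlgebra.single 0 c) := by
      apply toH.injective
      rw [toH_th, toH_sgl, th0_coe, MvPolynomial.aeval_C]
      rw [PowerSeries.algebraMap_apply, HahnSeries.ofPowerSeries_C]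
      rfl
    rw [this]
    exact single_mem ⟨by simp, by simp⟩ _
  | add p q hp hq => rw [MvPolynomial.coe_add, map_add]; exact add_mem hp hq
  | mul_X p j hp =>
    rw [MvPolynomial.coe_mul, map_mul, MvPolynomial.coe_X, th_X]
    refine mul_mem_Sup (fun t a t' a' h h' => ?_) hp (es_mem j)
    have := pP_add t a t' a' h h'
    exact ⟨by have := this.1; push_cast at this ⊢; omega, this.2⟩

lemma th_mem_of_mem {n : ℕ} {f : PS d k} (hf : f ∈ xI d k ^ n) : th d k f ∈ Sup (pP n) := by
  intro t a hne
  have ht : 0 ≤ t := by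
    by_contra h
    exact hne (by simp [cf, coeff_th_neg f (not_le.mp h)])
  obtain ⟨t, rfl⟩ := Int.eq_ofNat_of_zero_le ht
  constructor
  · by_contra h
    exact hne (by simp [cf, coeff_th, coeff_th0_of_mem hf (by omega : t < n)])
  · have h1 := coeff_th0_of_mem (sub_trunc_mem f (t + 1)) (Nat.lt_succ_self t)
    rw [map_sub, map_sub, sub_eq_zero, ← coeff_th, ← coeff_th] at h1
    refine (th_coe_mem (MvPowerSeries.truncTotal (t + 1) f) t a ?_).2
    simpa [cf, ← h1] using hne

lemma th_mem (f : PS d k) : th d k f ∈ Sup (pP 0) := th_mem_of_mem (by simp)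

lemma aeval_es_injective :
    Function.Injective (MvPolynomial.aeval (R := k) (es d k)) := by
  intro p q h
  apply MvPolynomial.esymmAlgHom_fin_injective k (le_refl d)
  apply Subtype.ext
  rw [MvPolynomial.esymmAlgHom_apply, MvPolynomial.esymmAlgHom_apply]
  exact h

lemma th_ne_zero {f : PS d k} (hf : f ≠ 0) : th d k f ≠ 0 := by
  classical
  have hex : ∃ n, ∃ m : Fin d →₀ ℕ, m.degree = n ∧ MvPowerSeries.coeff m f ≠ 0 := by
    by_contra h
    push Not at h
    exact hf (MvPowerSeries.ext fun m => h _ m rfl)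
  obtain ⟨m₀, hm₀, hne⟩ := Nat.find_spec hex
  set n := Nat.find hex
  set p := MvPowerSeries.truncTotal (n + 1) f with hp
  have hdeg : ∀ m ∈ p.support, m.degree = n := by
    intro m hm
    rw [MvPolynomial.mem_support_iff, hp, MvPowerSeries.coeff_truncTotal_eq_ite] at hm
    split_ifs at hm with h
    · have := Nat.find_min' hex ⟨m, rfl, hm⟩
      omega
    · exact absurd rfl hm
  have hp0 : p ≠ 0 := by
    intro h
    have := MvPowerSeries.coeff_truncTotal f (n := n + 1) (x := m₀) (by omega)
    rw [← hp, h] at this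
    exact hne this.symm
  have h1 := coeff_th0_of_mem (sub_trunc_mem f (n + 1)) (Nat.lt_succ_self n)
  rw [map_sub, map_sub, sub_eq_zero, ← hp, th0_coe] at h1
  have h2 : MvPolynomial.aeval (thv d k) p = PowerSeries.X ^ n *
      PowerSeries.C (varpi d k (MvPolynomial.aeval (es d k) p)) := by
    conv_lhs => rw [p.as_sum]
    conv_rhs => rw [p.as_sum]
    simp only [map_sum, Finset.mul_sum]
    refine Finset.sum_congr rfl fun m hm => ?_
    rw [MvPolynomial.aeval_monomial, MvPolynomial.aeval_monomial, Finsupp.prod_fintype _ _ (by simp),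
      Finsupp.prod_fintype _ _ (by simp), ← hdeg m hm, Finsupp.degree_eq_sum]
    simp only [thv, mul_pow, Finset.prod_mul_distrib, Finset.prod_pow_eq_pow_sum, map_mul,
      map_prod, map_pow, AlgHom.commutes]
    rw [PowerSeries.algebraMap_apply]
    ring
  intro h0
  have h3 := coeff_th f n
  rw [h0, h1, h2, mul_comm, PowerSeries.coeff_C_mul, PowerSeries.coeff_X_pow_self] at h3
  apply hp0
  apply aeval_es_injective
  apply varpi_injective
  simpa using h3.symm

end Vale.Agent.P202
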