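import Vale.Agent.P202.TransferC
import Vale.Agent.P202.AT

/-! Job Transfer (see notes/P202.md): reduction of the characteristic zero inequality to
characteristic `p`. -/

open IsLocalRing

namespace Vale.Agent.P202

open Tf in
theorem coreFin0 {K : Type*} [Field K] [CharZero K] {d : ℕ} {R S : Type*} [CommRing R]
    [IsLocalRing R] [Algebra (PS d K) R] [Module.Finite (PS d K) R]
    (hres : ∀ r : R, ∃ f : PS d K, r - algebraMap (PS d K) R f ∈ maximalIdeal R)
    (hred : IsRed ((xI d K).map (algebraMap (PS d K) R)) (maximalIdeal R))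
    [CommRing S] [Nontrivial S] [Algebra R S] [Module.Free R S] [Module.Finite R S]
    [Algebra (PS d K) S] [IsScalarTower (PS d K) R S] (z : Fin d → S) (a : ℕ)
    (hx : ∀ j, algebraMap (PS d K) S (MvPowerSeries.X j) ^ a ∈ Ideal.span (Set.range z))
    (hz : ∀ i, z i ^ a ∈ (xI d K).map (algebraMap (PS d K) S)) (n : ℕ) :
    ((Module.finrank (PS d K) R * n ^ d : ℕ) : ℕ∞) ≤
      Module.length (PS d K) (S ⧸ Ideal.span (Set.range fun i => z i ^ n)) := by
  classical
  by_cases htop : Module.length (PS d K) (S ⧸ Ideal.span (Set.range fun i => z i ^ n)) = ⊤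
  · rw [htop]; exact le_top
  obtain ⟨L, hL⟩ := ENat.ne_top_iff_exists.mp htop
  rw [← hL, Nat.cast_le]
  haveI := isDomain_PSL d K
  obtain ⟨m, y, hy⟩ := Submodule.fg_iff_exists_fin_generating_family.mp
    (IsNoetherian.noetherian ((maximalIdeal R).restrictScalars (PS d K)))
  have hym : Ideal.span (Set.range y) = maximalIdeal R := by
    refine le_antisymm (Ideal.span_le.mpr fun w hw => ?_) fun w hw => ?_
    · exact (hy.le (Submodule.subset_span hw) :)
    · exact Submodule.span_le_restrictScalars (PS d K) R _ (hy.ge hw)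
  let t : Option (Fin m) → R := fun o => o.elim 1 y
  have ht : ∀ w, w ∈ Submodule.span (PS d K) (Set.range t) := fun w => by
    obtain ⟨f, hf⟩ := hres w
    rw [← sub_add_cancel w (algebraMap _ _ f), Algebra.algebraMap_eq_smul_one f]
    refine add_mem (Submodule.span_mono ?_ (hy.ge (by
      simpa [Algebra.algebraMap_eq_smul_one] using hf)))
      (Submodule.smul_mem _ _ (Submodule.subset_span ⟨none, rfl⟩))
    rintro _ ⟨i, rfl⟩
    exact ⟨some i, rfl⟩
  let b := Module.Free.chooseBasis R S
  obtain ⟨k₀⟩ := b.index_nonempty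
  obtain ⟨g, -, G, hg, -, hG⟩ := exists_cmp (A := PS d K) (M := R)
  choose β hβ using fun l => hG (Pi.single l 1)
  obtain ⟨ν, hν1, hν2⟩ := exists_chain L
    ((Ideal.span (Set.range fun i => z i ^ n)).restrictScalars (PS d K))
    (by rw [(Submodule.Quotient.restrictScalarsEquiv _ _).length_eq, hL])
  obtain ⟨hred1, c, hred2⟩ := hred
  rw [← hym, Ideal.map_span, ← Set.range_comp] at hred1 hred2
  rw [span_pow_eq, span_pow_eq, span_mul_eq] at hred2
  simp only [Ideal.map_span, ← Set.range_comp] at hz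
  let F : Filter (Subring (PS d K)) := ⨅ p : PS d K, Filter.principal {A | p ∈ A}
  have evP : ∀ p, ∀ᶠ A : Subring (PS d K) in F, p ∈ (A : Set (PS d K)) := fun p =>
    Filter.mem_iInf_of_mem p (Filter.mem_principal_self _)
  have evR : ∀ w, ∀ᶠ A in F, w ∈ (RA y A : Set R) := fun w => (ev_comb evP (ht w)).mono
    fun A hA => Submodule.span_le (p := Subalgebra.toSubmodule (RA y A)) |>.mpr
      (Set.range_subset_iff.mpr (tA y A)) (dP hA)
  have evS : ∀ w, ∀ᶠ A in F, w ∈ (SA y b A : Set S) := fun w => (ev_comb evR (b.mem_span w)).mono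
    fun A hA => Algebra.span_le_adjoin _ _ (dR hA)
  have evQ : ∀ l w, w ∈ (Ideal.span (Set.range fun i => z i ^ n)).restrictScalars (PS d K) ⊔
      Submodule.span (PS d K) (Set.range fun k : Fin l => ν k) →
      ∀ᶠ A in F, QQ y b A (fun i => z i ^ n) (fun k : Fin l => ν k) w := by
    intro l w hw
    obtain ⟨u, hu, v, hv, rfl⟩ := Submodule.mem_sup.mp hw
    filter_upwards [evS u, evS v, ev_comb evS hu, ev_comb evP hv] with A h1 h2 h3 h4
    exact ⟨u, h1, v, h2, h3, h4, rfl⟩
  have all := fun {ι : Type _} [Finite ι] {p : ι → Subring (PS d K) → Prop} =>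
    (Filter.eventually_all (l := F) (p := p)).mpr
  have E := ((all fun o => all fun o' => ev_comb evP (ht (t o * t o'))).and <|
    (ev_comb evR (b.mem_span 1)).and <|
    (Filter.eventually_all.mpr fun k => Filter.eventually_all.mpr fun k' =>
      ev_comb evR (b.mem_span (b k * b k'))).and <|
    (all fun j => ev_comb evR (hred1 (Ideal.subset_span (Set.mem_range_self j)))).and <|
    (all fun f => ev_comb evR (hred2 (Ideal.subset_span (Set.mem_range_self f)))).and <|
    (all fun l => all fun o => evP (G (t o) l)).and <|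
    (all fun l => evR (β l)).and <| (all fun i => evS (z i)).and <|
    (all fun l : Fin L => evS (ν l)).and <| (all fun j => ev_comb evS (hx j)).and <|
    (all fun i => ev_comb evS (hz i)).and <|
    (all fun l : Fin L => all fun j => evQ l _ (hν1 l (MvPowerSeries.X j)
      (maximalIdeal_PS d K ▸ Ideal.subset_span (Set.mem_range_self j)))).and <|
    all fun o => Filter.eventually_all.mpr fun k => evQ L (t o • b k) (hν2.ge trivial))
  obtain ⟨s, hs, hsE⟩ := (Filter.hasBasis_iInf_principal_finite _).mem_iff.mp E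
  obtain ⟨κ, _, _, A, hX, χ, hA, hχ, hχ0⟩ := artin_transfer K d (insert g hs.toFinset)
  obtain ⟨e1, e2, e3, e4, e5, e6, e7, e8, e9, e10, e11, e12, e13⟩ := hsE
    (show A ∈ _ from Set.mem_iInter₂.mpr fun p hp => hA p (by simp [hp]))
  exact descend_bound y b A _ hX χ hχ k₀ G β ⟨g, hA g (Finset.mem_insert_self _ _)⟩
    (hχ0 _ (Finset.mem_insert_self _ _) fun h => hg (congrArg Subtype.val h)) hβ z a c n L ν
    e1 e2 e3 e4 e5 e6 e7 e8 e9 e10 e11 e12 e13

end Vale.Agent.P202
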