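import Vale.Agent.P202.Core
import Vale.Agent.P202.CoreP
import Vale.Agent.P202.FibreA

/-! Job Transfer, tools: the inequality over finite fields from finitely many certificates. -/

open IsLocalRing TensorProduct

namespace Vale.Agent.P202.Tf

theorem coreFinP (p : ℕ) [Fact p.Prime] {K : Type*} (K' : Type*) [Field K] [CharP K p]
    [PerfectField K] [Field K'] [Algebra K' K] (hj : Function.Surjective (algebraMap K' K))
    {d : ℕ} {R S : Type*} [CommRing R] [IsLocalRing R] [Algebra (PS d K) R]
    [Module.Finite (PS d K) R]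
    (hred : IsRed ((xI d K).map (algebraMap (PS d K) R)) (maximalIdeal R))
    [CommRing S] [Nontrivial S] [Algebra R S] [Module.Free R S] [Module.Finite R S]
    [Algebra (PS d K) S] [IsScalarTower (PS d K) R S] (z : Fin d → S) (a : ℕ)
    (hx : ∀ j, algebraMap (PS d K) S (MvPowerSeries.X j) ^ a ∈ Ideal.span (Set.range z))
    (hz : ∀ i, z i ^ a ∈ (xI d K).map (algebraMap (PS d K) S)) (n : ℕ) :
    ((Module.finrank (PS d K) R * n ^ d : ℕ) : ℕ∞) ≤
      Module.length (PS d K) (S ⧸ Ideal.span (Set.range fun i => z i ^ n)) := by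
  haveI := isDomain_PSL d K
  haveI : Module.Finite (PS d K) S := Module.Finite.trans R S
  haveI : IsNoetherianRing S := IsNoetherianRing.of_finite (PS d K) S
  haveI : IsAdicComplete ((xI d K).map (algebraMap (PS d K) S)) S :=
    (IsAdicComplete.map_algebraMap_iff _ _).mpr (isAdicComplete_of_finite S)
  letI : Algebra K S := ((algebraMap (PS d K) S).comp (algebraMap K (PS d K))).toAlgebra
  haveI : IsScalarTower K (PS d K) S := IsScalarTower.of_algebraMap_eq fun _ => rfl
  letI : Algebra K' S := ((algebraMap K S).comp (algebraMap K' K)).toAlgebra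
  haveI : IsScalarTower K' K S := IsScalarTower.of_algebraMap_eq fun _ => rfl
  obtain ⟨ψ, hψ⟩ := exists_evalPS (K := K') ((xI d K).map (algebraMap (PS d K) S)) z
    fun i => ⟨a, hz i⟩
  letI : Algebra (PS d K') S := ψ.toRingHom.toAlgebra
  haveI : IsScalarTower K' (PS d K') S :=
    IsScalarTower.of_algebraMap_eq fun c => (ψ.commutes c).symm
  have hψ' : ∀ i, algebraMap (PS d K') S (MvPowerSeries.X i) = z i := hψ
  have hlen : ∀ J : Ideal S, Module.length (PS d K) (S ⧸ J) = Module.length (PS d K') (S ⧸ J) :=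
    fun J => by
      rw [length_eq_of_residueL residue_PS_surj, length_eq_of_residueL residue_PS_surj,
        Module.length_eq_of_surjective hj]
  have hJ : (xI d K').map (algebraMap (PS d K') S) = Ideal.span (Set.range z) := by
    rw [Ideal.map_span, ← Set.range_comp]
    exact congrArg (fun f => Ideal.span (Set.range f)) (funext hψ')
  haveI : IsHausdorff (xI d K') S := by
    refine (IsHausdorff.map_algebraMap_iff (S := S)).mp (IsHausdorff.of_le_jacobson _ S ?_)
    rw [hJ, Ideal.span_le, Set.range_subset_iff]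
    exact fun i => Ideal.isRadical_jacobson ⊥ ⟨a, IsAdicComplete.le_jacobson_bot _ (hz i)⟩
  haveI : Module.Finite (PS d K') (S ⧸ (xI d K' • ⊤ : Submodule (PS d K') S)) := by
    obtain ⟨N, hN⟩ := Ideal.exists_pow_le_of_le_radical_of_fg
      (I := xI d K) (J := (Ideal.span (Set.range z)).comap (algebraMap (PS d K) S)) (by
        rw [Ideal.span_le, Set.range_subset_iff]
        exact fun j => ⟨a, by simpa using hx j⟩) (Ideal.fg_of_isNoetherianRing _)
    obtain ⟨C, hC⟩ := length_rank_estimateL _ (maximalIdeal_PS d K) S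
    have h1 := (hC (xI d K ^ (N + 1)) N (by rw [maximalIdeal_PS])).1
    rw [length_PS_quot_powL, ← Nat.cast_mul, ← Nat.cast_add] at h1
    have h2 : Module.length (PS d K') (S ⧸ (xI d K' • ⊤ : Submodule (PS d K') S)) ≠ ⊤ := by
      rw [Ideal.smul_top_eq_map, (Submodule.Quotient.restrictScalarsEquiv _ _).length_eq, ← hlen,
        ← (Submodule.Quotient.restrictScalarsEquiv (PS d K) _).length_eq, hJ]
      refine ne_top_of_le_ne_top (ENat.coe_ne_top _) ((len_quot_anti ?_).trans h1)
      rw [Ideal.smul_top_eq_map]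
      exact Ideal.map_le_iff_le_comap.mpr ((Ideal.pow_le_pow_right N.le_succ).trans hN)
    rw [Module.length_ne_top_iff, isFiniteLength_iff_isNoetherian_isArtinian] at h2
    haveI := h2.1
    infer_instance
  haveI : Module.Finite (PS d K') S := finite_of_isHausdorff S
  obtain ⟨c, hc⟩ := hred.pow_le
  have h1 := coreFin p (K' := K') (S := S) c hc a (fun j => by
      rw [hJ, ← IsScalarTower.algebraMap_apply]
      exact hx j) (by
    ext s
    constructor
    · rintro ⟨k, rfl⟩
      obtain ⟨k, rfl⟩ := hj k
      exact ⟨k, (ψ.commutes k).trans (IsScalarTower.algebraMap_apply (PS d K) R S _)⟩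
    · rintro ⟨k, rfl⟩
      exact ⟨algebraMap K' K k,
        ((ψ.commutes k).trans (IsScalarTower.algebraMap_apply (PS d K) R S _)).symm⟩)
  have h2 := finrank_mul_le_length_bracket (d := d) (K := K') S n
  rw [Ideal.smul_top_eq_map, (Submodule.Quotient.restrictScalarsEquiv _ _).length_eq, ← hlen,
    Ideal.map_span, ← Set.range_comp] at h2
  refine le_trans (by exact_mod_cast Nat.mul_le_mul_right _ h1) (h2.trans (le_of_eq ?_))
  exact congrArg (fun f => Module.length (PS d K) (S ⧸ Ideal.span (Set.range f)))
    (funext fun i => by simp [hψ'])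

theorem isLocal_of_gens {P R : Type*} [CommRing P] [IsLocalRing P] [CommRing R] [Nontrivial R]
    [Algebra P R] {ι : Type*} [Fintype ι] (r : ι → R) (J : Ideal R) (hr : ∀ i, r i ∈ J)
    (hgen : ∀ w, w ∈ Submodule.span P (insert 1 (Set.range r)))
    (hred : IsRed ((maximalIdeal P).map (algebraMap P R)) J) :
    ∃ _ : IsLocalRing R, maximalIdeal R = J := by
  haveI : Module.Finite P R :=
    ⟨Submodule.fg_def.mpr ⟨_, (Set.finite_range r).insert 1, eq_top_iff.mpr fun w _ => hgen w⟩⟩
  have key : ∀ M : Ideal R, M.IsMaximal → M = J := fun M hM => by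
    have h1 : M.comap (algebraMap P R) = maximalIdeal P :=
      eq_maximalIdeal (Ideal.isMaximal_comap_of_isIntegral_of_isMaximal M)
    obtain ⟨c, hc⟩ := hred.pow_le
    have h2 : J ≤ M := hM.isPrime.le_of_pow_le ((hc 1).trans (by
      rw [pow_one, Ideal.map_le_iff_le_comap, h1]))
    refine le_antisymm (fun w hw => ?_) h2
    obtain ⟨p, u, hu, rfl⟩ := Submodule.mem_span_insert.mp (hgen w)
    have hu' : u ∈ J := Submodule.span_le (p := J.restrictScalars P) |>.mpr
      (Set.range_subset_iff.mpr hr) hu
    refine J.add_mem (hred.1 ?_) hu'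
    rw [← Algebra.algebraMap_eq_smul_one] at hw ⊢
    refine Ideal.mem_map_of_mem _ (h1 ▸ ?_)
    exact (M.add_mem_iff_left (h2 hu')).mp hw
  obtain ⟨M, hM⟩ := Ideal.exists_maximal R
  haveI : IsLocalRing R :=
    IsLocalRing.of_unique_max_ideal ⟨M, hM, fun M' hM' => (key M' hM').trans (key M hM).symm⟩
  exact ⟨inferInstance, key _ inferInstance⟩

section chain
variable {P M : Type*} [CommRing P] [IsLocalRing P] [AddCommGroup M] [Module P M]

theorem exists_chain (L : ℕ) : ∀ N : Submodule P M, Module.length P (M ⧸ N) ≤ L →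
    ∃ ν : ℕ → M, (∀ l, ∀ x ∈ maximalIdeal P,
      x • ν l ∈ N ⊔ Submodule.span P (Set.range fun k : Fin l => ν k)) ∧
      N ⊔ Submodule.span P (Set.range fun k : Fin L => ν k) = ⊤ := by
  induction L with
  | zero =>
    intro N hN
    rw [Nat.cast_zero, nonpos_iff_eq_zero, Module.length_eq_zero_iff,
      Submodule.Quotient.subsingleton_iff] at hN
    exact ⟨0, by simp, by simp [hN]⟩
  | succ L ih =>
    intro N hN
    by_cases h : N = ⊤
    · exact ⟨0, by simp, by simp [h]⟩
    obtain ⟨y, hy, hy'⟩ := exists_socle N h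
      (Module.length_quotient (N := N) ▸ hN.trans_lt (ENat.coe_lt_top _))
    have hlt : N < N ⊔ Submodule.span P {y} := lt_of_le_of_ne le_sup_left fun h' =>
      hy (h' ▸ Submodule.mem_sup_right (Submodule.mem_span_singleton_self y))
    have h1 := Order.coheight_add_one_le hlt
    rw [← Module.length_quotient, ← Module.length_quotient] at h1
    obtain ⟨ν, h2, h3⟩ := ih (N ⊔ Submodule.span P {y}) (by
      have h2 := h1.trans hN
      rw [Nat.cast_succ] at h2
      exact (ENat.add_le_add_iff_right ENat.one_ne_top).mp h2)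
    obtain ⟨μ, h0, hs⟩ : ∃ μ : ℕ → M, μ 0 = y ∧ ∀ l, μ (l + 1) = ν l :=
      ⟨fun l => Nat.casesOn l y ν, rfl, fun _ => rfl⟩
    have key : ∀ l, N ⊔ Submodule.span P (Set.range fun k : Fin (l + 1) => μ k) =
        N ⊔ Submodule.span P {y} ⊔ Submodule.span P (Set.range fun k : Fin l => ν k) := fun l => by
      rw [Fin.range_fin_succ, Submodule.span_insert, ← sup_assoc, Fin.val_zero, h0]
      exact congrArg (fun f => _ ⊔ Submodule.span P (Set.range f)) (funext fun k => hs k)
    refine ⟨μ, fun l x hx => ?_, (key L).trans h3⟩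
    cases l with
    | zero => exact Submodule.mem_sup_left (h0 ▸ hy' x hx)
    | succ l => rw [key, hs]; exact h2 l x hx

theorem length_le_of_chain (N : Submodule P M) (ν : ℕ → M) (L : ℕ)
    (h : ∀ l < L, ∀ x ∈ maximalIdeal P,
      x • ν l ∈ N ⊔ Submodule.span P (Set.range fun k : Fin l => ν k)) :
    Module.length P (M ⧸ N) ≤
      L + Module.length P (M ⧸ (N ⊔ Submodule.span P (Set.range fun k : Fin L => ν k))) := by
  induction L with
  | zero => simpa using len_quot_anti (by simp)
  | succ L ih =>
    refine (ih fun l hl => h l (by omega)).trans ?_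
    have h1 := len_quot_step _ (ν L) _ (h L (by omega))
    rw [len_residue_one] at h1
    rw [Nat.cast_succ, add_assoc]
    refine add_le_add le_rfl (h1.trans (add_le_add le_rfl (len_quot_anti ?_)))
    refine sup_le (le_sup_of_le_left le_sup_left) (Submodule.span_le.mpr ?_)
    rintro _ ⟨k, rfl⟩
    induction k using Fin.lastCases with
    | last => exact Submodule.mem_sup_right (Submodule.mem_span_singleton_self _)
    | cast k => exact Submodule.mem_sup_left (Submodule.mem_sup_right
        (Submodule.subset_span ⟨k, rfl⟩))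

end chain

theorem map_mem_span {B0 C0 B C : Type*} [CommRing B0] [CommRing C0] [CommRing B] [CommRing C]
    [Algebra B0 C0] [Algebra B C] (f : B0 →+* B) (φ : C0 →+* C)
    (h : ∀ c, φ (algebraMap B0 C0 c) = algebraMap B C (f c)) {T : Set C0} {w : C0}
    (hw : w ∈ Submodule.span B0 T) : φ w ∈ Submodule.span B (φ '' T) := by
  induction hw using Submodule.span_induction with
  | mem x hx => exact Submodule.subset_span ⟨x, hx, rfl⟩
  | zero => simp
  | add x y _ _ hx hy => rw [map_add]; exact add_mem hx hy
  | smul c x _ hx =>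
    rw [Algebra.smul_def, map_mul, h, ← Algebra.smul_def]
    exact Submodule.smul_mem _ _ hx

universe u v

theorem exists_tensor (A : Type*) (B : Type u) (C : Type v) [CommRing A] [CommRing B] [CommRing C]
    [Algebra A B] [Algebra A C] : ∃ (D : Type (max u v)) (_ : CommRing D) (_ : Algebra B D)
      (φ : C →+* D), (∀ a, φ (algebraMap A C a) = algebraMap B D (algebraMap A B a)) ∧
      (∀ w, w ∈ Submodule.span B (Set.range φ)) ∧ (Module.Free A C → Module.Free B D) ∧
      (Module.Finite A C → Module.Finite B D) ∧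
      ∀ α : C →ₗ[A] A, ∃ α' : D →ₗ[B] B, ∀ c, α' (φ c) = algebraMap A B (α c) := by
  refine ⟨B ⊗[A] C, inferInstance, inferInstance,
    (Algebra.TensorProduct.includeRight (R := A) (A := B) (B := C)).toRingHom, fun a => ?_,
    fun w => ?_, fun _ => inferInstance, fun _ => inferInstance, fun α =>
      ⟨(AlgebraTensorModule.rid A B B).toLinearMap ∘ₗ α.baseChange B, fun c => ?_⟩⟩
  · rw [← IsScalarTower.algebraMap_apply]
    exact AlgHom.commutes _ a
  · induction w with
    | zero => simp
    | add x y hx hy => exact add_mem hx hy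
    | tmul b c =>
      have : b ⊗ₜ[A] c = b • (1 : B) ⊗ₜ[A] c := by simp [smul_tmul']
      rw [this]
      exact Submodule.smul_mem _ _ (Submodule.subset_span ⟨c, rfl⟩)
  · simp [Algebra.algebraMap_eq_smul_one]

end Vale.Agent.P202.Tf
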