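import Vale.Agent.P202.TransferA

/-! Job Transfer, tools: the abstract bound and descent of certificates. -/

open IsLocalRing

namespace Vale.Agent.P202.Tf

theorem map_mem_span_range {B0 C0 B C ι : Type*} [CommRing B0] [CommRing C0] [CommRing B]
    [CommRing C] [Algebra B0 C0] [Algebra B C] (f : B0 →+* B) (φ : C0 →+* C)
    (h : ∀ c, φ (algebraMap B0 C0 c) = algebraMap B C (f c)) {t : ι → C0} {w : C0}
    (hw : w ∈ Submodule.span B0 (Set.range t)) :
    φ w ∈ Submodule.span B (Set.range fun i => φ (t i)) := by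
  have := map_mem_span f φ h hw
  rwa [← Set.range_comp] at this

theorem abstract_bound {d : ℕ} {κ : Type} [Field κ] [Finite κ] {A R S : Type*} [CommRing A]
    [CommRing R] [CommRing S] [Algebra A R] [Algebra R S] [Algebra A S] [IsScalarTower A R S]
    (χ : A →+* PS d κ) (x : Fin d → A) (hχ : ∀ j, χ (x j) = MvPowerSeries.X j)
    {ι : Type*} [Fintype ι] (y : ι → R)
    (hgen : ∀ w, w ∈ Submodule.span A (insert 1 (Set.range y)))
    (hred : IsRed (Ideal.span (Set.range fun j => algebraMap A R (x j)))
      (Ideal.span (Set.range y)))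
    {e : ℕ} (α : Fin e → R →ₗ[A] A) (β : Fin e → R) (g : A) (hg : χ g ≠ 0)
    (hαβ : ∀ l l', α l (β l') = if l = l' then g else 0)
    [Module.Free R S] [Module.Finite R S] (γ : S →ₗ[R] R) (s : S) (hγ : γ s = 1)
    (z : Fin d → S) (a : ℕ) (hx : ∀ j, algebraMap A S (x j) ^ a ∈ Ideal.span (Set.range z))
    (hz : ∀ i, z i ^ a ∈ Ideal.span (Set.range fun j => algebraMap A S (x j)))
    (n L : ℕ) (ν : ℕ → S)
    (h1 : ∀ l < L, ∀ j, x j • ν l ∈ (Ideal.span (Set.range fun i => z i ^ n)).restrictScalars A ⊔
      Submodule.span A (Set.range fun k : Fin l => ν k))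
    (h2 : ∀ w, w ∈ (Ideal.span (Set.range fun i => z i ^ n)).restrictScalars A ⊔
      Submodule.span A (Set.range fun k : Fin L => ν k)) : e * n ^ d ≤ L := by
  rcases Nat.eq_zero_or_pos e with rfl | he
  · simp
  haveI := isDomain_PSL d κ
  letI := χ.toAlgebra
  obtain ⟨R', _, _, ρ, hρ, gR, -, -, lR⟩ := exists_tensor A (PS d κ) R
  letI := ρ.toAlgebra
  obtain ⟨S', _, _, σ, hσ, gS, fS, fS', lS⟩ := exists_tensor R R' S
  letI : Algebra (PS d κ) S' := ((algebraMap R' S').comp (algebraMap (PS d κ) R')).toAlgebra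
  haveI : IsScalarTower (PS d κ) R' S' := IsScalarTower.of_algebraMap_eq fun _ => rfl
  haveI := fS inferInstance
  haveI := fS' inferInstance
  have hσ' : ∀ c, σ (algebraMap A S c) = algebraMap (PS d κ) S' (χ c) := fun c => by
    rw [IsScalarTower.algebraMap_apply A R S, hσ]
    exact congrArg (algebraMap R' S') (hρ c)
  have hgen' : ∀ w, w ∈ Submodule.span (PS d κ) (insert 1 (Set.range fun i => ρ (y i))) :=
    fun w => by
      refine Submodule.span_le.mpr (Set.range_subset_iff.mpr fun r => ?_) (gR w)
      have := map_mem_span χ ρ hρ (hgen r)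
      rwa [Set.image_insert_eq, map_one, ← Set.range_comp] at this
  haveI : Module.Finite (PS d κ) R' := ⟨Submodule.fg_def.mpr
    ⟨_, (Set.finite_range _).insert 1, eq_top_iff.mpr fun w _ => hgen' w⟩⟩
  choose α' hα' using fun l => lR (α l)
  have hli : LinearIndependent (PS d κ) fun l => ρ (β l) := by
    rw [Fintype.linearIndependent_iff]
    intro c hc l
    have := congrArg (α' l) hc
    simp only [map_sum, map_smul, hα', hαβ, apply_ite (algebraMap A (PS d κ)), map_zero,
      smul_eq_mul, mul_ite, mul_zero, Finset.sum_ite_eq, Finset.mem_univ, if_true] at this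
    exact (mul_eq_zero.mp this).resolve_right hg
  have hrank : e ≤ Module.finrank (PS d κ) R' := by simpa using hli.fintype_card_le_finrank
  haveI : Nontrivial R' := Module.nontrivial_of_finrank_pos (he.trans_le hrank)
  haveI : Nontrivial S' := by
    obtain ⟨γ', hγ'⟩ := lS γ
    refine ⟨σ s, 0, fun h => ?_⟩
    have := hγ' s
    rw [h, hγ, map_zero, map_one] at this
    exact zero_ne_one this
  have hred' := hred.map_of_surjective ρ
  have hXR : (Ideal.span (Set.range fun j => algebraMap A R (x j))).map ρ =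
      (xI d κ).map (algebraMap (PS d κ) R') := by
    rw [Ideal.map_span, Ideal.map_span, ← Set.range_comp, ← Set.range_comp]
    exact congrArg (fun f => Ideal.span (Set.range f))
      (funext fun j => (hρ _).trans (congrArg _ (hχ j)))
  rw [hXR] at hred'
  obtain ⟨_, hm⟩ := isLocal_of_gens (P := PS d κ) (fun i => ρ (y i)) _
    (fun i => Ideal.mem_map_of_mem ρ (Ideal.subset_span (Set.mem_range_self i))) hgen'
    (by rwa [maximalIdeal_PS])
  obtain ⟨p, hp⟩ := CharP.exists κ
  haveI := Fact.mk (CharP.char_is_prime κ p)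
  letI : Algebra (ULift.{0} κ) κ := ULift.algebra' κ κ
  have h3 := coreFinP p (ULift.{0} κ) (fun c => ⟨⟨c⟩, rfl⟩) (hm ▸ hred') (fun i => σ (z i)) a
    (fun j => by
      have := map_mem_span_range σ σ (fun _ => rfl) (hx j)
      rwa [map_pow, hσ', hχ] at this)
    (fun i => by
      have := map_mem_span_range σ σ (fun _ => rfl) (hz i)
      simp only [map_pow, hσ', hχ] at this
      rwa [Ideal.map_span, ← Set.range_comp]) n
  have key : ∀ (l : ℕ) (w : S), w ∈ (Ideal.span (Set.range fun i => z i ^ n)).restrictScalars A ⊔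
      Submodule.span A (Set.range fun k : Fin l => ν k) →
      σ w ∈ (Ideal.span (Set.range fun i => σ (z i) ^ n)).restrictScalars (PS d κ) ⊔
        Submodule.span (PS d κ) (Set.range fun k : Fin l => σ (ν k)) := fun l w hw => by
    obtain ⟨u, hu, v, hv, rfl⟩ := Submodule.mem_sup.mp hw
    rw [map_add]
    refine Submodule.add_mem_sup ?_ (map_mem_span_range χ σ hσ' hv)
    have := map_mem_span_range σ σ (fun _ => rfl) hu
    simp only [map_pow] at this
    exact this
  have h4 := length_le_of_chain
    ((Ideal.span (Set.range fun i => σ (z i) ^ n)).restrictScalars (PS d κ)) (fun l => σ (ν l)) L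
    fun l hl c hc => by
      rw [maximalIdeal_PS] at hc
      refine Submodule.mem_comap.mp (Ideal.span_le (I := Submodule.comap
        (LinearMap.toSpanSingleton _ _ (σ (ν l))) _) |>.mpr
          (Set.range_subset_iff.mpr fun j => ?_) hc)
      have := key l _ (h1 l hl j)
      rwa [Algebra.smul_def, map_mul, hσ', hχ, ← Algebra.smul_def] at this
  have h5 : Subsingleton (S' ⧸
      ((Ideal.span (Set.range fun i => σ (z i) ^ n)).restrictScalars (PS d κ) ⊔
        Submodule.span (PS d κ) (Set.range fun k : Fin L => σ (ν k)))) := by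
    rw [Submodule.Quotient.subsingleton_iff, eq_top_iff]
    intro w _
    rw [← one_smul R' w]
    generalize (1 : R') = c
    induction gS w using Submodule.span_induction generalizing c with
    | zero => simp
    | add u v _ _ hu hv => rw [smul_add]; exact add_mem (hu trivial c) (hv trivial c)
    | smul b u _ hu => rw [smul_smul]; exact hu trivial _
    | mem u hu =>
      obtain ⟨u, rfl⟩ := hu
      induction gR c using Submodule.span_induction with
      | zero => simp
      | add b b' _ _ hb hb' => rw [add_smul]; exact add_mem hb hb'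
      | smul b b' _ hb => rw [smul_assoc]; exact Submodule.smul_mem _ _ hb
      | mem b hb =>
        obtain ⟨b, rfl⟩ := hb
        have := key L _ (h2 (algebraMap R S b * u))
        rwa [map_mul, hσ, ← Algebra.smul_def] at this
  rw [(Submodule.Quotient.restrictScalarsEquiv _ _).length_eq,
    Module.length_eq_zero (M := S' ⧸ (_ ⊔ _)), add_zero] at h4
  exact (Nat.mul_le_mul_right _ hrank).trans (by exact_mod_cast h3.trans h4)

/-- Linear combinations with restricted coefficients. -/
def Comb {B M ι : Type*} [CommRing B] [AddCommGroup M] [Module B M] [Fintype ι] (T : Set B)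
    (t : ι → M) (w : M) : Prop := ∃ c : ι → B, (∀ i, c i ∈ T) ∧ ∑ i, c i • t i = w

theorem ev_comb {J B M ι : Type*} [CommRing B] [AddCommGroup M] [Module B M] [Fintype ι]
    {F : Filter J} {T : J → Set B} (h : ∀ c, ∀ᶠ j in F, c ∈ T j) {t : ι → M} {w : M}
    (hw : w ∈ Submodule.span B (Set.range t)) : ∀ᶠ j in F, Comb (T j) t w := by
  obtain ⟨c, hc⟩ := (Submodule.mem_span_range_iff_exists_fun B).mp hw
  exact (Filter.eventually_all.mpr fun i => h (c i)).mono fun j hj => ⟨c, hj, hc⟩

theorem Comb.descend {B0 C0 B C ι : Type*} [CommRing B0] [CommRing C0] [CommRing B]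
    [CommRing C] [Algebra B0 C0] [Algebra B C] [Fintype ι] (f : B0 →+* B) (φ : C0 →+* C)
    (h : ∀ c, φ (algebraMap B0 C0 c) = algebraMap B C (f c)) (hφ : Function.Injective φ)
    {T : Set B} (hT : ∀ c ∈ T, ∃ c0, f c0 = c) {t : ι → C} {w : C} (hw : Comb T t w)
    {t0 : ι → C0} {w0 : C0} (ht : ∀ i, φ (t0 i) = t i) (hw0 : φ w0 = w) :
    w0 ∈ Submodule.span B0 (Set.range t0) := by
  obtain ⟨c, hc, rfl⟩ := hw
  choose c0 hc0 using fun i => hT _ (hc i)
  refine (Submodule.mem_span_range_iff_exists_fun B0).mpr ⟨c0, hφ ?_⟩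
  simp only [hw0, map_sum, Algebra.smul_def, map_mul, h, hc0, ht]

theorem adjoin_gen {B C ι : Type*} [CommRing B] [CommRing C] [Algebra B C] [Fintype ι]
    {s : Set C} (t : ι → Algebra.adjoin B s) (hs : s ⊆ Set.range fun i => (t i : C))
    (h1 : (1 : C) ∈ Submodule.span B (Set.range fun i => (t i : C)))
    (hm : ∀ i j, (t i * t j : C) ∈ Submodule.span B (Set.range fun i => (t i : C)))
    (w : Algebra.adjoin B s) : w ∈ Submodule.span B (Set.range t) := by
  have h2 : Algebra.adjoin B s ≤ (Submodule.span B (Set.range fun i => (t i : C))).toSubalgebra h1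
      fun u v hu hv => by
        have := Submodule.mul_mem_mul hu hv
        rw [Submodule.span_mul_span] at this
        refine Submodule.span_le.mpr ?_ this
        rintro _ ⟨_, ⟨i, rfl⟩, _, ⟨j, rfl⟩, rfl⟩
        exact hm i j :=
    Algebra.adjoin_le (hs.trans Submodule.subset_span)
  obtain ⟨c, hc⟩ := (Submodule.mem_span_range_iff_exists_fun B).mp (h2 w.2)
  exact Comb.descend (RingHom.id B) (Algebra.adjoin B s).val.toRingHom (fun _ => rfl)
    Subtype.val_injective (fun c _ => ⟨c, rfl⟩) ⟨c, fun _ => Set.mem_univ _, hc⟩ (fun _ => rfl) rfl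

theorem span_pow_eq {B ι : Type*} [CommRing B] (y : ι → B) (n : ℕ) :
    Ideal.span (Set.range y) ^ n =
      Ideal.span (Set.range fun f : Fin n → ι => ∏ k, y (f k)) := by
  have : Ideal.span (Set.range y) ^ n = ∏ _k : Fin n, Ideal.span (Set.range y) := by simp
  rw [this, Ideal.prod_span]
  congr 1
  ext w
  rw [Set.mem_fintype_prod]
  constructor
  · rintro ⟨g, hg, rfl⟩
    choose f hf using hg
    exact ⟨f, by simp [hf]⟩
  · rintro ⟨f, rfl⟩
    exact ⟨fun k => y (f k), fun k => ⟨f k, rfl⟩, rfl⟩

theorem span_mul_eq {B ι κ : Type*} [CommRing B] (x : κ → B) (y : ι → B) :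
    Ideal.span (Set.range x) * Ideal.span (Set.range y) =
      Ideal.span (Set.range fun p : κ × ι => x p.1 * y p.2) := by
  rw [Ideal.span_mul_span']
  congr 1
  exact Set.image2_range _ x y

end Vale.Agent.P202.Tf
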