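import Vale.Agent.P202.TransferB

/-! Job Transfer, tools: descent to a subring of coefficients. -/

open IsLocalRing

namespace Vale.Agent.P202.Tf

/-- A family generating an algebra as a module. -/
def Gen (B : Type*) {C ι : Type*} [CommRing B] [CommRing C] [Algebra B C] (t : ι → C) : Prop :=
  ∀ w, w ∈ Submodule.span B (Set.range t)

theorem adjoin_Gen {B C ι : Type*} [CommRing B] [CommRing C] [Algebra B C] [Fintype ι]
    {s : Set C} (t : ι → Algebra.adjoin B s) (hs : s ⊆ Set.range fun i => (t i : C))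
    (h1 : (1 : C) ∈ Submodule.span B (Set.range fun i => (t i : C)))
    (hm : ∀ i j, (t i * t j : C) ∈ Submodule.span B (Set.range fun i => (t i : C))) : Gen B t :=
  adjoin_gen t hs h1 hm

theorem mem_of_gens {A R S ι κ : Type*} [CommRing A] [CommRing R] [CommRing S] [Algebra A R]
    [Algebra R S] [Algebra A S] [IsScalarTower A R S] (U : Submodule A S) {t : ι → R} {b : κ → S}
    (gR : Gen A t) (gS : Gen R b) (h : ∀ o k, t o • b k ∈ U) (w : S) : w ∈ U := by
  rw [← one_smul R w]
  generalize (1 : R) = r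
  induction gS w using Submodule.span_induction generalizing r with
  | zero => simp
  | add u v _ _ hu hv => rw [smul_add]; exact add_mem (hu r) (hv r)
  | smul r' u _ hu => rw [smul_smul]; exact hu _
  | mem u hu =>
    obtain ⟨k, rfl⟩ := hu
    induction gR r using Submodule.span_induction with
    | zero => simp
    | add r r' _ _ hb hb' => rw [add_smul]; exact add_mem hb hb'
    | smul r r' _ hb => rw [smul_assoc]; exact Submodule.smul_mem _ _ hb
    | mem r hb =>
      obtain ⟨o, rfl⟩ := hb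
      exact h o k

section descent
variable {P R S ι κ' : Type*} [CommRing P] [CommRing R] [CommRing S] [Algebra P R] [Algebra R S]
  [Algebra P S] [IsScalarTower P R S] [Fintype ι] [Fintype κ'] (y : ι → R)
  (b : Module.Basis κ' R S) (A : Subring P)

/-- The model of `R` over the subring `A`. -/
abbrev RA : Subalgebra A R := Algebra.adjoin A (Set.range y)

/-- The model of `S` over the subring `A`. -/
abbrev SA : Subalgebra (RA y A) S := Algebra.adjoin (RA y A) (Set.range b)

/-- Certificate for membership in a sum of an ideal and a submodule. -/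
def QQ {d l : ℕ} (z : Fin d → S) (ν : Fin l → S) (w : S) : Prop :=
  ∃ u ∈ SA y b A, ∃ v ∈ SA y b A,
    Comb (SA y b A : Set S) z u ∧ Comb (A : Set P) ν v ∧ u + v = w

omit [Fintype ι] in
theorem tA (o : Option ι) : o.elim 1 y ∈ RA y A := by
  cases o with
  | none => exact one_mem _
  | some i => exact Algebra.subset_adjoin ⟨i, rfl⟩

variable {A} in
theorem dP {μ : Type*} [Fintype μ] {u : μ → R} {w : R} (h : Comb (A : Set P) u w) :
    w ∈ Submodule.span A (Set.range u) :=
  h.descend A.subtype (RingHom.id R) (fun _ => rfl) Function.injective_id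
    (fun c hc => ⟨⟨c, hc⟩, rfl⟩) (fun _ => rfl) rfl

omit [Fintype ι] [Algebra P S] [IsScalarTower P R S] in
variable {y b A} in
theorem dR {w : S} (h : Comb (RA y A : Set R) b w) : w ∈ Submodule.span (RA y A) (Set.range b) :=
  h.descend (RA y A).val.toRingHom (RingHom.id S) (fun _ => rfl) Function.injective_id
    (fun c hc => ⟨⟨c, hc⟩, rfl⟩) (fun _ => rfl) rfl

theorem dSub {B C μ : Type*} [CommRing B] [CommRing C] [Algebra B C] [Fintype μ]
    {D : Subalgebra B C} {u : μ → C} {w : C} {u0 : μ → D} {w0 : D} (h : Comb (D : Set C) u w) :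
    (∀ i, (u0 i : C) = u i) → (w0 : C) = w → w0 ∈ Ideal.span (Set.range u0) :=
  h.descend (B0 := D) (C0 := D) D.val.toRingHom D.val.toRingHom
    (fun _ => rfl) Subtype.val_injective fun c hc => ⟨⟨c, hc⟩, rfl⟩

omit [Fintype ι] [Fintype κ'] in
variable {y b A} in
theorem QQ.descend {d l : ℕ} {z : Fin d → S} {ν : Fin l → S} {z0 : Fin d → SA y b A}
    {ν0 : Fin l → SA y b A} {w0 : SA y b A} (h : QQ y b A z ν w0) (hz : ∀ i, (z0 i : S) = z i)
    (hν : ∀ i, (ν0 i : S) = ν i) : w0 ∈ (Ideal.span (Set.range z0)).restrictScalars A ⊔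
      Submodule.span A (Set.range ν0) := by
  obtain ⟨u, hu, v, hv, h1, h2, h3⟩ := h
  rw [show w0 = ⟨u, hu⟩ + ⟨v, hv⟩ from Subtype.ext h3.symm]
  exact Submodule.add_mem_sup (dSub h1 hz rfl)
    (h2.descend (C0 := SA y b A) A.subtype (SA y b A).val.toRingHom
      (fun _ => rfl) Subtype.val_injective
      (fun c hc => ⟨⟨c, hc⟩, rfl⟩) hν rfl)

theorem descend_bound {d : ℕ} {κ : Type} [Field κ] [Finite κ] (x : Fin d → P) (hX : ∀ j, x j ∈ A)
    (χ : A →+* PS d κ) (hχ : ∀ j, χ ⟨x j, hX j⟩ = MvPowerSeries.X j) (k₀ : κ') {e : ℕ}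
    (G : R →ₗ[P] Fin e → P) (β : Fin e → R) (g : A) (hg : χ g ≠ 0)
    (hβ : ∀ l, G (β l) = (g : P) • Pi.single l 1) (z : Fin d → S) (a c n L : ℕ) (ν : ℕ → S)
    (e1 : ∀ o o' : Option ι, Comb (A : Set P) (fun o : Option ι => o.elim 1 y)
      (o.elim 1 y * o'.elim 1 y))
    (e2 : Comb (RA y A : Set R) b 1) (e3 : ∀ k k', Comb (RA y A : Set R) b (b k * b k'))
    (e4 : ∀ j, Comb (RA y A : Set R) y (algebraMap P R (x j)))
    (e5 : ∀ f : Fin (c + 1) → ι, Comb (RA y A : Set R)
      (fun p : Fin d × (Fin c → ι) => algebraMap P R (x p.1) * ∏ k, y (p.2 k)) (∏ k, y (f k)))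
    (e6 : ∀ l (o : Option ι), G (o.elim 1 y) l ∈ A) (e7 : ∀ l, β l ∈ RA y A)
    (e8 : ∀ i, z i ∈ SA y b A) (e9 : ∀ l : Fin L, ν l ∈ SA y b A)
    (e10 : ∀ j, Comb (SA y b A : Set S) z (algebraMap P S (x j) ^ a))
    (e11 : ∀ i, Comb (SA y b A : Set S) (fun j => algebraMap P S (x j)) (z i ^ a))
    (e12 : ∀ (l : Fin L) j, QQ y b A (fun i => z i ^ n) (fun k : Fin l => ν k) (x j • ν l))
    (e13 : ∀ (o : Option ι) k, QQ y b A (fun i => z i ^ n) (fun k : Fin L => ν k)
      (o.elim 1 y • b k)) : e * n ^ d ≤ L := by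
  classical
  let t0 : Option ι → RA y A := fun o => ⟨_, tA y A o⟩
  let b0 : κ' → SA y b A := fun k => ⟨b k, Algebra.subset_adjoin ⟨k, rfl⟩⟩
  have gR : Gen A t0 := adjoin_Gen t0
    (by rintro _ ⟨i, rfl⟩; exact ⟨some i, rfl⟩) (Submodule.subset_span ⟨none, rfl⟩)
    fun o o' => dP (e1 o o')
  have gS : ∀ w, w ∈ Submodule.span (RA y A) (Set.range b0) :=
    adjoin_gen b0 subset_rfl (dR e2) fun k k' => dR (e3 k k')
  let B0 : Module.Basis _ (RA y A) (SA y b A) := Module.Basis.mk (v := b0)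
    (LinearIndependent.of_comp (SA y b A).val.toLinearMap
      (b.linearIndependent.restrict_scalars' (RA y A))) fun w _ => gS w
  haveI := Module.Free.of_basis B0
  haveI := Module.Finite.of_basis B0
  have hGA : ∀ l (w : RA y A), G w l ∈ A := fun l w => by
    induction gR w using Submodule.span_induction with
    | mem _ h => obtain ⟨o, rfl⟩ := h; exact e6 l o
    | zero => simp
    | add u v _ _ hu hv => simpa using add_mem hu hv
    | smul c u _ hu => exact (congrFun (G.map_smul (c : P) u) l).symm ▸ A.mul_mem c.2 hu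
  let α : _ → RA y A →ₗ[A] A := fun l =>
    { toFun := fun w => ⟨G w l, hGA l w⟩
      map_add' := fun u v => Subtype.ext (by simp)
      map_smul' := fun c u => Subtype.ext (congrFun (G.map_smul (c : P) u) l) }
  let ν0 : ℕ → SA y b A := fun l => if h : ν l ∈ SA y b A then ⟨ν l, h⟩ else 0
  have hν0 : ∀ l < L, (ν0 l : S) = ν l := fun l hl => by
    simp only [ν0, dif_pos (show ν l ∈ SA y b A from e9 ⟨l, hl⟩)]
  have hxS : ∀ j, (algebraMap A (SA y b A) ⟨x j, hX j⟩ : S) = algebraMap P S (x j) := fun j => rfl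
  refine abstract_bound (R := RA y A) (S := SA y b A) χ (fun j => ⟨_, hX j⟩) hχ
    (fun i => t0 (some i)) (fun w => ?_) ⟨?_, c, ?_⟩ α (fun l => ⟨β l, e7 l⟩) g hg
    (fun l l' => ?_) (B0.coord k₀) (B0 k₀) ?_ (fun i => ⟨z i, e8 i⟩) a
    (fun j => ?_) (fun i => ?_) n L ν0 (fun l hl j => ?_) fun w => ?_
  · have := gR w
    rwa [Option.range_eq] at this
  · exact Ideal.span_le.mpr (Set.range_subset_iff.mpr fun j => dSub (e4 j) (fun _ => rfl) rfl)
  · rw [span_pow_eq, span_pow_eq, span_mul_eq]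
    refine Ideal.span_le.mpr (Set.range_subset_iff.mpr fun f => dSub (e5 f) (fun _ => ?_) ?_)
    · exact congrArg _ (SubmonoidClass.coe_finset_prod _ _)
    · exact SubmonoidClass.coe_finset_prod _ _
  · refine Subtype.ext ((congrFun (hβ l') l).trans ?_)
    by_cases h : l = l' <;> simp [h]
  · simp
  · exact dSub (e10 j) (fun _ => rfl) rfl
  · exact dSub (e11 i) hxS rfl
  · refine QQ.descend (z := fun i => z i ^ n) (ν := fun k : Fin l => ν k) ?_ (fun _ => rfl)
      fun k => hν0 k (k.2.trans hl)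
    have := e12 ⟨l, hl⟩ j
    rw [← hν0 l hl] at this
    exact this
  · refine mem_of_gens _ gR (adjoin_Gen b0 subset_rfl (dR e2) fun k k' => dR (e3 k k'))
      (fun o k => ?_) w
    exact QQ.descend (e13 o k) (fun _ => rfl) fun k => hν0 k k.2

end descent

end Vale.Agent.P202.Tf
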